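import Mathlib

/-! Klein's inequality for a positive trace on a commutant, and upper bounds for the
Fuglede–Kadison determinant of products. -/

set_option autoImplicit false
set_option maxHeartbeats 400000

namespace Crest.Agent.R177.DetAux

open Finset

/-- A positive functional which is a trace on the commutant of a self-adjoint set. -/
structure Tr (A : Type*) [CStarAlgebra A] [PartialOrder A] [StarOrderedRing A] where
  R : Set A
  star_R : ∀ r ∈ R, star r ∈ R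
  τ : A →ₗ[ℝ] ℝ
  pos : ∀ x, 0 ≤ x → 0 ≤ τ x
  tr : ∀ x y, (∀ r ∈ R, Commute x r) → (∀ r ∈ R, Commute y r) → τ (x * y) = τ (y * x)
  τ_star : ∀ x, τ (star x) = τ x

variable {A : Type*} [CStarAlgebra A] [PartialOrder A] [StarOrderedRing A] (t : Tr A)

/-- the commutant -/
def Tr.Mem (x : A) : Prop := ∀ r ∈ t.R, Commute x r

namespace Tr

variable {t}

theorem Mem.mul {x y : A} (hx : t.Mem x) (hy : t.Mem y) : t.Mem (x * y) :=
  fun r hr => (hx r hr).mul_left (hy r hr)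

theorem Mem.add {x y : A} (hx : t.Mem x) (hy : t.Mem y) : t.Mem (x + y) :=
  fun r hr => (hx r hr).add_left (hy r hr)

theorem Mem.sub {x y : A} (hx : t.Mem x) (hy : t.Mem y) : t.Mem (x - y) :=
  fun r hr => (hx r hr).sub_left (hy r hr)

theorem Mem.smul {x : A} (hx : t.Mem x) (c : ℝ) : t.Mem (c • x) :=
  fun r hr => (hx r hr).smul_left c

theorem mem_one : t.Mem 1 := fun r _ => Commute.one_left r

theorem Mem.pow {x : A} (hx : t.Mem x) (k : ℕ) : t.Mem (x ^ k) :=
  fun r hr => (hx r hr).pow_left k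

theorem Mem.star {x : A} (hx : t.Mem x) : t.Mem (star x) := by
  intro r hr
  have := (hx _ (t.star_R r hr)).star_star
  rwa [star_star] at this

theorem Mem.cfc {x : A} (hx : t.Mem x) (f : ℝ → ℝ) : t.Mem (cfc f x) :=
  fun r hr => (hx r hr).cfc_real f

theorem Mem.inv {x : Aˣ} (hx : t.Mem x) : t.Mem (↑x⁻¹ : A) :=
  fun r hr => (hx r hr).units_inv_left

theorem mono {x y : A} (h : x ≤ y) : t.τ x ≤ t.τ y := by
  have := t.pos _ (sub_nonneg.2 h)
  rw [map_sub] at this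
  linarith

theorem cfc_mul_nonneg {b q : A} (hb : t.Mem b) (hq : t.Mem q) (hq0 : 0 ≤ q) {φ : ℝ → ℝ}
    (hφ : ContinuousOn φ (spectrum ℝ b)) (hφ0 : ∀ x ∈ spectrum ℝ b, 0 ≤ φ x) :
    0 ≤ t.τ (cfc φ b * q) := by
  have hc : ContinuousOn (fun x => Real.sqrt (φ x)) (spectrum ℝ b) := hφ.sqrt
  have e : cfc φ b = cfc (fun x => Real.sqrt (φ x)) b * cfc (fun x => Real.sqrt (φ x)) b := by
    rw [← cfc_mul _ _ b hc hc]
    exact cfc_congr fun x hx => (Real.mul_self_sqrt (hφ0 x hx)).symm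
  have hs : IsSelfAdjoint (cfc (fun x => Real.sqrt (φ x)) b) := cfc_predicate _ _
  rw [e, mul_assoc, t.tr _ _ (hb.cfc _) ((hb.cfc _).mul hq)]
  exact t.pos _ (hs.conjugate_nonneg hq0)

theorem cfc_mul_mono {b q q' : A} (hb : t.Mem b) (hq : t.Mem q) (hq' : t.Mem q') (h : q ≤ q')
    {φ : ℝ → ℝ} (hφ : ContinuousOn φ (spectrum ℝ b)) (hφ0 : ∀ x ∈ spectrum ℝ b, 0 ≤ φ x) :
    t.τ (cfc φ b * q) ≤ t.τ (cfc φ b * q') := by
  have := cfc_mul_nonneg hb (hq'.sub hq) (sub_nonneg.2 h) hφ hφ0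
  rw [mul_sub, map_sub] at this
  linarith

theorem cfc_mono_mul {b q : A} (hb : t.Mem b) (hq : t.Mem q) (hq0 : 0 ≤ q) {φ ψ : ℝ → ℝ}
    (hφ : ContinuousOn φ (spectrum ℝ b)) (hψ : ContinuousOn ψ (spectrum ℝ b))
    (h : ∀ x ∈ spectrum ℝ b, φ x ≤ ψ x) : t.τ (cfc φ b * q) ≤ t.τ (cfc ψ b * q) := by
  have := cfc_mul_nonneg hb hq hq0 (hψ.sub hφ) (fun x hx => sub_nonneg.2 (h x hx))
  rw [show (ψ - φ) = fun x => ψ x - φ x from rfl, cfc_sub _ _ b hψ hφ, sub_mul, map_sub] at this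
  linarith

theorem log_le {a : A} (ha : IsSelfAdjoint a) (hsp : ∀ x ∈ spectrum ℝ a, 0 < x) {c : ℝ}
    (hc : 0 < c) : cfc Real.log a ≤ (Real.log c - 1) • (1 : A) + c⁻¹ • a := by
  have hl : ContinuousOn Real.log (spectrum ℝ a) :=
    Real.continuousOn_log.mono fun x hx => (hsp x hx).ne'
  have e : (Real.log c - 1) • (1 : A) + c⁻¹ • a = cfc (fun x => (Real.log c - 1) + c⁻¹ * x) a := by
    rw [cfc_const_add _ _ a, cfc_const_mul_id _ a, Algebra.algebraMap_eq_smul_one]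
  rw [e]
  refine cfc_mono (fun x hx => ?_) hl
  have h := Real.log_le_sub_one_of_pos (div_pos (hsp x hx) hc)
  rw [Real.log_div (hsp x hx).ne' hc.ne', div_eq_inv_mul] at h
  linarith

theorem klein_eps {a b : A} (ha : t.Mem a) (hb : t.Mem b) (ha0 : 0 ≤ a) (hb0 : 0 ≤ b)
    (hsa : ∀ x ∈ spectrum ℝ a, 0 < x) (hsb : ∀ x ∈ spectrum ℝ b, 0 < x) {ε : ℝ} (hε : 0 < ε) :
    t.τ (cfc Real.log a) ≤ t.τ (cfc Real.log b) + ε * t.τ 1 - t.τ 1 +
      (1 + ε) * t.τ (cfc (fun x : ℝ => x⁻¹) b * a) := by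
  classical
  have hbs : IsSelfAdjoint b := IsSelfAdjoint.of_nonneg hb0
  have has : IsSelfAdjoint a := IsSelfAdjoint.of_nonneg ha0
  have hK : IsCompact (spectrum ℝ b) := spectrum.isCompact b
  let U : spectrum ℝ b → Set ℝ := fun c => Set.Ioo (c.1 / (1 + ε)) (c.1 * (1 + ε))
  obtain ⟨s, hs⟩ := hK.elim_finite_subcover U (fun c => isOpen_Ioo) (by
    intro x hx
    have hx0 := hsb x hx
    refine Set.mem_iUnion.2 ⟨⟨x, hx⟩, ?_, ?_⟩
    · show x / (1 + ε) < x
      rw [div_lt_iff₀ (by linarith)]; nlinarith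
    · show x < x * (1 + ε)
      nlinarith)
  obtain ⟨f, hf⟩ := PartitionOfUnity.exists_isSubordinate hK.isClosed (fun i : s => U i.1)
    (fun c => isOpen_Ioo) (by
      intro x hx
      obtain ⟨c, hc⟩ := Set.mem_iUnion.1 (hs hx)
      obtain ⟨hc1, hc2⟩ := Set.mem_iUnion.1 hc
      exact Set.mem_iUnion.2 ⟨⟨c, hc1⟩, hc2⟩)
  have hsum : ∀ x ∈ spectrum ℝ b, ∑ i, f i x = 1 := fun x hx => by
    rw [← finsum_eq_sum_of_fintype]; exact f.sum_eq_one hx
  have hsupp : ∀ i x, f i x ≠ 0 → x ∈ U i.1 := fun i x h => hf i (subset_tsupport _ h)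
  have hc0 : ∀ i : s, 0 < i.1.1 := fun i => hsb _ i.1.2
  have hfc : ∀ i, ContinuousOn (f i) (spectrum ℝ b) := fun i => (f i).continuous.continuousOn
  have hone : ∑ i, cfc (f i) b = 1 := by
    rw [← cfc_sum_univ (fun i => (f i : ℝ → ℝ)) b hfc, ← cfc_one (R := ℝ) b]
    refine cfc_congr fun x hx => ?_
    rw [Finset.sum_apply]
    exact hsum x hx
  have hlb : ContinuousOn Real.log (spectrum ℝ b) :=
    Real.continuousOn_log.mono fun x hx => (hsb x hx).ne'
  have hib : ContinuousOn (fun x : ℝ => x⁻¹) (spectrum ℝ b) :=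
    continuousOn_inv₀.mono fun x hx => (hsb x hx).ne'
  have h1 : t.τ (cfc Real.log a) ≤
      ∑ i : s, t.τ (cfc (f i) b * ((Real.log i.1.1 - 1) • (1 : A) + (i.1.1)⁻¹ • a)) := by
    calc t.τ (cfc Real.log a) = ∑ i : s, t.τ (cfc (f i) b * cfc Real.log a) := by
          rw [← map_sum, ← sum_mul, hone, one_mul]
      _ ≤ _ := sum_le_sum fun i _ => cfc_mul_mono hb (ha.cfc _)
          ((mem_one.smul _).add (ha.smul _)) (log_le has hsa (hc0 i)) (hfc i)
          (fun x _ => f.nonneg i x)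
  have h2 : ∑ i : s, t.τ (cfc (f i) b * ((Real.log i.1.1 - 1) • (1 : A) + (i.1.1)⁻¹ • a)) =
      t.τ (cfc (fun x => ∑ i : s, (Real.log i.1.1 - 1) * f i x) b * 1) +
      t.τ (cfc (fun x => ∑ i : s, (i.1.1)⁻¹ * f i x) b * a) := by
    have e : ∀ c : s → ℝ, cfc (fun x => ∑ i : s, c i * f i x) b = ∑ i, c i • cfc (f i) b := by
      intro c
      have : (fun x => ∑ i : s, c i * f i x) = ∑ i : s, fun x => c i * f i x := by
        funext x; rw [Finset.sum_apply]
      rw [this, cfc_sum_univ (fun (i : s) x => c i * f i x) b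
        (fun i => continuousOn_const.mul (hfc i))]
      exact sum_congr rfl fun i _ => cfc_const_mul _ _ b (hfc i)
    rw [e, e, sum_mul, sum_mul, map_sum, map_sum, ← sum_add_distrib]
    refine sum_congr rfl fun i _ => ?_
    rw [← map_add, mul_add, mul_smul_comm, mul_smul_comm, smul_mul_assoc, smul_mul_assoc]
  have hcs : ∀ c : s → ℝ, ContinuousOn (fun x => ∑ i : s, c i * f i x) (spectrum ℝ b) :=
    fun c => continuousOn_finsetSum _ fun i _ => continuousOn_const.mul (hfc i)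
  have h3 : t.τ (cfc (fun x => ∑ i : s, (Real.log i.1.1 - 1) * f i x) b * 1) ≤
      t.τ (cfc (fun x => (ε - 1) + Real.log x) b * 1) := by
    refine cfc_mono_mul hb mem_one zero_le_one (hcs _) (continuousOn_const.add hlb) ?_
    intro x hx
    have hx0 := hsb x hx
    calc ∑ i : s, (Real.log i.1.1 - 1) * f i x ≤ ∑ i : s, ((ε - 1) + Real.log x) * f i x := by
          refine sum_le_sum fun i _ => ?_
          by_cases h0 : f i x = 0
          · rw [h0, mul_zero, mul_zero]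
          refine mul_le_mul_of_nonneg_right ?_ (f.nonneg i x)
          have hU : i.1.1 / (1 + ε) < x := (hsupp i x h0).1
          rw [div_lt_iff₀ (by linarith)] at hU
          have h4 := Real.log_le_log (hc0 i) hU.le
          rw [Real.log_mul hx0.ne' (by linarith)] at h4
          have h5 := Real.log_le_sub_one_of_pos (by linarith : 0 < 1 + ε)
          linarith
      _ = _ := by rw [← mul_sum, hsum x hx, mul_one]
  have h4 : t.τ (cfc (fun x => ∑ i : s, (i.1.1)⁻¹ * f i x) b * a) ≤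
      t.τ (cfc (fun x => (1 + ε) * x⁻¹) b * a) := by
    refine cfc_mono_mul hb ha ha0 (hcs _) (continuousOn_const.mul hib) ?_
    intro x hx
    have hx0 := hsb x hx
    calc ∑ i : s, (i.1.1)⁻¹ * f i x ≤ ∑ i : s, ((1 + ε) * x⁻¹) * f i x := by
          refine sum_le_sum fun i _ => ?_
          by_cases h0 : f i x = 0
          · rw [h0, mul_zero, mul_zero]
          refine mul_le_mul_of_nonneg_right ?_ (f.nonneg i x)
          have hU : x < i.1.1 * (1 + ε) := (hsupp i x h0).2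
          have := hc0 i
          rw [← div_eq_mul_inv, inv_eq_one_div, div_le_div_iff₀ this hx0]
          linarith
      _ = _ := by rw [← mul_sum, hsum x hx, mul_one]
  rw [mul_one, mul_one, cfc_const_add _ _ b hlb, map_add, Algebra.algebraMap_eq_smul_one, map_smul,
    smul_eq_mul] at h3
  rw [cfc_const_mul _ _ b hib, smul_mul_assoc, map_smul, smul_eq_mul] at h4
  rw [mul_one] at h2
  linarith

theorem klein {a b : A} (ha : t.Mem a) (hb : t.Mem b) (ha0 : 0 ≤ a) (hb0 : 0 ≤ b)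
    (hsa : ∀ x ∈ spectrum ℝ a, 0 < x) (hsb : ∀ x ∈ spectrum ℝ b, 0 < x) :
    t.τ (cfc Real.log a) ≤ t.τ (cfc Real.log b) - t.τ 1 +
      t.τ (cfc (fun x : ℝ => x⁻¹) b * a) := by
  set c := t.τ (cfc (fun x : ℝ => x⁻¹) b * a)
  refine le_of_forall_pos_le_add fun δ hδ => ?_
  have hK : 0 < |t.τ 1 + c| + 1 := by positivity
  have h := klein_eps ha hb ha0 hb0 hsa hsb (div_pos hδ hK)
  have h2 : δ / (|t.τ 1 + c| + 1) * (t.τ 1 + c) ≤ δ := by
    rw [div_mul_eq_mul_div, div_le_iff₀ hK]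
    exact mul_le_mul_of_nonneg_left (by linarith [le_abs_self (t.τ 1 + c)]) hδ.le
  linarith

variable (t) in
/-- twice the logarithm of the determinant -/
noncomputable def Φ (S : A) : ℝ := t.τ (cfc Real.log (star S * S))

theorem spec_pos {S : A} (hS : IsUnit S) : ∀ x ∈ spectrum ℝ (star S * S), 0 < x := by
  intro x hx
  have h1 : 0 ≤ x := spectrum_nonneg_of_nonneg (star_mul_self_nonneg S) hx
  refine lt_of_le_of_ne h1 ?_
  rintro rfl
  exact spectrum.zero_notMem ℝ (hS.star.mul hS) hx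

theorem step {u S : A} (hu : t.Mem u) (hS : t.Mem S) (hu' : IsUnit u) (hS' : IsUnit S) :
    t.Φ (u * S) ≤ t.Φ S + (t.τ (star u * u) - t.τ 1) := by
  have h := klein (t := t) ((hu.mul hS).star.mul (hu.mul hS)) (hS.star.mul hS)
    (star_mul_self_nonneg _) (star_mul_self_nonneg _) (spec_pos (hu'.mul hS')) (spec_pos hS')
  obtain ⟨S, rfl⟩ := hS'
  have e : cfc (fun x : ℝ => x⁻¹) (star (S : A) * S) = (↑S⁻¹ : A) * star (↑S⁻¹ : A) := by
    have := cfc_inv_id (R := ℝ) (star S * S) (by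
      show IsSelfAdjoint (star (S : A) * S)
      exact IsSelfAdjoint.star_mul_self _)
    rw [mul_inv_rev] at this
    exact this
  have e2 : (↑S⁻¹ : A) * star (↑S⁻¹ : A) * (star (u * S) * (u * S)) =
      (↑S⁻¹ : A) * (star u * u * S) := by
    have : star (↑S⁻¹ : A) * star (S : A) = 1 := by rw [← star_mul, Units.mul_inv, star_one]
    calc (↑S⁻¹ : A) * star (↑S⁻¹ : A) * (star (u * S) * (u * S))
        = (↑S⁻¹ : A) * ((star (↑S⁻¹ : A) * star (S : A)) * (star u * u * S)) := by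
          rw [star_mul]; simp only [mul_assoc]
      _ = _ := by rw [this, one_mul]
  rw [e, e2, t.tr _ _ hS.inv ((hu.star.mul hu).mul hS), mul_assoc, Units.mul_inv, mul_one] at h
  unfold Φ
  linarith

theorem iter {u S : A} (hu : t.Mem u) (hS : t.Mem S) (hu' : IsUnit u) (hS' : IsUnit S) (k : ℕ) :
    t.Φ (u ^ k * S) ≤ t.Φ S + k * (t.τ (star u * u) - t.τ 1) := by
  induction k with
  | zero => simp
  | succ k ih =>
    rw [pow_succ', mul_assoc]
    have := step hu ((hu.pow k).mul hS) hu' ((hu'.pow k).mul hS')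
    push_cast
    linarith

theorem le_of_div {x y C : ℝ} (k₀ : ℕ) (h : ∀ k : ℕ, k₀ < k → x ≤ y + C / k) : x ≤ y := by
  have h1 : Filter.Tendsto (fun k : ℕ => y + C / k) Filter.atTop (nhds (y + 0)) :=
    (tendsto_const_div_atTop_nhds_zero_nat C).const_add y
  rw [add_zero] at h1
  exact ge_of_tendsto h1 (Filter.eventually_atTop.2 ⟨k₀ + 1, fun k hk => h k (by omega)⟩)

theorem isUnit_nil {N : A} (hNN : N * N = 0) (c : ℝ) : IsUnit (1 + c • N) := by
  have h : ∀ c d : ℝ, (1 + c • N) * (1 + d • N) = 1 + (c + d) • N := by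
    intro c d
    rw [add_mul, mul_add, mul_add, smul_mul_smul_comm, hNN, smul_zero, add_smul]
    simp only [one_mul, mul_one, add_zero]
    abel
  exact ⟨⟨1 + c • N, 1 + (-c) • N, by rw [h]; simp, by rw [h]; simp⟩, rfl⟩

theorem nil {N S : A} (hN : t.Mem N) (hS : t.Mem S) (hS' : IsUnit S) (hNN : N * N = 0)
    (hτ : t.τ N = 0) : t.Φ ((1 + N) * S) ≤ t.Φ S := by
  refine le_of_div (C := t.τ (star N * N)) 0 fun k hk => ?_
  have hk' : (0 : ℝ) < k := by exact_mod_cast hk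
  have hp : ∀ (c : ℝ) (j : ℕ), (1 + c • N) ^ j = 1 + (j * c) • N := by
    intro c j
    induction j with
    | zero => simp
    | succ j ih =>
      rw [pow_succ, ih, add_mul, mul_add, mul_add, smul_mul_smul_comm, hNN, smul_zero]
      push_cast
      rw [add_mul, add_smul]
      simp only [one_mul, mul_one, add_zero]
      abel
  have h := iter (mem_one.add (hN.smul (k : ℝ)⁻¹)) hS (isUnit_nil hNN _) hS' k
  rw [hp, mul_inv_cancel₀ hk'.ne', one_smul] at h
  have e : t.τ (star (1 + (k : ℝ)⁻¹ • N) * (1 + (k : ℝ)⁻¹ • N)) =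
      t.τ 1 + (k : ℝ)⁻¹ * (k : ℝ)⁻¹ * t.τ (star N * N) := by
    rw [star_add, star_one, star_smul, star_trivial, add_mul, mul_add, mul_add,
      smul_mul_smul_comm]
    simp only [one_mul, mul_one, map_add, map_smul, t.τ_star, hτ, smul_eq_mul, mul_zero, add_zero,
      zero_add]
  rw [e] at h
  refine h.trans (le_of_eq ?_)
  field_simp
  ring

theorem proj_mul {P : A} (hPP : P * P = P) (c d : ℝ) :
    (1 + (c - 1) • P) * (1 + (d - 1) • P) = 1 + (c * d - 1) • P := by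
  rw [add_mul, mul_add, mul_add, smul_mul_smul_comm, hPP]
  simp only [one_mul, mul_one]
  rw [add_assoc, ← add_smul, ← add_smul]
  congr 2
  ring

theorem isUnit_proj {P : A} (hPP : P * P = P) {c : ℝ} (hc : c ≠ 0) :
    IsUnit (1 + (c - 1) • P) :=
  ⟨⟨1 + (c - 1) • P, 1 + (c⁻¹ - 1) • P, by rw [proj_mul hPP, mul_inv_cancel₀ hc]; simp,
    by rw [proj_mul hPP, inv_mul_cancel₀ hc]; simp⟩, rfl⟩

theorem proj {P S : A} (hP : t.Mem P) (hS : t.Mem S) (hS' : IsUnit S) (hPP : P * P = P)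
    (hPs : star P = P) {c : ℝ} (hc : 0 < c) :
    t.Φ ((1 + (c - 1) • P) * S) ≤ t.Φ S + 2 * Real.log c * t.τ P := by
  have hP0 : 0 ≤ t.τ P := by
    have := t.pos _ (star_mul_self_nonneg P)
    rwa [hPs, hPP] at this
  refine le_of_div (C := (2 * Real.log c) ^ 2 * t.τ P) ⌈|2 * Real.log c|⌉₊ fun k hk => ?_
  have hk' : (0 : ℝ) < k := by exact_mod_cast (by omega : 0 < k)
  have hk2 : |2 * Real.log c| ≤ k := (Nat.le_ceil _).trans (by exact_mod_cast hk.le)
  have hp : ∀ (c : ℝ) (j : ℕ), (1 + (c - 1) • P) ^ j = 1 + (c ^ j - 1) • P := by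
    intro c j
    induction j with
    | zero => simp
    | succ j ih => rw [pow_succ, ih, proj_mul hPP, pow_succ]
  set y := Real.log c / k with hy
  have h := iter (mem_one.add (hP.smul (Real.exp y - 1))) hS
    (isUnit_proj hPP (Real.exp_pos y).ne') hS' k
  rw [hp, ← Real.exp_nat_mul, hy, mul_div_cancel₀ _ hk'.ne', Real.exp_log hc, ← hy] at h
  have e : t.τ (star (1 + (Real.exp y - 1) • P) * (1 + (Real.exp y - 1) • P)) =
      t.τ 1 + (Real.exp (2 * y) - 1) * t.τ P := by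
    rw [star_add, star_one, star_smul, star_trivial, hPs, proj_mul hPP, ← Real.exp_add, map_add,
      map_smul, smul_eq_mul, two_mul]
  rw [e] at h
  have h2 : |2 * y| ≤ 1 := by
    rw [hy, ← mul_div_assoc, abs_div, abs_of_pos hk', div_le_one hk']
    exact hk2
  have h3 := (abs_le.1 (Real.abs_exp_sub_one_sub_id_le h2)).2
  refine h.trans ?_
  have h4 : (k : ℝ) * (t.τ 1 + (Real.exp (2 * y) - 1) * t.τ P - t.τ 1) ≤
      k * ((2 * y + (2 * y) ^ 2) * t.τ P) := by
    refine mul_le_mul_of_nonneg_left ?_ hk'.le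
    have := mul_le_mul_of_nonneg_right (by linarith : Real.exp (2 * y) - 1 ≤ 2 * y + (2 * y) ^ 2)
      hP0
    linarith
  have h5 : (k : ℝ) * ((2 * y + (2 * y) ^ 2) * t.τ P) =
      2 * Real.log c * t.τ P + (2 * Real.log c) ^ 2 * t.τ P / k := by
    rw [hy]; field_simp
  linarith

theorem Φ_one : t.Φ 1 = 0 := by
  unfold Φ
  rw [star_one, one_mul, cfc_apply_one, Real.log_one, map_zero, map_zero]

/-- the final estimate -/
theorem total {P P' N₁ N₂ T : A} (hP : t.Mem P) (hP' : t.Mem P') (hN₁ : t.Mem N₁)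
    (hN₂ : t.Mem N₂) (hPP : P * P = P) (hPs : star P = P) (hPP' : P' * P' = P')
    (hPs' : star P' = P') (h₁ : N₁ * N₁ = 0) (h₂ : N₂ * N₂ = 0) (hτ₁ : t.τ N₁ = 0)
    (hτ₂ : t.τ N₂ = 0) {p : ℝ} (hp : 1 < p) (hτ : t.τ P < t.τ P')
    (hT : (1 + (p - 1) • P') * T = (1 + N₁) * ((1 + N₂) * (1 + (p - 1) • P))) :
    t.Φ T < 0 := by
  have hp0 : 0 < p := by linarith
  have e : T = (1 + (p⁻¹ - 1) • P') * ((1 + N₁) * ((1 + N₂) * ((1 + (p - 1) • P) * 1))) := by
    rw [mul_one, ← hT, ← mul_assoc, proj_mul hPP', inv_mul_cancel₀ hp0.ne']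
    simp
  have u0 : IsUnit ((1 + (p - 1) • P) * 1) := (isUnit_proj hPP hp0.ne').mul isUnit_one
  have m0 : t.Mem ((1 + (p - 1) • P) * 1) := (mem_one.add (hP.smul _)).mul mem_one
  have u1 : IsUnit (1 + N₁) := by simpa using isUnit_nil h₁ 1
  have u2 : IsUnit (1 + N₂) := by simpa using isUnit_nil h₂ 1
  have k0 := proj hP mem_one isUnit_one hPP hPs hp0
  have k2 := nil hN₂ m0 u0 h₂ hτ₂
  have k1 := nil hN₁ ((mem_one.add hN₂).mul m0) (u2.mul u0) h₁ hτ₁
  have k3 := proj hP' ((mem_one.add hN₁).mul ((mem_one.add hN₂).mul m0)) (u1.mul (u2.mul u0))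
    hPP' hPs' (inv_pos.2 hp0)
  rw [← e, Real.log_inv] at k3
  rw [Φ_one] at k0
  have hl := Real.log_pos hp
  nlinarith

end Tr

end Crest.Agent.R177.DetAux
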