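import Crest.Agent.R177.Defs

/-!
The basic identity: summing an "anti-invariant" function over the fibre product of two components.
-/

set_option autoImplicit false

namespace Crest.Agent.R177

open Finset

open Classical in
/-- The colours at a vertex. -/
noncomputable def cols {Hf V P : Type} [Fintype P] (S : HS Hf V P) (u : V) : Finset P :=
  univ.filter (fun c => ∃ h, S.vert h = u ∧ S.col h = c)

open Classical in
theorem sum_com {Hf V P X M : Type} [Fintype Hf] [Fintype V] [Fintype P] [AddCommGroup M]
    (S : HS Hf V P) {σ : P → P} {cmp : V → X} {τ : Hf → Hf} (hτ : IsMatch S σ cmp τ) (A B : X)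
    (f : V → V → M)
    (hf : ∀ h k, cmp (S.vert h) = A → cmp (S.vert k) = B → S.col h = S.col k →
      f (S.vert (τ h)) (S.vert (τ k)) = - f (S.vert h) (S.vert k)) :
    ∑ u ∈ univ.filter (fun u => cmp u = A), ∑ v ∈ univ.filter (fun v => cmp v = B),
      (cols S u ∩ cols S v).card • f u v = 0 := by
  let T : Finset (Hf × Hf) := univ.filter (fun y => cmp (S.vert y.1) = A ∧ cmp (S.vert y.2) = B ∧
    S.col y.1 = S.col y.2)
  have h0 : ∑ y ∈ T, f (S.vert y.1) (S.vert y.2) = 0 := by
    refine Finset.sum_involution (fun y _ => (τ y.1, τ y.2)) ?_ ?_ ?_ ?_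
    · intro y hy
      simp only [T, mem_filter, mem_univ, true_and] at hy
      rw [hf y.1 y.2 hy.1 hy.2.1 hy.2.2, add_neg_cancel]
    · intro y _ _ h
      exact hτ.ne y.1 (congrArg Prod.fst h)
    · intro y hy
      simp only [T, mem_filter, mem_univ, true_and] at hy ⊢
      rw [hτ.cmp, hτ.cmp, hτ.col, hτ.col, hy.2.2]
      exact ⟨hy.1, hy.2.1, rfl⟩
    · intro y _
      simp [hτ.invol]
  rw [← h0, ← Finset.sum_product',
    ← Finset.sum_fiberwise_of_maps_to (s := T)
      (t := univ.filter (fun u => cmp u = A) ×ˢ univ.filter (fun v => cmp v = B))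
      (g := fun y => (S.vert y.1, S.vert y.2))]
  · refine Finset.sum_congr rfl fun w hw => ?_
    rw [Finset.sum_congr rfl (g := fun _ => f w.1 w.2), Finset.sum_const]
    · congr 1
      symm
      refine Finset.card_bij (fun y _ => S.col y.1) ?_ ?_ ?_
      · intro y hy
        simp only [T, mem_filter, mem_univ, true_and] at hy
        obtain ⟨⟨_, _, h3⟩, h4⟩ := hy
        simp only [cols, mem_inter, mem_filter, mem_univ, true_and]
        exact ⟨⟨y.1, congrArg Prod.fst h4, rfl⟩, ⟨y.2, congrArg Prod.snd h4, h3.symm⟩⟩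
      · intro y hy y' hy' h
        simp only [T, mem_filter, mem_univ, true_and] at hy hy'
        obtain ⟨⟨_, _, h3⟩, h4⟩ := hy
        obtain ⟨⟨_, _, h3'⟩, h4'⟩ := hy'
        have e := h4.trans h4'.symm
        exact Prod.ext (S.fold _ _ (congrArg Prod.fst e) h)
          (S.fold _ _ (congrArg Prod.snd e) (by rw [← h3, ← h3', h]))
      · intro c hc
        simp only [cols, mem_inter, mem_filter, mem_univ, true_and] at hc
        obtain ⟨⟨h, h1, h2⟩, ⟨k, k1, k2⟩⟩ := hc
        simp only [mem_product, mem_filter, mem_univ, true_and] at hw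
        refine ⟨(h, k), ?_, h2⟩
        simp only [T, mem_filter, mem_univ, true_and]
        exact ⟨⟨h1 ▸ hw.1, k1 ▸ hw.2, h2.trans k2.symm⟩, Prod.ext h1 k1⟩
    · intro y hy
      simp only [mem_filter] at hy
      rw [← hy.2]
  · intro y hy
    simp only [T, mem_filter, mem_univ, true_and] at hy
    simp only [mem_product, mem_filter, mem_univ, true_and]
    exact ⟨hy.1, hy.2.1⟩

end Crest.Agent.R177
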