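import Mathlib

/-!
Rows 177, 184, 199 (zero divisors, direct finiteness, determinant conjecture, non residually finite
hyperbolic group): shared definitions.

Overview.  `P` = half-colours with an involution `σ`; a finite graph has half-edges `Hf`, each with a
vertex `vert h` and a colour `col h` (folded: a vertex has at most one half-edge of each colour); the
edges are given by a fixed-point-free involution `τ` of `Hf` with `col (τ h) = σ (col h)`.
The group `Grp S σ τ` has generators `x_c`, `y_u` and relations `x_c x_{σ c} = 1`,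
`y_{vert h} x_{col h} = y_{vert (τ h)}`.  The vertices are typed by lines of a projective plane, `τ` is
random of large girth.  `IsoP` is the linear isoperimetric inequality for reduced planar systems.
-/

set_option autoImplicit false

namespace Crest.Agent.R177

open Finset

/-- A folded system of coloured half-edges. -/
structure HS (Hf V P : Type) where
  vert : Hf → V
  col : Hf → P
  fold : ∀ h h', vert h = vert h' → col h = col h' → h = h'

/-- `τ` is a perfect matching of the half-edges, compatible with colours and components. -/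
structure IsMatch {Hf V P X : Type} (S : HS Hf V P) (σ : P → P) (cmp : V → X) (τ : Hf → Hf) :
    Prop where
  invol : ∀ h, τ (τ h) = h
  ne : ∀ h, τ h ≠ h
  col : ∀ h, S.col (τ h) = σ (S.col h)
  cmp : ∀ h, cmp (S.vert (τ h)) = cmp (S.vert h)

/-- No closed non-backtracking path of length `0 < l < g`. -/
def Girth {Hf V P : Type} (S : HS Hf V P) (τ : Hf → Hf) (g : ℕ) : Prop :=
  ∀ (l : ℕ) (p : ℕ → Hf), 0 < l → l < g →
    (∀ i, i + 1 < l → S.vert (τ (p i)) = S.vert (p (i + 1)) ∧ p (i + 1) ≠ τ (p i)) →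
    S.vert (τ (p (l - 1))) ≠ S.vert (p 0)

/-- Homological planarity (`H¹(·; 𝔽₂) = 0`) of the surface with darts `D`, face permutation `φ` and
edge involution `α`. -/
def PL {D : Type} (φ : Equiv.Perm D) (α : D → D) : Prop :=
  ∀ χ : D → ZMod 2, (∀ d, χ (φ (α d)) + χ (α d) = χ (φ d) + χ d) →
    ∃ κ : D → ZMod 2, (∀ d, κ (φ d) = κ d) ∧ ∀ d, χ (α d) + κ (α d) = χ (φ d) + κ d

/-- A reduced planar system: `In` is the set of genuine darts, all other darts are junk. -/
structure RPS {Hf V P : Type} (S : HS Hf V P) (σ : P → P) (τ : Hf → Hf) (D : Type) where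
  φ : Equiv.Perm D
  α : D → D
  In : Finset D
  ε : D → Hf
  αα : ∀ d, α (α d) = d
  α_ne : ∀ d, α d ≠ d
  path : ∀ d ∈ In, φ d ∈ In → S.vert (τ (ε d)) = S.vert (ε (φ d))
  nb : ∀ d ∈ In, φ d ∈ In → ε (φ d) ≠ τ (ε d)
  lab : ∀ d ∈ In, α d ∈ In → S.col (ε (α d)) = σ (S.col (ε d))
  red : ∀ d ∈ In, α d ∈ In → ε (α d) ≠ τ (ε d)
  pl : PL φ α

/-- Linear isoperimetric inequality for reduced planar systems. -/
def IsoP {Hf V P : Type} (S : HS Hf V P) (σ : P → P) (τ : Hf → Hf) (C : ℕ) : Prop :=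
  ∀ (D : Type) [Fintype D] (R : RPS S σ τ D), R.In.card ≤ C * (Fintype.card D - R.In.card)

open Classical in
/-- The constants of a design. -/
structure Consts (P : Type) [Fintype P] (σ : P → P) where
  R : P → P → ℝ
  γ : P → ℝ
  h : P → ℝ
  θ : ℝ
  C : ℝ
  σσ : ∀ c, σ (σ c) = c
  θ_pos : 0 < θ
  θ_lt : θ < 1
  one_le_C : 1 ≤ C
  R_symm : ∀ c c', R c c' = R c' c
  R_lo : ∀ c c', 1 / C ≤ R c c'
  R_hi : ∀ c c', R c c' ^ 2 ≤ θ
  γ_pos : ∀ c, 0 < γ c
  γ_σ : ∀ c, γ c * γ (σ c) = 1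
  γ_le : ∀ c, γ c ≤ C
  h_lo : ∀ c, 1 ≤ h c
  h_hi : ∀ c, h c ≤ C
  row : ∀ c, ∑ c' ∈ univ.erase c, R c c' ^ 2 * h (σ c') ≤ θ * h c

/-- The gain per pair of corners. -/
noncomputable def Consts.η {P : Type} [Fintype P] {σ : P → P} (K : Consts P σ) : ℝ :=
  - Real.log K.θ

theorem Consts.η_pos {P : Type} [Fintype P] {σ : P → P} (K : Consts P σ) : 0 < K.η := by
  have := Real.log_neg K.θ_pos K.θ_lt
  unfold Consts.η
  linarith

open Classical in
/-- The number of half-edges of colour `c` in the component `x`. -/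
noncomputable def clsCard {Hf V P X : Type} [Fintype Hf] (S : HS Hf V P) (cmp : V → X) (x : X)
    (c : P) : ℕ :=
  (univ.filter (fun h : Hf => cmp (S.vert h) = x ∧ S.col h = c)).card

open Classical in
/-- The number of vertices of the component `x` having half-edges of both colours `c`, `c'`. -/
noncomputable def pairCard {Hf V P X : Type} [Fintype V] (S : HS Hf V P) (cmp : V → X) (x : X)
    (c c' : P) : ℕ :=
  (univ.filter (fun v : V => cmp v = x ∧ (∃ h, S.vert h = v ∧ S.col h = c) ∧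
    ∃ h, S.vert h = v ∧ S.col h = c')).card

/-- A design at scale `n₀`. -/
structure Scale {Hf V P X : Type} [Fintype Hf] [Fintype V] [Fintype P] {σ : P → P}
    (K : Consts P σ) (S : HS Hf V P) (cmp : V → X) (n₀ : ℕ) : Prop where
  cls_lo : ∀ h : Hf, n₀ ≤ clsCard S cmp (cmp (S.vert h)) (S.col h)
  bal : ∀ x c, clsCard S cmp x c = clsCard S cmp x (σ c)
  even : ∀ x c, σ c = c → Even (clsCard S cmp x c)
  pair : ∀ x c c', c ≠ c' → (pairCard S cmp x c c' : ℝ) ≤ K.R c c' * n₀ / (K.γ c * K.γ c')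
  cardV : (Fintype.card V : ℝ) ≤ K.C * n₀

/-! ### Sequences of edges -/

/-- The directed version of a sequence of edges. -/
def Hh {Hf : Type} (τ : Hf → Hf) (p : ℕ → Hf) (y : ℕ × Bool) : Hf :=
  if y.2 then p y.1 else τ (p y.1)

/-- The successor of a directed index. -/
def dsucc (y : ℕ × Bool) : ℕ × Bool := if y.2 then (y.1 + 1, true) else (y.1 - 1, false)

/-- The value of a normal step. -/
noncomputable def val {Hf V P : Type} [Fintype P] {σ : P → P} (K : Consts P σ) (S : HS Hf V P)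
    (p : ℕ → Hf) (ptr : ℕ → Option (ℕ × Bool)) (i : ℕ) : ℝ :=
  if ptr i = none then - K.η - Real.log (K.R (σ (S.col (p (i - 1)))) (S.col (p i)))
  else Real.log (K.R (σ (S.col (p (i - 1)))) (S.col (p i)))

open Classical in
/-- The vertices of the first `k` edges. -/
noncomputable def verts {Hf V P : Type} (S : HS Hf V P) (τ : Hf → Hf) (p : ℕ → Hf) (k : ℕ) :
    Finset V :=
  (range k ×ˢ (univ : Finset Bool)).image (fun y => S.vert (Hh τ p y))

open Classical in
/-- "No hypercompression": no sequence of at most `B` edges of `τ` is too cheap to describe. -/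
def SeqBound {Hf V P : Type} [Fintype P] {σ : P → P} (K : Consts P σ) (S : HS Hf V P)
    (τ : Hf → Hf) (n₀ B : ℕ) (δ x : ℝ) : Prop :=
  ∀ k ≤ B, ∀ (p : ℕ → Hf) (nm : ℕ → Prop) (ptr : ℕ → Option (ℕ × Bool)),
    (∀ y y' : ℕ × Bool, y.1 < k → y'.1 < k → Hh τ p y = Hh τ p y' → y = y') →
    (∀ i < k, ∀ y, ptr i = some y → y.1 < i ∧ S.col (Hh τ p y) = S.col (p i)) →
    (∀ i < k, nm i → 0 < i ∧ S.vert (p i) = S.vert (τ (p (i - 1))) ∧
      ptr i = (ptr (i - 1)).map dsucc ∧
      ∀ y : ℕ × Bool, y.1 < i → y ≠ (i - 1, false) → S.vert (Hh τ p y) ≠ S.vert (p i)) →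
    ((k : ℝ) - (verts S τ p k).card) * Real.log n₀ ≤
      ∑ i ∈ (range k).filter nm, val K S p ptr i + δ * k +
        x * (((range k).filter (fun i => ¬ nm i)).card + 1)

/-! ### The group -/

/-- Relators. -/
def rels {Hf V P : Type} (S : HS Hf V P) (σ : P → P) (τ : Hf → Hf) : Set (FreeGroup (P ⊕ V)) :=
  {r | (∃ c, r = FreeGroup.of (Sum.inl c) * FreeGroup.of (Sum.inl (σ c))) ∨
    ∃ h, r = FreeGroup.of (Sum.inr (S.vert h)) * FreeGroup.of (Sum.inl (S.col h)) *
      (FreeGroup.of (Sum.inr (S.vert (τ h))))⁻¹}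

/-- The group of the labelled graph. -/
abbrev Grp {Hf V P : Type} (S : HS Hf V P) (σ : P → P) (τ : Hf → Hf) : Type :=
  PresentedGroup (rels S σ τ)

/-- Letters: `inl c = x_c`, `inr (u, true) = y_u`, `inr (u, false) = y_u⁻¹`. -/
abbrev Ltr (V P : Type) : Type := P ⊕ V × Bool

/-- The inverse letter. -/
def linv {V P : Type} (σ : P → P) : Ltr V P → Ltr V P
  | Sum.inl c => Sum.inl (σ c)
  | Sum.inr (u, b) => Sum.inr (u, !b)

/-- The value of a letter. -/
def gx {Hf V P : Type} (S : HS Hf V P) (σ : P → P) (τ : Hf → Hf) : Ltr V P → Grp S σ τ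
  | Sum.inl c => PresentedGroup.of (Sum.inl c)
  | Sum.inr (u, true) => PresentedGroup.of (Sum.inr u)
  | Sum.inr (u, false) => (PresentedGroup.of (Sum.inr u))⁻¹

theorem linv_linv {V P : Type} {σ : P → P} (hσ : ∀ c, σ (σ c) = c) (a : Ltr V P) :
    linv σ (linv σ a) = a := by
  rcases a with c | ⟨u, b⟩ <;> simp [linv, hσ]

theorem gx_x {Hf V P : Type} (S : HS Hf V P) (σ : P → P) (τ : Hf → Hf) (c : P) :
    gx S σ τ (Sum.inl c) * gx S σ τ (Sum.inl (σ c)) = 1 := by
  have h : PresentedGroup.mk (rels S σ τ)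
      (FreeGroup.of (Sum.inl c) * FreeGroup.of (Sum.inl (σ c))) = 1 :=
    PresentedGroup.one_of_mem (Or.inl ⟨c, rfl⟩)
  rw [map_mul] at h
  exact h

theorem gx_rel {Hf V P : Type} (S : HS Hf V P) (σ : P → P) (τ : Hf → Hf) (h : Hf) :
    gx S σ τ (Sum.inr (S.vert h, true)) * gx S σ τ (Sum.inl (S.col h)) =
      gx S σ τ (Sum.inr (S.vert (τ h), true)) := by
  have h1 : PresentedGroup.mk (rels S σ τ)
      (FreeGroup.of (Sum.inr (S.vert h)) * FreeGroup.of (Sum.inl (S.col h)) *
        (FreeGroup.of (Sum.inr (S.vert (τ h))))⁻¹) = 1 :=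
    PresentedGroup.one_of_mem (Or.inr ⟨h, rfl⟩)
  simp only [map_mul, map_inv] at h1
  exact mul_inv_eq_one.mp h1

theorem gx_linv {Hf V P : Type} (S : HS Hf V P) (σ : P → P) (τ : Hf → Hf) (a : Ltr V P) :
    gx S σ τ (linv σ a) = (gx S σ τ a)⁻¹ := by
  rcases a with c | ⟨u, _ | _⟩
  · exact (eq_inv_of_mul_eq_one_right (gx_x S σ τ c))
  · simp [linv, gx]
  · simp [linv, gx]

/-- Universal property of `Grp`. -/
theorem grp_lift {Hf V P : Type} (S : HS Hf V P) (σ : P → P) (τ : Hf → Hf) {H : Type*} [Group H]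
    (fx : P → H) (fy : V → H) (h1 : ∀ c, fx c * fx (σ c) = 1)
    (h2 : ∀ h, fy (S.vert h) * fx (S.col h) = fy (S.vert (τ h))) :
    ∃ F : Grp S σ τ →* H, (∀ c, F (gx S σ τ (Sum.inl c)) = fx c) ∧
      ∀ u, F (gx S σ τ (Sum.inr (u, true))) = fy u := by
  refine ⟨PresentedGroup.toGroup (f := Sum.elim fx fy) ?_, fun c => ?_, fun u => ?_⟩
  · rintro r (⟨c, rfl⟩ | ⟨h, rfl⟩)
    · simpa using h1 c
    · simp [h2 h]
  · simp [gx]
  · simp [gx]

theorem gx_closure {Hf V P : Type} (S : HS Hf V P) (σ : P → P) (τ : Hf → Hf) :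
    Subgroup.closure (Set.range (gx S σ τ)) = ⊤ := by
  rw [eq_top_iff, ← PresentedGroup.closure_range_of (rels S σ τ)]
  refine Subgroup.closure_mono ?_
  rintro _ ⟨c | u, rfl⟩
  · exact ⟨Sum.inl c, rfl⟩
  · exact ⟨Sum.inr (u, true), rfl⟩

/-- The sum of an edge function along the path spelled by a word. -/
def pathSum {G L M : Type} [Group G] [AddCommMonoid M] (x : L → G) (ξ : G × L → M) :
    G → List L → M
  | _, [] => 0
  | g, a :: w => ξ (g, a) + pathSum x ξ (g * x a) w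

theorem pathSum_eqs : True := by
  have h₀ := @pathSum.eq_def
  have h₁ := @pathSum.eq_1
  have h₂ := @pathSum.eq_2
  trivial

/-- Linear isoperimetric inequality for `𝔽₂`-chains (tested against symmetric edge functions), with
triangles as cells. -/
def ChainIso {G L : Type} [Group G] (x : L → G) (inv : L → L) (C : ℕ) : Prop :=
  ∀ w : List L, (w.map x).prod = 1 → ∃ T : List (G × L × L × L),
    T.length ≤ C * w.length ∧ (∀ t ∈ T, x t.2.1 * x t.2.2.1 * x t.2.2.2 = 1) ∧
    ∀ ξ : G × L → ZMod 2, (∀ g a, ξ (g * x a, inv a) = ξ (g, a)) →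
      pathSum x ξ 1 w = (T.map (fun t => ξ (t.1, t.2.1) + ξ (t.1 * x t.2.1, t.2.2.1) +
        ξ (t.1 * x t.2.1 * x t.2.2.1, t.2.2.2))).sum

/-- Every antisymmetric `2`-cochain on the universal cover is a coboundary. -/
def CS {Hf V P : Type} (S : HS Hf V P) (σ : P → P) (τ : Hf → Hf) : Prop :=
  ∀ (M : Type) [AddCommGroup M] (κ : Grp S σ τ × Hf → M), (∀ g h, κ (g, τ h) = - κ (g, h)) →
    ∃ ψ : Grp S σ τ × Ltr V P → M,
      (∀ g a, ψ (g * gx S σ τ a, linv σ a) = - ψ (g, a)) ∧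
      ∀ g h, ψ (g, Sum.inr (S.vert h, true)) +
        ψ (g * gx S σ τ (Sum.inr (S.vert h, true)), Sum.inl (S.col h)) -
        ψ (g, Sum.inr (S.vert (τ h), true)) = κ (g, h)

/-- A triangular presentation `⟨S | a t * b t = c t⟩` of `G` whose Cayley complex has `H² = 0`. -/
structure TriPres (G : Type) [Group G] (S T : Type) where
  x : S → G
  a : T → S
  b : T → S
  c : T → S
  rel : ∀ t, x (a t) * x (b t) = x (c t)
  gen : Subgroup.closure (Set.range x) = ⊤
  univ : ∀ (H : Type) [Group H] (f : S → H), (∀ t, f (a t) * f (b t) = f (c t)) →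
    ∃ F : G →* H, ∀ s, F (x s) = f s
  cs : ∀ (M : Type) [AddCommGroup M] (κ : G × T → M), ∃ ψ : G × S → M,
    ∀ g t, ψ (g, a t) + ψ (g * x (a t), b t) - ψ (g, c t) = κ (g, t)

end Crest.Agent.R177
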