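import Crest.Agent.R177.ClusterB
import Crest.Agent.R177.Defs

/-! Task R177-C, part C: the triangulation of a planar system. -/

set_option autoImplicit false

namespace Crest.Agent.R177.Cl

open Finset

theorem sum_reps {D : Type} [Fintype D] (α : D → D) (hα : ∀ d, α (α d) = d) (Q : D → Prop)
    [DecidablePred Q] (hQ : ∀ d, Q (α d) ↔ ¬ Q d) {M : Type} [AddCommMonoid M] (h : D → M) :
    ∑ b : {d // Q d}, (h b.1 + h (α b.1)) = ∑ d, h d := by
  rw [← sum_subtype (univ.filter Q) (by simp) (fun d => h d + h (α d)), sum_add_distrib,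
    ← sum_filter_add_sum_filter_not univ Q]
  congr 1
  refine sum_nbij' α α ?_ ?_ ?_ ?_ ?_
  · intro d hd
    simp only [mem_filter, mem_univ, true_and] at hd ⊢
    rw [hQ]; exact not_not.2 hd
  · intro d hd
    simp only [mem_filter, mem_univ, true_and] at hd ⊢
    exact (hQ d).2 hd
  · intro d _; exact hα d
  · intro d _; exact hα d
  · intro d _; rfl

open Classical in
theorem cluster' {D : Type} [Fintype D] (φ : Equiv.Perm D) (α : D → D) (hα : ∀ d, α (α d) = d)
    (hne : ∀ d, α d ≠ d) (hpl : PL φ α) (lam r b₀ : ℕ) (hlam : 0 < lam) (hr : 0 < r)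
    (hb : 0 < b₀) :
    ∃ cl : D → ℕ × D, (∀ y, (univ.filter (fun d => cl d = y)).card ≤ 4 * b₀) ∧
      (((univ.filter (fun d => cl (α d) ≠ cl d)).card : ℝ) +
          lam * ((univ.filter (fun d => cl (φ d) ≠ cl d)).card : ℝ) ≤
        (4 / (r : ℝ) + (4 * r + 22) * lam / (b₀ : ℝ)) * Fintype.card D) := by
  have two : ∀ x : ZMod 2, x + x = 0 := by decide
  have hinv : ∀ d, φ⁻¹ (φ d) = d := fun d => by simp
  let Q : D → Prop := fun d => Fintype.equivFin D d < Fintype.equivFin D (α d)
  have hQ : ∀ d, Q (α d) ↔ ¬ Q d := by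
    intro d
    simp only [Q, hα, not_lt]
    refine ⟨le_of_lt, fun h => lt_of_le_of_ne h fun h' => hne d ?_⟩
    exact (Fintype.equivFin D).injective h'
  let rF : D → D → Prop := fun x y => y = φ x
  let rV : D → D → Prop := fun x y => ∃ d, x = α d ∧ y = φ d
  let N := Quot rF ⊕ Quot rV
  haveI : Finite (Quot rF) := Finite.of_surjective _ Quot.mk_surjective
  haveI : Finite (Quot rV) := Finite.of_surjective _ Quot.mk_surjective
  letI : Fintype N := Fintype.ofFinite N
  let fc : D → N := fun d => Sum.inl (Quot.mk rF d)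
  let vx : D → N := fun d => Sum.inr (Quot.mk rV d)
  have hfc : ∀ d, fc (φ d) = fc d := fun d => by
    simp only [fc]; rw [Quot.sound (show rF d (φ d) from rfl)]
  have hvx : ∀ d, vx (α d) = vx (φ d) := fun d => by
    simp only [vx]; rw [Quot.sound (show rV (α d) (φ d) from ⟨d, rfl, rfl⟩)]
  have hvx' : ∀ d, vx (φ (α d)) = vx d := fun d => by rw [← hvx, hα]
  let B := {d // Q d}
  let rep : D → B := fun d => if h : Q d then ⟨d, h⟩ else ⟨α d, (hQ d).2 h⟩
  have hrep : ∀ d, (rep d).1 = d ∨ (rep d).1 = α d := by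
    intro d
    by_cases h : Q d <;> simp [rep, h]
  have hrep1 : ∀ b : B, rep b.1 = b := fun b => by simp [rep, b.2]
  have hrep2 : ∀ b : B, rep (α b.1) = b := fun b => by
    have : ¬ Q (α b.1) := by rw [hQ]; exact not_not.2 b.2
    simp [rep, this, hα]
  have hrep3 : ∀ d, rep (α d) = rep d := by
    intro d
    rcases hrep d with h | h
    · conv_lhs => rw [← h]
      exact hrep2 _
    · conv_lhs => rw [← h]
      exact hrep1 _
  let p₀ : D ⊕ B → N := Sum.elim fc (fun b => vx b.1)
  let p₁ : D ⊕ B → N := Sum.elim (fun d => vx (φ d)) (fun b => vx (φ b.1))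
  let s₀ : D ⊕ B → D := Sum.elim id (fun b => b.1)
  let s₁ : D ⊕ B → D := Sum.elim φ (fun b => α b.1)
  let c : D ⊕ B → ℕ := Sum.elim (fun _ => lam) (fun _ => 1)
  obtain ⟨cl, h1, h2⟩ := abstract_cluster p₀ p₁ s₀ s₁ c vx lam r b₀ hlam hr hb
    (by rintro (d | b) <;> simp [c]; omega) (by rintro (d | b) <;> simp [c]; omega)
    (by
      intro f g
      rw [Fintype.sum_sum_type]
      simp only [p₀, p₁, s₀, s₁, Sum.elim_inl, Sum.elim_inr, id]
      have e1 : ∑ b : B, (f b.1 + f (α b.1)) * (g (vx b.1) + g (vx (φ b.1))) =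
          ∑ d, f d * (g (vx d) + g (vx (φ d))) := by
        rw [← sum_reps α hα Q hQ (fun d => f d * (g (vx d) + g (vx (φ d))))]
        refine sum_congr rfl fun b _ => ?_
        rw [hvx, hvx']; ring
      have e2 : ∑ d, f (φ d) * (g (fc d) + g (vx (φ d))) = ∑ d, f d * (g (fc d) + g (vx d)) := by
        rw [← Equiv.sum_comp φ (fun d => f d * (g (fc d) + g (vx d)))]
        simp only [hfc]
      simp only [add_mul (f _) (f (φ _))]
      rw [e1, sum_add_distrib, e2, ← sum_add_distrib, ← sum_add_distrib]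
      refine sum_eq_zero fun d _ => ?_
      linear_combination f d * two (g (fc d)) + f d * two (g (vx d)) + f d * two (g (vx (φ d))))
    (by
      intro ω hω
      have key : ∀ d, ω (Sum.inl d) + ω (Sum.inl (φ⁻¹ d)) + ω (Sum.inr (rep d)) = 0 := by
        intro d
        have := hω (Pi.single d 1)
        rw [Fintype.sum_sum_type] at this
        simp only [s₀, s₁, Sum.elim_inl, Sum.elim_inr, id] at this
        have e1 : ∑ b : B, ω (Sum.inr b) * ((Pi.single d 1 : D → ZMod 2) b.1 +
            (Pi.single d 1 : D → ZMod 2) (α b.1)) =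
            ∑ x, ω (Sum.inr (rep x)) * (Pi.single d 1 : D → ZMod 2) x := by
          rw [← sum_reps α hα Q hQ (fun x => ω (Sum.inr (rep x)) * (Pi.single d 1 : D → ZMod 2) x)]
          refine sum_congr rfl fun b _ => ?_
          rw [hrep1, hrep2]; ring
        have e2 : ∑ x, ω (Sum.inl x) * (Pi.single d 1 : D → ZMod 2) (φ x) =
            ∑ x, ω (Sum.inl (φ⁻¹ x)) * (Pi.single d 1 : D → ZMod 2) x := by
          rw [← Equiv.sum_comp φ (fun x => ω (Sum.inl (φ⁻¹ x)) * (Pi.single d 1 : D → ZMod 2) x)]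
          simp
        have e3 : ∀ u : D → ZMod 2, ∑ x, u x * (Pi.single d 1 : D → ZMod 2) x = u d := by
          intro u
          rw [sum_eq_single d (fun b _ hb => by simp [Pi.single_eq_of_ne hb]) (by simp)]
          simp
        simp only [mul_add (ω (Sum.inl _))] at this
        rw [e1, sum_add_distrib, e2, e3 (fun x => ω (Sum.inl x)),
          e3 (fun x => ω (Sum.inl (φ⁻¹ x))), e3 (fun x => ω (Sum.inr (rep x)))] at this
        exact this
      obtain ⟨κ, hκ1, hκ2⟩ := hpl (fun d => ω (Sum.inl (φ⁻¹ d))) (by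
        intro d
        have a1 := key d
        have a2 := key (α d)
        rw [hrep3] at a2
        simp only [hinv]
        linear_combination a2 - a1)
      refine ⟨Sum.elim (Quot.lift κ (fun x y h => by rw [h, hκ1]))
        (Quot.lift (fun d => ω (Sum.inl (φ⁻¹ d)) + κ d) ?_), ?_⟩
      · rintro x y ⟨d, rfl, rfl⟩
        rw [hκ2 d, hκ1]
      · rintro (d | b)
        · simp only [p₀, p₁, fc, vx, Sum.elim_inl, Sum.elim_inr, hinv, hκ1]
          linear_combination - two (κ d)
        · simp only [p₀, p₁, vx, Sum.elim_inr, hinv, hκ1]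
          have a1 := key b.1
          rw [hrep1] at a1
          linear_combination a1 - two (κ b.1) - two (ω (Sum.inl b.1)) -
            two (ω (Sum.inl (φ⁻¹ b.1))))
    (by
      intro t
      refine le_trans (card_le_card (t := {Sum.inl t, Sum.inl (φ⁻¹ t), Sum.inr (rep t)}) ?_)
        card_le_three
      rintro (d | b) he
      · simp only [mem_filter, mem_univ, true_and, s₀, s₁, Sum.elim_inl, id] at he
        rcases he with rfl | rfl <;> simp
      · simp only [mem_filter, mem_univ, true_and, s₀, s₁, Sum.elim_inr] at he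
        rcases he with rfl | rfl
        · simp [hrep1]
        · simp [hrep2])
    (by
      intro ht hht
      have k1 : ∀ d, ht (vx d) ≤ ht (vx (φ d)) + 1 ∧ ht (vx (φ d)) ≤ ht (vx d) + 1 := by
        intro d
        have := hht (Sum.inr (rep d))
        simp only [p₀, p₁, c, Sum.elim_inr] at this
        rcases hrep d with h | h
        · rwa [h] at this
        · rw [h, hvx, hvx'] at this
          exact this.symm
      rintro (d | b)
      · have := hht (Sum.inl d)
        have := k1 d
        simp only [p₀, p₁, s₀, s₁, c, Sum.elim_inl, id] at *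
        omega
      · have := k1 b.1
        simp only [p₀, p₁, s₀, s₁, Sum.elim_inr, hvx]
        omega)
  refine ⟨cl, h1, ?_⟩
  have e1 : ∑ e ∈ univ.filter (fun e => cl (s₀ e) ≠ cl (s₁ e)), c e =
      lam * (univ.filter (fun d => cl (φ d) ≠ cl d)).card +
        ∑ b : B, if cl (α b.1) ≠ cl b.1 then 1 else 0 := by
    rw [sum_filter, Fintype.sum_sum_type, card_filter, mul_sum]
    congr 1
    · refine sum_congr rfl fun d _ => ?_
      simp only [s₀, s₁, c, Sum.elim_inl, id, ne_comm (a := cl d)]
      split_ifs <;> simp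
    · refine sum_congr rfl fun b _ => ?_
      simp only [s₀, s₁, c, Sum.elim_inr, ne_comm (a := cl b.1)]
  have e2 : (univ.filter (fun d => cl (α d) ≠ cl d)).card =
      2 * ∑ b : B, if cl (α b.1) ≠ cl b.1 then 1 else 0 := by
    rw [card_filter, ← sum_reps α hα Q hQ (fun d => if cl (α d) ≠ cl d then 1 else 0), mul_sum]
    refine sum_congr rfl fun b _ => ?_
    simp only [hα, ne_comm (a := cl b.1)]
    ring
  have e3 : Fintype.card (D ⊕ B) ≤ 2 * Fintype.card D := by
    rw [Fintype.card_sum]
    have := Fintype.card_subtype_le Q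
    simp only [B]
    omega
  have r0 : (0 : ℝ) < r := by exact_mod_cast hr
  have e4 : (Fintype.card (D ⊕ B) : ℝ) / r ≤ 2 * Fintype.card D / r := by
    gcongr; exact_mod_cast e3
  have h2' : ((lam * (univ.filter (fun d => cl (φ d) ≠ cl d)).card +
        ∑ b : B, (if cl (α b.1) ≠ cl b.1 then 1 else 0) : ℕ) : ℝ) ≤
      Fintype.card (D ⊕ B) / (r : ℝ) + (2 * r + 11) * lam / (b₀ : ℝ) * Fintype.card D := by
    rw [← e1]
    convert h2
  rw [e2]
  generalize (∑ b : B, if cl (α b.1) ≠ cl b.1 then 1 else 0) = X at h2' ⊢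
  push_cast at h2' ⊢
  have e5 : (0 : ℝ) ≤ lam * ((univ.filter (fun d => cl (φ d) ≠ cl d)).card : ℝ) := by positivity
  have e6 : (4 / (r : ℝ) + (4 * r + 22) * lam / (b₀ : ℝ)) * Fintype.card D =
      2 * (2 * Fintype.card D / r + (2 * r + 11) * lam / (b₀ : ℝ) * Fintype.card D) := by ring
  rw [e6]
  linarith

end Crest.Agent.R177.Cl
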