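import Crest.Agent.R177.Defs

/-!
Task R177-E: linear indexing of the cycles of a permutation and the Euler inequality.
-/

set_option autoImplicit false

namespace Crest.Agent.R177

open Finset

theorem exists_idx' {D : Type} [Fintype D] (φ : Equiv.Perm D) :
    ∃ (idx : D → ℕ) (Last : Finset D), Function.Injective idx ∧
      (∀ d, d ∉ Last → idx (φ d) = idx d + 1) ∧ (∀ d, ∃ k : ℕ, (φ ^ k) d ∈ Last) ∧
      ∀ d ∈ Last, ∀ d' ∈ Last, ∀ k : ℕ, (φ ^ k) d = d' → d = d' := by
  classical
  let s : Setoid D := Equiv.Perm.SameCycle.setoid φ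
  let rep : D → D := fun d => (Quotient.mk s d).out
  have hrep : ∀ d, φ.SameCycle (rep d) d := fun d => Quotient.mk_out (s := s) d
  have hrep_eq : ∀ d d', φ.SameCycle d d' → rep d = rep d' := by
    intro d d' h
    have : Quotient.mk s d = Quotient.mk s d' := Quotient.sound h
    simp only [rep, this]
  have hex : ∀ d, ∃ j : ℕ, (φ ^ j) (rep d) = d := by
    intro d
    obtain ⟨j, -, hj⟩ := (hrep d).exists_pow_eq'
    exact ⟨j, hj⟩
  let pos : D → ℕ := fun d => Nat.find (hex d)
  have hpos : ∀ d, (φ ^ pos d) (rep d) = d := fun d => Nat.find_spec (hex d)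
  have hpos_le : ∀ d j, (φ ^ j) (rep d) = d → pos d ≤ j := fun d j h => Nat.find_min' (hex d) h
  have hpos_lt : ∀ d, pos d < orderOf φ := by
    intro d
    obtain ⟨j, hj, hj'⟩ := (hrep d).exists_pow_eq'
    exact lt_of_le_of_lt (hpos_le d j hj') hj
  let e := Fintype.equivFin D
  have hφ : ∀ d, rep (φ d) = rep d := fun d =>
    hrep_eq _ _ (Equiv.Perm.sameCycle_apply_left.mpr (Equiv.Perm.SameCycle.refl φ d))
  refine ⟨fun d => orderOf φ * (e (rep d) : ℕ) + pos d, univ.filter (fun d => φ d = rep d),
    ?_, ?_, ?_, ?_⟩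
  · intro d d' h
    beta_reduce at h
    have h1 := hpos_lt d
    have h2 := hpos_lt d'
    have h3 : pos d = pos d' := by
      have := congrArg (· % orderOf φ) h
      simpa [Nat.mul_add_mod, Nat.mod_eq_of_lt h1, Nat.mod_eq_of_lt h2] using this
    have h4 : (e (rep d) : ℕ) = e (rep d') := by
      rw [h3] at h
      exact Nat.eq_of_mul_eq_mul_left (by omega) (Nat.add_right_cancel h)
    have h5 : rep d = rep d' := e.injective (Fin.ext h4)
    rw [← hpos d, ← hpos d', h3, h5]
  · intro d hd
    have hd' : φ d ≠ rep d := by simpa using hd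
    have h1 : pos (φ d) ≤ pos d + 1 := by
      apply hpos_le
      rw [hφ, pow_succ', Equiv.Perm.mul_apply, hpos]
    have h2 : pos (φ d) ≠ 0 := by
      intro h0
      have := hpos (φ d)
      rw [h0, pow_zero, hφ] at this
      exact hd' this.symm
    obtain ⟨j, hj⟩ := Nat.exists_eq_succ_of_ne_zero h2
    have h3 : pos d ≤ j := by
      apply hpos_le
      have := hpos (φ d)
      rw [hj, hφ, pow_succ', Equiv.Perm.mul_apply] at this
      exact φ.injective this
    beta_reduce
    rw [hφ]
    omega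
  · intro d
    have h1 : φ.SameCycle d (φ⁻¹ (rep d)) :=
      Equiv.Perm.sameCycle_apply_right.mp (by simpa using (hrep d).symm)
    obtain ⟨k, -, hk⟩ := h1.exists_pow_eq'
    refine ⟨k, ?_⟩
    rw [hk]
    simp only [mem_filter, mem_univ, true_and]
    rw [← hrep_eq _ _ h1]
    simp
  · intro d hd d' hd' k hk
    simp only [mem_filter, mem_univ, true_and] at hd hd'
    have : rep d = rep d' := hrep_eq _ _ ⟨k, by simpa using hk⟩
    exact φ.injective (by rw [hd, hd', this])

/-- Two points of a transversal whose orbits meet are equal. -/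
theorem last_eq {D : Type} [Fintype D] (φ : Equiv.Perm D) (Last : Finset D)
    (hL : ∀ d ∈ Last, ∀ d' ∈ Last, ∀ k : ℕ, (φ ^ k) d = d' → d = d')
    {d d' : D} (hd : d ∈ Last) (hd' : d' ∈ Last) {i j : ℕ} (h : (φ ^ i) d = (φ ^ j) d') :
    d = d' := by
  have h1 : φ.SameCycle d ((φ ^ i) d) := ⟨i, by simp⟩
  have h2 : φ.SameCycle d' ((φ ^ j) d') := ⟨j, by simp⟩
  rw [h] at h1
  obtain ⟨k, -, hk⟩ := (h1.trans h2.symm).exists_pow_eq'
  exact hL d hd d' hd' k hk

/-- Counting long orbits. -/
theorem orbit_count {D : Type} [Fintype D] (φ : Equiv.Perm D) (Last L S : Finset D) (t : ℕ)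
    (hL : ∀ d ∈ Last, ∀ d' ∈ Last, ∀ k : ℕ, (φ ^ k) d = d' → d = d') (hsub : L ⊆ Last)
    (hS : ∀ d ∈ L, ∀ j < t, (φ ^ j) d ∈ S)
    (hne : ∀ d ∈ L, ∀ l, 0 < l → l < t → (φ ^ l) d ≠ d) : t * L.card ≤ S.card := by
  classical
  have key : ∀ d ∈ L, ∀ i j, i < j → j < t → (φ ^ i) d ≠ (φ ^ j) d := by
    intro d hd i j hij hj h
    apply hne d hd (j - i) (by omega) (by omega)
    apply (φ ^ i).injective
    rw [← Equiv.Perm.mul_apply, ← pow_add, h]
    congr 2
    omega
  have : (range t ×ˢ L).card ≤ S.card := by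
    refine card_le_card_of_injOn (fun y => (φ ^ y.1) y.2) ?_ ?_
    · intro y hy
      simp only [coe_product, coe_range, Set.mem_prod, Set.mem_Iio, mem_coe] at hy
      exact hS _ hy.2 _ hy.1
    · rintro ⟨i, d⟩ hy ⟨j, d'⟩ hy' h
      simp only [coe_product, coe_range, Set.mem_prod, Set.mem_Iio, mem_coe] at hy hy' h
      have hdd : d = d' := last_eq φ Last hL (hsub hy.2) (hsub hy'.2) h
      subst hdd
      rcases lt_trichotomy i j with hij | hij | hij
      · exact absurd h (key d hy.2 i j hij hy'.1)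
      · rw [hij]
      · exact absurd h.symm (key d hy.2 j i hij hy.1)
  simpa [card_product] using this

theorem finrank_le_of_det {D : Type} [Fintype D] (M : Submodule (ZMod 2) (D → ZMod 2))
    (T : Finset D) (h : ∀ f ∈ M, (∀ d ∈ T, f d = 0) → f = 0) :
    Module.finrank (ZMod 2) M ≤ T.card := by
  classical
  let r : M →ₗ[ZMod 2] (T → ZMod 2) :=
    { toFun := fun f d => (f : D → ZMod 2) d
      map_add' := fun f g => rfl
      map_smul' := fun c f => rfl }
  have hr : Function.Injective r := by
    rw [injective_iff_map_eq_zero]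
    intro f hf
    apply Subtype.ext
    exact h f f.2 (fun d hd => congrFun hf ⟨d, hd⟩)
  have := LinearMap.finrank_le_finrank_of_injective hr
  simpa using this

theorem zmod2_add_self : ∀ a : ZMod 2, a + a = 0 := by decide

theorem inv_pow_apply {D M : Type} (φ : Equiv.Perm D) (f : D → M) (h : ∀ d, f (φ d) = f d)
    (k : ℕ) (d : D) : f ((φ ^ k) d) = f d := by
  induction k with
  | zero => simp
  | succ k ih => rw [pow_succ', Equiv.Perm.mul_apply, h, ih]

open Classical in
theorem euler' {D : Type} [Fintype D] (φ : Equiv.Perm D) (α : D → D) (hα : ∀ d, α (α d) = d)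
    (hne : ∀ d, α d ≠ d) (hpl : PL φ α) (Tr : Finset D) (hTr : ∀ d, ∃ k : ℕ, (φ ^ k) d ∈ Tr) :
    (univ.filter (fun d => α (φ (α (φ d))) ≠ d)).card ≤
      3 * (univ.filter (fun d => α d = φ d)).card + 6 * Tr.card := by
  let ρ : Equiv.Perm D := (Function.Involutive.toPerm α hα) * φ
  have hρ : ∀ d, ρ d = α (φ d) := fun d => rfl
  obtain ⟨-, Last, -, -, hL1, hL2⟩ := exists_idx' ρ
  -- the linear algebra
  let L : (D → ZMod 2) →ₗ[ZMod 2] (D → ZMod 2) :=
    { toFun := fun χ d => χ (φ (α d)) + χ (α d) + χ (φ d) + χ d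
      map_add' := fun f g => by ext d; simp only [Pi.add_apply]; ring
      map_smul' := fun c f => by
        ext d; simp only [Pi.smul_apply, smul_eq_mul, RingHom.id_apply]; ring }
  let V₀ : Submodule (ZMod 2) (D → ZMod 2) :=
    { carrier := {ψ | ∀ d, ψ (α d) = ψ (φ d)}
      add_mem' := fun {f g} hf hg d => by simp only [Pi.add_apply, hf d, hg d]
      zero_mem' := fun d => rfl
      smul_mem' := fun c f hf d => by simp only [Pi.smul_apply, hf d] }
  let F₀ : Submodule (ZMod 2) (D → ZMod 2) :=
    { carrier := {κ | ∀ d, κ (φ d) = κ d}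
      add_mem' := fun {f g} hf hg d => by simp only [Pi.add_apply, hf d, hg d]
      zero_mem' := fun d => rfl
      smul_mem' := fun c f hf d => by simp only [Pi.smul_apply, hf d] }
  have h22 : ∀ a : ZMod 2, a + a = 0 := zmod2_add_self
  have hker : LinearMap.ker L ≤ V₀ ⊔ F₀ := by
    intro χ hχ
    have hχ' : ∀ d, χ (φ (α d)) + χ (α d) = χ (φ d) + χ d := by
      intro d
      have h0 : χ (φ (α d)) + χ (α d) + χ (φ d) + χ d = 0 := congrFun hχ d
      linear_combination h0 - h22 (χ (φ d)) - h22 (χ d)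
    obtain ⟨κ, hκ1, hκ2⟩ := hpl χ hχ'
    have : χ = (χ + κ) + κ := by
      ext d
      simp only [Pi.add_apply]
      linear_combination - h22 (κ d)
    rw [this]
    refine Submodule.add_mem_sup ?_ hκ1
    intro d
    simp only [Pi.add_apply]
    rw [hκ2 d, hκ1 d]
  let e := Fintype.equivFin D
  let A : Finset D := univ.filter (fun d => e d < e (α d))
  have hA : 2 * A.card ≤ Fintype.card D := by
    have h1 : Disjoint A (A.image α) := by
      rw [disjoint_left]
      intro d hd hd'
      obtain ⟨d', hd'', rfl⟩ := mem_image.mp hd'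
      simp only [A, mem_filter, mem_univ, true_and, hα] at hd hd''
      exact lt_asymm hd hd''
    have h2 : (A.image α).card = A.card :=
      card_image_of_injective _ (Function.Involutive.injective hα)
    have h3 := card_le_univ (A ∪ A.image α)
    rw [card_union_of_disjoint h1, h2] at h3
    omega
  have hrange : Module.finrank (ZMod 2) (LinearMap.range L) ≤ A.card := by
    apply finrank_le_of_det
    rintro _ ⟨χ, rfl⟩ h0
    have hsym : ∀ d, L χ (α d) = L χ d := by
      intro d
      change χ (φ (α (α d))) + χ (α (α d)) + χ (φ (α d)) + χ (α d) =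
        χ (φ (α d)) + χ (α d) + χ (φ d) + χ d
      rw [hα]
      ring
    ext d
    rcases lt_trichotomy (e d) (e (α d)) with h | h | h
    · exact h0 d (by simpa [A] using h)
    · exact absurd (e.injective h).symm (hne d)
    · rw [← hsym]
      exact h0 _ (by simpa [A, hα] using h)
  have hF : Module.finrank (ZMod 2) F₀ ≤ Tr.card := by
    apply finrank_le_of_det
    intro κ hκ h0
    ext d
    obtain ⟨k, hk⟩ := hTr d
    rw [← inv_pow_apply φ κ hκ k d]
    exact h0 _ hk
  have hV : Module.finrank (ZMod 2) V₀ ≤ Last.card := by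
    refine le_trans (finrank_le_of_det V₀ (Last.image φ) ?_) card_image_le
    intro ψ hψ h0
    have hinv : ∀ d, (ψ ∘ φ) (ρ d) = (ψ ∘ φ) d := by
      intro d
      have := hψ (α (φ d))
      rw [hα] at this
      exact this.symm
    ext d
    obtain ⟨k, hk⟩ := hL1 (φ⁻¹ d)
    have h1 := inv_pow_apply ρ (ψ ∘ φ) hinv k (φ⁻¹ d)
    have h2 := h0 _ (mem_image_of_mem φ hk)
    simp only [Function.comp] at h1
    rw [h2] at h1
    simpa using h1.symm
  have hdim : Fintype.card D ≤ A.card + Last.card + Tr.card := by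
    have h1 := LinearMap.finrank_range_add_finrank_ker L
    have h2 := Submodule.finrank_mono hker
    have h3 := Submodule.finrank_add_le_finrank_add_finrank V₀ F₀
    rw [Module.finrank_fintype_fun_eq_card] at h1
    omega
  -- counting orbits
  let S₁ : Finset D := univ.filter (fun d => α d = φ d)
  let S₃ : Finset D := univ.filter (fun d => α (φ (α (φ d))) ≠ d)
  let S₂ : Finset D := univ.filter (fun d => α d ≠ φ d ∧ α (φ (α (φ d))) = d)
  have hfix : ∀ d, ρ d = d ↔ α d = φ d := by
    intro d
    rw [hρ]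
    constructor
    · intro h
      rw [← h, hα, h]
    · intro h
      rw [← h, hα]
  have hρ2 : ∀ d, (ρ ^ 2) d = α (φ (α (φ d))) := fun d => by
    rw [pow_two, Equiv.Perm.mul_apply, hρ, hρ]
  have hcomm : ∀ (j k : ℕ) d, (ρ ^ k) ((ρ ^ j) d) = (ρ ^ j) d ↔ (ρ ^ k) d = d := by
    intro j k d
    rw [← Equiv.Perm.mul_apply, pow_mul_comm, Equiv.Perm.mul_apply]
    exact (ρ ^ j).injective.eq_iff
  have c1 : 1 * (Last ∩ S₁).card ≤ S₁.card := by
    rw [one_mul]
    exact card_le_card inter_subset_right
  have c2 : 2 * (Last ∩ S₂).card ≤ S₂.card := by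
    refine orbit_count ρ Last _ _ 2 hL2 inter_subset_left ?_ ?_
    · intro d hd j _
      have hd' := (mem_inter.mp hd).2
      simp only [S₂, mem_filter, mem_univ, true_and, ne_eq, ← hfix, ← hρ2] at hd' ⊢
      refine ⟨?_, (hcomm j 2 d).mpr hd'.2⟩
      have := hcomm j 1 d
      rw [pow_one] at this
      rw [this]
      exact hd'.1
    · intro d hd l hl hl'
      have hd' := (mem_inter.mp hd).2
      simp only [S₂, mem_filter, mem_univ, true_and, ne_eq, ← hfix, ← hρ2] at hd'
      obtain rfl : l = 1 := by omega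
      simpa using hd'.1
  have c3 : 3 * (Last ∩ S₃).card ≤ S₃.card := by
    refine orbit_count ρ Last _ _ 3 hL2 inter_subset_left ?_ ?_
    · intro d hd j _
      have hd' := (mem_inter.mp hd).2
      simp only [S₃, mem_filter, mem_univ, true_and, ne_eq, ← hρ2] at hd' ⊢
      rw [hcomm j 2 d]
      exact hd'
    · intro d hd l hl hl'
      have hd' := (mem_inter.mp hd).2
      simp only [S₃, mem_filter, mem_univ, true_and, ne_eq, ← hρ2] at hd'
      obtain rfl | rfl : l = 1 ∨ l = 2 := by omega
      · intro h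
        apply hd'
        rw [pow_one] at h
        rw [pow_two, Equiv.Perm.mul_apply, h, h]
      · exact hd'
  have hcov : ∀ d, d ∈ S₁ ∪ S₂ ∪ S₃ := by
    intro d
    simp only [S₁, S₂, S₃, mem_union, mem_filter, mem_univ, true_and]
    tauto
  have c4 : Last.card ≤ (Last ∩ S₁).card + (Last ∩ S₂).card + (Last ∩ S₃).card := by
    have : Last ⊆ (Last ∩ S₁) ∪ (Last ∩ S₂) ∪ (Last ∩ S₃) := by
      intro d hd
      have := hcov d
      simp only [mem_union, mem_inter] at this ⊢
      tauto
    refine le_trans (card_le_card this) (le_trans (card_union_le _ _) ?_)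
    exact Nat.add_le_add_right (card_union_le _ _) _
  have c5 : S₁.card + S₂.card + S₃.card ≤ Fintype.card D := by
    have h12 : Disjoint S₁ S₂ := by
      rw [disjoint_left]
      intro d h1 h2
      simp only [S₁, S₂, mem_filter, mem_univ, true_and] at h1 h2
      exact h2.1 h1
    have h123 : Disjoint (S₁ ∪ S₂) S₃ := by
      rw [disjoint_left]
      intro d h1 h2
      simp only [S₁, S₂, S₃, mem_union, mem_filter, mem_univ, true_and] at h1 h2
      rcases h1 with h1 | h1
      · apply h2
        rw [← h1, hα, ← h1, hα]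
      · exact h2 h1.2
    have := card_le_univ (S₁ ∪ S₂ ∪ S₃)
    rwa [card_union_of_disjoint h123, card_union_of_disjoint h12] at this
  change S₃.card ≤ 3 * S₁.card + 6 * Tr.card
  omega

end Crest.Agent.R177
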