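import Crest.Agent.R177.Defs
import Crest.Agent.R177.Euler
import Crest.Agent.R177.ClusterC

/-!
Task R177-C: planar systems are hyperfinite (Lipton–Tarjan/Baker type decomposition), and the Euler
inequality.

## `cluster`
Triangulate: triangles = darts `d`; primal nodes `𝒩 = FQ ⊕ VQ`, `FQ = Quot (fun x y => y = φ x)` (faces),
`VQ = Quot (fun x y => ∃ d, x = α d ∧ y = φ d)` (vertices; the corner `d` is the start of `d`); edges
`ℰ = D ⊕ {d // e d < e (α d)}` (`e = Fintype.equivFin D`): the spoke `inl d` has sides `d, φ d`, ends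
`[d] ∈ FQ`, `[φ d] ∈ VQ` and cost `lam`; the base edge `inr d` has sides `d, α d`, ends `[d], [φ d] ∈ VQ`, cost
`1`.  It is convenient to prove an abstract lemma for finite `𝒩 ℰ 𝒯`, ends `p₀ p₁`, sides `s₀ s₁`, costs
`1 ≤ c e ≤ lam`, anchors `an : 𝒯 → 𝒩` (here `an d = [d] ∈ VQ`), from
(O) `∑ e, (f (s₀ e) + f (s₁ e)) * (g (p₀ e) + g (p₁ e)) = 0` for all `f : 𝒯 → 𝔽₂`, `g : 𝒩 → 𝔽₂`;
(H) if `∑ e, ω e * (f (s₀ e) + f (s₁ e)) = 0` for all `f` then `ω e = g (p₀ e) + g (p₁ e)` for some `g`
  (from `PL` with `χ d = ω (spoke (φ⁻¹ d))`; test with `f = Pi.single d 1`);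
(D) every triangle is a side of at most three edges;
(A) for every `ht : 𝒩 → ℕ` with `|ht (p₀ e) - ht (p₁ e)| ≤ c e` one has
  `|ht (an (s₀ e)) - ht (an (s₁ e))| ≤ 1` and `|ht (pᵢ e) - ht (an (s₀ e))| ≤ lam + 1`.
1. *Shortest path forests* (use twice): for a finite multigraph, a set of allowed edges and costs `≥ 1`
   there are `ht`, `up`, `root`, and `par v : Option ℰ` with: `par v = none → up v = v ∧ root v = v`;
   `par v = some e →` `e` allowed, its ends are `{v, up v}`, `ht v = ht (up v) + c e`, `root (up v) = root v`;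
   for allowed `e`: same root at both ends and `|ht p₀ - ht p₁| ≤ c e`.  (Roots: `Quot.out` of the component;
   `ht v = Nat.find` of an inductive reachability predicate.)
2. Primal forest `T` (all edges allowed), dual forest (ends = sides, allowed = not a primal parent edge, cost 1).
   Every non-`T` edge is a dual parent edge: by induction on `ht` every `t` has a chain `π t` supported on dual
   parent edges with `∑ e, π t e * (f s₀ + f s₁) = f t + f (root t)`; for another non-`T` edge `e` apply (H) to
   `single e + π (s₀ e) + π (s₁ e)`: `g` is constant along `T`, contradiction at `e`.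
3. Layers: `lay t = (ht (an t) + o) / (r * lam)`; an edge has different layers on its sides for at most one
   `o < r * lam`, so for some `o` these edges cost `≤ (∑ c e)/(r lam) ≤ card ℰ / r ≤ 1.5 card D / r`.
4. Forest partition: for `w : 𝒯 → Prop` (a layer) there is a set `Cut` of non-root nodes with
   `b₀ * |Cut| ≤ |w|` and `top : 𝒯 → 𝒯` with `top t = top (up t)` for `t ∉ Cut` and every fibre of `top` has at most
   `4 b₀` points of `w` (at most `3` children: repeatedly cut off a deepest subtree of weight `≥ b₀`; induct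
   over `up`-closed subsets).  `cl t = (lay t, top_{lay t} t)`.
5. An edge with both sides in layer `j` but different `top_j` is the dual parent edge of a node of `Cut_j`, or
   `par v` where `v` is an ancestor (`up^[n] x = v`) of an end `x` of such an edge (apply (O) to the indicator
   of a fibre of `top_j` and the indicator of the subtree below `v`).  By (A) `ht v` lies in a window of length
   `r lam + 2 lam + 2`; the parent edges of ancestors of a fixed `x` with height in `[lo, hi]` cost at most
   `hi - lo + lam` in total.  So each cut node costs at most `(2 r + 11) lam`.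
A cut base edge is counted twice in the statement (both darts).

## `euler`
Let `Z = {χ | hypothesis of PL}` (a subspace of `D → 𝔽₂` cut out by `card D / 2` equations, one for each
`α`-pair), `V₀ = {ψ | ψ (α d) = ψ (φ d)}`, `F₀ = {κ | κ (φ d) = κ d}`.  `PL` says `Z ≤ V₀ ⊔ F₀`, so
`card D / 2 ≤ dim V₀ + dim F₀`, `dim F₀ ≤ card Tr`.  With the permutation `ρ = α ∘ φ` (conjugate form:
`ψ ∘ φ` is `φ⁻¹ α`-invariant; equivalently `ψ` is `φ α`-invariant), `dim V₀ ≤` number of orbits
`≤ n₁ + n₂/2 + n₃/3`, where `nᵢ` counts darts on orbits of length `1`, `2`, `≥ 3`.  Note that `d ↦ φ d` (or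
`d ↦ α d`) matches the counts for `α φ`, `φ α` and their inverses.  Hence `n₃ ≤ 3 n₁ + 6 card Tr`.

## `exists_idx`
`rep d` = chosen point of the cycle of `d`, `pos d` = least `j` with `φ^j (rep d) = d`,
`idx d = card D * e (rep d) + pos d`, `Last = {d | φ d = rep d}`.
-/

set_option autoImplicit false

namespace Crest.Agent.R177

open Finset

open Classical in
theorem cluster {D : Type} [Fintype D] (φ : Equiv.Perm D) (α : D → D) (hα : ∀ d, α (α d) = d)
    (hne : ∀ d, α d ≠ d) (hpl : PL φ α) (lam r b₀ : ℕ) (hlam : 0 < lam) (hr : 0 < r)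
    (hb : 0 < b₀) :
    ∃ cl : D → ℕ × D, (∀ y, (univ.filter (fun d => cl d = y)).card ≤ 4 * b₀) ∧
      (((univ.filter (fun d => cl (α d) ≠ cl d)).card : ℝ) +
          lam * ((univ.filter (fun d => cl (φ d) ≠ cl d)).card : ℝ) ≤
        (4 / (r : ℝ) + (4 * r + 22) * lam / (b₀ : ℝ)) * Fintype.card D) :=
  Cl.cluster' φ α hα hne hpl lam r b₀ hlam hr hb

open Classical in
theorem euler {D : Type} [Fintype D] (φ : Equiv.Perm D) (α : D → D) (hα : ∀ d, α (α d) = d)
    (hne : ∀ d, α d ≠ d) (hpl : PL φ α) (Tr : Finset D) (hTr : ∀ d, ∃ k : ℕ, (φ ^ k) d ∈ Tr) :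
    (univ.filter (fun d => α (φ (α (φ d))) ≠ d)).card ≤
      3 * (univ.filter (fun d => α d = φ d)).card + 6 * Tr.card :=
  euler' φ α hα hne hpl Tr hTr

theorem exists_idx {D : Type} [Fintype D] (φ : Equiv.Perm D) :
    ∃ (idx : D → ℕ) (Last : Finset D), Function.Injective idx ∧
      (∀ d, d ∉ Last → idx (φ d) = idx d + 1) ∧ (∀ d, ∃ k : ℕ, (φ ^ k) d ∈ Last) ∧
      ∀ d ∈ Last, ∀ d' ∈ Last, ∀ k : ℕ, (φ ^ k) d = d' → d = d' :=
  exists_idx' φ

end Crest.Agent.R177
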