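import Mathlib

/-! Task R177-C, part A: shortest path forests and forest partitions. -/

set_option autoImplicit false

namespace Crest.Agent.R177.Cl

open Finset

/-- A shortest path forest of a multigraph with allowed edges `al` and costs `c`. -/
structure Forest {N E : Type} (p₀ p₁ : E → N) (al : E → Prop) (c : E → ℕ) where
  ht : N → ℕ
  up : N → N
  root : N → N
  par : N → Option E
  hnone : ∀ v, par v = none → up v = v ∧ root v = v
  hsome : ∀ v e, par v = some e → al e ∧ ((p₀ e = v ∧ p₁ e = up v) ∨ (p₁ e = v ∧ p₀ e = up v)) ∧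
    ht v = ht (up v) + c e ∧ root (up v) = root v
  hal : ∀ e, al e → root (p₀ e) = root (p₁ e) ∧ ht (p₀ e) ≤ ht (p₁ e) + c e ∧
    ht (p₁ e) ≤ ht (p₀ e) + c e
  cpos : ∀ e, 1 ≤ c e

/-- reachability from a root at a given cost -/
inductive Reach {N E : Type} (p₀ p₁ : E → N) (al : E → Prop) (c : E → ℕ) (root : N → N) :
    N → ℕ → Prop
  | base (v : N) : root v = v → Reach p₀ p₁ al c root v 0
  | fwd (e : E) (k : ℕ) : al e → Reach p₀ p₁ al c root (p₀ e) k →
      Reach p₀ p₁ al c root (p₁ e) (k + c e)
  | bwd (e : E) (k : ℕ) : al e → Reach p₀ p₁ al c root (p₁ e) k →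
      Reach p₀ p₁ al c root (p₀ e) (k + c e)

theorem exists_forest {N E : Type} (p₀ p₁ : E → N) (al : E → Prop) (c : E → ℕ)
    (hc : ∀ e, 1 ≤ c e) : Nonempty (Forest p₀ p₁ al c) := by
  classical
  let r : N → N → Prop := fun x y => ∃ e, al e ∧ p₀ e = x ∧ p₁ e = y
  let root : N → N := fun v => (Quot.mk r v).out
  have hrr : ∀ v, root (root v) = root v := fun v => by simp [root]
  have hre : ∀ e, al e → root (p₀ e) = root (p₁ e) := fun e he => by
    simp only [root]
    rw [Quot.sound (show r (p₀ e) (p₁ e) from ⟨e, he, rfl, rfl⟩)]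
  have hreach : ∀ v, ∃ k, Reach p₀ p₁ al c root v k := by
    have key : ∀ x y, Relation.EqvGen r x y →
        ((∃ k, Reach p₀ p₁ al c root x k) ↔ ∃ k, Reach p₀ p₁ al c root y k) := by
      intro x y h
      induction h with
      | rel x y h =>
        obtain ⟨e, he, rfl, rfl⟩ := h
        exact ⟨fun ⟨k, hk⟩ => ⟨_, Reach.fwd e k he hk⟩, fun ⟨k, hk⟩ => ⟨_, Reach.bwd e k he hk⟩⟩
      | refl => rfl
      | symm _ _ _ ih => exact ih.symm
      | trans _ _ _ _ _ ih1 ih2 => exact ih1.trans ih2
    intro v
    have : Relation.EqvGen r (root v) v := Quot.eqvGen_exact (by simp [root])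
    exact (key _ _ this).1 ⟨0, Reach.base _ (hrr v)⟩
  let ht : N → ℕ := fun v => Nat.find (hreach v)
  have hspec : ∀ v, Reach p₀ p₁ al c root v (ht v) := fun v => Nat.find_spec (hreach v)
  have hmin : ∀ v k, Reach p₀ p₁ al c root v k → ht v ≤ k := fun v k h => Nat.find_min' _ h
  have h01 : ∀ e, al e → ht (p₀ e) ≤ ht (p₁ e) + c e := fun e he =>
    hmin _ _ (Reach.bwd e _ he (hspec _))
  have h10 : ∀ e, al e → ht (p₁ e) ≤ ht (p₀ e) + c e := fun e he =>
    hmin _ _ (Reach.fwd e _ he (hspec _))
  have hex : ∀ v, ∃ (u : N) (o : Option E), (o = none → u = v ∧ root v = v) ∧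
      ∀ e, o = some e → al e ∧ ((p₀ e = v ∧ p₁ e = u) ∨ (p₁ e = v ∧ p₀ e = u)) ∧
        ht v = ht u + c e ∧ root u = root v := by
    intro v
    have h := hspec v
    generalize hk : ht v = k at h
    cases h with
    | base _ h => exact ⟨v, none, fun _ => ⟨rfl, h⟩, fun e he => by cases he⟩
    | fwd e k he h =>
      refine ⟨p₀ e, some e, fun h => (by cases h), fun e' he' => ?_⟩
      cases he'
      have := hmin _ _ h
      have := h10 e he
      exact ⟨he, Or.inr ⟨rfl, rfl⟩, by omega, hre e he⟩
    | bwd e k he h =>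
      refine ⟨p₁ e, some e, fun h => (by cases h), fun e' he' => ?_⟩
      cases he'
      have := hmin _ _ h
      have := h01 e he
      exact ⟨he, Or.inl ⟨rfl, rfl⟩, by omega, (hre e he).symm⟩
  choose up par h1 h2 using hex
  exact ⟨⟨ht, up, root, par, h1, h2, fun e he => ⟨hre e he, h01 e he, h10 e he⟩, hc⟩⟩

namespace Forest

variable {N E : Type} {p₀ p₁ : E → N} {al : E → Prop} {c : E → ℕ} (F : Forest p₀ p₁ al c)

theorem ind {P : N → Prop} (h0 : ∀ v, F.par v = none → P v)
    (h1 : ∀ v e, F.par v = some e → P (F.up v) → P v) : ∀ v, P v := by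
  have : ∀ k v, F.ht v < k → P v := by
    intro k
    induction k with
    | zero => intro v h; omega
    | succ k ih =>
      intro v hv
      cases h : F.par v with
      | none => exact h0 v h
      | some e =>
        have := (F.hsome v e h).2.2.1
        have := F.cpos e
        exact h1 v e h (ih _ (by omega))
  exact fun v => this _ v (Nat.lt_succ_self _)

theorem ht_up_le (v : N) : F.ht (F.up v) ≤ F.ht v := by
  cases h : F.par v with
  | none => rw [(F.hnone v h).1]
  | some e => have := (F.hsome v e h).2.2.1; omega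

/-- `y` is an ancestor of `x` -/
def Anc (x y : N) : Prop := ∃ n, F.up^[n] x = y

theorem anc_refl (x : N) : F.Anc x x := ⟨0, rfl⟩

theorem anc_of_up {x y : N} (h : F.Anc (F.up x) y) : F.Anc x y := by
  obtain ⟨n, hn⟩ := h
  exact ⟨n + 1, hn⟩

theorem anc_cases {x y : N} (h : F.Anc x y) : x = y ∨ F.Anc (F.up x) y := by
  obtain ⟨n, hn⟩ := h
  cases n with
  | zero => exact Or.inl hn
  | succ n => exact Or.inr ⟨n, hn⟩

theorem anc_ht {x y : N} (h : F.Anc x y) : F.ht y ≤ F.ht x := by
  obtain ⟨n, hn⟩ := h
  induction n generalizing x with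
  | zero => rw [← hn]; rfl
  | succ n ih => exact (ih hn).trans (F.ht_up_le x)

theorem anc_root (x : N) : F.Anc x (F.root x) := by
  refine F.ind (P := fun x => F.Anc x (F.root x)) ?_ ?_ x
  · intro v h
    rw [(F.hnone v h).2]; exact F.anc_refl v
  · intro v e h ih
    rw [(F.hsome v e h).2.2.2] at ih
    exact F.anc_of_up ih

theorem root_up (x : N) : F.root (F.up x) = F.root x := by
  cases h : F.par x with
  | none => rw [(F.hnone x h).1]
  | some e => exact (F.hsome x e h).2.2.2

theorem anc_child {x y : N} (h : F.Anc x y) (hne : x ≠ y) :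
    ∃ z e, F.par z = some e ∧ F.up z = y ∧ F.Anc x z := by
  obtain ⟨n, hn⟩ := h
  induction n generalizing x with
  | zero => exact absurd hn hne
  | succ n ih =>
    by_cases h1 : F.up x = y
    · cases h : F.par x with
      | none => rw [(F.hnone x h).1] at h1; exact absurd h1 hne
      | some e => exact ⟨x, e, h, h1, F.anc_refl x⟩
    · obtain ⟨z, e, h2, h3, h4⟩ := ih h1 hn
      exact ⟨z, e, h2, h3, F.anc_of_up h4⟩

theorem const_of_up {M : Type} (g : N → M) (hg : ∀ v e, F.par v = some e → g (F.up v) = g v)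
    (v : N) : g (F.root v) = g v := by
  refine F.ind (P := fun v => g (F.root v) = g v) ?_ ?_ v
  · intro v h; rw [(F.hnone v h).2]
  · intro v e h ih
    rw [F.root_up] at ih
    rw [ih, hg v e h]

open Classical in
theorem window [Fintype N] (lam lo hi : ℕ) (hc : ∀ e, c e ≤ lam) (x : N) :
    ∑ v ∈ univ.filter (fun v => F.Anc x v ∧ lo ≤ F.ht v ∧ F.ht v ≤ hi),
      (F.ht v - F.ht (F.up v)) ≤ hi + lam - lo := by
  have key : ∀ x, ∑ v ∈ univ.filter (fun v => F.Anc x v ∧ lo ≤ F.ht v ∧ F.ht v ≤ hi),
      (F.ht v - F.ht (F.up v)) ≤ min (F.ht x) hi + lam - lo := by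
    refine F.ind ?_ ?_
    · intro v h
      rw [sum_eq_zero]
      · exact Nat.zero_le _
      · intro w hw
        obtain ⟨n, hn⟩ := (mem_filter.1 hw).2.1
        rw [Function.iterate_fixed (F.hnone v h).1] at hn
        rw [← hn, (F.hnone v h).1, Nat.sub_self]
    · intro v e h ih
      have h1 := (F.hsome v e h).2.2.1
      have h2 := hc e
      by_cases hw : lo ≤ F.ht v ∧ F.ht v ≤ hi
      · have hsub : univ.filter (fun w => F.Anc v w ∧ lo ≤ F.ht w ∧ F.ht w ≤ hi) ⊆
            insert v (univ.filter (fun w => F.Anc (F.up v) w ∧ lo ≤ F.ht w ∧ F.ht w ≤ hi)) := by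
          intro w hw
          simp only [mem_filter, mem_univ, true_and, mem_insert] at hw ⊢
          rcases F.anc_cases hw.1 with h | h
          · exact Or.inl h.symm
          · exact Or.inr ⟨h, hw.2⟩
        refine (sum_le_sum_of_subset hsub).trans ?_
        rw [sum_insert]
        · omega
        · intro hv
          have := F.anc_ht (mem_filter.1 hv).2.1
          have := F.cpos e
          omega
      · have hsub : univ.filter (fun w => F.Anc v w ∧ lo ≤ F.ht w ∧ F.ht w ≤ hi) ⊆
            univ.filter (fun w => F.Anc (F.up v) w ∧ lo ≤ F.ht w ∧ F.ht w ≤ hi) := by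
          intro w hw'
          simp only [mem_filter, mem_univ, true_and] at hw' ⊢
          rcases F.anc_cases hw'.1 with h | h
          · subst h; exact absurd hw'.2 hw
          · exact ⟨h, hw'.2⟩
        refine (sum_le_sum_of_subset hsub).trans (ih.trans ?_)
        omega
  exact (key x).trans (by omega)

open Classical in
theorem children_le [Fintype N] [Fintype E]
    (hD : ∀ t, (univ.filter (fun e => p₀ e = t ∨ p₁ e = t)).card ≤ 3) (y : N) :
    (univ.filter (fun z => (∃ e, F.par z = some e) ∧ F.up z = y)).card ≤ 3 := by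
  refine le_trans ?_ (hD y)
  rw [← card_image_of_injective (univ.filter (fun e => p₀ e = y ∨ p₁ e = y))
    (Option.some_injective E)]
  refine card_le_card_of_injOn F.par ?_ ?_
  · intro z hz
    simp only [coe_filter, mem_univ, true_and, Set.mem_setOf_eq] at hz
    obtain ⟨⟨e, he⟩, hy⟩ := hz
    simp only [coe_image, coe_filter, mem_univ, true_and, Set.mem_image, Set.mem_setOf_eq]
    refine ⟨e, ?_, he.symm⟩
    rcases (F.hsome z e he).2.1 with h | h
    · exact Or.inr (h.2.trans hy)
    · exact Or.inl (h.2.trans hy)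
  · intro z hz z' hz' hzz
    simp only [coe_filter, mem_univ, true_and, Set.mem_setOf_eq] at hz hz'
    obtain ⟨⟨e, he⟩, hy⟩ := hz
    obtain ⟨-, hy'⟩ := hz'
    have he' : F.par z' = some e := by rw [← hzz, he]
    have a1 := F.hsome z e he
    have a2 := F.hsome z' e he'
    have := F.cpos e
    rcases a1.2.1 with h | h <;> rcases a2.2.1 with h' | h'
    · exact h.1.symm.trans h'.1
    · have e1 : z = F.up z' := h.1.symm.trans h'.2
      have e2 := a1.2.2.1
      rw [hy, ← hy', ← e1] at e2
      omega
    · have e1 : z = F.up z' := h.1.symm.trans h'.2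
      have e2 := a1.2.2.1
      rw [hy, ← hy', ← e1] at e2
      omega
    · exact h.1.symm.trans h'.1

open Classical in
theorem partition [Fintype N] [Fintype E]
    (hD : ∀ t, (univ.filter (fun e => p₀ e = t ∨ p₁ e = t)).card ≤ 3) (b₀ : ℕ) (hb : 0 < b₀)
    (w : N → Prop) : ∃ (Cut : Finset N) (top : N → N), (∀ t, t ∉ Cut → top (F.up t) = top t) ∧
      b₀ * Cut.card ≤ (univ.filter w).card ∧
      ∀ y, (univ.filter (fun t => w t ∧ top t = y)).card ≤ 4 * b₀ := by
  have key : ∀ U : Finset N, (∀ t ∈ U, F.up t ∈ U) → ∃ (Cut : Finset N) (top : N → N),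
      (∀ t ∈ U, t ∉ Cut → top (F.up t) = top t) ∧ (∀ t ∈ U, top t ∈ U) ∧
      b₀ * Cut.card ≤ (U.filter w).card ∧
      ∀ y, (U.filter (fun t => w t ∧ top t = y)).card ≤ 4 * b₀ := by
    intro U
    induction U using Finset.strongInduction with
    | H U ih =>
    intro hU
    have hUa : ∀ t ∈ U, ∀ y, F.Anc t y → y ∈ U := by
      rintro t ht y ⟨n, rfl⟩
      induction n with
      | zero => exact ht
      | succ n ih => rw [Function.iterate_succ_apply']; exact hU _ ih
    let W : N → ℕ := fun y => (U.filter (fun t => w t ∧ F.Anc t y)).card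
    by_cases hex : (univ.filter (fun y => b₀ ≤ W y)).Nonempty
    · obtain ⟨y, hy, hmax⟩ := exists_max_image _ F.ht hex
      have hy1 : b₀ ≤ W y := (mem_filter.1 hy).2
      have hyU : y ∈ U := by
        obtain ⟨t, ht⟩ := card_pos.1 (lt_of_lt_of_le hb hy1)
        rw [mem_filter] at ht
        exact hUa t ht.1 y ht.2.2
      have hW : W y ≤ 4 * b₀ := by
        have hsub : U.filter (fun t => w t ∧ F.Anc t y) ⊆ insert y
            ((univ.filter (fun z => (∃ e, F.par z = some e) ∧ F.up z = y)).biUnion
              (fun z => U.filter (fun t => w t ∧ F.Anc t z))) := by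
          intro t ht
          rw [mem_filter] at ht
          by_cases hty : t = y
          · simp [hty]
          · obtain ⟨z, e, h1, h2, h3⟩ := F.anc_child ht.2.2 hty
            simp only [mem_insert, mem_biUnion, mem_filter, mem_univ, true_and]
            exact Or.inr ⟨z, ⟨⟨e, h1⟩, h2⟩, ht.1, ht.2.1, h3⟩
        refine (card_le_card hsub).trans ((card_insert_le _ _).trans ?_)
        have h1 := card_biUnion_le_card_mul (univ.filter
          (fun z => (∃ e, F.par z = some e) ∧ F.up z = y))
          (fun z => U.filter (fun t => w t ∧ F.Anc t z)) b₀ (by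
            intro z hz
            obtain ⟨⟨e, he⟩, hz⟩ := (mem_filter.1 hz).2
            by_contra hcon
            have h2 := hmax z (mem_filter.2 ⟨mem_univ _, le_of_lt (not_le.1 hcon)⟩)
            have h3 := (F.hsome z e he).2.2.1
            have := F.cpos e
            rw [hz] at h3
            omega)
        have h2 := Nat.mul_le_mul_right b₀ (F.children_le hD y)
        omega
      let U' := U.filter (fun t => ¬ F.Anc t y)
      have hss : U' ⊂ U := filter_ssubset.2 ⟨y, hyU, not_not.2 (F.anc_refl y)⟩
      have hU' : ∀ t ∈ U', F.up t ∈ U' := by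
        intro t ht
        rw [mem_filter] at ht ⊢
        exact ⟨hU t ht.1, fun h => ht.2 (F.anc_of_up h)⟩
      obtain ⟨Cut, top, h1, h2, h3, h4⟩ := ih U' hss hU'
      refine ⟨insert y Cut, fun t => if F.Anc t y then y else top t, ?_, ?_, ?_, ?_⟩
      · intro t ht hc
        rw [mem_insert, not_or] at hc
        by_cases ha : F.Anc t y
        · rcases F.anc_cases ha with h | h
          · exact absurd h hc.1
          · simp [ha, h]
        · have ha' : ¬ F.Anc (F.up t) y := fun h => ha (F.anc_of_up h)
          simp only [if_neg ha, if_neg ha']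
          exact h1 t (mem_filter.2 ⟨ht, ha⟩) hc.2
      · intro t ht
        by_cases ha : F.Anc t y
        · simpa [ha] using hyU
        · simp only [if_neg ha]
          exact (mem_filter.1 (h2 t (mem_filter.2 ⟨ht, ha⟩))).1
      · have e1 := card_filter_add_card_filter_not (s := U.filter w) (fun t => F.Anc t y)
        rw [filter_filter, filter_filter] at e1
        have e2 : U'.filter w = U.filter (fun t => w t ∧ ¬ F.Anc t y) := by
          simp only [U', filter_filter, and_comm]
        rw [e2] at h3
        have e3 := Nat.mul_le_mul_left b₀ (card_insert_le y Cut)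
        simp only [W] at hy1
        rw [mul_add] at e3
        omega
      · intro y'
        by_cases hyy : y' = y
        · subst hyy
          refine le_trans (card_le_card ?_) hW
          intro t ht
          rw [mem_filter] at ht ⊢
          refine ⟨ht.1, ht.2.1, ?_⟩
          by_contra ha
          have h5 := ht.2.2
          simp only [if_neg ha] at h5
          have h6 := h2 t (mem_filter.2 ⟨ht.1, ha⟩)
          rw [h5] at h6
          exact (mem_filter.1 h6).2 (F.anc_refl _)
        · refine le_trans (card_le_card ?_) (h4 y')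
          intro t ht
          rw [mem_filter] at ht ⊢
          by_cases ha : F.Anc t y
          · have h5 := ht.2.2
            simp only [if_pos ha] at h5
            exact absurd h5.symm hyy
          · have h5 := ht.2.2
            simp only [if_neg ha] at h5
            exact ⟨mem_filter.2 ⟨ht.1, ha⟩, ht.2.1, h5⟩
    · refine ⟨∅, F.root, fun t _ _ => F.root_up t, fun t ht => hUa t ht _ (F.anc_root t),
        by simp, fun y => ?_⟩
      have h1 : W y < b₀ := by
        by_contra h
        exact hex ⟨y, mem_filter.2 ⟨mem_univ _, not_lt.1 h⟩⟩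
      have h2 : (U.filter (fun t => w t ∧ F.root t = y)).card ≤ W y := by
        refine card_le_card fun t ht => ?_
        rw [mem_filter] at ht ⊢
        exact ⟨ht.1, ht.2.1, ht.2.2 ▸ F.anc_root t⟩
      omega
  obtain ⟨Cut, top, h1, -, h3, h4⟩ := key univ (fun _ _ => mem_univ _)
  exact ⟨Cut, top, fun t => h1 t (mem_univ _), h3, h4⟩

end Forest

theorem sum_le_cover {E I : Type} [DecidableEq E] (c : E → ℕ) (s : Finset I) (Y : I → Finset E)
    (X : Finset E) (h : ∀ e ∈ X, ∃ i ∈ s, e ∈ Y i) : ∑ e ∈ X, c e ≤ ∑ i ∈ s, ∑ e ∈ Y i, c e := by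
  have h1 : ∀ i ∈ s, ∑ e ∈ X, (if e ∈ Y i then c e else 0) ≤ ∑ e ∈ Y i, c e := by
    intro i _
    rw [← sum_filter]
    exact sum_le_sum_of_subset fun e he => (mem_filter.1 he).2
  refine le_trans ?_ (sum_le_sum h1)
  rw [sum_comm]
  refine sum_le_sum fun e he => ?_
  obtain ⟨i, hi, hei⟩ := h e he
  refine le_trans ?_ (single_le_sum (f := fun i => if e ∈ Y i then c e else 0)
    (fun _ _ => Nat.zero_le _) hi)
  simp [hei]

end Crest.Agent.R177.Cl
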