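import Crest.Agent.R177.ClusterA

/-! Task R177-C, part B: the abstract cluster lemma. -/

set_option autoImplicit false

namespace Crest.Agent.R177.Cl

open Finset

theorem dual_parent {N E T : Type} [Fintype E] {p₀ p₁ : E → N} {s₀ s₁ : E → T} {c : E → ℕ}
    (F : Forest p₀ p₁ (fun _ => True) c)
    (G : Forest s₀ s₁ (fun e => ∀ v, F.par v ≠ some e) (fun _ => 1))
    (hH : ∀ ω : E → ZMod 2, (∀ f : T → ZMod 2, ∑ e, ω e * (f (s₀ e) + f (s₁ e)) = 0) →
      ∃ g : N → ZMod 2, ∀ e, ω e = g (p₀ e) + g (p₁ e))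
    (e : E) (he : ∀ v, F.par v ≠ some e) : ∃ t, G.par t = some e := by
  classical
  have two : ∀ x : ZMod 2, x + x = 0 := by decide
  have hπ : ∀ t, ∃ π : E → ZMod 2, (∀ e, π e ≠ 0 → ∃ t', G.par t' = some e) ∧
      ∀ f : T → ZMod 2, ∑ e, π e * (f (s₀ e) + f (s₁ e)) = f t + f (G.root t) := by
    refine G.ind ?_ ?_
    · intro t h
      refine ⟨0, fun e h => absurd rfl h, fun f => ?_⟩
      rw [(G.hnone t h).2, two]; simp
    · rintro t e h ⟨π, h1, h2⟩
      refine ⟨π + Pi.single e 1, fun e' h' => ?_, fun f => ?_⟩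
      · by_cases hee : e' = e
        · exact ⟨t, hee ▸ h⟩
        · apply h1
          simpa [Pi.single_eq_of_ne hee] using h'
      · simp only [Pi.add_apply, add_mul, sum_add_distrib, h2]
        rw [sum_eq_single e (fun b _ hb => by simp [Pi.single_eq_of_ne hb]) (by simp), G.root_up]
        simp only [Pi.single_eq_same, one_mul]
        rcases (G.hsome t e h).2.1 with h3 | h3
        · rw [h3.1, h3.2]
          linear_combination two (f (G.up t))
        · rw [h3.1, h3.2]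
          linear_combination two (f (G.up t))
  choose π hπ1 hπ2 using hπ
  by_contra hcon
  push Not at hcon
  obtain ⟨g, hg⟩ := hH (Pi.single e 1 + π (s₀ e) + π (s₁ e)) (by
    intro f
    simp only [Pi.add_apply, add_mul, sum_add_distrib, hπ2]
    rw [sum_eq_single e (fun b _ hb => by simp [Pi.single_eq_of_ne hb]) (by simp),
      (G.hal e he).1]
    simp only [Pi.single_eq_same, one_mul]
    linear_combination two (f (s₀ e)) + two (f (s₁ e)) + two (f (G.root (s₁ e))))
  have hup : ∀ v e', F.par v = some e' → g (F.up v) = g v := by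
    intro v e' h
    have h0 : ∀ t, π t e' = 0 := by
      intro t
      by_contra h1
      obtain ⟨t', ht'⟩ := hπ1 t e' h1
      exact (G.hsome t' e' ht').1 v h
    have hne : e' ≠ e := fun h1 => he v (h1 ▸ h)
    have := hg e'
    simp only [Pi.add_apply, h0, Pi.single_eq_of_ne hne, add_zero] at this
    rcases (F.hsome v e' h).2.1 with h3 | h3
    · rw [h3.1, h3.2] at this
      linear_combination - this - two (g v)
    · rw [h3.1, h3.2] at this
      linear_combination - this - two (g v)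
  have h0 : ∀ t, π t e = 0 := by
    intro t
    by_contra h1
    obtain ⟨t', ht'⟩ := hπ1 t e h1
    exact hcon t' ht'
  have h1 := hg e
  simp only [Pi.add_apply, h0, Pi.single_eq_same, add_zero] at h1
  rw [← F.const_of_up g hup (p₀ e), ← F.const_of_up g hup (p₁ e), (F.hal e trivial).1, two] at h1
  exact absurd h1 (by decide)

theorem cut_edge {N E T : Type} [Fintype E] {p₀ p₁ : E → N} {s₀ s₁ : E → T} {c : E → ℕ}
    (F : Forest p₀ p₁ (fun _ => True) c)
    (G : Forest s₀ s₁ (fun e => ∀ v, F.par v ≠ some e) (fun _ => 1))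
    (hO : ∀ (f : T → ZMod 2) (g : N → ZMod 2),
      ∑ e, (f (s₀ e) + f (s₁ e)) * (g (p₀ e) + g (p₁ e)) = 0)
    (hH : ∀ ω : E → ZMod 2, (∀ f : T → ZMod 2, ∑ e, ω e * (f (s₀ e) + f (s₁ e)) = 0) →
      ∃ g : N → ZMod 2, ∀ e, ω e = g (p₀ e) + g (p₁ e))
    (Cut : Finset T) (top : T → T) (htop : ∀ t, t ∉ Cut → top (G.up t) = top t)
    (e : E) (he : top (s₀ e) ≠ top (s₁ e)) :
    ∃ t ∈ Cut, G.par t = some e ∨ ∃ v e', F.par v = some e ∧ G.par t = some e' ∧
      (F.Anc (p₀ e') v ∨ F.Anc (p₁ e') v) := by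
  classical
  have two : ∀ x : ZMod 2, x + x = 0 := by decide
  have nonT : ∀ e, (∀ v, F.par v ≠ some e) → top (s₀ e) ≠ top (s₁ e) →
      ∃ t ∈ Cut, G.par t = some e := by
    intro e h1 h2
    obtain ⟨t, ht⟩ := dual_parent F G hH e h1
    refine ⟨t, ?_, ht⟩
    by_contra hc
    have := htop t hc
    rcases (G.hsome t e ht).2.1 with h3 | h3
    · rw [h3.1, h3.2] at h2; exact h2 this.symm
    · rw [h3.1, h3.2] at h2; exact h2 this
  by_cases hT : ∀ v, F.par v ≠ some e
  · obtain ⟨t, h1, h2⟩ := nonT e hT he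
    exact ⟨t, h1, Or.inl h2⟩
  push Not at hT
  obtain ⟨v, hv⟩ := hT
  let f : T → ZMod 2 := fun t => if top t = top (s₀ e) then 1 else 0
  let g : N → ZMod 2 := fun x => if F.Anc x v then 1 else 0
  have hsum := hO f g
  have hv1 : ¬ F.Anc (F.up v) v := by
    intro h
    have := F.anc_ht h
    have := (F.hsome v e hv).2.2.1
    have := F.cpos e
    omega
  have hterm : (f (s₀ e) + f (s₁ e)) * (g (p₀ e) + g (p₁ e)) = 1 := by
    have h1 : f (s₀ e) + f (s₁ e) = 1 := by simp [f, he.symm]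
    have h2 : g (p₀ e) + g (p₁ e) = 1 := by
      rcases (F.hsome v e hv).2.1 with h3 | h3
      · rw [h3.1, h3.2]; simp [g, hv1, F.anc_refl]
      · rw [h3.1, h3.2]; simp [g, hv1, F.anc_refl]
    rw [h1, h2, one_mul]
  have hex : ∃ e', e' ≠ e ∧ (f (s₀ e') + f (s₁ e')) * (g (p₀ e') + g (p₁ e')) ≠ 0 := by
    by_contra hcon
    push Not at hcon
    rw [sum_eq_single e (fun b _ hb => hcon b hb) (by simp), hterm] at hsum
    exact absurd hsum (by decide)
  obtain ⟨e', hne, h'⟩ := hex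
  have hf : f (s₀ e') + f (s₁ e') ≠ 0 := left_ne_zero_of_mul h'
  have hg : g (p₀ e') + g (p₁ e') ≠ 0 := right_ne_zero_of_mul h'
  have h1 : ∀ v', F.par v' ≠ some e' := by
    intro v' hv'
    have hvv : v' ≠ v := by
      rintro rfl
      rw [hv] at hv'
      exact hne (Option.some_injective _ hv').symm
    have : g (F.up v') = g v' := by
      have : F.Anc (F.up v') v ↔ F.Anc v' v :=
        ⟨F.anc_of_up, fun h => (F.anc_cases h).resolve_left hvv⟩
      simp only [g, this]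
    apply hg
    rcases (F.hsome v' e' hv').2.1 with h3 | h3
    · rw [h3.1, h3.2, this, two]
    · rw [h3.1, h3.2, this, two]
  have h2 : top (s₀ e') ≠ top (s₁ e') := by
    intro h
    apply hf
    simp only [f, h, two]
  obtain ⟨t, ht1, ht2⟩ := nonT e' h1 h2
  refine ⟨t, ht1, Or.inr ⟨v, e', hv, ht2, ?_⟩⟩
  by_contra hcon
  rw [not_or] at hcon
  apply hg
  simp [g, hcon.1, hcon.2]

theorem one_offset (M a b : ℕ) (h1 : a ≤ b + 1) (h2 : b ≤ a + 1) :
    ((range M).filter (fun o => (a + o) / M ≠ (b + o) / M)).card ≤ 1 := by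
  have key : ∀ a : ℕ, ((range M).filter (fun o => (a + o) / M ≠ (a + 1 + o) / M)).card ≤ 1 := by
    intro a
    rw [card_le_one]
    intro o ho o' ho'
    rw [mem_filter, mem_range] at ho ho'
    have k : ∀ o, (a + o) / M ≠ (a + 1 + o) / M → M ∣ a + o + 1 := by
      intro o h
      by_contra hc
      rw [show a + 1 + o = a + o + 1 by ring, Nat.succ_div_of_not_dvd hc] at h
      exact h rfl
    have d1 := k o ho.2
    have d2 := k o' ho'.2
    have e1 : a + o + 1 ≡ a + o' + 1 [MOD M] :=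
      ((Nat.modEq_zero_iff_dvd.2 d1).trans (Nat.modEq_zero_iff_dvd.2 d2).symm)
    have e2 : o ≡ o' [MOD M] := Nat.ModEq.add_left_cancel' a (Nat.ModEq.add_right_cancel' 1 e1)
    exact Nat.ModEq.eq_of_lt_of_lt e2 ho.1 ho'.1
  rcases (by omega : a = b ∨ b = a + 1 ∨ a = b + 1) with h | h | h
  · subst h; simp
  · subst h; exact key a
  · subst h
    simpa only [ne_comm] using key b

open Classical in
theorem abstract_cluster {N E T : Type} [Fintype N] [Fintype E] [Fintype T] (p₀ p₁ : E → N)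
    (s₀ s₁ : E → T) (c : E → ℕ) (an : T → N) (lam r b₀ : ℕ) (hlam : 0 < lam) (hr : 0 < r)
    (hb : 0 < b₀) (hc1 : ∀ e, 1 ≤ c e) (hc2 : ∀ e, c e ≤ lam)
    (hO : ∀ (f : T → ZMod 2) (g : N → ZMod 2),
      ∑ e, (f (s₀ e) + f (s₁ e)) * (g (p₀ e) + g (p₁ e)) = 0)
    (hH : ∀ ω : E → ZMod 2, (∀ f : T → ZMod 2, ∑ e, ω e * (f (s₀ e) + f (s₁ e)) = 0) →
      ∃ g : N → ZMod 2, ∀ e, ω e = g (p₀ e) + g (p₁ e))
    (hD : ∀ t, (univ.filter (fun e => s₀ e = t ∨ s₁ e = t)).card ≤ 3)
    (hA : ∀ ht : N → ℕ, (∀ e, ht (p₀ e) ≤ ht (p₁ e) + c e ∧ ht (p₁ e) ≤ ht (p₀ e) + c e) →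
      ∀ e, ht (an (s₀ e)) ≤ ht (an (s₁ e)) + 1 ∧ ht (an (s₁ e)) ≤ ht (an (s₀ e)) + 1 ∧
        ht (p₀ e) ≤ ht (an (s₀ e)) + (lam + 1) ∧ ht (an (s₀ e)) ≤ ht (p₀ e) + (lam + 1) ∧
        ht (p₁ e) ≤ ht (an (s₀ e)) + (lam + 1) ∧ ht (an (s₀ e)) ≤ ht (p₁ e) + (lam + 1)) :
    ∃ cl : T → ℕ × T, (∀ y, (univ.filter (fun t => cl t = y)).card ≤ 4 * b₀) ∧
      ((∑ e ∈ univ.filter (fun e => cl (s₀ e) ≠ cl (s₁ e)), c e : ℕ) : ℝ) ≤
        Fintype.card E / (r : ℝ) + (2 * r + 11) * lam / (b₀ : ℝ) * Fintype.card T := by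
  obtain ⟨F⟩ := exists_forest p₀ p₁ (fun _ => True) c hc1
  obtain ⟨G⟩ := exists_forest s₀ s₁ (fun e => ∀ v, F.par v ≠ some e) (fun _ => 1)
    (fun _ => le_rfl)
  have hA' := hA F.ht (fun e => (F.hal e trivial).2)
  set M := r * lam with hM
  have hM0 : 0 < M := Nat.mul_pos hr hlam
  -- choice of the offset
  obtain ⟨o, ho, hoc⟩ : ∃ o ∈ range M, r * ∑ e ∈ univ.filter (fun e =>
      (F.ht (an (s₀ e)) + o) / M ≠ (F.ht (an (s₁ e)) + o) / M), c e ≤ Fintype.card E := by
    by_contra hcon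
    push Not at hcon
    have h1 : ∑ o ∈ range M, Fintype.card E < ∑ o ∈ range M, r * ∑ e ∈ univ.filter (fun e =>
        (F.ht (an (s₀ e)) + o) / M ≠ (F.ht (an (s₁ e)) + o) / M), c e :=
      sum_lt_sum_of_nonempty (nonempty_range_iff.2 hM0.ne') hcon
    rw [← mul_sum] at h1
    simp only [sum_filter] at h1
    rw [sum_comm] at h1
    have h2 : ∑ e : E, ∑ o ∈ range M, (if (F.ht (an (s₀ e)) + o) / M ≠
        (F.ht (an (s₁ e)) + o) / M then c e else 0) ≤ ∑ e : E, lam := by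
      refine sum_le_sum fun e _ => ?_
      rw [← sum_filter, sum_const, smul_eq_mul]
      have := one_offset M _ _ (hA' e).1 (hA' e).2.1
      calc _ ≤ 1 * lam := Nat.mul_le_mul this (hc2 e)
        _ = lam := one_mul _
    have h3 := Nat.mul_le_mul_left r h2
    simp only [sum_const, card_range, smul_eq_mul, card_univ] at h1 h3
    have : r * (Fintype.card E * lam) = M * Fintype.card E := by rw [hM]; ring
    omega
  let lay : T → ℕ := fun t => (F.ht (an t) + o) / M
  choose Cut top h1 h2 h3 using fun j => G.partition hD b₀ hb (fun t => lay t = j)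
  refine ⟨fun t => (lay t, top (lay t) t), ?_, ?_⟩
  · rintro ⟨j, y⟩
    refine le_trans (card_le_card ?_) (h3 j y)
    intro t ht
    simp only [mem_filter, mem_univ, true_and, Prod.mk.injEq] at ht ⊢
    exact ⟨ht.1, ht.1 ▸ ht.2⟩
  let lo : ℕ → ℕ := fun j => j * M - o - (lam + 1)
  let hi : ℕ → ℕ := fun j => j * M + M - o + (lam + 1)
  let win : ℕ → N → Finset E := fun j x => univ.filter (fun e => ∃ v, F.par v = some e ∧
    F.Anc x v ∧ lo j ≤ F.ht v ∧ F.ht v ≤ hi j)
  have hwin : ∀ j x, ∑ e ∈ win j x, c e ≤ M + 3 * lam + 2 := by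
    intro j x
    have a1 := sum_le_cover c (univ.filter (fun v => F.Anc x v ∧ lo j ≤ F.ht v ∧ F.ht v ≤ hi j))
      (fun v => univ.filter (fun e => F.par v = some e)) (win j x) (by
        intro e he
        obtain ⟨v, hv1, hv2⟩ := (mem_filter.1 he).2
        exact ⟨v, mem_filter.2 ⟨mem_univ _, hv2⟩, mem_filter.2 ⟨mem_univ _, hv1⟩⟩)
    have a2 := F.window lam (lo j) (hi j) hc2 x
    have a3 : ∀ v, ∑ e ∈ univ.filter (fun e => F.par v = some e), c e ≤
        F.ht v - F.ht (F.up v) := by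
      intro v
      cases h : F.par v with
      | none => simp
      | some e =>
        have := (F.hsome v e h).2.2.1
        have e1 : univ.filter (fun e' => some e = some e') = {e} := by
          ext e'; simp [eq_comm]
        rw [e1, sum_singleton]
        omega
    have a4 := sum_le_sum (s := univ.filter
      (fun v => F.Anc x v ∧ lo j ≤ F.ht v ∧ F.ht v ≤ hi j)) (fun v _ => a3 v)
    have a5 : hi j + lam - lo j ≤ M + 3 * lam + 2 := by
      simp only [hi, lo]; omega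
    omega
  let Y : ℕ → T → Finset E := fun j t => univ.filter (fun e => G.par t = some e ∨
    ∃ e', G.par t = some e' ∧ (e ∈ win j (p₀ e') ∨ e ∈ win j (p₁ e')))
  have hY : ∀ j t, ∑ e ∈ Y j t, c e ≤ (2 * r + 11) * lam := by
    intro j t
    cases h : G.par t with
    | none => simp [Y, h]
    | some e' =>
      have a1 := sum_le_cover c (univ : Finset (Fin 3))
        (fun i => ![{e'}, win j (p₀ e'), win j (p₁ e')] i) (Y j t) (by
          intro e he
          rcases (mem_filter.1 he).2 with h' | ⟨e'', h', h''⟩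
          · rw [h] at h'
            exact ⟨0, mem_univ _, by simp [Option.some_injective _ h']⟩
          · rw [h] at h'
            cases h'
            rcases h'' with h'' | h''
            · exact ⟨1, mem_univ _, h''⟩
            · exact ⟨2, mem_univ _, h''⟩)
      rw [Fin.sum_univ_three] at a1
      simp only [Matrix.cons_val_zero, Matrix.cons_val_one, Matrix.cons_val, sum_singleton] at a1
      have a2 := hwin j (p₀ e')
      have a3 := hwin j (p₁ e')
      have a4 := hc2 e'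
      have a5 : (2 * r + 11) * lam = 2 * M + 11 * lam := by rw [hM]; ring
      omega
  let J : Finset ℕ := univ.image lay
  let X₁ : Finset E := univ.filter (fun e => lay (s₀ e) ≠ lay (s₁ e))
  let X₂ : Finset E := univ.filter (fun e => lay (s₀ e) = lay (s₁ e) ∧
    top (lay (s₀ e)) (s₀ e) ≠ top (lay (s₀ e)) (s₁ e))
  have b1 := sum_le_cover c (univ : Finset (Fin 2)) (fun i => ![X₁, X₂] i)
    (univ.filter (fun e => (lay (s₀ e), top (lay (s₀ e)) (s₀ e)) ≠
      (lay (s₁ e), top (lay (s₁ e)) (s₁ e)))) (by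
      intro e he
      have he' := (mem_filter.1 he).2
      by_cases hl : lay (s₀ e) = lay (s₁ e)
      · refine ⟨1, mem_univ _, mem_filter.2 ⟨mem_univ _, hl, fun h => he' ?_⟩⟩
        rw [h, hl]
      · exact ⟨0, mem_univ _, mem_filter.2 ⟨mem_univ _, hl⟩⟩)
  rw [Fin.sum_univ_two] at b1
  simp only [Matrix.cons_val_zero, Matrix.cons_val_one] at b1
  have b2 := sum_le_cover c (J.sigma Cut) (fun i => Y i.1 i.2) X₂ (by
    intro e he
    obtain ⟨hl, he'⟩ := (mem_filter.1 he).2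
    obtain ⟨t, ht, h⟩ := cut_edge F G hO hH (Cut (lay (s₀ e))) (top (lay (s₀ e))) (h1 _) e he'
    refine ⟨⟨lay (s₀ e), t⟩, mem_sigma.2 ⟨mem_image_of_mem _ (mem_univ _), ht⟩,
      mem_filter.2 ⟨mem_univ _, ?_⟩⟩
    rcases h with h | ⟨v, e', hv, he'', h⟩
    · exact Or.inl h
    · refine Or.inr ⟨e', he'', ?_⟩
      have hw : lo (lay (s₀ e)) ≤ F.ht v ∧ F.ht v ≤ hi (lay (s₀ e)) := by
        have q1 := Nat.div_add_mod (F.ht (an (s₀ e)) + o) M
        have q2 := Nat.mod_lt (F.ht (an (s₀ e)) + o) hM0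
        have q3 := hA' e
        simp only [lo, hi, lay]
        rw [mul_comm _ M]
        rcases (F.hsome v e hv).2.1 with h3 | h3
        · rw [h3.1] at q3; omega
        · rw [h3.1] at q3; omega
      rcases h with h | h
      · exact Or.inl (mem_filter.2 ⟨mem_univ _, v, hv, h, hw⟩)
      · exact Or.inr (mem_filter.2 ⟨mem_univ _, v, hv, h, hw⟩))
  have b3 : ∑ i ∈ J.sigma Cut, ∑ e ∈ Y i.1 i.2, c e ≤ (J.sigma Cut).card * ((2 * r + 11) * lam) := by
    rw [← smul_eq_mul]
    exact sum_le_card_nsmul _ _ _ fun i _ => hY i.1 i.2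
  have b4 : b₀ * (J.sigma Cut).card ≤ Fintype.card T := by
    rw [card_sigma, mul_sum, ← card_univ, card_eq_sum_card_image lay univ]
    refine sum_le_sum fun j _ => ?_
    refine (h2 j).trans (le_of_eq ?_)
    congr
  have r0 : (0 : ℝ) < r := by exact_mod_cast hr
  have b0 : (0 : ℝ) < b₀ := by exact_mod_cast hb
  have c1 : ((∑ e ∈ X₁, c e : ℕ) : ℝ) ≤ Fintype.card E / (r : ℝ) := by
    rw [le_div_iff₀ r0, mul_comm]
    exact_mod_cast hoc
  have c2 : (((J.sigma Cut).card : ℕ) : ℝ) ≤ Fintype.card T / (b₀ : ℝ) := by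
    rw [le_div_iff₀ b0, mul_comm]
    exact_mod_cast b4
  have c3 : ((∑ e ∈ X₂, c e : ℕ) : ℝ) ≤ ((J.sigma Cut).card : ℝ) * ((2 * r + 11) * lam) := by
    exact_mod_cast b2.trans b3
  have c4 : ((J.sigma Cut).card : ℝ) * ((2 * r + 11) * lam) ≤
      Fintype.card T / (b₀ : ℝ) * ((2 * r + 11) * lam) := by gcongr
  have c5 : ((∑ e ∈ univ.filter (fun e => (lay (s₀ e), top (lay (s₀ e)) (s₀ e)) ≠
      (lay (s₁ e), top (lay (s₁ e)) (s₁ e))), c e : ℕ) : ℝ) ≤
      ((∑ e ∈ X₁, c e : ℕ) : ℝ) + ((∑ e ∈ X₂, c e : ℕ) : ℝ) := by exact_mod_cast b1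
  have c6 : Fintype.card T / (b₀ : ℝ) * ((2 * r + 11) * lam) =
      (2 * r + 11) * lam / (b₀ : ℝ) * Fintype.card T := by ring
  refine le_trans (le_of_eq ?_) (c5.trans (by linarith))
  congr

end Crest.Agent.R177.Cl
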