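import Crest.Agent.R177.Alg

/-! Auxiliary results for `design_two` (helper3): involutions, constants, generic vertex systems. -/

set_option autoImplicit false

namespace Crest.Agent.R177.D2

open Finset

theorem exists_invol_aux {P : Type} [DecidableEq P] (n : ℕ) : ∀ s t : Finset P, s.card = 2 * n →
    t ⊆ s → t.card ≤ n →
    ∃ f : P → P, ∀ c ∈ s, f c ∈ s ∧ f c ≠ c ∧ f (f c) = c ∧ (c ∈ t → f c ∉ t) := by
  induction n with
  | zero =>
    intro s t hs _ _
    rw [mul_zero, card_eq_zero] at hs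
    exact ⟨id, by simp [hs]⟩
  | succ n ih =>
    intro s t hs hts ht
    obtain ⟨a, b, ha, hb, hab, hbt, hat⟩ : ∃ a b, a ∈ s ∧ b ∈ s ∧ a ≠ b ∧ b ∉ t ∧
        (t.erase a).card ≤ n := by
      rcases t.eq_empty_or_nonempty with rfl | ⟨a, ha⟩
      · obtain ⟨a, ha, b, hb, hab⟩ := one_lt_card.1 (by omega : 1 < s.card)
        exact ⟨a, b, ha, hb, hab, by simp, by simp⟩
      · have : (s \ t).Nonempty := by
          rw [← card_pos, card_sdiff_of_subset hts]; omega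
        obtain ⟨b, hb⟩ := this
        rw [mem_sdiff] at hb
        refine ⟨a, b, hts ha, hb.1, fun h => hb.2 (h ▸ ha), hb.2, ?_⟩
        rw [card_erase_of_mem ha]; omega
    obtain ⟨f, hf⟩ := ih ((s.erase a).erase b) (t.erase a) (by
      rw [card_erase_of_mem (mem_erase.2 ⟨hab.symm, hb⟩), card_erase_of_mem ha]; omega)
      (by
        intro c hc
        rw [mem_erase] at hc
        exact mem_erase.2 ⟨fun h => hbt (h ▸ hc.2), mem_erase.2 ⟨hc.1, hts hc.2⟩⟩) hat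
    refine ⟨fun c => if c = a then b else if c = b then a else f c, fun c hc => ?_⟩
    by_cases h1 : c = a
    · subst h1
      simp [hb, hab.symm, hbt]
    by_cases h2 : c = b
    · subst h2
      simp [ha, hab, h1, hbt]
    obtain ⟨e1, e2, e3, e4⟩ := hf c (mem_erase.2 ⟨h2, mem_erase.2 ⟨h1, hc⟩⟩)
    simp only [mem_erase] at e1 e4
    simp only [h1, h2, if_false, e1.1, e1.2.1, e3]
    exact ⟨e1.2.2, e2, trivial, fun hct h => e4 ⟨h1, hct⟩ ⟨e1.2.1, h⟩⟩

theorem exists_invol {P T : Type} [Fintype P] [DecidableEq P] [DecidableEq T] (π : P → T)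
    (Sp : Finset P) (h1 : ∀ k, Even (univ.filter (fun c => π c = k)).card)
    (h2 : ∀ k, 2 * (Sp.filter (fun c => π c = k)).card ≤ (univ.filter (fun c => π c = k)).card) :
    ∃ σ : P → P, (∀ c, σ (σ c) = c) ∧ (∀ c, σ c ≠ c) ∧ (∀ c, π (σ c) = π c) ∧
      ∀ c ∈ Sp, σ c ∉ Sp := by
  have : ∀ k, ∃ f : P → P, ∀ c ∈ univ.filter (fun c => π c = k),
      f c ∈ univ.filter (fun c => π c = k) ∧ f c ≠ c ∧ f (f c) = c ∧
      (c ∈ Sp.filter (fun c => π c = k) → f c ∉ Sp.filter (fun c => π c = k)) := by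
    intro k
    obtain ⟨n, hn⟩ := h1 k
    refine exists_invol_aux n _ _ (by omega) (filter_subset_filter _ (subset_univ _)) ?_
    have := h2 k
    omega
  choose f hf using this
  have hf' := fun c => hf (π c) c (by simp)
  simp only [mem_filter, mem_univ, true_and, and_true] at hf'
  refine ⟨fun c => f (π c) c, fun c => ?_, fun c => (hf' c).2.1, fun c => (hf' c).1,
    fun c hc h => (hf' c).2.2.2 hc ⟨h, (hf' c).1⟩⟩
  simp only [(hf' c).1, (hf' c).2.2.1]

theorem nums (q : ℝ) (hq : 2 ^ 30 ≤ q) : ∃ r₁ r₂ θ : ℝ, q + 1 ≤ 100 * q ^ 3 ∧ 1000000000 ≤ q ∧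
    999 / 1000 ≤ θ ∧ θ < 1 ∧ 1 / (100 * q ^ 3) ≤ r₁ ∧ 1 / (100 * q ^ 3) ≤ r₂ ∧ 0 ≤ r₁ ∧ 0 ≤ r₂ ∧
    r₁ ≤ 1 / 8 ∧ r₂ ≤ 1 / 8 ∧ r₁ ^ 2 * 36000 ≤ 1 ∧ (q ^ 2 + q + 4) * r₁ ^ 2 ≤ 2304 ∧
    (q ^ 2 + q + 4) * r₂ ^ 2 + 12 * (r₁ ^ 2 * 3000) ≤ θ ∧ r₁ * (q + 1) = 48 ∧
    r₂ * (q + 1) = 1 + 1 / (4 * q) := by
  have hq0 : 0 < q := lt_of_lt_of_le (by norm_num) hq
  have hq1 : (1000000000 : ℝ) ≤ q := le_trans (by norm_num) hq
  have hq3 : q + 1 ≤ 100 * q ^ 3 := by nlinarith [sq_nonneg q, mul_pos hq0 hq0]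
  obtain ⟨r₁, hr₁⟩ : ∃ r₁ : ℝ, r₁ = 48 / (q + 1) := ⟨_, rfl⟩
  obtain ⟨r₂, hr₂⟩ : ∃ r₂ : ℝ, r₂ = (1 + 1 / (4 * q)) / (q + 1) := ⟨_, rfl⟩
  obtain ⟨θ, hθ⟩ : ∃ θ : ℝ, θ = 1 - 1 / (8 * q) := ⟨_, rfl⟩
  have hi : 1 / (8 * q) ≤ 1 / 1000 := by
    apply one_div_le_one_div_of_le <;> linarith
  have hi0 : 0 < 1 / (8 * q) := by positivity
  have hi4 : 1 / (4 * q) ≤ 1 := by
    rw [div_le_one (by positivity)]; linarith
  have hi40 : 0 < 1 / (4 * q) := by positivity
  have r1a : 1 / (q + 1) ≤ r₁ := by rw [hr₁]; gcongr; norm_num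
  have r2a : 1 / (q + 1) ≤ r₂ := by rw [hr₂]; gcongr; linarith
  have r1b : r₁ ≤ 1 / 8 := by rw [hr₁, div_le_iff₀ (by positivity)]; linarith
  have r2b : r₂ ≤ 1 / 8 := by rw [hr₂, div_le_iff₀ (by positivity)]; linarith
  have r0 : 0 < 1 / (q + 1) := by positivity
  have rC : 1 / (100 * q ^ 3) ≤ 1 / (q + 1) := one_div_le_one_div_of_le (by positivity) hq3
  have r1s : r₁ ^ 2 * (q + 1) ^ 2 = 2304 := by rw [hr₁]; field_simp; norm_num
  have r1t : r₁ ^ 2 * 36000 ≤ 1 := by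
    have : (36000 * 2304 : ℝ) ≤ (q + 1) ^ 2 := by nlinarith
    nlinarith [sq_nonneg r₁]
  have row1 : (q ^ 2 + q + 4) * r₂ ^ 2 + 12 * (r₁ ^ 2 * 3000) ≤ θ := by
    rw [hr₁, hr₂, hθ]
    have e1 : (q ^ 2 + q + 4) * ((1 + 1 / (4 * q)) / (q + 1)) ^ 2 + 12 * ((48 / (q + 1)) ^ 2 * 3000)
        = ((q ^ 2 + q + 4) * (4 * q + 1) ^ 2 + 12 * 2304 * 3000 * 16 * q ^ 2) /
          (16 * q ^ 2 * (q + 1) ^ 2) := by field_simp; ring
    have e2 : 1 - 1 / (8 * q) = (16 * q ^ 2 - 2 * q) * (q + 1) ^ 2 / (16 * q ^ 2 * (q + 1) ^ 2) := by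
      field_simp; ring
    rw [e1, e2]
    gcongr
    have h1 : 1000000000 * q ^ 2 ≤ q ^ 3 := by nlinarith [sq_nonneg q]
    have h2 : q ≤ q ^ 2 := by nlinarith
    have h3 : 1 ≤ q ^ 2 := by nlinarith
    nlinarith
  refine ⟨r₁, r₂, θ, hq3, hq1, by linarith, by linarith, by linarith, by linarith, by linarith,
    by linarith, r1b, r2b, r1t, ?_, row1, by rw [hr₁]; field_simp, by rw [hr₂]; field_simp⟩
  rw [← r1s, mul_comm]
  exact mul_le_mul_of_nonneg_left (by nlinarith) (sq_nonneg _)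

open Classical in
theorem row_in {P : Type} [Fintype P] (Sp S2 : Finset P) (hsub : Sp ⊆ S2) (hSp : (Sp.card : ℝ) ≤ 6)
    (hS2 : (S2.card : ℝ) ≤ 12) (r₁ r₂ θ : ℝ) (hθ : 999 / 1000 ≤ θ) (h1 : r₁ ^ 2 * 36000 ≤ 1)
    (h2 : (Fintype.card P : ℝ) * r₁ ^ 2 ≤ 2304) (c : P) (hc : c ∈ S2) :
    ∑ c' ∈ univ.erase c, (if c ∈ Sp ∧ c' ∈ Sp then (1 / 8 : ℝ) else
      if c ∈ S2 ∨ c' ∈ S2 then r₁ else r₂) ^ 2 * (if c' ∈ S2 then 3000 else 1) ≤ θ * 3000 := by
  have h0 := sq_nonneg r₁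
  calc _ ≤ ∑ c' ∈ univ.erase c, ((if c' ∈ Sp then (3000 / 64 : ℝ) else 0) +
          (if c' ∈ S2 then r₁ ^ 2 * 3000 else 0) + r₁ ^ 2) := by
        refine sum_le_sum fun c' _ => ?_
        by_cases h1 : c ∈ Sp ∧ c' ∈ Sp
        · have h2 : c' ∈ S2 := hsub h1.2
          rw [if_pos h1, if_pos h2, if_pos h1.2, if_pos h2]; linarith
        · rw [if_neg h1, if_pos (Or.inl hc)]
          split_ifs <;> linarith
    _ ≤ ∑ c', ((if c' ∈ Sp then (3000 / 64 : ℝ) else 0) +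
          (if c' ∈ S2 then r₁ ^ 2 * 3000 else 0) + r₁ ^ 2) := by
        refine sum_le_sum_of_subset_of_nonneg (erase_subset _ _) fun c' _ _ => ?_
        split_ifs <;> linarith
    _ = Sp.card * (3000 / 64) + S2.card * (r₁ ^ 2 * 3000) + Fintype.card P * r₁ ^ 2 := by
        rw [sum_add_distrib, sum_add_distrib, sum_ite_mem, sum_ite_mem, univ_inter, univ_inter]
        simp only [sum_const, nsmul_eq_mul, card_univ]
    _ ≤ θ * 3000 := by
        have h2 : (S2.card : ℝ) * (r₁ ^ 2 * 3000) ≤ 12 * (r₁ ^ 2 * 3000) := by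
          gcongr
        linarith

open Classical in
theorem row_out {P : Type} [Fintype P] (Sp S2 : Finset P) (hsub : Sp ⊆ S2)
    (hS2 : (S2.card : ℝ) ≤ 12) (r₁ r₂ θ : ℝ)
    (h2 : (Fintype.card P : ℝ) * r₂ ^ 2 + 12 * (r₁ ^ 2 * 3000) ≤ θ) (c : P) (hc : c ∉ S2) :
    ∑ c' ∈ univ.erase c, (if c ∈ Sp ∧ c' ∈ Sp then (1 / 8 : ℝ) else
      if c ∈ S2 ∨ c' ∈ S2 then r₁ else r₂) ^ 2 * (if c' ∈ S2 then 3000 else 1) ≤ θ := by
  have h0 := sq_nonneg r₁
  have h0' := sq_nonneg r₂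
  have hc1 : c ∉ Sp := fun h => hc (hsub h)
  calc _ ≤ ∑ c' ∈ univ.erase c, (r₂ ^ 2 + (if c' ∈ S2 then r₁ ^ 2 * 3000 else 0)) := by
        refine sum_le_sum fun c' _ => ?_
        rw [if_neg (fun h => hc1 h.1)]
        by_cases h2 : c' ∈ S2
        · simp only [h2, or_true, if_true]; linarith
        · simp [h2, hc]
    _ ≤ ∑ c', (r₂ ^ 2 + (if c' ∈ S2 then r₁ ^ 2 * 3000 else 0)) := by
        refine sum_le_sum_of_subset_of_nonneg (erase_subset _ _) fun c' _ _ => ?_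
        split_ifs <;> linarith
    _ = Fintype.card P * r₂ ^ 2 + S2.card * (r₁ ^ 2 * 3000) := by
        rw [sum_add_distrib, sum_ite_mem, univ_inter]
        simp only [sum_const, nsmul_eq_mul, card_univ]
    _ ≤ θ := by
        refine le_trans ?_ h2
        gcongr

open Classical in
theorem exists_consts {P : Type} [Fintype P] (σ : P → P) (hσ : ∀ c, σ (σ c) = c) (Sp : Finset P)
    (hSp : Sp.card ≤ 6) (hd : ∀ c ∈ Sp, σ c ∉ Sp) (q : ℝ) (hq : 2 ^ 30 ≤ q)
    (hP : (Fintype.card P : ℝ) = q ^ 2 + q + 4) :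
    ∃ K : Consts P σ, K.C = 100 * q ^ 3 ∧ ∀ n : ℝ, 4 * q ≤ n → ∀ c c' : P, ∀ m : ℝ,
      m ≤ (q + 1) * n + 1 → (c ∉ Sp ∨ c' ∉ Sp → m ≤ 2 * n + 1) → (c ∉ Sp → c' ∉ Sp → m ≤ n + 1) →
      m ≤ K.R c c' * ((q + 1) * n) / (K.γ c * K.γ c') := by
  obtain ⟨r₁, r₂, θ, hq3, hq1, θ1, θ2, r1a, r2a, r10, r20, r1b, r2b, r1t, r1s, row1, e1, e2⟩ :=
    nums q hq
  obtain ⟨S2, hS2⟩ : ∃ S2 : Finset P, ∀ c, c ∈ S2 ↔ c ∈ Sp ∨ σ c ∈ Sp :=
    ⟨univ.filter (fun c => c ∈ Sp ∨ σ c ∈ Sp), fun c => by simp⟩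
  have hS2σ : ∀ c, σ c ∈ S2 ↔ c ∈ S2 := fun c => by rw [hS2, hS2, hσ, or_comm]
  have hsub : Sp ⊆ S2 := fun c hc => (hS2 c).2 (Or.inl hc)
  have hS2c : S2.card ≤ 12 := by
    have : S2 ⊆ Sp ∪ Sp.image σ := by
      intro c hc
      rcases (hS2 c).1 hc with h | h
      · exact mem_union_left _ h
      · exact mem_union_right _ (mem_image.2 ⟨_, h, hσ c⟩)
    have h1 := card_le_card this
    have h2 := card_union_le Sp (Sp.image σ)
    have h3 := card_image_le (s := Sp) (f := σ)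
    omega
  have hS2c' : (S2.card : ℝ) ≤ 12 := by exact_mod_cast hS2c
  have hSp' : (Sp.card : ℝ) ≤ 6 := by exact_mod_cast hSp
  rw [← hP] at r1s row1
  refine ⟨{ R := fun c c' => if c ∈ Sp ∧ c' ∈ Sp then 1 / 8 else if c ∈ S2 ∨ c' ∈ S2 then r₁ else r₂
            γ := fun c => if c ∈ Sp then 1 / 4 else if σ c ∈ Sp then 4 else 1
            h := fun c => if c ∈ S2 then 3000 else 1
            θ := θ
            C := 100 * q ^ 3
            σσ := hσ
            θ_pos := by linarith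
            θ_lt := θ2
            one_le_C := by linarith
            R_symm := fun c c' => by simp only [and_comm, or_comm]
            R_lo := fun c c' => by split_ifs <;> linarith
            R_hi := fun c c' => by
              have : (1 / 8 : ℝ) ^ 2 ≤ θ := by linarith
              split_ifs
              · exact this
              · exact le_trans (pow_le_pow_left₀ r10 r1b 2) this
              · exact le_trans (pow_le_pow_left₀ r20 r2b 2) this
            γ_pos := fun c => by split_ifs <;> norm_num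
            γ_σ := fun c => by
              rw [hσ]
              by_cases h1 : c ∈ Sp
              · simp [h1, hd c h1]
              · by_cases h2 : σ c ∈ Sp <;> simp [h1, h2]
            γ_le := fun c => by split_ifs <;> linarith
            h_lo := fun c => by split_ifs <;> norm_num
            h_hi := fun c => by split_ifs <;> linarith
            row := fun c => ?_ }, rfl, ?_⟩
  · simp only [hS2σ]
    by_cases hc : c ∈ S2
    · rw [if_pos hc]
      exact row_in Sp S2 hsub hSp' hS2c' r₁ r₂ θ θ1 r1t r1s c hc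
    · rw [if_neg hc, mul_one]
      exact row_out Sp S2 hsub hS2c' r₁ r₂ θ row1 c hc
  · intro n hn c c' m h1 h2 h3
    have hn1 : 1 ≤ n := by linarith
    have g1 : ∀ c, (0 : ℝ) < (if c ∈ Sp then 1 / 4 else if σ c ∈ Sp then 4 else 1) := by
      intro c; split_ifs <;> norm_num
    have g2 : ∀ c, (if c ∈ Sp then 1 / 4 else if σ c ∈ Sp then 4 else 1 : ℝ) ≤ 4 := by
      intro c; split_ifs <;> norm_num
    have g3 : ∀ c, c ∉ S2 → (if c ∈ Sp then 1 / 4 else if σ c ∈ Sp then 4 else 1 : ℝ) = 1 := by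
      intro c hc
      rw [hS2, not_or] at hc
      rw [if_neg hc.1, if_neg hc.2]
    have hqn : 1 ≤ (q + 1) * n := one_le_mul_of_one_le_of_one_le (by linarith) hn1
    show m ≤ (if c ∈ Sp ∧ c' ∈ Sp then 1 / 8 else if c ∈ S2 ∨ c' ∈ S2 then r₁ else r₂) *
      ((q + 1) * n) / ((if c ∈ Sp then 1 / 4 else if σ c ∈ Sp then 4 else 1) *
        (if c' ∈ Sp then 1 / 4 else if σ c' ∈ Sp then 4 else 1))
    by_cases hb : c ∈ Sp ∧ c' ∈ Sp
    · rw [if_pos hb, if_pos hb.1, if_pos hb.2, le_div_iff₀ (by norm_num)]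
      linarith
    · have h2' := h2 (not_and_or.1 hb)
      rw [if_neg hb]
      by_cases hs : c ∈ S2 ∨ c' ∈ S2
      · rw [if_pos hs, ← mul_assoc, e1]
        have := mul_le_mul (g2 c) (g2 c') (g1 c').le (by norm_num)
        refine le_trans ?_ (div_le_div_of_nonneg_left (by linarith) (mul_pos (g1 c) (g1 c')) this)
        linarith
      · rw [if_neg hs, ← mul_assoc, e2]
        rw [not_or] at hs
        rw [g3 c hs.1, g3 c' hs.2]
        have := h3 (fun h => hs.1 (hsub h)) (fun h => hs.2 (hsub h))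
        have h4 : 1 ≤ 1 / (4 * q) * n := by
          rw [one_div_mul_eq_div, le_div_iff₀ (by linarith)]; linarith
        linarith

/-! ### Generic vertex systems -/

section Gen
variable {X P Ω : Type} (n' : ℕ) (nm : X → Ω → P → Prop) (sp : X → P → Prop)

/-- membership of a colour at a vertex -/
def gmem : X × Option (Ω × Fin n') → P → Prop
  | (x, none), c => sp x c
  | (x, some w), c => nm x w.1 c

/-- the system of half-edges -/
def gHS : HS {y : (X × Option (Ω × Fin n')) × P // gmem n' nm sp y.1 y.2}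
    (X × Option (Ω × Fin n')) P where
  vert h := h.1.1
  col h := h.1.2
  fold _ _ h1 h2 := Subtype.ext (Prod.ext h1 h2)

theorem gHS_ex (v : X × Option (Ω × Fin n')) (c : P) :
    (∃ h, (gHS n' nm sp).vert h = v ∧ (gHS n' nm sp).col h = c) ↔ gmem n' nm sp v c := by
  constructor
  · rintro ⟨h, rfl, rfl⟩; exact h.2
  · intro h; exact ⟨⟨(v, c), h⟩, rfl, rfl⟩

theorem mem_cols [Fintype P] (v : X × Option (Ω × Fin n')) (c : P) :
    c ∈ cols (gHS n' nm sp) v ↔ gmem n' nm sp v c := by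
  simp only [cols, mem_filter, mem_univ, true_and, gHS_ex]

open Classical in
theorem card_fiber [Fintype X] [Fintype Ω] (x : X) (Q : X × Option (Ω × Fin n') → Prop)
    (Q' : Ω → Prop) (hQ : ∀ w j, Q (x, some (w, j)) ↔ Q' w) :
    (univ.filter (fun v : X × Option (Ω × Fin n') => v.1 = x ∧ Q v)).card =
      (if Q (x, none) then 1 else 0) + (univ.filter Q').card * n' := by
  rw [card_filter, Fintype.sum_prod_type, sum_eq_single x (by intro y _ hy; simp [hy]) (by simp),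
    Fintype.sum_option, Fintype.sum_prod_type, card_filter, sum_mul]
  simp only [true_and, hQ, sum_const, card_univ, Fintype.card_fin, smul_eq_mul, mul_comm n']

open Classical in
theorem clsCard_gHS [Fintype X] [Fintype Ω]
    [Fintype {y : (X × Option (Ω × Fin n')) × P // gmem n' nm sp y.1 y.2}] (x : X) (c : P) :
    clsCard (gHS n' nm sp) Prod.fst x c =
      (if sp x c then 1 else 0) + (univ.filter (fun w => nm x w c)).card * n' := by
  refine Eq.trans ?_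
    (card_fiber n' x (fun v => gmem n' nm sp v c) (fun w => nm x w c) (fun _ _ => Iff.rfl))
  unfold clsCard
  refine card_bij (fun h _ => h.1.1) ?_ ?_ ?_
  · intro h hh
    simp only [mem_filter, mem_univ, true_and] at hh ⊢
    exact ⟨hh.1, hh.2 ▸ h.2⟩
  · intro h hh h' hh' e
    simp only [mem_filter, mem_univ, true_and] at hh hh'
    exact (gHS n' nm sp).fold _ _ e (hh.2.trans hh'.2.symm)
  · intro v hv
    simp only [mem_filter, mem_univ, true_and] at hv ⊢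
    exact ⟨⟨(v, c), hv.2⟩, ⟨hv.1, rfl⟩, rfl⟩

open Classical in
theorem pairCard_gHS [Fintype X] [Fintype Ω] (x : X) (c c' : P) :
    pairCard (gHS n' nm sp) Prod.fst x c c' ≤
      1 + (univ.filter (fun w => nm x w c ∧ nm x w c')).card * n' := by
  have := card_fiber n' x (fun v => gmem n' nm sp v c ∧ gmem n' nm sp v c')
    (fun w => nm x w c ∧ nm x w c') (fun _ _ => Iff.rfl)
  unfold pairCard
  simp only [gHS_ex]
  refine le_trans (le_of_eq ?_) (this.le.trans ?_)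
  · congr 1
    ext v
    simp
  · gcongr
    split_ifs <;> simp

end Gen

end Crest.Agent.R177.D2
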