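import Crest.Agent.R177.D2A

/-! Gadgets and counting for `design_two` (helper3). -/

set_option autoImplicit false

namespace Crest.Agent.R177.D2

open Finset

section Gad
variable {Pt : Type} [Fintype Pt] [DecidableEq Pt] (X : Fin 3 → Pt)

/-- gadget sets as indicator functions -/
def gS (G : Finset (Fin 3)) (z : Pt → ZMod 2) (t : Fin 3 → ZMod 2) : Pt ⊕ Fin 3 → ZMod 2
  | Sum.inl x => z x + ∑ i ∈ G, if x = X i then t i else 0
  | Sum.inr i => if i ∈ G then t i else z (X i)

theorem gS_ip (hX : Function.Injective X) (G : Finset (Fin 3)) (z z' : Pt → ZMod 2)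
    (t t' : Fin 3 → ZMod 2) :
    ∑ c, gS X G z t c * gS X Gᶜ z' t' c = ∑ x, z x * z' x := by
  rw [Fintype.sum_sum_type]
  simp only [gS, add_mul, mul_add, sum_add_distrib]
  have h1 : ∑ x, (z x * ∑ i ∈ Gᶜ, if x = X i then t' i else 0) = ∑ i ∈ Gᶜ, z (X i) * t' i := by
    simp only [mul_sum]
    rw [sum_comm]
    simp
  have h2 : ∑ x, (∑ i ∈ G, if x = X i then t i else 0) * z' x = ∑ i ∈ G, t i * z' (X i) := by
    simp only [sum_mul]
    rw [sum_comm]
    simp
  have h3 : ∑ x, (∑ i ∈ G, if x = X i then t i else 0) *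
      (∑ i ∈ Gᶜ, if x = X i then t' i else 0) = 0 := by
    refine sum_eq_zero fun x _ => ?_
    rw [sum_mul_sum]
    refine sum_eq_zero fun i hi => sum_eq_zero fun j hj => ?_
    split_ifs with e1 e2
    · rw [hX (e1.symm.trans e2)] at hi
      exact absurd hi (mem_compl.1 hj)
    all_goals simp
  have h4 : ∑ i, (if i ∈ G then t i else z (X i)) * (if i ∈ Gᶜ then t' i else z' (X i)) =
      ∑ i ∈ G, t i * z' (X i) + ∑ i ∈ Gᶜ, z (X i) * t' i := by
    rw [← sum_add_sum_compl G]
    congr 1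
    · exact sum_congr rfl fun i hi => by simp [hi]
    · exact sum_congr rfl fun i hi => by simp [mem_compl.1 hi]
  rw [h1, h2, h3, h4]
  generalize ∑ x, z x * z' x = a
  generalize ∑ i ∈ G, t i * z' (X i) = b
  generalize ∑ i ∈ Gᶜ, z (X i) * t' i = c
  revert a b c
  decide

/-- the point of a colour -/
def pt : Pt ⊕ Fin 3 → Pt := Sum.elim id X

/-- special colours -/
def Sp : Finset (Pt ⊕ Fin 3) :=
  univ.image (fun y : Fin 3 × Bool => if y.2 then Sum.inl (X y.1) else Sum.inr y.1)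

omit [Fintype Pt] in
theorem card_Sp : (Sp X).card ≤ 6 := card_image_le.trans (by simp)

omit [Fintype Pt] in
theorem inl_mem_Sp (i : Fin 3) : Sum.inl (X i) ∈ Sp X := mem_image.2 ⟨(i, true), mem_univ _, rfl⟩

omit [Fintype Pt] in
theorem inr_mem_Sp (i : Fin 3) : Sum.inr i ∈ Sp X := mem_image.2 ⟨(i, false), mem_univ _, rfl⟩

omit [Fintype Pt] in
theorem pt_ne {c c' : Pt ⊕ Fin 3} (hc : c ∉ Sp X) (h : c ≠ c') : pt X c ≠ pt X c' := by
  rcases c with x | i
  · rcases c' with x' | i'
    · exact fun e => h (congrArg Sum.inl e)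
    · intro e
      have e' : x = X i' := e
      exact hc (e' ▸ inl_mem_Sp X i')
  · exact absurd (inr_mem_Sp X i) hc

omit [Fintype Pt] in
theorem gS_cases (hX : Function.Injective X) (G : Finset (Fin 3)) (c : Pt ⊕ Fin 3) :
    (∀ z t, gS X G z t c = z (pt X c)) ∨ (c ∈ Sp X ∧ ∃ i, pt X c = X i ∧
      ((∀ z t, gS X G z t c = t i) ∨ ∀ z t, gS X G z t c = z (X i) + t i)) := by
  rcases c with x | i
  · by_cases h : ∃ i ∈ G, x = X i
    · obtain ⟨i, hi, rfl⟩ := h
      refine Or.inr ⟨inl_mem_Sp X i, i, rfl, Or.inr fun z t => ?_⟩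
      simp [gS, hX.eq_iff, hi]
    · refine Or.inl fun z t => ?_
      push Not at h
      simp only [gS, pt, Sum.elim_inl, id]
      rw [sum_eq_zero fun i hi => if_neg (h i hi), add_zero]
  · by_cases h : i ∈ G
    · exact Or.inr ⟨inr_mem_Sp X i, i, rfl, Or.inl fun z t => by simp [gS, h]⟩
    · exact Or.inl fun z t => by simp [gS, h, pt]

/-- indicator of a set of points -/
def ι (Z : Finset Pt) (x : Pt) : ZMod 2 := if x ∈ Z then 1 else 0

variable {Ln : Type} [Fintype Ln] (ln : Ln → Finset Pt) (q : ℕ)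

/-- the bits of a normal vertex -/
def tb (l : Ln) (ω : Fin (2 * q ^ 2)) (i : Fin 3) : ZMod 2 :=
  if (ω : ℕ) < (if X i ∈ ln l then q ^ 2 else q + 1) then 1 else 0

/-- colours at a normal vertex -/
def nmG (G : Finset (Fin 3)) (w : Ln × Fin (2 * q ^ 2)) (c : Pt ⊕ Fin 3) : Prop :=
  gS X G (ι (ln w.1)) (tb X ln q w.1 w.2) c = 1

open Classical in
omit [Fintype Pt] [Fintype Ln] in
theorem cnt_cases (hX : Function.Injective X) (hq : 1 ≤ q) (G : Finset (Fin 3)) (c : Pt ⊕ Fin 3) :
    ∃ α β : ℕ, ((α = 2 * q ^ 2 ∧ β = 0) ∨ (c ∈ Sp X ∧ α = q ^ 2 ∧ β = q + 1)) ∧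
      ∀ l, (univ.filter (fun ω => nmG X ln q G (l, ω) c)).card =
        if pt X c ∈ ln l then α else β := by
  have h01 : (0 : ZMod 2) ≠ 1 := by decide
  have hq2 : q + 1 ≤ 2 * q ^ 2 := by nlinarith
  have hlt : ∀ a ≤ 2 * q ^ 2, (univ.filter (fun ω : Fin (2 * q ^ 2) => (ω : ℕ) < a)).card = a := by
    intro a ha
    rw [Fin.card_filter_val_lt, min_eq_right ha]
  rcases gS_cases X hX G c with h | ⟨hc, i, hi, h | h⟩
  · refine ⟨_, _, Or.inl ⟨rfl, rfl⟩, fun l => ?_⟩
    simp only [nmG, h, ι]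
    split_ifs <;> simp
  · refine ⟨_, _, Or.inr ⟨hc, rfl, rfl⟩, fun l => ?_⟩
    simp only [nmG, h, tb, hi, ite_eq_left_iff, h01, imp_false, not_not]
    rw [hlt]
    split_ifs <;> omega
  · refine ⟨_, _, Or.inr ⟨hc, rfl, rfl⟩, fun l => ?_⟩
    simp only [nmG, h, tb, hi, ι]
    by_cases hl : X i ∈ ln l
    · simp only [hl, if_true]
      have h1 := card_filter_add_card_filter_not (s := (univ : Finset (Fin (2 * q ^ 2))))
        (fun ω => (ω : ℕ) < q ^ 2)
      rw [hlt _ (by omega), card_univ, Fintype.card_fin] at h1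
      have h2 : (univ.filter (fun ω : Fin (2 * q ^ 2) => ¬ (ω : ℕ) < q ^ 2)).card = q ^ 2 := by
        omega
      refine Eq.trans (congrArg card ?_) h2
      ext ω
      simp
    · simp only [hl, if_false, zero_add, ite_eq_left_iff, h01, imp_false, not_not]
      exact hlt _ hq2

open Classical in
omit [Fintype Pt] in
theorem cnt_total (hX : Function.Injective X) (hq : 1 ≤ q)
    (cardLn : Fintype.card Ln = q ^ 2 + q + 1)
    (thru : ∀ x, (univ.filter (fun l => x ∈ ln l)).card = q + 1) (G : Finset (Fin 3))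
    (c : Pt ⊕ Fin 3) :
    (univ.filter (fun w => nmG X ln q G w c)).card = (q + 1) * (2 * q ^ 2) := by
  obtain ⟨α, β, h1, h2⟩ := cnt_cases X ln q hX hq G c
  have h3 := card_filter_add_card_filter_not (s := (univ : Finset Ln)) (fun l => pt X c ∈ ln l)
  rw [thru, card_univ, cardLn] at h3
  have h4 : (univ.filter (fun l => ¬ pt X c ∈ ln l)).card = q ^ 2 := by omega
  rw [card_filter, Fintype.sum_prod_type]
  simp only [← card_filter, h2]
  rw [sum_ite, sum_const, sum_const, thru, h4, smul_eq_mul, smul_eq_mul]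
  rcases h1 with ⟨rfl, rfl⟩ | ⟨-, rfl, rfl⟩ <;> ring

open Classical in
omit [Fintype Pt] in
theorem cnt_pair (hX : Function.Injective X) (hq : 1 ≤ q)
    (thru : ∀ x, (univ.filter (fun l => x ∈ ln l)).card = q + 1)
    (two : ∀ x y, x ≠ y → (univ.filter (fun l => x ∈ ln l ∧ y ∈ ln l)).card ≤ 1)
    (G : Finset (Fin 3)) {c c' : Pt ⊕ Fin 3} (hc : c ∉ Sp X) (h : c ≠ c') :
    (univ.filter (fun w => nmG X ln q G w c ∧ nmG X ln q G w c')).card ≤
      2 * q ^ 2 + if c' ∈ Sp X then (q + 1) ^ 2 else 0 := by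
  obtain ⟨α, β, h1, h2⟩ := cnt_cases X ln q hX hq G c'
  have h0 : ∀ w, nmG X ln q G w c → pt X c ∈ ln w.1 := by
    intro w hw
    rcases gS_cases X hX G c with h | ⟨hc', -⟩
    · simp only [nmG, h, ι] at hw
      by_contra h'
      rw [if_neg h'] at hw
      exact absurd hw (by decide)
    · exact absurd hc' hc
  have hα : α ≤ 2 * q ^ 2 := by rcases h1 with ⟨rfl, -⟩ | ⟨-, rfl, -⟩ <;> omega
  have hβ : (q + 1) * β ≤ if c' ∈ Sp X then (q + 1) ^ 2 else 0 := by
    rcases h1 with ⟨-, rfl⟩ | ⟨h, -, rfl⟩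
    · simp
    · rw [if_pos h, sq]
  calc _ = ∑ l, (univ.filter (fun ω => nmG X ln q G (l, ω) c ∧ nmG X ln q G (l, ω) c')).card := by
        rw [card_filter, Fintype.sum_prod_type]
        simp only [← card_filter]
    _ ≤ ∑ l, ((if pt X c ∈ ln l ∧ pt X c' ∈ ln l then α else 0) +
          if pt X c ∈ ln l then β else 0) := by
        refine sum_le_sum fun l _ => ?_
        by_cases hl : pt X c ∈ ln l
        · refine le_trans (card_le_card (t := univ.filter (fun ω => nmG X ln q G (l, ω) c'))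
            (fun ω hω => ?_)) ?_
          · simp only [mem_filter, mem_univ, true_and] at hω ⊢
            exact hω.2
          · rw [h2]
            simp only [hl, true_and, if_true]
            split_ifs <;> omega
        · rw [card_eq_zero.2]
          · exact Nat.zero_le _
          · rw [filter_eq_empty_iff]
            exact fun ω _ hω => hl (h0 _ hω.1)
    _ ≤ _ := by
        rw [sum_add_distrib, ← sum_filter, ← sum_filter, sum_const, sum_const, thru, smul_eq_mul,
          smul_eq_mul]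
        have := Nat.mul_le_mul_right α (two _ _ (pt_ne X hc h))
        omega

end Gad

theorem odd_iff {P : Type} [Fintype P] (s : Finset P) (f f' : P → ZMod 2)
    (hs : ∀ c, c ∈ s ↔ f c = 1 ∧ f' c = 1) : Odd s.card ↔ ∑ c, f c * f' c = 1 := by
  classical
  rw [← ZMod.natCast_eq_one_iff_odd]
  have : (s.card : ZMod 2) = ∑ c, f c * f' c := by
    rw [← univ_inter s, ← filter_mem_eq_inter, card_filter, Nat.cast_sum]
    refine sum_congr rfl fun c _ => ?_
    simp only [hs]
    generalize f c = a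
    generalize f' c = b
    revert a b
    decide
  rw [this]

end Crest.Agent.R177.D2
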