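import Mathlib

/-!
Task R177-P: the projective plane of order `q = r²`, `r = p^j`, with a partition into Baer-type subplanes.

`E = GaloisField p (6j)`, `K = GaloisField p (2j)`, `W = GaloisField p (3j)` with algebra maps `K → E`, `W → E`
(`FiniteField.nonempty_algHom_of_finrank_dvd` or similar); `finrank K E = 3`.  `Pt = ℙ K E`, lines = kernels of non-zero `K`-linear
functionals up to scalar (or use a `K`-linear equivalence `E ≃ (Fin 3 → K)` and `Configuration.ofField`'s projective plane with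
orthogonality; `Projectivization.card`).  For a unit `c` let `B c = {[c w] | w ∈ W, w ≠ 0}`; these sets are equal or disjoint and cover
(`c w = λ c' w'` gives `c W = λ c' W`), i.e. `Cl = Eˣ ⧸ (Kˣ Wˣ)`, `β [x] = class of x`; multiplication by `c'/c` shows all classes have the same size.
For an `𝔽_p`-subspace `U ≠ 0` of `E` the number of points `[u]`, `u ∈ U \ 0`, is `≡ 1 mod p`: group the non-zero `u` by their point, each
fibre has `p^a - 1 ≡ -1` elements.  Apply to `U = cW` and `U = cW ∩ ker φ` (non-zero as `|W| = r³ > r² = |K|`).  A class has between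
`(r³-1)/(r²-1) > 2` and `r³ - 1` points, so there are more than `r` classes.  Two lines meet in `1` or `q+1` points.
-/

set_option autoImplicit false

namespace Crest.Agent.R177

open Finset

open Classical in
/-- A projective plane of order `q` with a partition into sets meeting every line in `1 mod p` points. -/
structure Plane (p q : ℕ) (Pt Ln Cl : Type) [Fintype Pt] [Fintype Ln] where
  ln : Ln → Finset Pt
  β : Pt → Cl
  cardPt : Fintype.card Pt = q ^ 2 + q + 1
  cardLn : Fintype.card Ln = q ^ 2 + q + 1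
  thru : ∀ x, (univ.filter (fun l => x ∈ ln l)).card = q + 1
  two : ∀ x y, x ≠ y → (univ.filter (fun l => x ∈ ln l ∧ y ∈ ln l)).card ≤ 1
  meet : ∀ l m, (((ln l).filter (fun x => x ∈ ln m)).card : ZMod p) = 1
  cl_meet : ∀ k l, (((ln l).filter (fun x => β x = k)).card : ZMod p) = 1
  cl_card : ∀ k, ((univ.filter (fun x => β x = k)).card : ZMod p) = 1
  cl_eq : ∀ k k', (univ.filter (fun x => β x = k)).card = (univ.filter (fun x => β x = k')).card
  cl_three : ∀ k, 3 ≤ (univ.filter (fun x => β x = k)).card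

namespace Pl

open scoped LinearAlgebra.Projectivization Classical
open Projectivization Module

variable {K V : Type} [Field K] [AddCommGroup V] [Module K V]

theorem mem_sub {v : V} (hv : v ≠ 0) (x : ℙ K V) : v ∈ x.submodule ↔ mk K v hv = x := by
  conv_rhs => rw [← x.mk_rep]
  rw [submodule_eq, Submodule.mem_span_singleton, mk_eq_mk_iff']

theorem card_ne [Fintype V] (A : AddSubgroup V) :
    (univ.filter (fun v => v ≠ 0 ∧ v ∈ A)).card + 1 = Nat.card A := by
  have : univ.filter (fun v => v ≠ 0 ∧ v ∈ A) = (univ.filter (fun v => v ∈ A)).erase 0 := by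
    ext v; simp
  rw [this, card_erase_add_one (by simp), Nat.card_eq_fintype_card, Fintype.card_subtype]

variable [Fintype V] [Fintype (ℙ K V)]

theorem fib (Q : V → Prop) : (univ.filter (fun v => v ≠ 0 ∧ Q v)).card =
    ∑ x : ℙ K V, (univ.filter (fun v => v ≠ 0 ∧ v ∈ x.submodule ∧ Q v)).card := by
  simp only [card_filter]
  rw [sum_comm]
  refine sum_congr rfl fun v _ => ?_
  by_cases hv : v = 0
  · simp [hv]
  · by_cases hQ : Q v
    · simp [hv, hQ, mem_sub hv]
    · simp [hQ]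

theorem scaled [Fintype K] (Q : V → Prop) (hQ : ∀ (a : K) v, a ≠ 0 → (Q (a • v) ↔ Q v)) :
    (univ.filter (fun v => v ≠ 0 ∧ Q v)).card =
      (univ.filter (fun x : ℙ K V => Q x.rep)).card * (Fintype.card K - 1) := by
  rw [fib (K := K), card_filter, sum_mul]
  refine sum_congr rfl fun x _ => ?_
  have key : ∀ v, v ≠ 0 → v ∈ x.submodule → (Q v ↔ Q x.rep) := fun v hv h => by
    rw [submodule_eq, Submodule.mem_span_singleton] at h
    obtain ⟨a, rfl⟩ := h
    exact hQ a _ fun h => hv (by rw [h, zero_smul])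
  split_ifs with h
  · have h1 := card_ne x.submodule.toAddSubgroup
    have h2 : Nat.card x.submodule.toAddSubgroup = Fintype.card K := by
      change Nat.card x.submodule = _
      rw [Module.natCard_eq_pow_finrank (K := K), finrank_submodule, pow_one,
        Nat.card_eq_fintype_card]
    rw [one_mul, ← h2, ← h1, Nat.add_sub_cancel]
    congr 1
    ext v
    simp only [mem_filter, mem_univ, true_and, Submodule.mem_toAddSubgroup]
    exact ⟨fun h => ⟨h.1, h.2.1⟩, fun h' => ⟨h'.1, h'.2, (key v h'.1 h'.2).2 h⟩⟩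
  · rw [zero_mul, card_eq_zero, filter_eq_empty_iff]
    exact fun v _ h' => h ((key v h'.1 h'.2.1).1 h'.2.2)

theorem sub_count [Fintype K] (U : Submodule K V) :
    (univ.filter (fun x : ℙ K V => x.rep ∈ U)).card * (Fintype.card K - 1) + 1 =
      Fintype.card K ^ finrank K U := by
  rw [← scaled (fun v => v ∈ U) fun a v ha => U.smul_mem_iff ha]
  have h1 := card_ne U.toAddSubgroup
  rw [← Nat.card_eq_fintype_card, ← Module.natCard_eq_pow_finrank]
  exact h1

omit [Fintype (ℙ K V)] in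
theorem cast_card (p : ℕ) [Fact p.Prime] [CharP K p] (A : AddSubgroup V) :
    ((univ.filter (fun v => v ≠ 0 ∧ v ∈ A)).card : ZMod p) =
      if ∃ v, v ≠ 0 ∧ v ∈ A then -1 else 0 := by
  split_ifs with h
  · obtain ⟨v, hv, hA⟩ := h
    have h1 : addOrderOf v = p := addOrderOf_eq_prime
      (by rw [← Nat.cast_smul_eq_nsmul K, CharP.cast_eq_zero, zero_smul]) hv
    have h2 := A.addOrderOf_dvd_natCard hA
    rw [h1, ← card_ne, ← ZMod.natCast_eq_zero_iff] at h2
    push_cast at h2
    exact eq_neg_of_add_eq_zero_left h2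
  · rw [filter_eq_empty_iff.2 fun v _ hv => h ⟨v, hv⟩]
    simp

theorem modp (p : ℕ) [Fact p.Prime] [CharP K p] (U : AddSubgroup V) (hU : ∃ v, v ≠ 0 ∧ v ∈ U) :
    ((univ.filter (fun x : ℙ K V => ∃ v, v ≠ 0 ∧ v ∈ x.submodule ∧ v ∈ U)).card : ZMod p) = 1 := by
  have h := congrArg (Nat.cast : ℕ → ZMod p) (fib (K := K) (fun v => v ∈ U))
  rw [cast_card (K := K), if_pos hU, Nat.cast_sum] at h
  have h2 : ∀ x : ℙ K V, ((univ.filter (fun v => v ≠ 0 ∧ v ∈ x.submodule ∧ v ∈ U)).card : ZMod p) =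
      - if ∃ v, v ≠ 0 ∧ v ∈ x.submodule ∧ v ∈ U then 1 else 0 := fun x => by
    have := cast_card (K := K) p (x.submodule.toAddSubgroup ⊓ U)
    simp only [AddSubgroup.mem_inf, Submodule.mem_toAddSubgroup] at this
    rw [this]
    split_ifs <;> simp
  simp only [h2, sum_neg_distrib, neg_inj] at h
  rw [h, card_filter]
  push_cast
  rfl

theorem modp' (p : ℕ) [Fact p.Prime] [CharP K p] (U : AddSubgroup V) (hU : ∃ v, v ≠ 0 ∧ v ∈ U)
    (s : Finset (ℙ K V)) (hs : ∀ x, x ∈ s ↔ ∃ v, v ≠ 0 ∧ v ∈ x.submodule ∧ v ∈ U) :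
    (s.card : ZMod p) = 1 := by
  rw [← modp (K := K) p U hU]
  congr 2
  ext x
  simp [hs]

theorem scaled' [Fintype K] (Q : V → Prop) (hQ : ∀ (a : K) v, a ≠ 0 → (Q (a • v) ↔ Q v))
    (s : Finset (ℙ K V)) (hs : ∀ x, x ∈ s ↔ Q x.rep) (t : Finset V)
    (ht : ∀ v, v ∈ t ↔ v ≠ 0 ∧ Q v) : s.card * (Fintype.card K - 1) = t.card := by
  have : t = univ.filter (fun v => v ≠ 0 ∧ Q v) := by ext v; simp [ht]
  rw [this, scaled Q hQ]
  congr 2
  ext x
  simp [hs]

omit [Fintype V] [Fintype (ℙ K V)] in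
theorem ex_iff (x : ℙ K V) (U : Submodule K V) (A : AddSubgroup V) :
    (∃ v, v ≠ 0 ∧ v ∈ x.submodule ∧ v ∈ U.toAddSubgroup ⊓ A) ↔
      x.rep ∈ U ∧ ∃ v, v ≠ 0 ∧ v ∈ x.submodule ∧ v ∈ A := by
  simp only [submodule_eq, Submodule.mem_span_singleton, AddSubgroup.mem_inf,
    Submodule.mem_toAddSubgroup]
  constructor
  · rintro ⟨_, hv, ⟨a, rfl⟩, h1, h2⟩
    exact ⟨(U.smul_mem_iff fun h => hv (by rw [h, zero_smul])).1 h1, _, hv, ⟨a, rfl⟩, h2⟩
  · rintro ⟨h1, _, hv, ⟨a, rfl⟩, h2⟩
    exact ⟨_, hv, ⟨a, rfl⟩, U.smul_mem a h1, h2⟩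

end Pl

open scoped LinearAlgebra.Projectivization Classical in
open Projectivization Module Pl in
theorem plane_of (p r : ℕ) [Fact p.Prime] (hr : 2 ≤ r) (K E W : Type) [Field K] [Field E] [Field W]
    [Algebra K E] [CharP K p] [Fintype K] [Fintype E] [Fintype W] (ι : W →+* E)
    (hK : Fintype.card K = r ^ 2) (hW : Fintype.card W = r ^ 3) (hE : finrank K E = 3) :
    ∃ (Pt Ln Cl : Type) (_ : Fintype Pt) (_ : Fintype Ln) (_ : Fintype Cl),
      Nonempty (Plane p (r ^ 2) Pt Ln Cl) ∧ r < Fintype.card Cl := by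
  have hD : finrank K (Dual K E) = 3 := by rw [Subspace.dual_finrank_eq, hE]
  have : Finite (Dual K E) := Module.finite_of_finite K
  let _ : Fintype (Dual K E) := Fintype.ofFinite _
  let _ : Fintype (ℙ K E) := Fintype.ofFinite _
  let _ : Fintype (ℙ K (Dual K E)) := Fintype.ofFinite _
  let H : Subgroup Eˣ := (Units.map (algebraMap K E).toMonoidHom).range ⊔
    (Units.map ι.toMonoidHom).range
  have memH : ∀ u : Eˣ, u ∈ H ↔ ∃ (a : K) (w : W), (u : E) = a • ι w := fun u => by
    rw [Subgroup.mem_sup]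
    constructor
    · rintro ⟨_, ⟨a, rfl⟩, _, ⟨w, rfl⟩, rfl⟩
      exact ⟨a, w, by simp [Algebra.smul_def]⟩
    · rintro ⟨a, w, h⟩
      have ha : a ≠ 0 := by rintro rfl; simp at h
      have hw : w ≠ 0 := by rintro rfl; simp at h
      exact ⟨_, ⟨Units.mk0 a ha, rfl⟩, _, ⟨Units.mk0 w hw, rfl⟩,
        Units.ext (by simp [h, Algebra.smul_def])⟩
  let _ : Fintype (Eˣ ⧸ H) := Fintype.ofFinite _
  let β : ℙ K E → Eˣ ⧸ H := fun x => QuotientGroup.mk (Units.mk0 x.rep x.rep_nonzero)
  let A : Eˣ → AddSubgroup E := fun c => ((AddMonoidHom.mulLeft (c : E)).comp ι.toAddMonoidHom).range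
  have memA : ∀ (c : Eˣ) v, v ∈ A c ↔ ∃ w, c * ι w = v := fun c v => Iff.rfl
  have hβ0 : ∀ (x : ℙ K E) (c : Eˣ), β x = QuotientGroup.mk c ↔
      ∃ (a : K) (w : W), x.rep = a • (c * ι w) := fun x c => by
    rw [eq_comm, QuotientGroup.eq, memH]
    refine exists₂_congr fun a w => ?_
    rw [Units.val_mul, Units.val_mk0, Units.inv_mul_eq_iff_eq_mul, mul_smul_comm]
  have hβ : ∀ (x : ℙ K E) (c : Eˣ), β x = QuotientGroup.mk c ↔
      ∃ v, v ≠ 0 ∧ v ∈ x.submodule ∧ v ∈ A c := fun x c => by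
    rw [hβ0]
    simp only [submodule_eq, Submodule.mem_span_singleton, memA]
    constructor
    · rintro ⟨a, w, h⟩
      have ha : a ≠ 0 := by rintro rfl; exact x.rep_nonzero (by simpa using h)
      exact ⟨c * ι w, fun h0 => x.rep_nonzero (by rw [h, h0, smul_zero]),
        ⟨a⁻¹, by rw [h, smul_smul, inv_mul_cancel₀ ha, one_smul]⟩, w, rfl⟩
    · rintro ⟨_, hv, ⟨a, rfl⟩, w, h⟩
      have ha : a ≠ 0 := by rintro rfl; exact hv (zero_smul _ _)
      exact ⟨a⁻¹, w, by rw [h, smul_smul, inv_mul_cancel₀ ha, one_smul]⟩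
  have hq : 4 ≤ r ^ 2 := by nlinarith
  have hq3 : r ^ 2 * 2 ≤ r ^ 3 := by rw [pow_succ r 2]; exact Nat.mul_le_mul_left _ hr
  have hcl : ∀ k (s : Finset (ℙ K E)), (∀ x, x ∈ s ↔ β x = k) →
      s.card * (r ^ 2 - 1) = Nat.card H := fun k s hs => by
    obtain ⟨c, rfl⟩ := QuotientGroup.mk_surjective k
    rw [← hK, scaled' (fun v => ∃ (a : K) (w : W), v = a • (c * ι w)) _ _
      (fun x => by rw [hs, hβ0]) _ (fun v => mem_filter_univ _), Nat.card_eq_fintype_card,
      Fintype.card_subtype]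
    · symm
      refine card_bij (fun u _ => (c : E) * u) (fun u hu => ?_) (fun u _ u' _ h => ?_)
        fun v hv => ?_
      · obtain ⟨a, w, h⟩ := (memH u).1 (mem_filter.1 hu).2
        exact mem_filter.2 ⟨mem_univ _, mul_ne_zero c.ne_zero u.ne_zero, a, w,
          by rw [h, mul_smul_comm]⟩
      · exact Units.ext (mul_left_cancel₀ c.ne_zero h)
      · obtain ⟨-, hv, a, w, h⟩ := mem_filter.1 hv
        rw [← mul_smul_comm] at h
        have h0 : a • ι w ≠ 0 := fun h0 => hv (by rw [h, h0, mul_zero])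
        exact ⟨Units.mk0 _ h0, mem_filter.2 ⟨mem_univ _, (memH _).2 ⟨a, w, rfl⟩⟩, h.symm⟩
    · intro b v hb
      constructor
      · rintro ⟨a, w, h⟩
        exact ⟨b⁻¹ * a, w, by rw [mul_smul, ← h, smul_smul, inv_mul_cancel₀ hb, one_smul]⟩
      · rintro ⟨a, w, h⟩
        exact ⟨b * a, w, by rw [mul_smul, h]⟩
  have hH1 : r ^ 3 - 1 ≤ Nat.card H := by
    rw [← hW, ← Fintype.card_units, ← Nat.card_eq_fintype_card]
    refine Nat.card_le_card_of_injective
      (fun w : Wˣ => (⟨Units.map ι.toMonoidHom w, Subgroup.mem_sup_right ⟨w, rfl⟩⟩ : H)) ?_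
    intro w w' h
    exact Units.map_injective ι.injective (congrArg Subtype.val h)
  have hH2 : Nat.card H ≤ (r ^ 2 - 1) * (r ^ 3 - 1) := by
    rw [← hW, ← hK, ← Fintype.card_units, ← Fintype.card_units, ← Fintype.card_prod,
      ← Nat.card_eq_fintype_card]
    refine Nat.card_le_card_of_surjective (fun aw : Kˣ × Wˣ =>
      (⟨Units.map (algebraMap K E).toMonoidHom aw.1 * Units.map ι.toMonoidHom aw.2,
        Subgroup.mul_mem_sup ⟨_, rfl⟩ ⟨_, rfl⟩⟩ : H)) ?_
    rintro ⟨u, hu⟩
    obtain ⟨_, ⟨a, rfl⟩, _, ⟨w, rfl⟩, rfl⟩ := Subgroup.mem_sup.1 hu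
    exact ⟨(a, w), rfl⟩
  have cnt : ∀ s : Finset (ℙ K E), LinearIndependent K (fun x : s => x.1.rep) →
      (univ.filter (fun l : ℙ K (Dual K E) => ∀ x ∈ s, l.rep x.rep = 0)).card * (r ^ 2 - 1) + 1 =
        (r ^ 2) ^ (3 - s.card) := fun s hs => by
    have h1 := sub_count (K := K)
      (Submodule.span K (Set.range fun x : s => x.1.rep)).dualAnnihilator
    have h2 := Subspace.finrank_add_finrank_dualAnnihilator_eq
      (Submodule.span K (Set.range fun x : s => x.1.rep))
    rw [finrank_span_eq_card hs, hE, Fintype.card_coe] at h2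
    rw [hK, show finrank K (Submodule.span K (Set.range fun x : s => x.1.rep)).dualAnnihilator =
      3 - s.card by omega] at h1
    rw [← h1]
    congr 3
    ext l
    rw [mem_filter_univ, mem_filter_univ, ← SetLike.mem_coe, Submodule.coe_dualAnnihilator_span]
    simp [Set.range_subset_iff]
  refine ⟨ℙ K E, ℙ K (Dual K E), Eˣ ⧸ H, inferInstance, inferInstance, inferInstance, ⟨{
    ln := fun l => univ.filter fun x => l.rep x.rep = 0
    β := β
    cardPt := ?_
    cardLn := ?_
    thru := fun x => ?_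
    two := fun x y hxy => ?_
    meet := fun l m => ?_
    cl_meet := fun k l => ?_
    cl_card := fun k => ?_
    cl_eq := fun k k' => ?_
    cl_three := fun k => ?_ }⟩, ?_⟩
  · rw [← Nat.card_eq_fintype_card, card_of_finrank K E hE, Nat.card_eq_fintype_card, hK]
    simp [sum_range_succ]; ring
  · rw [← Nat.card_eq_fintype_card, card_of_finrank K _ hD, Nat.card_eq_fintype_card, hK]
    simp [sum_range_succ]; ring
  · have h := cnt {x} (by simp [x.rep_nonzero])
    simp only [mem_singleton, forall_eq, card_singleton] at h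
    simp only [mem_filter, mem_univ, true_and]
    obtain ⟨q, hq'⟩ : ∃ q, r ^ 2 = q + 1 := ⟨r ^ 2 - 1, by omega⟩
    rw [hq'] at h ⊢
    rw [Nat.add_sub_cancel] at h
    refine Nat.eq_of_mul_eq_mul_right (show 0 < q by omega) ?_
    norm_num at h
    nlinarith
  · have h := cnt {x, y} (by
      have h1 := linearIndependent_pair_iff_ne.2 hxy
      refine (linearIndependent_equiv' (Equiv.ofBijective
        (fun i : Fin 2 => (⟨![x, y] i, by fin_cases i <;> simp⟩ : ({x, y} : Finset (ℙ K E))))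
        ⟨?_, ?_⟩) ?_).1 h1
      · intro i j hij
        fin_cases i <;> fin_cases j <;> simp_all [hxy.symm]
      · rintro ⟨z, hz⟩
        rcases mem_insert.1 hz with rfl | hz
        · exact ⟨0, rfl⟩
        · exact ⟨1, Subtype.ext (mem_singleton.1 hz).symm⟩
      · ext i
        fin_cases i <;> rfl)
    simp only [mem_insert, mem_singleton, forall_eq_or_imp, forall_eq, card_pair hxy] at h
    simp only [mem_filter, mem_univ, true_and]
    obtain ⟨q, hq'⟩ : ∃ q, r ^ 2 = q + 1 := ⟨r ^ 2 - 1, by omega⟩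
    rw [hq', Nat.add_sub_cancel] at h
    refine Nat.le_of_mul_le_mul_right ?_ (show 0 < q by omega)
    norm_num at h
    omega
  · refine modp' (K := K) p ((LinearMap.ker l.rep ⊓ LinearMap.ker m.rep).toAddSubgroup ⊓ ⊤) (by
      have h1 := Submodule.finrank_sup_add_finrank_inf_eq (LinearMap.ker l.rep)
        (LinearMap.ker m.rep)
      have h2 := Submodule.finrank_le (LinearMap.ker l.rep ⊔ LinearMap.ker m.rep)
      have h3 := Module.Dual.finrank_ker_add_one_of_ne_zero l.rep_nonzero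
      have h4 := Module.Dual.finrank_ker_add_one_of_ne_zero m.rep_nonzero
      obtain ⟨v, hv, h0⟩ := Submodule.exists_mem_ne_zero_of_ne_bot
        (p := LinearMap.ker l.rep ⊓ LinearMap.ker m.rep) fun h => by
          rw [h, finrank_bot] at h1
          omega
      exact ⟨v, h0, hv, trivial⟩) _ fun x => ?_
    rw [ex_iff]
    simp only [mem_filter, mem_univ, true_and, Submodule.mem_inf, LinearMap.mem_ker,
      AddSubgroup.mem_top, and_true]
    exact ⟨fun h => ⟨h, x.rep, x.rep_nonzero, (mem_sub x.rep_nonzero x).2 x.mk_rep⟩, fun h => h.1⟩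
  · obtain ⟨c, rfl⟩ := QuotientGroup.mk_surjective k
    refine modp' (K := K) p ((LinearMap.ker l.rep).toAddSubgroup ⊓ A c) (by
      obtain ⟨w, w', hne, h⟩ := Fintype.exists_ne_map_eq_of_card_lt
        (fun w : W => l.rep (c * ι w)) (by omega)
      refine ⟨c * ι (w - w'), mul_ne_zero c.ne_zero ((map_ne_zero ι).2 (sub_ne_zero.2 hne)), ?_,
        (memA _ _).2 ⟨_, rfl⟩⟩
      change l.rep _ = 0
      rw [map_sub, mul_sub, map_sub, sub_eq_zero]
      exact h) _ fun x => ?_
    rw [ex_iff, ← hβ]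
    simp
  · obtain ⟨c, rfl⟩ := QuotientGroup.mk_surjective k
    exact modp' p (A c) ⟨c * ι 1, by simp, (memA _ _).2 ⟨_, rfl⟩⟩ _
      fun x => by rw [← hβ]; simp
  · exact Nat.eq_of_mul_eq_mul_right (show 0 < r ^ 2 - 1 by omega) 
      ((hcl k _ fun x => by simp).trans (hcl k' _ fun x => by simp).symm)
  · by_contra h
    have h1 := Nat.mul_le_mul_right (r ^ 2 - 1) (Nat.le_of_lt_succ (not_le.1 h))
    rw [hcl k _ fun x => by simp] at h1
    omega
  · have h1 := Subgroup.card_eq_card_quotient_mul_card_subgroup H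
    rw [Nat.card_eq_fintype_card, Fintype.card_units, Module.card_eq_pow_finrank (K := K), hE, hK,
      Nat.card_eq_fintype_card] at h1
    by_contra h
    have h2 := Nat.mul_le_mul (not_lt.1 h) hH2
    rw [← h1] at h2
    obtain ⟨a, ha⟩ : ∃ a, r ^ 2 = a + 1 := ⟨r ^ 2 - 1, by omega⟩
    obtain ⟨b, hb⟩ : ∃ b, r ^ 3 = b + 1 := ⟨r ^ 3 - 1, by omega⟩
    have e1 : (r ^ 2) ^ 3 = (b + 1) ^ 2 := by rw [← hb]; ring
    have e2 : r * a + r = b + 1 := by rw [← hb, ← Nat.mul_succ, Nat.succ_eq_add_one, ← ha]; ring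
    rw [e1, ha, hb, Nat.add_sub_cancel, Nat.add_sub_cancel, ← mul_assoc] at h2
    have h3 : r * a * b ≤ b * b := Nat.mul_le_mul_right _ (by omega)
    have h4 : (b + 1) ^ 2 = b * b + 2 * b + 1 := by ring
    omega

theorem exists_plane (p j : ℕ) (hp : p.Prime) (hj : 1 ≤ j) :
    ∃ (Pt Ln Cl : Type) (_ : Fintype Pt) (_ : Fintype Ln) (_ : Fintype Cl),
      Nonempty (Plane p (p ^ (2 * j)) Pt Ln Cl) ∧ p ^ j < Fintype.card Cl := by
  have := Fact.mk hp
  have f2 := GaloisField.finrank p (n := 2 * j) (by omega)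
  have f3 := GaloisField.finrank p (n := 3 * j) (by omega)
  have f6 := GaloisField.finrank p (n := 6 * j) (by omega)
  obtain ⟨φ⟩ := FiniteField.nonempty_algHom_of_finrank_dvd (F := ZMod p)
    (K := GaloisField p (2 * j)) (L := GaloisField p (6 * j)) (by rw [f2, f6]; exact ⟨3, by ring⟩)
  obtain ⟨ι⟩ := FiniteField.nonempty_algHom_of_finrank_dvd (F := ZMod p)
    (K := GaloisField p (3 * j)) (L := GaloisField p (6 * j)) (by rw [f3, f6]; exact ⟨2, by ring⟩)
  let _ : Algebra (GaloisField p (2 * j)) (GaloisField p (6 * j)) := φ.toRingHom.toAlgebra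
  have : IsScalarTower (ZMod p) (GaloisField p (2 * j)) (GaloisField p (6 * j)) :=
    IsScalarTower.of_algebraMap_eq fun x => (φ.commutes x).symm
  have h3 : Module.finrank (GaloisField p (2 * j)) (GaloisField p (6 * j)) = 3 := by
    have h := Module.finrank_mul_finrank (ZMod p) (GaloisField p (2 * j)) (GaloisField p (6 * j))
    rw [f2, f6] at h
    exact Nat.eq_of_mul_eq_mul_left (show 0 < 2 * j by omega) (by rw [h]; ring)
  let _ := Fintype.ofFinite (GaloisField p (2 * j))
  let _ := Fintype.ofFinite (GaloisField p (3 * j))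
  let _ := Fintype.ofFinite (GaloisField p (6 * j))
  rw [mul_comm 2 j, pow_mul]
  refine plane_of p (p ^ j) (le_trans hp.two_le (Nat.le_self_pow (by omega) p))
    (GaloisField p (2 * j)) (GaloisField p (6 * j)) (GaloisField p (3 * j)) ι.toRingHom ?_ ?_ h3
  · rw [← Nat.card_eq_fintype_card, GaloisField.card p _ (by omega), ← pow_mul, mul_comm]
  · rw [← Nat.card_eq_fintype_card, GaloisField.card p _ (by omega), ← pow_mul, mul_comm]

end Crest.Agent.R177
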