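import Crest.Agent.R177.D2B
import Crest.Agent.R177.Plane

/-!
Task R177-D2: the design over `𝔽₂` (fixed-point-free `σ`).  Use `exists_plane 2 15`: `q = 2^30` (keep `q` a variable with
`hq : q = 2^30` or just `2^30 ≤ q`, `Even q`), more than `5` classes; pick distinct classes `k₁..k₅`, `B i = β⁻¹ kᵢ` (odd size `≥ 3`).

`P = Pt ⊕ Fin 3` (`∞₀, ∞₁, ∞₂`), gadget points `x₀ ∈ B₄`, `x₁ ∈ B₅`, `x₂ ∈ B₃`; `Sp = {x₀,x₁,x₂,∞₀,∞₁,∞₂}`.  For `Z ⊆ Pt` and bits:
* A-sets: `A Z t = (Z ∪ {∞₀ if x₀ ∈ Z} ∪ {∞₁ if x₁ ∈ Z}) Δ (if t then {x₂, ∞₂} else ∅)`,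
* B-sets: `B Z t₀ t₁ = (Z ∪ {∞₂ if x₂ ∈ Z}) Δ (t₀ • {x₀,∞₀}) Δ (t₁ • {x₁,∞₁})`.
Then `|A Z t ∩ B Z' t₀ t₁| ≡ |Z ∩ Z'| mod 2` (compute with indicator functions in `ZMod 2`).
`V = Fin 4 × Option (Ln × Fin (2q²) × Fin n')`, `n' = (card P + 1)^(2g)`, `n = 2 q² n'`, `n₀ = (q+1) n`; components `0,1` are of type A,
`2,3` of type B.  A normal vertex `(l, ω, _)` has the A- or B-set of `ln l` with the bit for the gadget `xᵢ` equal to
`[ω < (if xᵢ ∈ ln l then q² else q+1)]`.  Special vertices: `sp 0 ↦ A B₄ 0`, `sp 1 ↦ B₁ ∪ B₂` (`Z = B₁`), `sp 2 ↦ B (B₁ ∪ B₂ ∪ B₃) 0 0`,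
`sp 3 ↦ B B₃ 0 0`.  `Hf = {(v,c) // c ∈ set v}`.  Every colour lies at exactly `(q+1) n` normal vertices of each component
(`(q+1) q² + q² (q+1) = 2q²(q+1)` for split colours).  `σ`: a fixed-point-free involution of `P` preserving `B₄ ∪ {∞₀}`, `B₁ ∪ B₂`,
`B₃ ∪ {∞₂}` (all of even size, the complement too), with `σ Sp ∩ Sp = ∅` (pair `xᵢ`, `∞ᵢ` with two further points of the class of `xᵢ`; a finset of
even size has a fixed-point-free involution).
Constants: `γ = 1/4` on `Sp`, `4` on `σ Sp`, else `1`; `h = 3000` on `Sp ∪ σ Sp`, else `1`; `R c c' = 1/8` if both in `Sp`, else `48/(q+1)` if one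
is in `Sp ∪ σ Sp`, else `(1 + 1/(4q))/(q+1)`; `θ = 1 - 1/(8q)`, `C = 100 q³`.  Pair counts: `≤ (q+1) n + 1` always; `≤ n + 1` if neither is in
`Sp`; `≤ n + (q+1)² n' + 1 ≤ 2n + 1` if exactly one is in `Sp`.
-/

set_option autoImplicit false

namespace Crest.Agent.R177

namespace D2

open Finset

open Classical in
theorem plane_data {q : ℕ} {Pt Ln Cl : Type} [Fintype Pt] [Fintype Ln] [Fintype Cl]
    (Pl : Plane 2 q Pt Ln Cl) (h5 : 5 ≤ Fintype.card Cl) :
    ∃ (κ : Pt → Fin 6) (X : Fin 3 → Pt) (b : ℕ), (∀ i, κ (X i) = ![0, 1, 2] i) ∧ Odd b ∧ 3 ≤ b ∧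
      (∀ k : Fin 6, k ≠ 5 → (univ.filter (fun y => κ y = k)).card = b) ∧
      ∀ k : Fin 6, k ≠ 5 → ∀ l, (((Pl.ln l).filter (fun y => κ y = k)).card : ZMod 2) = 1 := by
  obtain ⟨e⟩ : Nonempty (Fin 5 ↪ Cl) :=
    Function.Embedding.nonempty_of_card_le (by simpa using h5)
  let κ : Pt → Fin 6 := fun y => if h : ∃ k, Pl.β y = e k then h.choose.castSucc else 5
  have hκ : ∀ y (k : Fin 5), κ y = k.castSucc ↔ Pl.β y = e k := by
    intro y k
    simp only [κ]
    split_ifs with h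
    · rw [Fin.castSucc_inj]
      have := h.choose_spec
      constructor
      · intro h'; rw [← h']; exact this
      · intro h'; exact e.injective (this.symm.trans h')
    · constructor
      · intro h'; exact absurd h'.symm (Fin.castSucc_ne_last k)
      · intro h'; exact absurd ⟨k, h'⟩ h
  have hk : ∀ k : Fin 6, k ≠ 5 → ∃ k' : Fin 5, k = k'.castSucc := by decide
  have hex : ∀ k : Fin 5, ∃ y, κ y = k.castSucc := by
    intro k
    have := Pl.cl_three (e k)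
    obtain ⟨y, hy⟩ := card_pos.1 (lt_of_lt_of_le (by norm_num) this)
    exact ⟨y, (hκ y k).2 (mem_filter.1 hy).2⟩
  choose Y hY using hex
  refine ⟨κ, fun i => Y (![0, 1, 2] i), (univ.filter (fun y => Pl.β y = e 0)).card, ?_, ?_,
    Pl.cl_three _, ?_, ?_⟩
  · intro i
    rw [hY]
    fin_cases i <;> rfl
  · exact ZMod.natCast_eq_one_iff_odd.1 (Pl.cl_card _)
  · intro k hk5
    obtain ⟨k, rfl⟩ := hk k hk5
    simp only [hκ]
    exact Pl.cl_eq _ _
  · intro k hk5 l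
    obtain ⟨k, rfl⟩ := hk k hk5
    simp only [hκ]
    exact Pl.cl_meet _ _

/-- blocks preserved by `σ` -/
def blk {Pt : Type} (κ : Pt → Fin 6) : Pt ⊕ Fin 3 → Fin 5 :=
  Sum.elim (fun y => ![0, 1, 2, 3, 3, 4] (κ y)) ![0, 1, 2]

theorem exists_sigma {Pt : Type} [Fintype Pt] [DecidableEq Pt] (hPt : Odd (Fintype.card Pt))
    (κ : Pt → Fin 6) (X : Fin 3 → Pt) (b : ℕ) (hX : ∀ i, κ (X i) = ![0, 1, 2] i) (hb : Odd b)
    (hb3 : 3 ≤ b) (hc : ∀ k : Fin 6, k ≠ 5 → (univ.filter (fun y => κ y = k)).card = b) :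
    ∃ σ : Pt ⊕ Fin 3 → Pt ⊕ Fin 3, (∀ c, σ (σ c) = c) ∧ (∀ c, σ c ≠ c) ∧
      (∀ c, blk κ (σ c) = blk κ c) ∧ ∀ c ∈ Sp X, σ c ∉ Sp X := by
  obtain ⟨m, hm⟩ : ∃ m, m = (univ.filter (fun y => κ y = 5)).card := ⟨_, rfl⟩
  have hf : ∀ f : Fin 6 → ℕ, ∑ y, f (κ y) = (f 0 + f 1 + f 2 + f 3 + f 4) * b + f 5 * m := by
    intro f
    rw [← sum_fiberwise (s := univ) (g := κ)]
    have : ∀ k, ∑ y ∈ univ.filter (fun y => κ y = k), f (κ y) =
        f k * (univ.filter (fun y => κ y = k)).card := by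
      intro k
      rw [sum_congr rfl (g := fun _ => f k) (fun y hy => by rw [(mem_filter.1 hy).2]), sum_const,
        smul_eq_mul, mul_comm]
    simp only [this]
    rw [Fin.sum_univ_six, hc 0 (by decide), hc 1 (by decide), hc 2 (by decide), hc 3 (by decide),
      hc 4 (by decide), ← hm]
    ring
  have h1 := hf (fun _ => 1)
  simp only [sum_const, card_univ, smul_eq_mul, mul_one, one_mul] at h1
  have hcard : ∀ k, (univ.filter (fun c => blk κ c = k)).card =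
      ![b + 1, b + 1, b + 1, 2 * b, m] k := by
    intro k
    rw [card_filter, Fintype.sum_sum_type]
    have e1 := hf (fun j => if (![0, 1, 2, 3, 3, 4] : Fin 6 → Fin 5) j = k then 1 else 0)
    have e2 : ∑ i : Fin 3, (if blk κ (Sum.inr i) = k then 1 else 0) =
        ∑ i : Fin 3, (if (![0, 1, 2] : Fin 3 → Fin 5) i = k then 1 else 0) := rfl
    rw [e2]
    refine (congrArg (· + _) e1).trans ?_
    rw [Fin.sum_univ_three]
    fin_cases k <;> simp
  obtain ⟨b', rfl⟩ := hb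
  obtain ⟨p', hp'⟩ := hPt
  refine exists_invol (blk κ) (Sp X) (fun k => ?_) (fun k => ?_)
  · rw [hcard]
    fin_cases k
    · exact ⟨b' + 1, by simp; ring⟩
    · exact ⟨b' + 1, by simp; ring⟩
    · exact ⟨b' + 1, by simp; ring⟩
    · exact ⟨2 * b' + 1, by simp; ring⟩
    · exact ⟨p' - (5 * b' + 2), by simp; omega⟩
  · have h2 : ((Sp X).filter (fun c => blk κ c = k)).card ≤
        (univ.filter (fun y : Fin 3 × Bool => (![0, 1, 2] : Fin 3 → Fin 5) y.1 = k)).card := by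
      rw [Sp, filter_image]
      refine card_image_le.trans (le_of_eq (congrArg card ?_))
      ext ⟨i, t⟩
      rw [mem_filter, mem_filter]
      cases t
      · simp [blk]
      · simp only [blk, if_true, Sum.elim_inl, hX, mem_univ, true_and]
        fin_cases i <;> simp
    have h3 : (univ.filter (fun y : Fin 3 × Bool => (![0, 1, 2] : Fin 3 → Fin 5) y.1 = k)).card =
        ![2, 2, 2, 0, 0] k := by
      clear h2
      revert k; decide
    rw [h3] at h2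
    rw [hcard]
    refine le_trans (Nat.mul_le_mul_left 2 h2) ?_
    fin_cases k <;> simp <;> omega

/-- indicator of a class -/
def zc {Pt : Type} (κ : Pt → Fin 6) (k : Fin 6) (y : Pt) : ZMod 2 := if κ y = k then 1 else 0

/-- gadget types -/
def GG : Fin 4 → Finset (Fin 3) := ![{2}, {2}, {2}ᶜ, {2}ᶜ]

/-- point sets of the special vertices -/
def zs {Pt : Type} (κ : Pt → Fin 6) : Fin 4 → Pt → ZMod 2 :=
  ![zc κ 0, zc κ 3 + zc κ 4, zc κ 3 + zc κ 4 + zc κ 2, zc κ 2]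

theorem sp_iff {Pt : Type} [DecidableEq Pt] (κ : Pt → Fin 6) (X : Fin 3 → Pt)
    (hX : ∀ i, κ (X i) = ![0, 1, 2] i) (x : Fin 4) (c : Pt ⊕ Fin 3) :
    gS X (GG x) (zs κ x) 0 c = 1 ↔
      blk κ c ∈ (![{0}, {3}, {2, 3}, {2}] : Fin 4 → Finset (Fin 5)) x := by
  rcases c with y | i
  · simp only [gS, blk, Sum.elim_inl, Pi.zero_apply, ite_self, sum_const_zero, add_zero]
    fin_cases x <;> simp only [zs, zc, Fin.reduceFinMk, Matrix.cons_val, Pi.add_apply] <;>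
      generalize κ y = k <;> revert k <;> decide
  · simp only [gS, blk, Sum.elim_inr, Pi.zero_apply]
    fin_cases x <;> simp only [zs, zc, Fin.reduceFinMk, Matrix.cons_val, Pi.add_apply, hX] <;>
      revert i <;> decide

theorem sp1_split {Pt : Type} [DecidableEq Pt] (κ : Pt → Fin 6) (X : Fin 3 → Pt)
    (c : Pt ⊕ Fin 3) :
    ((gS X {2} (zc κ 3 + zc κ 4) 0 c = 1 ∧ gS X {2} (zc κ 3) 0 c = 1) ↔
      gS X {2} (zc κ 3) 0 c = 1) ∧
    ((gS X {2} (zc κ 3 + zc κ 4) 0 c = 1 ∧ ¬ gS X {2} (zc κ 3) 0 c = 1) ↔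
      gS X {2} (zc κ 4) 0 c = 1) := by
  rcases c with y | i
  · simp only [gS, Pi.zero_apply, ite_self, sum_const_zero, add_zero, zc, Pi.add_apply]
    generalize κ y = k; revert k; decide
  · simp only [gS, Pi.zero_apply, zc, Pi.add_apply]
    generalize κ (X i) = k; revert k i; decide

end D2

open Finset D2 in
open Classical in
theorem design_two : ∃ (P : Type) (_ : Fintype P) (_ : Nonempty P) (σ : P → P) (K : Consts P σ),
    (∀ c, σ c ≠ c) ∧ ∀ g : ℕ, ∃ (Hf V : Type) (_ : Fintype Hf) (_ : Fintype V) (_ : Nonempty Hf)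
      (S : HS Hf V P) (cmp : V → Fin 4) (n₀ : ℕ) (sp : Fin 4 → V) (Z : Finset P),
      Scale K S cmp n₀ ∧ (Fintype.card P + 1) ^ (2 * g) ≤ n₀ ∧
      (n₀ : ℝ) ≤ K.C * ((Fintype.card P : ℝ) + 1) ^ (2 * g) ∧ (∀ i, cmp (sp i) = i) ∧
      (∀ u v, cmp u = 0 → cmp v = 2 →
        (Odd (cols S u ∩ cols S v).card ↔ ¬ (u = sp 0 ∧ v = sp 2))) ∧
      (∀ u v, cmp u = 1 → u ≠ sp 1 → (cmp v = 2 ∨ cmp v = 3) → Odd (cols S u ∩ cols S v).card) ∧
      (∀ v, cmp v = 2 → Odd ((cols S (sp 1) ∩ Z) ∩ cols S v).card ∧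
        Odd ((cols S (sp 1) \ Z) ∩ cols S v).card) ∧
      (∀ v, cmp v = 3 → (Odd ((cols S (sp 1) ∩ Z) ∩ cols S v).card ↔ v ≠ sp 3) ∧
        (Odd ((cols S (sp 1) \ Z) ∩ cols S v).card ↔ v ≠ sp 3)) := by
  obtain ⟨Pt, Ln, Cl, _, _, _, ⟨Pl⟩, hCl⟩ := exists_plane 2 15 Nat.prime_two (by norm_num)
  obtain ⟨q, hq⟩ : ∃ q, q = 2 ^ (2 * 15) := ⟨_, rfl⟩
  rw [← hq] at Pl
  have hqe : Even q := by rw [hq]; exact Nat.even_pow.2 ⟨even_two, by norm_num⟩
  have hq30 : 2 ^ 30 ≤ q := hq.ge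
  have hq1 : 1 ≤ q := le_trans (by norm_num) hq30
  have hq4 : 4 ≤ q := le_trans (by norm_num) hq30
  clear hq
  obtain ⟨κ, X, b, hX, hb, hb3, hc, hm⟩ := plane_data Pl (le_trans (by norm_num) hCl.le)
  have hXi : Function.Injective X := by
    intro i j h
    have := congrArg κ h
    rw [hX, hX] at this
    clear h
    revert i j
    decide
  have hPt : Odd (Fintype.card Pt) := by
    rw [Pl.cardPt]
    exact ((hqe.pow_of_ne_zero two_ne_zero).add hqe).add_one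
  obtain ⟨σ, hσ, hσne, hσb, hσS⟩ := exists_sigma hPt κ X b hX hb hb3 hc
  have hP : Fintype.card (Pt ⊕ Fin 3) = q ^ 2 + q + 4 := by
    rw [Fintype.card_sum, Pl.cardPt, Fintype.card_fin]
  obtain ⟨K, hKC, hK⟩ := exists_consts σ hσ (Sp X) (card_Sp X) hσS q (by exact_mod_cast hq30)
    (by rw [hP]; push_cast; ring)
  refine ⟨Pt ⊕ Fin 3, inferInstance, ⟨Sum.inr 0⟩, σ, K, hσne, fun g => ?_⟩
  obtain ⟨n', hn'⟩ : ∃ n', n' = (Fintype.card (Pt ⊕ Fin 3) + 1) ^ (2 * g) := ⟨_, rfl⟩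
  have hn1 : 1 ≤ n' := by rw [hn']; exact Nat.one_le_pow _ _ (Nat.succ_pos _)
  let nm : Fin 4 → Ln × Fin (2 * q ^ 2) → Pt ⊕ Fin 3 → Prop := fun x => nmG X Pl.ln q (GG x)
  let sp : Fin 4 → Pt ⊕ Fin 3 → Prop := fun x c => gS X (GG x) (zs κ x) 0 c = 1
  have hcls : ∀ x c, clsCard (gHS n' nm sp) Prod.fst x c =
      (if sp x c then 1 else 0) + (q + 1) * (2 * q ^ 2) * n' := by
    intro x c
    rw [clsCard_gHS, ← cnt_total X Pl.ln q hXi hq1 Pl.cardLn Pl.thru (GG x) c]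
    congr
  -- inner products
  have i1 : ∀ l m, ∑ y, ι (Pl.ln l) y * ι (Pl.ln m) y = 1 := by
    intro l m
    rw [← Pl.meet l m, card_filter, Nat.cast_sum, ← sum_filter_add_sum_filter_not univ (· ∈ Pl.ln l),
      sum_eq_zero (s := univ.filter fun y => ¬ y ∈ Pl.ln l)
        (fun y hy => by simp [ι, (mem_filter.1 hy).2]), add_zero, filter_mem_eq_inter, univ_inter]
    exact sum_congr rfl fun y hy => by simp [ι, hy]
  have i2 : ∀ l k, k ≠ 5 → ∑ y, ι (Pl.ln l) y * zc κ k y = 1 := by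
    intro l k hk
    rw [← hm k hk l, card_filter, Nat.cast_sum, ← sum_filter_add_sum_filter_not univ (· ∈ Pl.ln l),
      sum_eq_zero (s := univ.filter fun y => ¬ y ∈ Pl.ln l)
        (fun y hy => by simp [ι, (mem_filter.1 hy).2]), add_zero, filter_mem_eq_inter, univ_inter]
    exact sum_congr rfl fun y hy => by simp [ι, hy, zc]
  have i2' : ∀ l k, k ≠ 5 → ∑ y, zc κ k y * ι (Pl.ln l) y = 1 := by
    intro l k hk
    rw [← i2 l k hk]
    exact sum_congr rfl fun y _ => mul_comm _ _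
  have i3 : ∀ k k', k ≠ 5 → ∑ y, zc κ k y * zc κ k' y = if k = k' then 1 else 0 := by
    intro k k' hk
    split_ifs with h
    · subst h
      rw [← ZMod.natCast_eq_one_iff_odd.2 hb, ← hc k hk, card_filter, Nat.cast_sum]
      exact sum_congr rfl fun y _ => by by_cases h : κ y = k <;> simp [zc, h]
    · refine sum_eq_zero fun y _ => ?_
      by_cases h1 : κ y = k
      · simp [zc, h1, h]
      · simp [zc, h1]
  let zv : Fin 4 × Option ((Ln × Fin (2 * q ^ 2)) × Fin n') → Pt → ZMod 2 := fun v =>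
    Option.elim v.2 (zs κ v.1) (fun w => ι (Pl.ln w.1.1))
  let tv : Fin 4 × Option ((Ln × Fin (2 * q ^ 2)) × Fin n') → Fin 3 → ZMod 2 := fun v =>
    Option.elim v.2 0 (fun w => tb X Pl.ln q w.1.1 w.1.2)
  have hcol : ∀ v c, c ∈ cols (gHS n' nm sp) v ↔ gS X (GG v.1) (zv v) (tv v) c = 1 := by
    rintro ⟨x, _ | w⟩ c <;> rw [mem_cols] <;> exact Iff.rfl
  have hodd : ∀ (s : Finset (Pt ⊕ Fin 3)) (z : Pt → ZMod 2) (t : Fin 3 → ZMod 2) v,
      (v.1 = 2 ∨ v.1 = 3) → (∀ c, c ∈ s ↔ gS X {2} z t c = 1 ∧ c ∈ cols (gHS n' nm sp) v) →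
      (Odd s.card ↔ ∑ y, z y * zv v y = 1) := by
    intro s z t v hv hs
    have hG : GG v.1 = {2}ᶜ := by rcases hv with h | h <;> rw [h] <;> rfl
    rw [← gS_ip X hXi {2} z (zv v) t (tv v)]
    exact odd_iff s _ _ (fun c => by rw [hs, hcol, hG])
  have hcolA : ∀ u, (u.1 = 0 ∨ u.1 = 1) → ∀ c, c ∈ cols (gHS n' nm sp) u ↔
      gS X {2} (zv u) (tv u) c = 1 := by
    intro u hu c
    have hG : GG u.1 = {2} := by rcases hu with h | h <;> rw [h] <;> rfl
    rw [hcol, hG]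
  have hZ : ∀ c, c ∈ cols (gHS n' nm sp) (1, none) ↔ gS X {2} (zc κ 3 + zc κ 4) 0 c = 1 :=
    fun c => hcol _ c
  have h3 : (1 + 1 + 1 : ZMod 2) = 1 := by decide
  have z0 : zs κ 0 = zc κ 0 := rfl
  have z2 : zs κ 2 = zc κ 3 + zc κ 4 + zc κ 2 := rfl
  have z3 : zs κ 3 = zc κ 2 := rfl
  have hqR : (4 : ℝ) ≤ q := by exact_mod_cast hq4
  have hnR : (1 : ℝ) ≤ n' := by exact_mod_cast hn1
  refine ⟨_, _, inferInstance, inferInstance, ?_, gHS n' nm sp, Prod.fst, (q + 1) * (2 * q ^ 2) * n',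
    fun i => (i, none), univ.filter (fun c => gS X {2} (zc κ 3) 0 c = 1),
    ⟨?_, ?_, ?_, ?_, ?_⟩, ?_, ?_, fun _ => rfl, ?_, ?_, ?_, ?_⟩
  · exact ⟨⟨((0, none), Sum.inr 0), (sp_iff κ X hX 0 _).2 (by simp [blk])⟩⟩
  · intro h
    rw [hcls]; omega
  · intro x c
    rw [hcls, hcls]
    simp only [sp, sp_iff κ X hX, hσb]
  · intro x c h
    exact absurd h (hσne c)
  · intro x c c' hcc
    have e : (((q + 1) * (2 * q ^ 2) * n' : ℕ) : ℝ) = (q + 1) * (2 * q ^ 2 * n') := by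
      push_cast; ring
    rw [e]
    have hp := pairCard_gHS n' nm sp x c c'
    have hsq : (q + 1) ^ 2 ≤ 2 * q ^ 2 := by nlinarith
    refine hK _ (by nlinarith) c c' _ ?_ ?_ ?_
    · have h1 : (univ.filter (fun w => nm x w c ∧ nm x w c')).card ≤ (q + 1) * (2 * q ^ 2) := by
        rw [← cnt_total X Pl.ln q hXi hq1 Pl.cardLn Pl.thru (GG x) c]
        refine card_le_card fun w hw => ?_
        simp only [mem_filter, mem_univ, true_and] at hw ⊢
        exact hw.1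
      have h2 := hp.trans (Nat.add_le_add_left (Nat.mul_le_mul_right n' h1) 1)
      rw [← e]
      exact_mod_cast h2.trans (add_comm _ _).le
    · intro h
      have h1 : (univ.filter (fun w => nm x w c ∧ nm x w c')).card ≤ 2 * (2 * q ^ 2) := by
        rcases h with h | h
        · have := cnt_pair X Pl.ln q hXi hq1 Pl.thru Pl.two (GG x) h hcc
          refine le_trans this ?_
          split_ifs <;> omega
        · have := cnt_pair X Pl.ln q hXi hq1 Pl.thru Pl.two (GG x) h hcc.symm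
          refine le_trans (le_of_eq (congrArg card (filter_congr fun _ _ => and_comm)))
            (le_trans this ?_)
          split_ifs <;> omega
      have h2 := hp.trans (Nat.add_le_add_left (Nat.mul_le_mul_right n' h1) 1)
      have h3 : (pairCard (gHS n' nm sp) Prod.fst x c c' : ℝ) ≤ 1 + 2 * (2 * q ^ 2) * n' := by
        exact_mod_cast h2
      linarith
    · intro h h'
      have h1 : (univ.filter (fun w => nm x w c ∧ nm x w c')).card ≤ 2 * q ^ 2 := by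
        have := cnt_pair X Pl.ln q hXi hq1 Pl.thru Pl.two (GG x) h hcc
        rw [if_neg h', add_zero] at this
        exact this
      have h2 := hp.trans (Nat.add_le_add_left (Nat.mul_le_mul_right n' h1) 1)
      have h3 : (pairCard (gHS n' nm sp) Prod.fst x c c' : ℝ) ≤ 1 + (2 * q ^ 2) * n' := by
        exact_mod_cast h2
      linarith
  · rw [hKC]
    simp only [Fintype.card_prod, Fintype.card_option, Fintype.card_fin, Pl.cardLn]
    push_cast
    have h1 : (1 : ℝ) ≤ 2 * q ^ 2 * n' := by nlinarith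
    have h2 : (4 : ℝ) * (q ^ 2 + q + 2) ≤ 100 * q ^ 3 * (q + 1) := by
      have : (q : ℝ) ^ 2 + q + 2 ≤ q ^ 3 := by nlinarith
      nlinarith
    calc _ ≤ (4 * ((q : ℝ) ^ 2 + q + 2)) * (2 * q ^ 2 * n') := by nlinarith
      _ ≤ (100 * q ^ 3 * (q + 1)) * (2 * q ^ 2 * n') := by gcongr
      _ = _ := by ring
  · rw [← hn']
    exact Nat.le_mul_of_pos_left _ (by positivity)
  · rw [hKC]
    have : ((Fintype.card (Pt ⊕ Fin 3) : ℝ) + 1) ^ (2 * g) = n' := by rw [hn']; push_cast; ring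
    rw [this]
    push_cast
    refine mul_le_mul_of_nonneg_right ?_ (by linarith)
    have : (0 : ℝ) ≤ q ^ 2 := by positivity
    nlinarith
  · rintro ⟨x, a⟩ ⟨y, b⟩ (rfl : x = 0) (rfl : y = 2)
    refine (hodd _ (zv (0, a)) (tv (0, a)) (2, b) (Or.inl rfl) fun c => ?_).trans ?_
    · rw [@mem_inter _ (_), hcolA _ (Or.inl rfl)]
    rcases a with _ | a <;> rcases b with _ | b <;>
      simp [zv, z0, z2, mul_add, sum_add_distrib, i1, i2, i2', i3, h3]
  · rintro ⟨x, a⟩ ⟨y, b⟩ (rfl : x = 1) hne hy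
    refine (hodd _ (zv (1, a)) (tv (1, a)) (y, b) hy fun c => ?_).2 ?_
    · rw [@mem_inter _ (_), hcolA _ (Or.inr rfl)]
    rcases a with _ | a
    · exact absurd rfl hne
    · rcases hy with (rfl : y = 2) | (rfl : y = 3) <;> rcases b with _ | b <;>
        simp [zv, z2, z3, mul_add, sum_add_distrib, i1, i2, h3]
  · rintro ⟨y, b⟩ (rfl : y = 2)
    refine ⟨(hodd _ (zc κ 3) 0 (2, b) (Or.inl rfl) fun c => ?_).2 ?_,
      (hodd _ (zc κ 4) 0 (2, b) (Or.inl rfl) fun c => ?_).2 ?_⟩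
    · rw [@mem_inter _ (_), @mem_inter _ (_), hZ, mem_filter, and_congr_left_iff]
      simpa using fun _ => (sp1_split κ X c).1
    · rcases b with _ | b <;> simp [zv, z2, mul_add, sum_add_distrib, i2', i3]
    · rw [@mem_inter _ (_), @mem_sdiff _ (_), hZ, mem_filter, and_congr_left_iff]
      simpa using fun _ => (sp1_split κ X c).2
    · rcases b with _ | b <;> simp [zv, z2, mul_add, sum_add_distrib, i2', i3]
  · rintro ⟨y, b⟩ (rfl : y = 3)
    refine ⟨(hodd _ (zc κ 3) 0 (3, b) (Or.inr rfl) fun c => ?_).trans ?_,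
      (hodd _ (zc κ 4) 0 (3, b) (Or.inr rfl) fun c => ?_).trans ?_⟩
    · rw [@mem_inter _ (_), @mem_inter _ (_), hZ, mem_filter, and_congr_left_iff]
      simpa using fun _ => (sp1_split κ X c).1
    · rcases b with _ | b <;> simp [zv, z3, i2', i3]
    · rw [@mem_inter _ (_), @mem_sdiff _ (_), hZ, mem_filter, and_congr_left_iff]
      simpa using fun _ => (sp1_split κ X c).2
    · rcases b with _ | b <;> simp [zv, z3, i2', i3]

end Crest.Agent.R177
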