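import Crest.Agent.R177.Alg
import Crest.Agent.R177.Plane

/-!
Task R177-DO: the design in odd characteristic.

## `design_odd`
`exists_plane p 2`: `q = p⁴`, more than `p² ≥ 2p+2` classes; `Cl₀, Cl₁` disjoint sets of `p+1` classes, `S i = β⁻¹ (Cl i)` (even size, `≡ 1 mod p`,
meets every line in `≡ 1` points).  `P = Pt`, `σ` = fixed-point-free involution on `S 0` and on `S 1`, the identity elsewhere.
`V = (Fin 2 × Bool) × Option (Ln × Fin n)`, `n = 4 q (card P + 1)^(2g)`, `n₀ = (q+1) n`; normal vertices carry lines, `sp (i,true) ↦ S i`,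
`sp (i,false) ↦ S (1-i)`; `Hf = {(v,c) // c ∈ set v}`.  `γ = h = 1`, `R = (1 + 1/(4q))/(q+1)`, `θ = 1 - 1/(8q)`, `C = 100 q³`.

-/

set_option autoImplicit false

namespace Crest.Agent.R177

namespace DO

open Finset

theorem exists_invol {P : Type} (A : Finset P) (hA : Even A.card) :
    ∃ σ : P → P, (∀ c, σ (σ c) = c) ∧ (∀ c ∈ A, σ c ∈ A ∧ σ c ≠ c) ∧ ∀ c ∉ A, σ c = c := by
  classical
  obtain ⟨k, hk⟩ := hA
  obtain ⟨e⟩ : Nonempty (A ≃ Fin k × Bool) := ⟨Fintype.equivOfCardEq (by simp [hk]; ring)⟩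
  let τ : A → A := fun c => e.symm ((e c).1, !(e c).2)
  have h1 : ∀ c, τ (τ c) = c := fun c => by simp [τ]
  have h2 : ∀ c, τ c ≠ c := fun c h => by
    have := congrArg (fun y => (e y).2) h
    simp [τ] at this
  refine ⟨fun c => if h : c ∈ A then τ ⟨c, h⟩ else c, fun c => ?_, fun c hc => ?_,
    fun c hc => dif_neg hc⟩
  · by_cases hc : c ∈ A
    · simp only [dif_pos hc, dif_pos (τ ⟨c, hc⟩).2, Subtype.coe_eta, h1]
    · simp only [dif_neg hc]
  · simp only [dif_pos hc]
    exact ⟨(τ ⟨c, hc⟩).2, fun h => h2 ⟨c, hc⟩ (Subtype.ext h)⟩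

/-- the half-edge system of a family of colour sets -/
def hs {V P : Type} (st : V → Finset P) : HS {y : V × P // y.2 ∈ st y.1} V P where
  vert y := y.1.1
  col y := y.1.2
  fold _ _ h1 h2 := Subtype.ext (Prod.ext h1 h2)

theorem hs_ex {V P : Type} (st : V → Finset P) (v : V) (c : P) :
    (∃ h, (hs st).vert h = v ∧ (hs st).col h = c) ↔ c ∈ st v :=
  ⟨by rintro ⟨h, rfl, rfl⟩; exact h.2, fun h => ⟨⟨(v, c), h⟩, rfl, rfl⟩⟩

theorem cols_hs {V P : Type} [Fintype P] (st : V → Finset P) (v : V) : cols (hs st) v = st v := by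
  ext c
  simp only [cols, mem_filter, mem_univ, true_and, hs_ex]

open Classical in
theorem clsCard_hs {V P X : Type} [Fintype V] (st : V → Finset P)
    [Fintype {y : V × P // y.2 ∈ st y.1}] (cmp : V → X) (x : X) (c : P) :
    clsCard (hs st) cmp x c = (univ.filter (fun v => cmp v = x ∧ c ∈ st v)).card := by
  unfold clsCard
  refine card_bij (fun y _ => y.1.1) ?_ ?_ ?_
  · intro y hy
    simp only [mem_filter, mem_univ, true_and] at hy ⊢
    exact ⟨hy.1, hy.2 ▸ y.2⟩
  · intro y hy y' hy' h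
    simp only [mem_filter, mem_univ, true_and] at hy hy'
    exact (hs st).fold _ _ h (hy.2.trans hy'.2.symm)
  · intro v hv
    simp only [mem_filter, mem_univ, true_and] at hv
    exact ⟨⟨(v, c), hv.2⟩, by simp only [mem_filter, mem_univ, true_and]; exact ⟨hv.1, rfl⟩, rfl⟩

open Classical in
theorem pairCard_hs {V P X : Type} [Fintype V] (st : V → Finset P) (cmp : V → X) (x : X)
    (c c' : P) :
    pairCard (hs st) cmp x c c' =
      (univ.filter (fun v => cmp v = x ∧ c ∈ st v ∧ c' ∈ st v)).card := by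
  unfold pairCard
  simp only [hs_ex]

open Classical in
theorem count {X L : Type} [Fintype X] [Fintype L] (n : ℕ) (x : X)
    (Pr : X × Option (L × Fin n) → Prop) (Pl : L → Prop) (h : ∀ l k, Pr (x, some (l, k)) ↔ Pl l) :
    (univ.filter (fun v : X × Option (L × Fin n) => v.1 = x ∧ Pr v)).card =
      (if Pr (x, none) then 1 else 0) + (univ.filter Pl).card * n := by
  rw [card_filter, Fintype.sum_prod_type, sum_eq_single x]
  · rw [Fintype.sum_option, Fintype.sum_prod_type, card_filter, sum_mul]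
    simp only [true_and, h]
    congr 1
    refine sum_congr rfl fun l _ => ?_
    split_ifs <;> simp
  · intro y _ hy
    simp [hy]
  · simp

/-- the constants -/
noncomputable def consts {P : Type} [Fintype P] (σ : P → P) (hσ : ∀ c, σ (σ c) = c) (q : ℝ)
    (hq : 1 ≤ q) (hP : (Fintype.card P : ℝ) = q ^ 2 + q + 1) : Consts P σ where
  R _ _ := (1 + 1 / (4 * q)) / (q + 1)
  γ _ := 1
  h _ := 1
  θ := 1 - 1 / (8 * q)
  C := 100 * q ^ 3
  σσ := hσ
  θ_pos := by
    rw [sub_pos, div_lt_one (by positivity)]; linarith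
  θ_lt := by
    have : 0 < 1 / (8 * q) := by positivity
    linarith
  one_le_C := by
    have := one_le_pow₀ (n := 3) hq
    linarith
  R_symm _ _ := rfl
  R_lo _ _ := by
    have h1 : q ≤ q ^ 3 := le_self_pow₀ hq (by norm_num)
    have h2 : 0 ≤ 1 / (4 * q) := by positivity
    calc 1 / (100 * q ^ 3) ≤ 1 / (q + 1) :=
          one_div_le_one_div_of_le (by positivity) (by linarith)
      _ ≤ _ := div_le_div_of_nonneg_right (by linarith) (by positivity)
  R_hi _ _ := by
    have h1 : 1 / (4 * q) ≤ 1 / 4 := one_div_le_one_div_of_le (by norm_num) (by linarith)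
    have h2 : 1 / (8 * q) ≤ 1 / 8 := one_div_le_one_div_of_le (by norm_num) (by linarith)
    have h3 : (1 + 1 / (4 * q)) / (q + 1) ≤ 5 / 8 := by
      rw [div_le_iff₀ (by positivity)]; linarith
    have h4 := pow_le_pow_left₀ (by positivity) h3 2
    linarith
  γ_pos _ := one_pos
  γ_σ _ := mul_one _
  γ_le _ := by
    have := one_le_pow₀ (n := 3) hq
    linarith
  h_lo _ := le_rfl
  h_hi _ := by
    have := one_le_pow₀ (n := 3) hq
    linarith
  row c := by
    classical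
    have h0 : 1 ≤ Fintype.card P := Fintype.card_pos_iff.2 ⟨c⟩
    rw [sum_const, card_erase_of_mem (mem_univ _), card_univ, nsmul_eq_mul, Nat.cast_sub h0, hP,
      mul_one, mul_one]
    have hq0 : 0 < q := by linarith
    rw [← sub_nonneg]
    have : 1 - 1 / (8 * q) - (q ^ 2 + q + 1 - (1 : ℕ)) * ((1 + 1 / (4 * q)) / (q + 1)) ^ 2 =
        (6 * q - 3) / (16 * q * (q + 1)) := by
      field_simp; push_cast; ring
    rw [this]
    exact div_nonneg (by linarith) (by positivity)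

open Classical in
theorem exists_sets {p q : ℕ} (hp : p.Prime) (h3 : 3 ≤ p) {Pt Ln Cl : Type} [Fintype Pt]
    [Fintype Ln] [Fintype Cl] (pl : Plane p q Pt Ln Cl) (hCl : p ^ 2 < Fintype.card Cl) :
    ∃ A : Fin 2 → Finset Pt, Disjoint (A 0) (A 1) ∧ (∀ i, Even (A i).card) ∧
      (∀ i, ((A i).card : ZMod p) = 1) ∧ ∀ i l, ((A i ∩ pl.ln l).card : ZMod p) = 1 := by
  obtain ⟨C0, -, h0⟩ := exists_subset_card_eq (s := (univ : Finset Cl)) (n := p + 1)
    (by rw [card_univ]; nlinarith)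
  obtain ⟨C1, h1', h1⟩ := exists_subset_card_eq (s := (univ : Finset Cl) \ C0) (n := p + 1)
    (by
      rw [card_sdiff_of_subset (subset_univ _), card_univ, h0]
      have : 2 * p + 2 ≤ p ^ 2 := by nlinarith
      omega)
  have key : ∀ (C : Finset Cl) (B : Finset Pt), (B.filter (fun x => pl.β x ∈ C)).card =
      ∑ k ∈ C, (B.filter (fun x => pl.β x = k)).card := by
    intro C B
    rw [card_eq_sum_card_fiberwise (f := pl.β) (s := B.filter (fun x => pl.β x ∈ C)) (t := C)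
      (fun x hx => mem_coe.2 (mem_filter.1 (mem_coe.1 hx)).2)]
    refine sum_congr rfl fun k hk => ?_
    rw [filter_filter]
    congr 1
    refine filter_congr fun x _ => ⟨fun h => h.2, fun h => ⟨h ▸ hk, h⟩⟩
  have main : ∀ C : Finset Cl, C.card = p + 1 →
      Even (univ.filter (fun x => pl.β x ∈ C)).card ∧
      ((univ.filter (fun x => pl.β x ∈ C)).card : ZMod p) = 1 ∧
      ∀ l, ((univ.filter (fun x => pl.β x ∈ C) ∩ pl.ln l).card : ZMod p) = 1 := by
    intro C hC
    refine ⟨?_, ?_, fun l => ?_⟩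
    · obtain ⟨k0, -⟩ : C.Nonempty := card_pos.1 (by omega)
      rw [key, sum_congr rfl (fun k _ => pl.cl_eq k k0), sum_const, hC, smul_eq_mul]
      exact ((hp.odd_of_ne_two (by omega)).add_one).mul_right _
    · rw [key, Nat.cast_sum, sum_congr rfl (fun k _ => pl.cl_card k), sum_const, hC]
      simp
    · have : univ.filter (fun x => pl.β x ∈ C) ∩ pl.ln l = (pl.ln l).filter (fun x => pl.β x ∈ C) := by
        ext x; simp [and_comm]
      rw [this, key, Nat.cast_sum, sum_congr rfl (fun k _ => pl.cl_meet k l), sum_const, hC]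
      simp
  refine ⟨![univ.filter (fun x => pl.β x ∈ C0), univ.filter (fun x => pl.β x ∈ C1)], ?_,
    Fin.forall_fin_two.2 ⟨(main C0 h0).1, (main C1 h1).1⟩,
    Fin.forall_fin_two.2 ⟨(main C0 h0).2.1, (main C1 h1).2.1⟩,
    Fin.forall_fin_two.2 ⟨(main C0 h0).2.2, (main C1 h1).2.2⟩⟩
  rw [Finset.disjoint_left]
  intro x hx hx'
  simp only [Matrix.cons_val_zero, Matrix.cons_val_one, mem_filter, mem_univ, true_and] at hx hx'
  exact (mem_sdiff.1 (h1' hx')).2 hx

theorem exists_sigma {P : Type} (A : Fin 2 → Finset P) (hd : Disjoint (A 0) (A 1))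
    (he : ∀ i, Even (A i).card) : ∃ σ : P → P, (∀ c, σ (σ c) = c) ∧
      (∀ i c, σ c ∈ A i ↔ c ∈ A i) ∧ ∀ i c, σ c = c → c ∉ A i := by
  classical
  obtain ⟨σ0, a1, a2, a3⟩ := exists_invol (A 0) (he 0)
  obtain ⟨σ1, b1, b2, b3⟩ := exists_invol (A 1) (he 1)
  have hd' := Finset.disjoint_left.1 hd
  have h1 : ∀ c, c ∉ A 0 → σ1 c ∉ A 0 := by
    intro c hc
    by_cases h : c ∈ A 1
    · exact fun h' => hd' h' (b2 c h).1
    · rw [b3 c h]; exact hc
  have hσ : ∀ c, (fun c => if c ∈ A 0 then σ0 c else σ1 c)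
      ((fun c => if c ∈ A 0 then σ0 c else σ1 c) c) = c := by
    intro c
    by_cases hc : c ∈ A 0
    · simp only [if_pos hc, if_pos (a2 c hc).1, a1]
    · simp only [if_neg hc, if_neg (h1 c hc), b1]
  have hm : ∀ i c, c ∈ A i → (fun c => if c ∈ A 0 then σ0 c else σ1 c) c ∈ A i ∧
      (fun c => if c ∈ A 0 then σ0 c else σ1 c) c ≠ c := by
    refine Fin.forall_fin_two.2 ⟨fun c hc => ?_, fun c hc => ?_⟩
    · simp only [if_pos hc]; exact a2 c hc
    · simp only [if_neg (fun h => hd' h hc)]; exact b2 c hc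
  refine ⟨_, hσ, fun i c => ⟨fun h => ?_, fun h => (hm i c h).1⟩, fun i c h hc => (hm i c hc).2 h⟩
  have := (hm i _ h).1
  rwa [hσ] at this

/-- colour sets of the vertices -/
def st {Pt Ln : Type} (ln : Ln → Finset Pt) (A : Fin 2 → Finset Pt) (n : ℕ) :
    (Fin 2 × Bool) × Option (Ln × Fin n) → Finset Pt
  | (_, some y) => ln y.1
  | ((i, true), none) => A i
  | ((i, false), none) => A (1 - i)

theorem st_none {Pt Ln : Type} (ln : Ln → Finset Pt) (A : Fin 2 → Finset Pt) (n : ℕ)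
    (x : Fin 2 × Bool) : ∃ i, st ln A n (x, none) = A i := by
  obtain ⟨i, _ | _⟩ := x
  · exact ⟨_, rfl⟩
  · exact ⟨_, rfl⟩

theorem st_some {Pt Ln : Type} (ln : Ln → Finset Pt) (A : Fin 2 → Finset Pt) (n : ℕ)
    (x : Fin 2 × Bool) (y : Ln × Fin n) : st ln A n (x, some y) = ln y.1 := by
  obtain ⟨i, _ | _⟩ := x <;> rfl

end DO

open Finset DO

open Classical in
theorem design_odd (p : ℕ) (hp : p.Prime) (h3 : 3 ≤ p) :
    ∃ (P : Type) (_ : Fintype P) (_ : Nonempty P) (σ : P → P) (K : Consts P σ),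
      ∀ g : ℕ, ∃ (Hf V : Type) (_ : Fintype Hf) (_ : Fintype V) (_ : Nonempty Hf)
      (S : HS Hf V P) (cmp : V → Fin 2 × Bool) (n₀ : ℕ) (sp : Fin 2 × Bool → V),
      Scale K S cmp n₀ ∧ (Fintype.card P + 1) ^ (2 * g) ≤ n₀ ∧
      (n₀ : ℝ) ≤ K.C * ((Fintype.card P : ℝ) + 1) ^ (2 * g) ∧ (∀ i, cmp (sp i) = i) ∧
      ∀ i j u v, cmp u = (i, true) → cmp v = (j, false) →
        ((cols S u ∩ cols S v).card : ZMod p) =
          if i = j ∧ u = sp (i, true) ∧ v = sp (j, false) then 0 else 1 := by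
  obtain ⟨Pt, Ln, Cl, _, _, _, ⟨pl⟩, hCl⟩ := exists_plane p 2 hp (by norm_num)
  obtain ⟨q, hq⟩ : ∃ q, q = p ^ (2 * 2) := ⟨_, rfl⟩
  have hq1 : 1 ≤ q := hq ▸ Nat.one_le_pow _ _ hp.pos
  rw [← hq] at pl
  obtain ⟨A, hd, he, hA1, hA2⟩ := exists_sets hp h3 pl hCl
  obtain ⟨σ, hσ, hσ1, hσ2⟩ := exists_sigma A hd he
  have hq1' : (1 : ℝ) ≤ q := by exact_mod_cast hq1
  have hP : (Fintype.card Pt : ℝ) = (q : ℝ) ^ 2 + q + 1 := by rw [pl.cardPt]; push_cast; ring
  haveI hne : Nonempty Pt := Fintype.card_pos_iff.1 (by rw [pl.cardPt]; omega)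
  refine ⟨Pt, inferInstance, hne, σ, consts σ hσ q hq1' hP, fun g => ?_⟩
  obtain ⟨N, hN⟩ : ∃ N, N = (Fintype.card Pt + 1) ^ (2 * g) := ⟨_, rfl⟩
  have hN1 : 1 ≤ N := hN ▸ Nat.one_le_pow _ _ (by omega)
  have hN1' : (1 : ℝ) ≤ N := by exact_mod_cast hN1
  obtain ⟨n, hn⟩ : ∃ n, n = 4 * q * N := ⟨_, rfl⟩
  have hn' : (n : ℝ) = 4 * q * N := by rw [hn]; push_cast; ring
  have hn1 : (1 : ℝ) ≤ n := by rw [hn']; nlinarith
  have hcls : ∀ x c, clsCard (hs (st pl.ln A n)) Prod.fst x c =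
      (if c ∈ st pl.ln A n (x, none) then 1 else 0) + (q + 1) * n := by
    intro x c
    rw [clsCard_hs, ← pl.thru c]
    convert count n x (fun v => c ∈ st pl.ln A n v) (fun l => c ∈ pl.ln l)
      (fun l k => by rw [st_some])
  have hpair : ∀ x c c', c ≠ c' → pairCard (hs (st pl.ln A n)) Prod.fst x c c' ≤ 1 + n := by
    intro x c c' hc
    rw [pairCard_hs]
    have := count n x (fun v => c ∈ st pl.ln A n v ∧ c' ∈ st pl.ln A n v)
      (fun l => c ∈ pl.ln l ∧ c' ∈ pl.ln l) (fun l k => by rw [st_some])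
    refine le_trans (le_of_eq (by convert this)) (add_le_add (by split_ifs <;> simp) ?_)
    refine le_trans (Nat.mul_le_mul_right _ (le_trans (le_of_eq ?_) (pl.two c c' hc))) (one_mul n).le
    congr
  obtain ⟨c0, hc0⟩ : (A 0).Nonempty := by
    rw [nonempty_iff_ne_empty]
    intro h
    have h1 := hA1 0
    rw [h] at h1
    haveI := Fact.mk hp
    exact zero_ne_one (α := ZMod p) (by simpa only [card_empty, Nat.cast_zero] using h1)
  refine ⟨{y : ((Fin 2 × Bool) × Option (Ln × Fin n)) × Pt // y.2 ∈ st pl.ln A n y.1},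
    (Fin 2 × Bool) × Option (Ln × Fin n), inferInstance, inferInstance,
    ⟨⟨(((0, true), none), c0), hc0⟩⟩, hs (st pl.ln A n), Prod.fst, (q + 1) * n, fun x => (x, none),
    ⟨fun h => ?_, fun x c => ?_, fun x c hc => ?_, fun x c c' hc => ?_, ?_⟩, ?_, ?_, fun _ => rfl,
    ?_⟩
  · rw [hcls]; omega
  · rw [hcls, hcls]
    obtain ⟨i, hi⟩ := st_none pl.ln A n x
    simp only [hi, hσ1]
  · rw [hcls]
    obtain ⟨i, hi⟩ := st_none pl.ln A n x
    rw [hi, if_neg (hσ2 i c hc), zero_add, hn]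
    exact ⟨(q + 1) * (2 * q * N), by ring⟩
  · have h1 : (pairCard (hs (st pl.ln A n)) Prod.fst x c c' : ℝ) ≤ 1 + n := by
      exact_mod_cast hpair x c c' hc
    refine h1.trans ?_
    simp only [consts, mul_one, div_one]
    have : (1 + 1 / (4 * (q : ℝ))) / (q + 1) * (((q + 1) * n : ℕ) : ℝ) = N + n := by
      push_cast
      rw [hn']
      field_simp
      ring
    rw [this]
    linarith
  · simp only [consts, Fintype.card_prod, Fintype.card_fin, Fintype.card_bool, Fintype.card_option,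
      pl.cardLn]
    push_cast
    have h1 : (q : ℝ) ≤ q ^ 3 := le_self_pow₀ hq1' (by norm_num)
    have h2 : (q : ℝ) ^ 2 ≤ q ^ 3 := pow_le_pow_right₀ hq1' (by norm_num)
    have h3 : (q : ℝ) ^ 2 + q + 2 ≤ 25 * q ^ 3 * (q + 1) := by nlinarith
    nlinarith
  · rw [← hN, hn]
    nlinarith [Nat.mul_le_mul hq1 hq1]
  · have : ((Fintype.card Pt : ℝ) + 1) ^ (2 * g) = N := by rw [hN]; push_cast; ring
    rw [this]
    simp only [consts]
    push_cast
    rw [hn']
    have h2 : (q : ℝ) ^ 2 ≤ q ^ 3 := pow_le_pow_right₀ hq1' (by norm_num)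
    have h1 : (q : ℝ) ≤ q ^ 3 := le_self_pow₀ hq1' (by norm_num)
    have h3 : ((q : ℝ) + 1) * (4 * q) ≤ 100 * q ^ 3 := by nlinarith
    nlinarith
  · rintro i j ⟨_, u⟩ ⟨_, v⟩ rfl rfl
    rw [cols_hs, cols_hs]
    rcases u with _ | u <;> rcases v with _ | v
    · simp only [st, and_true]
      split_ifs with h
      · subst h
        have : A i ∩ A (1 - i) = ∅ := by
          fin_cases i
          · exact disjoint_iff_inter_eq_empty.1 hd
          · exact disjoint_iff_inter_eq_empty.1 hd.symm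
        rw [this]; simp
      · have : 1 - j = i := by
          revert h; revert i j; decide
        rw [this, inter_self, hA1]
    · rw [if_neg (by simp)]
      exact hA2 _ _
    · rw [if_neg (by simp), inter_comm]
      exact hA2 _ _
    · rw [if_neg (by simp), st_some, st_some, ← pl.meet u.1 v.1, filter_mem_eq_inter]

end Crest.Agent.R177
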