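import Crest.Agent.R177.LocD

/-!
Task R177-L (helper1): the local inequality.
-/

set_option autoImplicit false

namespace Crest.Agent.R177

open Finset

open Classical in
theorem loc {P : Type} [Fintype P] {σ : P → P} (K : Consts P σ) (N : ℕ) :
    ∃ K' : ℝ, 0 ≤ K' ∧ ∀ {Hf V X D : Type} [Fintype D] (S : HS Hf V P) (cmp : V → X) (τ : Hf → Hf)
      (g n₀ B : ℕ) (δ x : ℝ), IsMatch S σ cmp τ → Girth S τ g → SeqBound K S τ n₀ B δ x →
      0 ≤ δ → δ ≤ K.η / 4 → 1 ≤ x → 4 * x * ((Fintype.card P : ℝ) + 1) ≤ g →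
      (g : ℝ) ≤ Real.log n₀ →
      ∀ (R : RPS S σ τ D) (idx : D → ℕ) (Last : Finset D), Function.Injective idx →
        (∀ d, d ∉ Last → idx (R.φ d) = idx d + 1) →
        ∀ U : Finset D, U ⊆ R.In → U.card ≤ B → U.card ≤ N * g →
          (U.filter (fun d => R.φ d ∉ U)).card ≤ N →
          (U.filter (fun d => R.α (R.φ (R.α (R.φ d))) ≠ d)).card ≤ N →
          (U.filter (fun d => d ∈ Last)).card ≤ N →
          K.η / 4 * U.card ≤ (U.filter (fun d => R.φ d ∉ U)).card * Real.log n₀ +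
            (K.η + 2 * Real.log K.C) * (U.filter (fun d => R.α d ∉ U)).card + K' * x := by
  have hc := K.logC_nonneg
  have hη := K.η_pos
  set c := Real.log K.C with hcdef
  set β₀ : ℝ := 10 * N + 4 * N * (c + K.η) + 2 with hβ₀
  set r₀ : ℝ := 1 + 2 * (1 + Fintype.card P * β₀ + (2 * N + 4 * N * β₀)) with hr₀
  have hβ₀0 : 0 ≤ β₀ := by positivity
  have hr₀0 : 0 ≤ r₀ := by positivity
  refine ⟨(K.η / 2 + c) * (N + 4 * N * (β₀ + r₀)) + 4 * N * (r₀ + 1), by positivity, ?_⟩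
  intro Hf V X D _ S cmp τ g n₀ B δ x hM hG hS hδ0 hδ hx hg hn R idx Last hinj hsucc U hU hB hUN
    hb hs hl
  have hD : (0 : ℝ) ≤ Fintype.card P := Nat.cast_nonneg _
  have hg0 : (0 : ℝ) ≤ g := Nat.cast_nonneg _
  have hLn : 0 ≤ Real.log n₀ := hg0.trans hn
  rcases U.eq_empty_or_nonempty with rfl | ⟨d₀, -⟩
  · simp only [card_empty, filter_empty, Nat.cast_zero, mul_zero, zero_mul, zero_add]
    positivity
  have : Nonempty D := ⟨d₀⟩
  have hg2 : 2 ≤ g := by
    have : (2 : ℝ) ≤ g := by nlinarith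
    exact_mod_cast this
  let L : LS Hf V P D := ⟨S, σ, τ, R, U, idx, Last, g, K.σσ, hM.invol, hM.ne, hM.col, hG, hg2, hinj,
    hsucc, hU⟩
  obtain ⟨M⟩ := LS.exists_Enum L
  have hb' : L.nb ≤ N := hb
  have h1 : (L.NP.card : ℝ) ≤ β₀ := M.card_NP_le K hS hδ0 hδ hx hg hn hB hUN hb' hl
  have h2 := M.layer_sum K hS (by linarith) hLn hB hUN hb'
  have h3 := M.corner_sum K
  have h4 : L.NS2.card ≤ 2 * N := by
    have := LS.card_NS2 (L := L)
    exact this.trans (Nat.mul_le_mul_left 2 hs)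
  have h5 : (((range L.FV.card).filter (fun i => ¬ M.nm i)).card : ℝ) ≤ r₀ := by
    have a1 := M.card_not_nm
    have a2 := M.card_not_N1
    have a3 := M.card_Brk hUN hb'
    have a4 : ((range L.FV.card).filter (fun i => ¬ M.nm i)).card ≤
        1 + 2 * (1 + Fintype.card P * L.NP.card + (2 * N + 4 * N * L.NP.card)) := by omega
    have a5 : (((range L.FV.card).filter (fun i => ¬ M.nm i)).card : ℝ) ≤
        1 + 2 * (1 + Fintype.card P * L.NP.card + (2 * N + 4 * N * L.NP.card)) := by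
      exact_mod_cast a4
    refine a5.trans ?_
    rw [hr₀]
    gcongr
  have h6 : ((L.U2 \ M.Good).card : ℝ) ≤ 2 * (U.filter (fun d => R.α d ∉ U)).card + 2 * N +
      2 * (4 * N * (β₀ + r₀)) := by
    have a1 := M.card_Bad hUN hb'
    have a2 := M.card_W_sdiff
    have a3 : 4 * N * (L.W \ M.VI).card ≤
        4 * N * (L.NP.card + ((range L.FV.card).filter (fun i => ¬ M.nm i)).card) :=
      Nat.mul_le_mul_left _ a2
    have a4 : (L.U2 \ M.Good).card ≤ 2 * (L.U.filter (fun d => L.R.α d ∉ L.U)).card + 2 * N +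
        2 * (4 * N * (L.NP.card + ((range L.FV.card).filter (fun i => ¬ M.nm i)).card)) := by
      omega
    have a5 : ((L.U2 \ M.Good).card : ℝ) ≤ 2 * (L.U.filter (fun d => L.R.α d ∉ L.U)).card + 2 * N +
        2 * (4 * N * (L.NP.card + ((range L.FV.card).filter (fun i => ¬ M.nm i)).card)) := by
      exact_mod_cast a4
    refine a5.trans ?_
    gcongr
  have e1 : L.nb = (U.filter (fun d => R.φ d ∉ U)).card := rfl
  have e2 : L.U = U := rfl
  rw [e1, e2] at h2
  rw [e2] at h3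
  have hN : (0 : ℝ) ≤ N := Nat.cast_nonneg _
  have ha : (0 : ℝ) ≤ (U.filter (fun d => R.α d ∉ U)).card := Nat.cast_nonneg _
  have hn0 : (0 : ℝ) ≤ U.card := Nat.cast_nonneg _
  have b1 : δ * U.card ≤ K.η / 4 * U.card := mul_le_mul_of_nonneg_right hδ hn0
  have b2 : (K.η / 2 + c) * ((L.U2 \ M.Good).card : ℝ) ≤ (K.η / 2 + c) *
      (2 * (U.filter (fun d => R.α d ∉ U)).card + 2 * N + 2 * (4 * N * (β₀ + r₀))) :=
    mul_le_mul_of_nonneg_left h6 (by positivity)
  have b3 : 4 * N * (x * (((range L.FV.card).filter (fun i => ¬ M.nm i)).card + 1)) ≤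
      4 * N * (x * (r₀ + 1)) := by gcongr
  have b4 : (K.η / 2 + c) * (N + 4 * N * (β₀ + r₀)) ≤
      (K.η / 2 + c) * (N + 4 * N * (β₀ + r₀)) * x :=
    le_mul_of_one_le_right (by positivity) hx
  have b5 : 0 ≤ (K.η / 2 + c) * (U.filter (fun d => R.α d ∉ U)).card := by positivity
  linarith

end Crest.Agent.R177
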