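import Crest.Agent.R177.Seq
import Crest.Agent.R177.Cluster
import Crest.Agent.R177.Loc
import Crest.Agent.R177.Euler

/-!
Task R177-G: the main theorem from `exists_seqBound`, `cluster`, `euler`, `exists_idx`, `loc`.

`D = card P ≥ 1`, `η = K.η`, `cm = max (η + 2 log C) (log C + 2 log (D+1))` enlarged so that `cm ≥ η`, `cm ≥ 1`;
for `g ≥ 1`, `g ≤ log n₀ ≤ cm * g`.  Choose `r`, then `m` with `4/r + (4r+22)/m ≤ ε := η/(64 cm)`;
`lam = g`, `b₀ = m g`, `B = 4 m g`, `N = 128 m`, `δ = η/4`, `x = c₁ (1 + log (B+1))`, `K'` from `loc K N`.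
For `g` large: `2B + 4 (D+1)^g < n₀`, `n₀ exp (-δ) ≤ n₀ - 2B - 4 (D+1)^g` (as `n₀ ≥ (D+1)^(2g)`),
`4 x (D+1) ≤ g`, `K' x < (3η/16) g`.
Let `R` be an `RPS`, `n = |In|`, `J = card D - n`.  For a cluster value `y` let `U y = {d ∈ In | cl d = y}`, with
`a, b, s, l` the four counts of `loc`.  Sums over `y`: `∑ a ≤ acut + J`, `∑ b ≤ bcut + J` (`α`, `φ` injective),
`∑ l ≤ |Last ∩ In|`, `∑ s ≤ 3 n₁ + 6 |Last|`, `n₁ ≤ 2 J` (if `d, φ d ∈ In` and `α d = φ d` then `lab`, `path`,
`IsMatch.col` and `fold` give `ε (φ d) = τ (ε d)`, contradicting `nb`), and `g |Last| ≤ n + g J`: a point of `Last`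
whose `φ`-orbit meets the junk is charged to a junk dart (injectively, by the last property of `exists_idx`);
for the other `d ∈ Last` the darts `φ^j d`, `j < g`, are in `In` and pairwise distinct (`Girth`).
`cost y = (16 cm/η)(g b + a) + (g/32)(s + l)` has `∑ cost ≤ (15/32) n + C'' J`, so if `n > 2 C'' J` some `U = U y` has
`cost y < |U|`.  Then `0 < |U| ≤ 4 m g`, `s + l ≤ 128 m`, `b ≤ 4m`, and `|U| ≥ g` (if `b = 0` then `U` is
`φ`-invariant, use `Girth`; otherwise `|U| > 16 cm g/η ≥ g`).  `loc` gives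
`(η/4)|U| ≤ (η/16)|U| + K' x`, a contradiction.
-/

set_option autoImplicit false

namespace Crest.Agent.R177

open Finset

namespace Glob

theorem log_small (A ε : ℝ) (m : ℕ) (hA : 0 ≤ A) (hε : 0 < ε) :
    ∃ g₀ : ℕ, ∀ g ≥ g₀, A * (1 + Real.log (((4 * (m * g) : ℕ) : ℝ) + 1)) < ε * g := by
  set T : ℝ := 8 * A * m / ε + 1 with hT
  have hT0 : 0 ≤ 8 * A * m / ε := by positivity
  have hT1 : 1 ≤ T := by linarith
  have hTpos : 0 < T := by linarith
  obtain ⟨g₀, hg₀⟩ := exists_nat_gt (2 * (A * (1 / T + Real.log T)) / ε)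
  refine ⟨g₀, fun g hg => ?_⟩
  have hg' : (g₀ : ℝ) ≤ g := by exact_mod_cast hg
  have h1 : 2 * (A * (1 / T + Real.log T)) < ε * g := by
    rw [div_lt_iff₀ hε] at hg₀
    nlinarith
  set y : ℝ := ((4 * (m * g) : ℕ) : ℝ) + 1 with hy
  have hy0 : 0 < y := by positivity
  have h2 : Real.log y ≤ y / T - 1 + Real.log T := by
    have := Real.log_le_sub_one_of_pos (div_pos hy0 hTpos)
    rw [Real.log_div hy0.ne' hTpos.ne'] at this
    linarith
  have h3 : A * (4 * m) / T ≤ ε / 2 := by
    rw [div_le_iff₀ hTpos, hT]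
    have : ε / 2 * (8 * A * m / ε + 1) = A * (4 * m) + ε / 2 := by field_simp; ring
    rw [this]
    linarith
  have h4 : A * (y / T) = A * (4 * m) / T * g + A * (1 / T) := by
    rw [hy]
    push_cast
    field_simp
  have h5 : A * (4 * m) / T * g ≤ ε / 2 * g := mul_le_mul_of_nonneg_right h3 (by positivity)
  have h6 : A * (1 + Real.log y) ≤ A * (y / T + Real.log T) :=
    mul_le_mul_of_nonneg_left (by linarith) hA
  nlinarith

variable {Hf V P D : Type} {S : HS Hf V P} {σ : P → P} {τ : Hf → Hf}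

theorem girth_ne (R : RPS S σ τ D) {g : ℕ} (hG : Girth S τ g) {d : D}
    (hd : ∀ k : ℕ, (R.φ ^ k) d ∈ R.In) (l : ℕ) (hl : 0 < l) (hlg : l < g) : (R.φ ^ l) d ≠ d := by
  intro h
  have hs : ∀ i : ℕ, (R.φ ^ (i + 1)) d = R.φ ((R.φ ^ i) d) := fun i => by
    rw [pow_succ', Equiv.Perm.mul_apply]
  refine hG l (fun i => R.ε ((R.φ ^ i) d)) hl hlg (fun i _ => ?_) ?_
  · have h1 := hd (i + 1)
    rw [hs] at h1 ⊢
    exact ⟨R.path _ (hd i) h1, R.nb _ (hd i) h1⟩
  · obtain ⟨l', rfl⟩ := Nat.exists_eq_succ_of_ne_zero hl.ne'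
    have h1 := hd (l' + 1)
    rw [hs] at h1
    have h2 := R.path _ (hd l') h1
    rw [← hs, h] at h2
    simpa using h2

open Classical in
theorem card_pre [Fintype D] (In : Finset D) (f : D → D) (hf : Function.Injective f) :
    (univ.filter (fun d => f d ∉ In)).card ≤ Fintype.card D - In.card := by
  rw [← card_compl]
  refine card_le_card_of_injOn f ?_ hf.injOn
  intro d hd
  simpa using hd

open Classical in
theorem n1_le [Fintype D] {X : Type} {cmp : V → X} (hM : IsMatch S σ cmp τ) (R : RPS S σ τ D) :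
    (univ.filter (fun d => R.α d = R.φ d)).card ≤ 2 * (Fintype.card D - R.In.card) := by
  have h1 := card_pre R.In id Function.injective_id
  have h2 := card_pre R.In R.φ R.φ.injective
  have h3 : univ.filter (fun d => R.α d = R.φ d) ⊆
      univ.filter (fun d => id d ∉ R.In) ∪ univ.filter (fun d => R.φ d ∉ R.In) := by
    intro d hd
    simp only [mem_filter, mem_univ, true_and, mem_union, id] at hd ⊢
    by_contra hc
    push Not at hc
    apply R.nb d hc.1 hc.2
    apply S.fold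
    · exact (R.path d hc.1 hc.2).symm
    · rw [hM.col, ← hd]
      exact R.lab d hc.1 (hd ▸ hc.2)
  have h4 := le_trans (card_le_card h3) (card_union_le _ _)
  omega

open Classical in
theorem last_le [Fintype D] (R : RPS S σ τ D) {g : ℕ} (hG : Girth S τ g) (Last : Finset D)
    (hL : ∀ d ∈ Last, ∀ d' ∈ Last, ∀ k : ℕ, (R.φ ^ k) d = d' → d = d') :
    g * Last.card ≤ R.In.card + g * (Fintype.card D - R.In.card) := by
  let L₂ := Last.filter (fun d => ∀ k : ℕ, (R.φ ^ k) d ∈ R.In)
  let L₁ := Last.filter (fun d => ¬ ∀ k : ℕ, (R.φ ^ k) d ∈ R.In)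
  have h0 : L₂.card + L₁.card = Last.card := card_filter_add_card_filter_not _
  have h2 : g * L₂.card ≤ R.In.card := by
    refine orbit_count R.φ Last L₂ R.In g hL (filter_subset _ _) ?_ ?_
    · intro d hd j _
      exact (mem_filter.mp hd).2 j
    · intro d hd l hl hlg
      exact girth_ne R hG (mem_filter.mp hd).2 l hl hlg
  have h1 : L₁.card ≤ Fintype.card D - R.In.card := by
    have hex : ∀ d, ∃ k : ℕ, d ∈ L₁ → (R.φ ^ k) d ∉ R.In := by
      intro d
      by_cases hd : d ∈ L₁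
      · have := (mem_filter.mp hd).2
        push Not at this
        obtain ⟨k, hk⟩ := this
        exact ⟨k, fun _ => hk⟩
      · exact ⟨0, fun h => absurd h hd⟩
    choose k hk using hex
    rw [← card_compl]
    refine card_le_card_of_injOn (fun d => (R.φ ^ k d) d) ?_ ?_
    · intro d hd
      simpa using hk d hd
    · intro d hd d' hd' h
      exact last_eq R.φ Last hL (mem_filter.mp hd).1 (mem_filter.mp hd').1 h
  have h3 := Nat.mul_le_mul_left g h1
  rw [← h0, mul_add]
  omega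

open Classical in
theorem cut_le [Fintype D] {Y : Type} [DecidableEq Y] (In : Finset D) (cl : D → Y) (f : D → D)
    (hf : Function.Injective f) :
    (In.filter (fun d => ¬ (f d ∈ In ∧ cl (f d) = cl d))).card ≤
      (univ.filter (fun d => cl (f d) ≠ cl d)).card + (Fintype.card D - In.card) := by
  have h1 := card_pre In f hf
  have h3 : In.filter (fun d => ¬ (f d ∈ In ∧ cl (f d) = cl d)) ⊆
      univ.filter (fun d => cl (f d) ≠ cl d) ∪ univ.filter (fun d => f d ∉ In) := by
    intro d hd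
    simp only [mem_filter, mem_univ, true_and, mem_union] at hd ⊢
    tauto
  have h4 := le_trans (card_le_card h3) (card_union_le _ _)
  omega

open Classical in
/-- Some cluster is cheaper than the average. -/
theorem exists_cheap {Y : Type} [DecidableEq Y] (In : Finset D) (cl : D → Y)
    (pa pb ps pl : D → Prop) [DecidablePred pa] [DecidablePred pb] [DecidablePred ps]
    [DecidablePred pl] (u v w : ℝ)
    (h : u * (In.filter pb).card + v * (In.filter pa).card +
      w * ((In.filter ps).card + (In.filter pl).card) < In.card) :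
    ∃ y, u * ((In.filter (fun d => cl d = y)).filter pb).card +
      v * ((In.filter (fun d => cl d = y)).filter pa).card +
      w * (((In.filter (fun d => cl d = y)).filter ps).card +
        ((In.filter (fun d => cl d = y)).filter pl).card) < (In.filter (fun d => cl d = y)).card := by
  by_contra hc
  push Not at hc
  have key : ∀ (p : D → Prop) [DecidablePred p], ((In.filter p).card : ℝ) =
      ∑ y ∈ In.image cl, (((In.filter (fun d => cl d = y)).filter p).card : ℝ) := by
    intro p _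
    rw [card_eq_sum_card_fiberwise (f := cl) (t := In.image cl)
      (fun d hd => mem_image_of_mem cl (mem_filter.mp hd).1)]
    push_cast
    refine sum_congr rfl (fun y _ => ?_)
    rw [filter_comm]
  have key0 : (In.card : ℝ) = ∑ y ∈ In.image cl, ((In.filter (fun d => cl d = y)).card : ℝ) := by
    rw [card_eq_sum_card_fiberwise (f := cl) (t := In.image cl)
      (fun d hd => mem_image_of_mem cl hd)]
    push_cast
    rfl
  rw [key pa, key pb, key ps, key pl, key0, ← sum_add_distrib, mul_sum, mul_sum, mul_sum,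
    ← sum_add_distrib, ← sum_add_distrib] at h
  exact absurd (sum_le_sum (fun y _ => hc y)) (not_le.mpr h)

theorem num_avg {κ g ε n J A B a b s l L C : ℝ} (hg : 1 ≤ g) (hκ : 16 ≤ κ) (hκε : κ * ε = 1 / 4)
    (hJ : 0 ≤ J) (hn : 0 ≤ n) (fA : A ≤ a + J) (fB : B ≤ b + J) (fSL : s + l ≤ 6 * J + 7 * L)
    (fL : g * L ≤ n + g * J) (f1 : a + g * b ≤ ε * (n + J))
    (hC : 32 * (1 / 4 + κ * (g + 1) + 13 * g / 32) ≤ C) (hcon : C * J < n) :
    κ * g * B + κ * A + g / 32 * (s + l) < n := by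
  have f2 := mul_le_mul_of_nonneg_left fB (by linarith : (0 : ℝ) ≤ g)
  have f3 : g * B + A ≤ ε * (n + J) + (g + 1) * J := by linarith
  have f4 := mul_le_mul_of_nonneg_left f3 (by linarith : (0 : ℝ) ≤ κ)
  have f5 := mul_le_mul_of_nonneg_left fSL (by linarith : (0 : ℝ) ≤ g / 32)
  have f6 : κ * (ε * (n + J) + (g + 1) * J) = (n + J) / 4 + κ * (g + 1) * J := by
    have : κ * (ε * (n + J) + (g + 1) * J) = κ * ε * (n + J) + κ * (g + 1) * J := by ring
    rw [this, hκε]
    ring
  have f7 := mul_le_mul_of_nonneg_right hC hJ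
  linarith

theorem num_big {m g Q n e : ℝ} (hm : 0 < m) (hg : 1 ≤ g) (hQg : g ≤ Q) (hQn : Q * Q ≤ n)
    (he : 0 < e) (h : 8 * m + 4 < g * e) : 2 * (4 * (m * g)) + 4 * Q < n * e := by
  have h1 : g * e ≤ Q * e := mul_le_mul_of_nonneg_right hQg he.le
  have h3 : (8 * m + 4 : ℝ) * Q < Q * e * Q := mul_lt_mul_of_pos_right (by linarith) (by linarith)
  have h4 : Q * Q * e ≤ n * e := mul_le_mul_of_nonneg_right hQn he.le
  have h5 : m * g ≤ m * Q := mul_le_mul_of_nonneg_left hQg hm.le
  linarith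

end Glob

open Glob Classical in
theorem main {P : Type} [Fintype P] [Nonempty P] {σ : P → P} (K : Consts P σ) :
    ∃ g₀ : ℕ, ∀ g ≥ g₀, ∀ {Hf V X : Type} [Fintype Hf] [Fintype V] (S : HS Hf V P) (cmp : V → X)
      (n₀ : ℕ), Scale K S cmp n₀ → (Fintype.card P + 1) ^ (2 * g) ≤ n₀ →
      (n₀ : ℝ) ≤ K.C * ((Fintype.card P : ℝ) + 1) ^ (2 * g) →
      ∃ (τ : Hf → Hf) (C : ℕ), IsMatch S σ cmp τ ∧ IsoP S σ τ C := by
  have hη := K.η_pos
  have hlC : 0 ≤ Real.log K.C := Real.log_nonneg K.one_le_C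
  have hP : 1 ≤ Fintype.card P := Fintype.card_pos
  have hPR : (1 : ℝ) ≤ Fintype.card P := by exact_mod_cast hP
  have hlQ : 0 ≤ Real.log ((Fintype.card P : ℝ) + 1) := Real.log_nonneg (by linarith)
  set η := K.η with hηdef
  set cm : ℝ := η + 3 * Real.log K.C + 2 * Real.log ((Fintype.card P : ℝ) + 1) + 1 with hcm
  have hcm0 : 0 < cm := by linarith
  set ε : ℝ := η / (64 * cm) with hε
  have hε0 : 0 < ε := by positivity
  obtain ⟨r, hr⟩ := exists_nat_gt (8 / ε)
  have hr0 : (0 : ℝ) < r := lt_trans (by positivity) hr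
  obtain ⟨m, hm⟩ := exists_nat_gt (2 * (4 * r + 22) / ε)
  have hm0 : (0 : ℝ) < m := lt_trans (by positivity) hm
  have hrm : 4 / (r : ℝ) + (4 * r + 22) / (m : ℝ) ≤ ε := by
    have h1 : 4 / (r : ℝ) ≤ ε / 2 := by
      rw [div_lt_iff₀ hε0] at hr
      rw [div_le_iff₀ hr0]
      linarith
    have h2 : (4 * r + 22) / (m : ℝ) ≤ ε / 2 := by
      rw [div_lt_iff₀ hε0] at hm
      rw [div_le_iff₀ hm0]
      linarith
    linarith
  obtain ⟨c₁, hc₁, hseq⟩ := exists_seqBound K
  obtain ⟨K', hK', hloc⟩ := loc K (128 * m)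
  obtain ⟨g₁, hg₁⟩ := log_small (4 * c₁ * ((Fintype.card P : ℝ) + 1)) 1 m (by positivity) one_pos
  obtain ⟨g₂, hg₂⟩ := log_small (K' * c₁) (3 * η / 16) m (by positivity) (by positivity)
  have hexp : 0 < 1 - Real.exp (-(η / 4)) := by
    have : Real.exp (-(η / 4)) < 1 := Real.exp_lt_one_iff.mpr (by linarith)
    linarith
  obtain ⟨g₃, hg₃⟩ := exists_nat_gt ((8 * m + 4) / (1 - Real.exp (-(η / 4))))
  refine ⟨g₁ + g₂ + g₃ + 1, fun g hg Hf V X _ _ S cmp n₀ hSc hlo hhi => ?_⟩
  have hg0 : 0 < g := by omega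
  have hg1 : (1 : ℝ) ≤ g := by exact_mod_cast hg0
  set Q : ℝ := ((Fintype.card P : ℝ) + 1) ^ g with hQ
  have hQg : (g : ℝ) ≤ Q := by
    have h1 : g < 2 ^ g := Nat.lt_two_pow_self
    have h2 : (g : ℝ) ≤ 2 ^ g := by exact_mod_cast h1.le
    exact le_trans h2 (pow_le_pow_left₀ (by norm_num) (by linarith) g)
  have hQn : Q * Q ≤ n₀ := by
    have : (((Fintype.card P + 1) ^ (2 * g) : ℕ) : ℝ) ≤ n₀ := by exact_mod_cast hlo
    push_cast at this
    rwa [two_mul, pow_add] at this
  have hbig : 2 * ((4 * (m * g) : ℕ) : ℝ) + 4 * Q < n₀ * (1 - Real.exp (-(η / 4))) := by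
    have h1 : (g₃ : ℝ) ≤ g := by exact_mod_cast (by omega : g₃ ≤ g)
    rw [div_lt_iff₀ hexp] at hg₃
    have h2 := mul_le_mul_of_nonneg_right h1 hexp.le
    have h3 := num_big hm0 hg1 hQg hQn hexp (by linarith)
    push_cast
    exact h3
  have hn0 : (0 : ℝ) ≤ n₀ := by positivity
  have hepos := Real.exp_pos (-(η / 4))
  have hn1 : 2 * (4 * (m * g)) + 4 * (Fintype.card P + 1) ^ g < n₀ := by
    have : ((2 * (4 * (m * g)) + 4 * (Fintype.card P + 1) ^ g : ℕ) : ℝ) < n₀ := by
      push_cast at hbig ⊢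
      have := mul_nonneg hn0 hepos.le
      linarith
    exact_mod_cast this
  obtain ⟨τ, hM, hG, hSB⟩ := hseq S cmp n₀ g (4 * (m * g)) (η / 4) hSc hn1 (by linarith)
  set x : ℝ := c₁ * (1 + Real.log (((4 * (m * g) : ℕ) : ℝ) + 1)) with hx
  have hx1 : 1 ≤ x := by
    have : 0 ≤ Real.log (((4 * (m * g) : ℕ) : ℝ) + 1) :=
      Real.log_nonneg (by have : (0 : ℝ) ≤ ((4 * (m * g) : ℕ) : ℝ) := by positivity
                          linarith)
    exact one_le_mul_of_one_le_of_one_le hc₁ (by linarith)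
  have hx2 : 4 * x * ((Fintype.card P : ℝ) + 1) ≤ g := by
    have := hg₁ g (by omega)
    rw [hx]
    linarith
  have hx3 : K' * x < 3 * η / 16 * g := by
    have := hg₂ g (by omega)
    rw [hx]
    linarith
  have hn0pos : (0 : ℝ) < n₀ := by exact_mod_cast (by omega : 0 < n₀)
  have hlog1 : (g : ℝ) ≤ Real.log n₀ := by
    rw [Real.le_log_iff_exp_le hn0pos]
    have h1 : Real.exp g ≤ (2 * 2) ^ g := by
      rw [← Real.exp_one_pow]
      refine pow_le_pow_left₀ (Real.exp_pos 1).le ?_ g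
      have := Real.exp_one_lt_d9
      linarith
    have h2 : (2 : ℝ) ^ g ≤ Q := pow_le_pow_left₀ (by norm_num) (by linarith) g
    have h3 : (2 : ℝ) ^ g * 2 ^ g ≤ Q * Q :=
      mul_le_mul h2 h2 (by positivity) (by linarith)
    rw [mul_pow] at h1
    linarith
  have hlog2 : Real.log n₀ ≤ cm * g := by
    have h1 := Real.log_le_log hn0pos hhi
    rw [Real.log_mul (by linarith [K.one_le_C]) (by positivity), Real.log_pow] at h1
    push_cast at h1
    have h2 : Real.log K.C ≤ Real.log K.C * g := le_mul_of_one_le_right hlC hg1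
    have h3 : 0 ≤ Real.log K.C * g := by positivity
    have h4 : 0 ≤ η * g := by positivity
    rw [hcm]
    linarith
  set κ : ℝ := 16 * cm / η with hκ
  have hκη : κ * η = 16 * cm := by rw [hκ]; field_simp
  have hκ1 : 16 ≤ κ := by
    rw [hκ, le_div_iff₀ hη]
    linarith
  have hκε : κ * ε = 1 / 4 := by rw [hκ, hε]; field_simp; norm_num
  obtain ⟨C, hC⟩ := exists_nat_ge (32 * (1 / 4 + κ * (g + 1) + 13 * g / 32))
  refine ⟨τ, C, hM, fun D _ R => ?_⟩
  by_contra hcon
  push Not at hcon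
  obtain ⟨cl, hcl1, hcl2⟩ := cluster R.φ R.α R.αα R.α_ne R.pl g r (m * g) hg0
    (by exact_mod_cast hr0) (Nat.mul_pos (by exact_mod_cast hm0) hg0)
  obtain ⟨idx, Last, hidx, hidx2, hL1, hL2⟩ := exists_idx' R.φ
  have hαinj : Function.Injective R.α := Function.Involutive.injective R.αα
  set n := R.In.card with hn
  set J := Fintype.card D - n with hJ
  have hnJ : (Fintype.card D : ℝ) = n + J := by
    have := card_le_univ R.In
    have h2 : Fintype.card D = n + J := by omega
    exact_mod_cast h2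
  have hJ0 : (0 : ℝ) ≤ J := by positivity
  have hcon' : (C : ℝ) * J < n := by exact_mod_cast hcon
  have eA := cut_le R.In cl R.α hαinj
  have eB := cut_le R.In cl R.φ R.φ.injective
  have eS := euler' R.φ R.α R.αα R.α_ne R.pl Last hL1
  have e1 := n1_le hM R
  have eL := last_le R hG Last hL2
  have eS' : (R.In.filter (fun d => R.α (R.φ (R.α (R.φ d))) ≠ d)).card ≤
      (univ.filter (fun d => R.α (R.φ (R.α (R.φ d))) ≠ d)).card :=
    card_le_card (filter_subset_filter _ (subset_univ _))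
  have eL' : (R.In.filter (fun d => d ∈ Last)).card ≤ Last.card :=
    card_le_card (fun d hd => (mem_filter.mp hd).2)
  rw [← hn, ← hJ] at eA eB e1 eL
  have hcut : (4 / (r : ℝ) + (4 * r + 22) * g / ((m * g : ℕ) : ℝ)) * Fintype.card D ≤
      ε * (n + J) := by
    rw [hnJ]
    refine mul_le_mul_of_nonneg_right ?_ (by positivity)
    have : (4 * r + 22) * g / ((m * g : ℕ) : ℝ) = (4 * r + 22) / (m : ℝ) := by
      push_cast
      field_simp
    rw [this]
    exact hrm
  obtain ⟨y, hy⟩ := exists_cheap R.In cl (fun d => ¬ (R.α d ∈ R.In ∧ cl (R.α d) = cl d))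
    (fun d => ¬ (R.φ d ∈ R.In ∧ cl (R.φ d) = cl d)) (fun d => R.α (R.φ (R.α (R.φ d))) ≠ d)
    (fun d => d ∈ Last) (κ * g) κ (g / 32) (by
      have fA : ((R.In.filter (fun d => ¬ (R.α d ∈ R.In ∧ cl (R.α d) = cl d))).card : ℝ) ≤
          (univ.filter (fun d => cl (R.α d) ≠ cl d)).card + J := by exact_mod_cast eA
      have fB : ((R.In.filter (fun d => ¬ (R.φ d ∈ R.In ∧ cl (R.φ d) = cl d))).card : ℝ) ≤
          (univ.filter (fun d => cl (R.φ d) ≠ cl d)).card + J := by exact_mod_cast eB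
      have fSL : ((R.In.filter (fun d => R.α (R.φ (R.α (R.φ d))) ≠ d)).card : ℝ) +
          (R.In.filter (fun d => d ∈ Last)).card ≤ 6 * J + 7 * Last.card := by
        have : (R.In.filter (fun d => R.α (R.φ (R.α (R.φ d))) ≠ d)).card +
          (R.In.filter (fun d => d ∈ Last)).card ≤ 6 * J + 7 * Last.card := by omega
        exact_mod_cast this
      have fL : (g : ℝ) * Last.card ≤ n + g * J := by exact_mod_cast eL
      exact num_avg hg1 hκ1 hκε hJ0 (by positivity) fA fB fSL fL (le_trans hcl2 hcut) hC hcon')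
  set U := R.In.filter (fun d => cl d = y) with hU
  have hUsub : U ⊆ R.In := filter_subset _ _
  have hconv : ∀ f : D → D, U.filter (fun d => ¬ (f d ∈ R.In ∧ cl (f d) = cl d)) =
      U.filter (fun d => f d ∉ U) := by
    intro f
    refine filter_congr (fun d hd => ?_)
    rw [hU] at hd ⊢
    rw [mem_filter, (mem_filter.mp hd).2]
  have hUc : U.card ≤ 4 * (m * g) :=
    le_trans (card_le_card (filter_subset_filter _ (subset_univ _))) (hcl1 y)
  have hUc' : (U.card : ℝ) ≤ 4 * (m * g) := by exact_mod_cast hUc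
  obtain ⟨a, ha⟩ : ∃ a, a = (U.filter (fun d => R.α d ∉ U)).card := ⟨_, rfl⟩
  obtain ⟨b, hb⟩ : ∃ b, b = (U.filter (fun d => R.φ d ∉ U)).card := ⟨_, rfl⟩
  obtain ⟨s, hs⟩ : ∃ s, s = (U.filter (fun d => R.α (R.φ (R.α (R.φ d))) ≠ d)).card := ⟨_, rfl⟩
  obtain ⟨l, hl⟩ : ∃ l, l = (U.filter (fun d => d ∈ Last)).card := ⟨_, rfl⟩
  have hy' : κ * g * b + κ * a + g / 32 * ((s : ℝ) + l) < U.card := by
    rw [ha, hb, hs, hl, ← hconv R.α, ← hconv R.φ]
    convert hy
  have ha0 : (0 : ℝ) ≤ κ * a := by positivity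
  have hb0 : (0 : ℝ) ≤ κ * g * b := by positivity
  have hsl0 : (0 : ℝ) ≤ g / 32 * ((s : ℝ) + l) := by positivity
  have hsl : s + l ≤ 128 * m := by
    have h1 : (g : ℝ) * ((s : ℝ) + l) < g * (128 * m) := by linarith
    have h2 := lt_of_mul_lt_mul_left h1 (by linarith)
    exact_mod_cast h2.le
  have hbm : b ≤ 128 * m := by
    have h0 : (0 : ℝ) ≤ g * b := by positivity
    have h00 := mul_le_mul_of_nonneg_right hκ1 h0
    have h01 : (0 : ℝ) ≤ m * g := by positivity
    have h1 : (g : ℝ) * b < g * (128 * m) := by linarith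
    have h2 := lt_of_mul_lt_mul_left h1 (by linarith)
    exact_mod_cast h2.le
  have hUg : (g : ℝ) ≤ U.card := by
    rcases Nat.eq_zero_or_pos b with hb1 | hb1
    · have hUpos : 0 < U.card := by
        have : (0 : ℝ) < U.card := by linarith
        exact_mod_cast this
      obtain ⟨d, hd⟩ := card_pos.mp hUpos
      have hinv : ∀ d ∈ U, R.φ d ∈ U := by
        intro d hd
        by_contra hc
        have : d ∈ U.filter (fun d => R.φ d ∉ U) := mem_filter.mpr ⟨hd, hc⟩
        have h0 := card_pos.mpr ⟨d, this⟩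
        omega
      have hk : ∀ k : ℕ, (R.φ ^ k) d ∈ U := by
        intro k
        induction k with
        | zero => simpa using hd
        | succ k ih => rw [pow_succ', Equiv.Perm.mul_apply]; exact hinv _ ih
      have := orbit_count R.φ {d} {d} U g (by simp) subset_rfl
        (fun d' hd' j _ => by rw [mem_singleton.mp hd']; exact hk j)
        (fun d' hd' l hl hlg => by
          rw [mem_singleton.mp hd']
          exact girth_ne R hG (fun k => hUsub (hk k)) l hl hlg)
      rw [card_singleton, mul_one] at this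
      exact_mod_cast this
    · have h1 : (1 : ℝ) ≤ b := by exact_mod_cast hb1
      have h2 : (1 : ℝ) ≤ κ * b := one_le_mul_of_one_le_of_one_le (by linarith) h1
      have h3 := mul_le_mul_of_nonneg_left h2 (by linarith : (0 : ℝ) ≤ g)
      linarith
  have hfin := hloc S cmp τ g n₀ (4 * (m * g)) (η / 4) x hM hG hSB (by positivity) le_rfl hx1 hx2
    hlog1 R idx Last hidx hidx2 U hUsub hUc
    (le_trans hUc (by rw [mul_assoc]; omega)) (hb ▸ hbm)
    (hs ▸ (by omega : s ≤ 128 * m)) (hl ▸ (by omega : l ≤ 128 * m))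
  rw [← ha, ← hb] at hfin
  have t1 : (b : ℝ) * Real.log n₀ ≤ b * (cm * g) := mul_le_mul_of_nonneg_left hlog2 (by positivity)
  have t2 : (η + 2 * Real.log K.C) * a ≤ cm * a :=
    mul_le_mul_of_nonneg_right (by linarith) (by positivity)
  have t3 : η * (κ * g * b + κ * a) ≤ η * U.card := mul_le_mul_of_nonneg_left (by linarith) hη.le
  have t4 : η * (κ * g * b + κ * a) = 16 * (b * (cm * g) + cm * a) := by
    have : η * (κ * g * b + κ * a) = κ * η * (g * b + a) := by ring
    rw [this, hκη]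
    ring
  have t5 : η * g ≤ η * U.card := mul_le_mul_of_nonneg_left hUg hη.le
  linarith

end Crest.Agent.R177
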