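import Crest.Agent.R177.Defs
import Crest.Prelude.Def_WordHyperbolic

/-!
Task R177-H: a linear isoperimetric inequality for `𝔽₂`-chains implies word-hyperbolicity.

Proof (Besicovitch lemma + doubling).
* `area`: a loop made of four paths `A B C D`, two `1`-Lipschitz functions `ρ, f` with `f = 0` on `A`,
  `ρ ≥ p` on `B`, `f ≥ q` on `C`, `ρ = 0` on `D`: then `p q ≤ C * perimeter`.
* `Bad R m`: a quadruple in a ball of radius `R` with four-point defect at least `m`.  If `m` is large,
  `Bad R m → Bad (2 R) (4 m)`: otherwise the four legs of the quadrilateral can be cut by shortcuts of length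
  `≤ 8 m`, and `area` gives a contradiction.  As `Bad R m → m ≤ 4 R`, the defect is bounded.
-/

set_option autoImplicit false

namespace Crest.Agent.R177

namespace Hyp

open Crest.GroupTheory

variable {G L : Type} [Group G] (x : L → G)

/-- word metric -/
noncomputable def d (g h : G) : ℕ := wordLength (Set.range x) (g⁻¹ * h)

/-- all vertices of the path satisfy `Q` -/
def Pth (Q : G → Prop) : G → List L → Prop
  | u, [] => Q u
  | u, a :: w => Q u ∧ Pth Q (u * x a) w

/-- there is a short path inside `Q` -/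
def Conn (Q : G → Prop) (n : ℕ) (u v : G) : Prop :=
  ∃ w : List L, w.length ≤ n ∧ u * (w.map x).prod = v ∧ Pth x Q u w

variable {x}

theorem Pth.head {Q : G → Prop} {u : G} {w : List L} (h : Pth x Q u w) : Q u := by
  cases w with
  | nil => exact h
  | cons a w => exact h.1

theorem Pth.mono {Q Q' : G → Prop} (hQ : ∀ v, Q v → Q' v) {w : List L} :
    ∀ {u : G}, Pth x Q u w → Pth x Q' u w := by
  induction w with
  | nil => exact fun h => hQ _ h
  | cons a w ih => exact fun h => ⟨hQ _ h.1, ih h.2⟩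

theorem Pth.append {Q : G → Prop} {w w' : List L} :
    ∀ {u : G}, Pth x Q u w → Pth x Q (u * (w.map x).prod) w' → Pth x Q u (w ++ w') := by
  induction w with
  | nil => intro u _ h; simpa using h
  | cons a w ih =>
    intro u h h'
    refine ⟨h.1, ih h.2 ?_⟩
    simpa [mul_assoc] using h'

theorem Conn.mono {Q Q' : G → Prop} {n n' : ℕ} {u v : G} (h : Conn x Q n u v)
    (hQ : ∀ v, Q v → Q' v) (hn : n ≤ n') : Conn x Q' n' u v := by
  obtain ⟨w, h1, h2, h3⟩ := h
  exact ⟨w, h1.trans hn, h2, h3.mono hQ⟩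

theorem Conn.trans {Q : G → Prop} {n n' : ℕ} {u v z : G} (h : Conn x Q n u v)
    (h' : Conn x Q n' v z) : Conn x Q (n + n') u z := by
  obtain ⟨w, h1, h2, h3⟩ := h
  obtain ⟨w', h1', h2', h3'⟩ := h'
  refine ⟨w ++ w', by simp; omega, ?_, h3.append (h2 ▸ h3')⟩
  rw [List.map_append, List.prod_append, ← mul_assoc, h2, h2']

theorem d_le {g h : G} {w : List L} (H : g * (w.map x).prod = h) : d x g h ≤ w.length := by
  apply Nat.sInf_le
  refine ⟨w.map x, by simp, ?_, ?_⟩
  · intro y hy
    obtain ⟨a, -, rfl⟩ := List.mem_map.1 hy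
    exact Or.inl ⟨a, rfl⟩
  · rw [← H]; simp

theorem d_step (g : G) (a : L) : d x g (g * x a) ≤ 1 := d_le (w := [a]) (by simp)

theorem d_self (g : G) : d x g g = 0 := Nat.le_zero.1 (d_le (w := []) (by simp))

theorem pathSum_append {M : Type} [AddCommMonoid M] (ξ : G × L → M) (w w' : List L) :
    ∀ g : G, pathSum x ξ g (w ++ w') =
      pathSum x ξ g w + pathSum x ξ (g * (w.map x).prod) w' := by
  induction w with
  | nil => intro g; simp [pathSum]
  | cons a w ih => intro g; simp [pathSum, ih, add_assoc, mul_assoc]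

theorem pathSum_translate {M : Type} [AddCommMonoid M] (ξ : G × L → M) (g0 : G) (w : List L) :
    ∀ g : G, pathSum x (fun e => ξ (g0 * e.1, e.2)) g w = pathSum x ξ (g0 * g) w := by
  induction w with
  | nil => intro g; rfl
  | cons a w ih => intro g; simp only [pathSum, ih, mul_assoc]

/-- the test cochain -/
def E (ρ f : G → ℕ) (s t : ℕ) (u v : G) : ZMod 2 :=
  if ¬ (ρ u ≤ s ↔ ρ v ≤ s) ∧ f u ≤ t ∧ f v ≤ t then 1 else 0

theorem E_symm (ρ f : G → ℕ) (s t : ℕ) (u v : G) : E ρ f s t u v = E ρ f s t v u := by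
  unfold E
  congr 1
  exact propext ⟨by tauto, by tauto⟩

theorem pathSum_zero {ξ : G × L → ZMod 2} {Q : G → Prop}
    (hQ : ∀ u a, Q u → Q (u * x a) → ξ (u, a) = 0) {w : List L} :
    ∀ {u : G}, Pth x Q u w → pathSum x ξ u w = 0 := by
  induction w with
  | nil => intro u _; rfl
  | cons a w ih => intro u h; rw [pathSum, ih h.2, hQ u a h.1 h.2.head, add_zero]

theorem pathSum_A (ρ f : G → ℕ) (s t : ℕ) {w : List L} :
    ∀ {u : G}, Pth x (fun v => f v = 0) u w →
      pathSum x (fun e => E ρ f s t e.1 (e.1 * x e.2)) u w =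
        (if ρ u ≤ s then 1 else 0) + (if ρ (u * (w.map x).prod) ≤ s then 1 else 0) := by
  induction w with
  | nil =>
    intro u _
    simp only [pathSum, List.map_nil, List.prod_nil, mul_one]
    split_ifs <;> decide
  | cons a w ih =>
    intro u h
    have h1 : f u = 0 := h.1
    have h2 : f (u * x a) = 0 := h.2.head
    rw [pathSum, ih h.2, List.map_cons, List.prod_cons, ← mul_assoc]
    simp only [E, h1, h2, zero_le, and_true]
    by_cases a1 : ρ u ≤ s <;> by_cases a2 : ρ (u * x a) ≤ s <;>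
      by_cases a3 : ρ (u * x a * (w.map x).prod) ≤ s <;> simp [a1, a2, a3] <;> decide

theorem tri (ρ f : G → ℕ) (s t : ℕ) (u v z : G)
    (h1 : ρ u ≤ ρ v + 1 ∧ ρ v ≤ ρ u + 1) (h2 : ρ v ≤ ρ z + 1 ∧ ρ z ≤ ρ v + 1)
    (h3 : ρ z ≤ ρ u + 1 ∧ ρ u ≤ ρ z + 1)
    (k1 : f u ≤ f v + 1 ∧ f v ≤ f u + 1) (k2 : f v ≤ f z + 1 ∧ f z ≤ f v + 1)
    (k3 : f z ≤ f u + 1 ∧ f u ≤ f z + 1)
    (H : E ρ f s t u v + E ρ f s t v z + E ρ f s t z u ≠ 0) :
    min (ρ u) (min (ρ v) (ρ z)) = s ∧ min (f u) (min (f v) (f z)) = t := by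
  unfold E at H
  by_cases a1 : ρ u ≤ s <;> by_cases a2 : ρ v ≤ s <;> by_cases a3 : ρ z ≤ s <;>
    by_cases b1 : f u ≤ t <;> by_cases b2 : f v ≤ t <;> by_cases b3 : f z ≤ t <;>
    simp only [a1, a2, a3, b1, b2, b3] at H <;>
    first
      | exact absurd (by decide) H
      | (constructor <;> omega)

theorem area {inv : L → L} (hx : ∀ a, x (inv a) = (x a)⁻¹) {C : ℕ} (hC : ChainIso x inv C)
    (ρ f : G → ℕ) (hρ : ∀ g a, ρ g ≤ ρ (g * x a) + 1 ∧ ρ (g * x a) ≤ ρ g + 1)
    (hf : ∀ g a, f g ≤ f (g * x a) + 1 ∧ f (g * x a) ≤ f g + 1) {p q n1 n2 n3 n4 : ℕ}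
    {v1 v2 v3 v4 : G} (hA : Conn x (fun v => f v = 0) n1 v1 v2)
    (hB : Conn x (fun v => p ≤ ρ v) n2 v2 v3) (hC' : Conn x (fun v => q ≤ f v) n3 v3 v4)
    (hD : Conn x (fun v => ρ v = 0) n4 v4 v1) (h1 : ρ v1 = 0) :
    p * q ≤ C * (n1 + n2 + n3 + n4) := by
  classical
  obtain ⟨w1, l1, e1, p1⟩ := hA
  obtain ⟨w2, l2, e2, p2⟩ := hB
  obtain ⟨w3, l3, e3, p3⟩ := hC'
  obtain ⟨w4, l4, e4, p4⟩ := hD
  obtain ⟨T, hT1, hT2, hT3⟩ := hC (w1 ++ (w2 ++ (w3 ++ w4))) (by
    apply mul_left_cancel (a := v1)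
    simp only [List.map_append, List.prod_append, ← mul_assoc, e1, e2, e3, e4, mul_one])
  let key : G × L × L × L → ℕ × ℕ := fun t =>
    (min (ρ (v1 * t.1)) (min (ρ (v1 * t.1 * x t.2.1)) (ρ (v1 * t.1 * x t.2.1 * x t.2.2.1))),
      min (f (v1 * t.1)) (min (f (v1 * t.1 * x t.2.1)) (f (v1 * t.1 * x t.2.1 * x t.2.2.1))))
  have hsub : Finset.range p ×ˢ Finset.range q ⊆ (T.map key).toFinset := by
    rintro ⟨s, t⟩ hst
    simp only [Finset.mem_product, Finset.mem_range] at hst
    obtain ⟨hs, ht⟩ := hst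
    let ξ : G × L → ZMod 2 := fun e => E ρ f s t e.1 (e.1 * x e.2)
    have h2 := hT3 (fun e => ξ (v1 * e.1, e.2)) (by
      intro g a
      simp only [ξ, hx, mul_assoc, mul_inv_cancel, mul_one]
      exact E_symm _ _ _ _ _ _)
    rw [pathSum_translate, mul_one, pathSum_append, pathSum_append, pathSum_append, e1, e2, e3,
      pathSum_A ρ f s t p1, pathSum_zero _ p2, pathSum_zero _ p3, pathSum_zero _ p4, e1,
      if_pos (by omega), if_neg (by have := p2.head; omega)] at h2
    rotate_left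
    · intro u a h h'
      simp only [ξ, E]; rw [if_neg]; omega
    · intro u a h h'
      simp only [ξ, E]; rw [if_neg]; omega
    · intro u a h h'
      simp only [ξ, E]; rw [if_neg]; omega
    by_contra hn
    rw [List.sum_eq_zero] at h2
    · revert h2; decide
    · intro y hy
      obtain ⟨tt, htt, rfl⟩ := List.mem_map.1 hy
      by_contra hne
      apply hn
      rw [List.mem_toFinset, List.mem_map]
      refine ⟨tt, htt, ?_⟩
      have e : v1 * tt.1 * x tt.2.1 * x tt.2.2.1 * x tt.2.2.2 = v1 * tt.1 := by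
        rw [mul_assoc (v1 * tt.1), mul_assoc (v1 * tt.1), hT2 tt htt, mul_one]
      have r3 := hρ (v1 * tt.1 * x tt.2.1 * x tt.2.2.1) tt.2.2.2
      have f3 := hf (v1 * tt.1 * x tt.2.1 * x tt.2.2.1) tt.2.2.2
      rw [e] at r3 f3
      have := tri ρ f s t _ _ _ (hρ (v1 * tt.1) tt.2.1) (hρ _ tt.2.2.1) r3
        (hf (v1 * tt.1) tt.2.1) (hf _ tt.2.2.1) f3 (by
          simp only [ξ, ← mul_assoc, e] at hne
          exact hne)
      exact Prod.ext this.1 this.2
  have h3 := Finset.card_le_card hsub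
  rw [Finset.card_product, Finset.card_range, Finset.card_range] at h3
  refine h3.trans ((List.toFinset_card_le _).trans ?_)
  rw [List.length_map]
  refine hT1.trans (Nat.mul_le_mul_left _ ?_)
  simp only [List.length_append]
  omega

section metric
variable {inv : L → L} (hx : ∀ a, x (inv a) = (x a)⁻¹)
  (hgen : Subgroup.closure (Set.range x) = ⊤)
include hx

theorem prod_rev (w : List L) : ((w.reverse.map inv).map x).prod = ((w.map x).prod)⁻¹ := by
  induction w with
  | nil => simp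
  | cons a w ih =>
    rw [List.reverse_cons, List.map_append, List.map_append, List.prod_append, ih]
    simp [hx]

include hgen

theorem exists_word (g h : G) : ∃ w : List L, w.length = d x g h ∧ g * (w.map x).prod = h := by
  have hne : {n : ℕ | ∃ l : List G, l.length = n ∧
      (∀ y ∈ l, y ∈ Set.range x ∨ y⁻¹ ∈ Set.range x) ∧ l.prod = g⁻¹ * h}.Nonempty := by
    have : ∀ k ∈ Subgroup.closure (Set.range x), ∃ w : List L, (w.map x).prod = k := by
      intro k hk
      induction hk using Subgroup.closure_induction with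
      | mem y hy => obtain ⟨a, rfl⟩ := hy; exact ⟨[a], by simp⟩
      | one => exact ⟨[], rfl⟩
      | mul a b _ _ ha hb =>
        obtain ⟨w, rfl⟩ := ha
        obtain ⟨w', rfl⟩ := hb
        exact ⟨w ++ w', by simp⟩
      | inv a _ ha =>
        obtain ⟨w, rfl⟩ := ha
        exact ⟨_, prod_rev hx w⟩
    obtain ⟨w, hw⟩ := this (g⁻¹ * h) (hgen ▸ Subgroup.mem_top _)
    refine ⟨_, w.map x, rfl, ?_, hw⟩
    intro y hy
    obtain ⟨a, -, rfl⟩ := List.mem_map.1 hy
    exact Or.inl ⟨a, rfl⟩
  obtain ⟨l, h1, h2, h3⟩ := Nat.sInf_mem hne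
  have : ∃ w : List L, w.map x = l := by
    clear h1 h3
    induction l with
    | nil => exact ⟨[], rfl⟩
    | cons y l ih =>
      obtain ⟨w, rfl⟩ := ih (fun z hz => h2 z (List.mem_cons_of_mem _ hz))
      rcases h2 y List.mem_cons_self with ⟨a, rfl⟩ | ⟨a, ha⟩
      · exact ⟨a :: w, rfl⟩
      · exact ⟨inv a :: w, by simp [hx, ha]⟩
  obtain ⟨w, rfl⟩ := this
  refine ⟨w, ?_, by rw [h3]; simp⟩
  rw [List.length_map] at h1
  exact h1

theorem d_tri (g h k : G) : d x g k ≤ d x g h + d x h k := by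
  obtain ⟨w, h1, h2⟩ := exists_word hx hgen g h
  obtain ⟨w', h1', h2'⟩ := exists_word hx hgen h k
  rw [← h1, ← h1', ← List.length_append]
  apply d_le
  rw [List.map_append, List.prod_append, ← mul_assoc, h2, h2']

theorem d_comm (g h : G) : d x g h = d x h g := by
  have : ∀ g h : G, d x h g ≤ d x g h := by
    intro g h
    obtain ⟨w, h1, h2⟩ := exists_word hx hgen g h
    have := d_le (x := x) (g := h) (h := g) (w := w.reverse.map inv) (by
      rw [prod_rev hx, ← h2]; simp)
    simpa [h1] using this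
  exact le_antisymm (this _ _) (this _ _)

theorem d_lip (v g : G) (a : L) :
    d x v g ≤ d x v (g * x a) + 1 ∧ d x v (g * x a) ≤ d x v g + 1 := by
  have h1 := d_step (x := x) g a
  have h2 := d_tri hx hgen v g (g * x a)
  have h3 := d_tri hx hgen v (g * x a) g
  have h4 := d_comm hx hgen g (g * x a)
  omega

theorem geod (g h : G) : Conn x (fun v => d x g v + d x v h ≤ d x g h) (d x g h) g h := by
  have : ∀ (w : List L) (u : G), u * (w.map x).prod = h → d x g u + w.length ≤ d x g h →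
      Pth x (fun v => d x g v + d x v h ≤ d x g h) u w := by
    intro w
    induction w with
    | nil =>
      intro u h1 h2
      have := d_le h1
      simp only [Pth, List.length_nil] at *
      omega
    | cons a w ih =>
      intro u h1 h2
      have h3 := d_le h1
      have h4 := d_lip hx hgen g u a
      simp only [List.length_cons] at h2 h3
      refine ⟨by omega, ih _ ?_ (by omega)⟩
      simpa [mul_assoc] using h1
  obtain ⟨w, h1, h2⟩ := exists_word hx hgen g h
  exact ⟨w, h1.le, h2, this w g h2 (by rw [d_self]; omega)⟩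

theorem exists_point (g h : G) {r : ℕ} (hr : r ≤ d x g h) :
    ∃ m, d x g m = r ∧ r + d x m h = d x g h := by
  obtain ⟨w, h1, h2⟩ := exists_word hx hgen g h
  refine ⟨g * ((w.take r).map x).prod, ?_⟩
  have a1 := d_le (x := x) (g := g) (w := w.take r) rfl
  have a2 := d_le (x := x) (g := g * ((w.take r).map x).prod) (h := h) (w := w.drop r) (by
    rw [mul_assoc, ← List.prod_append, ← List.map_append, List.take_append_drop, h2])
  have a3 := d_tri hx hgen g (g * ((w.take r).map x).prod) h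
  rw [List.length_take] at a1
  rw [List.length_drop] at a2
  omega

theorem two_points (g h : G) {r r' : ℕ} (hr : r + r' ≤ d x g h) :
    ∃ m m', d x g m = r ∧ d x h m' = r' ∧ r + d x m m' + r' = d x g h := by
  obtain ⟨m, h1, h2⟩ := exists_point hx hgen g h (r := r) (by omega)
  obtain ⟨m', h3, h4⟩ := exists_point hx hgen m h (r := d x m h - r') (by omega)
  have := d_comm hx hgen h m'
  exact ⟨m, m', h1, by omega, by omega⟩

end metric

theorem exists_r {X Y : ℕ} (h : X ≤ Y) (Δ : ℕ) :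
    ∃ r, 2 * r + X ≤ Y ∧ (r = 0 ∨ 2 * r + 4 * Δ + X ≤ Y) ∧ Y ≤ 2 * r + X + 4 * Δ + 1 :=
  ⟨(Y - X) / 2 - 2 * Δ, by omega, by omega, by omega⟩

theorem arith {P Q C n m : ℕ} (key : P / 2 * (Q / 2) ≤ C * n) (hm : 600 * C + 2 ≤ m) (hP : m ≤ P)
    (hQ : m ≤ Q) (hn : n ≤ P + Q + 96 * m + 4) : False := by
  have hp1 : 300 * C + 1 ≤ P / 2 := by omega
  have hq1 : 300 * C + 1 ≤ Q / 2 := by omega
  rcases le_total (P / 2) (Q / 2) with hpq | hpq
  · have h1 : n ≤ 300 * (Q / 2) := by omega
    have h2 := Nat.mul_le_mul_left C h1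
    have h3 := Nat.mul_le_mul_right (Q / 2) hp1
    have h4 : 1 ≤ Q / 2 := by omega
    generalize Q / 2 = q at *
    nlinarith
  · have h1 : n ≤ 300 * (P / 2) := by omega
    have h2 := Nat.mul_le_mul_left C h1
    have h3 := Nat.mul_le_mul_left (P / 2) hq1
    have h4 : 1 ≤ P / 2 := by omega
    generalize P / 2 = q at *
    nlinarith

variable (x) in
/-- a quadruple in a ball of radius `R` with defect at least `m` -/
def Bad (R m : ℕ) : Prop :=
  ∃ o a b c e : G, d x o a ≤ R ∧ d x o b ≤ R ∧ d x o c ≤ R ∧ d x o e ≤ R ∧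
    d x a b + d x c e + m ≤ d x a c + d x b e ∧ d x b c + d x a e + m ≤ d x a c + d x b e

section main
variable {inv : L → L} (hx : ∀ a, x (inv a) = (x a)⁻¹)
  (hgen : Subgroup.closure (Set.range x) = ⊤)
include hx hgen

theorem Bad.le {R m : ℕ} (h : Bad x R m) : m ≤ 4 * R := by
  obtain ⟨o, a, b, c, e, h1, h2, h3, h4, h5, -⟩ := h
  have := d_tri hx hgen a o c
  have := d_tri hx hgen b o e
  have := d_comm hx hgen a o
  have := d_comm hx hgen b o
  omega

/-- shortcut at the corner `a` with neighbours `b`, `e` -/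
theorem shortcut {R Δ : ℕ} (hn : ¬ Bad x R Δ) {a b e a1 a2 : G} {r : ℕ} (hb : d x a b ≤ R)
    (he : d x a e ≤ R) (hr : 2 * r + d x b e ≤ d x a b + d x a e)
    (h1 : d x a a1 = r) (h1' : r + d x a1 b ≤ d x a b)
    (h2 : d x a a2 = r) (h2' : r + d x a2 e ≤ d x a e) : d x a2 a1 ≤ 2 * Δ := by
  have c1 := d_comm hx hgen a a1
  have c2 := d_comm hx hgen a a2
  have c3 := d_comm hx hgen b e
  have c4 := d_comm hx hgen a e
  have c5 := d_comm hx hgen a1 a2
  have c6 := d_comm hx hgen a2 e
  have s0 := d_self (x := x) a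
  have k1 : d x a1 e + r ≤ d x a e + Δ := by
    by_contra hc
    exact hn ⟨a, a1, a, e, b, by omega, by omega, he, hb, by omega, by omega⟩
  by_contra hc
  exact hn ⟨a, a1, a, a2, e, by omega, by omega, by omega, he, by omega, by omega⟩

/-- a side of the octagon -/
theorem side {R Δ : ℕ} (hn : ¬ Bad x R Δ) {a b e a1 a2 b2 e1 : G} {r r' r'' : ℕ}
    (hb : d x a b ≤ R) (he : d x a e ≤ R)
    (hr : 2 * r + d x b e ≤ d x a b + d x a e)
    (hr' : r = 0 ∨ 2 * r + 4 * Δ + d x b e ≤ d x a b + d x a e)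
    (h1 : d x a a1 = r) (h2 : d x b b2 = r') (h3 : r + d x a1 b2 + r' = d x a b)
    (h4 : d x e e1 = r'') (h5 : d x a a2 = r) (h6 : r'' + d x e1 a2 + r = d x e a) :
    Conn x (fun v => d x a v + d x b v ≤ d x a b ∨ 2 * d x a v + d x b e ≤ d x a b + d x a e)
      (2 * Δ + d x a1 b2) a2 b2 := by
  have t0 := d_tri hx hgen b a e
  have c0 := d_comm hx hgen a b
  have c1 := d_comm hx hgen a e
  have t1 := d_tri hx hgen a1 b2 b
  have c2 := d_comm hx hgen b b2
  have t2 := d_tri hx hgen e e1 a2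
  have c3 := d_comm hx hgen e a2
  have hs := shortcut hx hgen hn hb he (r := r) hr h1 (by omega) h5 (by omega)
  refine Conn.trans (v := a1) ((geod hx hgen a2 a1).mono ?_ hs) ((geod hx hgen a1 b2).mono ?_ le_rfl)
  · intro v hv
    right
    have := d_tri hx hgen a a2 v
    have := d_tri hx hgen a2 a a1
    have := d_comm hx hgen a a2
    omega
  · intro v hv
    left
    have := d_tri hx hgen a a1 v
    have := d_tri hx hgen b b2 v
    have := d_comm hx hgen v b2
    omega

/-- the coordinate function -/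
theorem coord (a b c e : G) (hp : d x b c + d x a e ≤ d x a c + d x b e) :
    ∃ f : G → ℕ, (∀ g y, f g ≤ f (g * x y) + 1 ∧ f (g * x y) ≤ f g + 1) ∧
      (∀ v, d x a v + d x b v ≤ d x a b ∨ 2 * d x a v + d x b e ≤ d x a b + d x a e → f v = 0) ∧
      (∀ v, d x c v + d x e v ≤ d x c e ∨ 2 * d x c v + d x e b ≤ d x c e + d x c b →
        (d x a c + d x b e - (d x a b + d x c e)) / 2 ≤ f v) := by
  refine ⟨fun v => min (d x a v + d x b v - d x a b)
    (2 * d x a v + d x b e - (d x a b + d x a e)) / 2, ?_, ?_, ?_⟩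
  · intro g y
    have := d_lip hx hgen a g y
    have := d_lip hx hgen b g y
    beta_reduce
    omega
  · intro v hv
    beta_reduce
    omega
  · intro v hv
    have := d_tri hx hgen a v c
    have := d_tri hx hgen a v e
    have := d_tri hx hgen b v c
    have := d_tri hx hgen b v e
    have := d_comm hx hgen v c
    have := d_comm hx hgen v e
    have := d_comm hx hgen b c
    have := d_comm hx hgen b e
    beta_reduce
    omega

theorem Bad.step {C : ℕ} (hC : ChainIso x inv C) {R m : ℕ} (h : Bad x R m)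
    (hm : 600 * C + 2 ≤ m) : Bad x (2 * R) (4 * m) := by
  by_contra hn
  obtain ⟨o, a, b, c, e, ha, hb, hc, he, h1, h2⟩ := h
  have hR : ∀ u v, d x o u ≤ R → d x o v ≤ R → d x u v ≤ 2 * R := by
    intro u v hu hv
    have := d_tri hx hgen u o v
    have := d_comm hx hgen u o
    omega
  have c1 := d_comm hx hgen a b
  have c2 := d_comm hx hgen a c
  have c3 := d_comm hx hgen a e
  have c4 := d_comm hx hgen b c
  have c5 := d_comm hx hgen b e
  have c6 := d_comm hx hgen c e
  have t1 := d_tri hx hgen b a e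
  have t2 := d_tri hx hgen c b a
  have t3 := d_tri hx hgen e c b
  have t4 := d_tri hx hgen a e c
  have t1' : d x b e ≤ d x a b + d x a e := by omega
  have t2' : d x c a ≤ d x b c + d x b a := by omega
  have t3' : d x e b ≤ d x c e + d x c b := by omega
  have t4' : d x a c ≤ d x e a + d x e c := by omega
  obtain ⟨ra, hra, hra', hra''⟩ := exists_r t1' (4 * m)
  obtain ⟨rb, hrb, hrb', hrb''⟩ := exists_r t2' (4 * m)
  obtain ⟨rc, hrc, hrc', hrc''⟩ := exists_r t3' (4 * m)
  obtain ⟨re, hre, hre', hre''⟩ := exists_r t4' (4 * m)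
  have u1 : ra + rb ≤ d x a b := by clear hra' hrb' hrc' hre'; omega
  have u2 : rb + rc ≤ d x b c := by clear hra' hrb' hrc' hre'; omega
  have u3 : rc + re ≤ d x c e := by clear hra' hrb' hrc' hre'; omega
  have u4 : re + ra ≤ d x e a := by clear hra' hrb' hrc' hre'; omega
  obtain ⟨a1, b2, ha1, hb2, hab⟩ := two_points hx hgen a b u1
  obtain ⟨b1, c2', hb1, hc2, hbc⟩ := two_points hx hgen b c u2
  obtain ⟨c1', e2, hc1, he2, hce⟩ := two_points hx hgen c e u3
  obtain ⟨e1, a2, he1, ha2, hea⟩ := two_points hx hgen e a u4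
  have sA := side hx hgen hn (hR _ _ ha hb) (hR _ _ ha he) hra hra' ha1 hb2 hab he1 ha2 hea
  have sB := side hx hgen hn (hR _ _ hb hc) (hR _ _ hb ha) hrb hrb' hb1 hc2 hbc ha1 hb2 hab
  have sC := side hx hgen hn (hR _ _ hc he) (hR _ _ hc hb) hrc hrc' hc1 he2 hce hb1 hc2 hbc
  have sD := side hx hgen hn (hR _ _ he ha) (hR _ _ he hc) hre hre' he1 ha2 hea hc1 he2 hce
  clear hra' hrb' hrc' hre'
  obtain ⟨f, f1, f2, f3⟩ := coord hx hgen a b c e (by omega)
  obtain ⟨ρ, r1, r2, r3⟩ := coord hx hgen e a b c (by omega)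
  have key := area hx hC ρ f r1 f1 (sA.mono f2 le_rfl) (sB.mono r3 le_rfl) (sC.mono f3 le_rfl)
    (sD.mono r2 le_rfl) (r2 a2 (by
      left
      have := d_tri hx hgen e e1 a2
      omega))
  obtain ⟨P, hP⟩ : ∃ P, d x e b + d x a c = d x e a + d x b c + P :=
    Nat.exists_eq_add_of_le (by omega)
  obtain ⟨Q, hQ⟩ : ∃ Q, d x a c + d x b e = d x a b + d x c e + Q :=
    Nat.exists_eq_add_of_le (by omega)
  rw [hP, hQ, Nat.add_sub_cancel_left, Nat.add_sub_cancel_left] at key
  exact arith key hm (by omega) (by omega) (by omega)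

theorem not_bad {C : ℕ} (hC : ChainIso x inv C) (R : ℕ) : ¬ Bad x R (600 * C + 2) := by
  intro h
  have H : ∀ j, Bad x (2 ^ j * R) (4 ^ j * (600 * C + 2)) := by
    intro j
    induction j with
    | zero => simpa using h
    | succ j ih =>
      have := ih.step hx hgen hC (Nat.le_mul_of_pos_left _ (by positivity))
      rwa [← mul_assoc, ← mul_assoc, ← pow_succ', ← pow_succ'] at this
  have h1 := (H (4 * R)).le hx hgen
  have h2 : 4 * R < 2 ^ (4 * R) := Nat.lt_two_pow_self
  have h3 : 4 ^ (4 * R) = 2 ^ (4 * R) * 2 ^ (4 * R) := by rw [← mul_pow]; norm_num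
  rw [h3] at h1
  generalize 2 ^ (4 * R) = N at *
  have h4 : N * N ≤ N * N * (600 * C + 2) := Nat.le_mul_of_pos_right _ (by positivity)
  nlinarith

end main

end Hyp

open Hyp Crest.GroupTheory in
theorem hyperbolic_of_chainIso {G L : Type} [Group G] [Fintype L] (x : L → G) (inv : L → L)
    (hinv : ∀ a, inv (inv a) = a) (hx : ∀ a, x (inv a) = (x a)⁻¹)
    (hgen : Subgroup.closure (Set.range x) = ⊤) (C : ℕ) (hC : ChainIso x inv C) :
    Crest.GroupTheory.IsHyperbolicGroup G := by
  classical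
  have hS : ((Finset.univ.image x : Finset G) : Set G) = Set.range x := by simp
  refine ⟨Finset.univ.image x, by rw [hS, hgen], ((600 * C + 2 : ℕ) : ℝ), Nat.cast_nonneg _, ?_⟩
  intro w a b c
  rw [hS]
  have hd : ∀ g h, wordDist (Set.range x) g h = (d x g h : ℝ) := fun _ _ => rfl
  simp only [gromovProduct, hd]
  have hn := not_bad hx hgen hC (d x w a + d x w b + d x w c)
  have s0 := d_self (x := x) w
  have : d x a c + d x b w < d x a b + d x c w + (600 * C + 2) ∨
      d x a c + d x b w < d x b c + d x a w + (600 * C + 2) := by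
    by_contra hc
    exact hn ⟨w, a, b, c, w, by omega, by omega, by omega, by omega, by omega, by omega⟩
  have h0 : (0 : ℝ) ≤ ((600 * C + 2 : ℕ) : ℝ) := Nat.cast_nonneg _
  rcases this with h | h
  · have h' : (d x a c + d x b w : ℝ) < d x a b + d x c w + ((600 * C + 2 : ℕ) : ℝ) := by
      exact_mod_cast h
    have := min_le_left (((d x a w : ℝ) + d x b w - d x a b) / 2)
      (((d x b w : ℝ) + d x c w - d x b c) / 2)
    linarith
  · have h' : (d x a c + d x b w : ℝ) < d x b c + d x a w + ((600 * C + 2 : ℕ) : ℝ) := by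
      exact_mod_cast h
    have := min_le_right (((d x a w : ℝ) + d x b w - d x a b) / 2)
      (((d x b w : ℝ) + d x c w - d x b c) / 2)
    linarith

end Crest.Agent.R177
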