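import Crest.Agent.R177.Defs

/-!
Local inequality, part A: directed darts, plain vertices, the enumeration of the edges.
-/

set_option autoImplicit false

namespace Crest.Agent.R177

open Finset

/-- The local setting. -/
structure LS (Hf V P D : Type) where
  S : HS Hf V P
  σ : P → P
  τ : Hf → Hf
  R : RPS S σ τ D
  U : Finset D
  idx : D → ℕ
  Last : Finset D
  g : ℕ
  σσ : ∀ c, σ (σ c) = c
  ττ : ∀ h, τ (τ h) = h
  τne : ∀ h, τ h ≠ h
  τcol : ∀ h, S.col (τ h) = σ (S.col h)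
  girth : Girth S τ g
  two_le : 2 ≤ g
  inj : Function.Injective idx
  succ : ∀ d, d ∉ Last → idx (R.φ d) = idx d + 1
  sub : U ⊆ R.In

theorem exists_enum {ι κ : Type} [LinearOrder κ] [Nonempty ι] (s : Finset ι) (key : ι → κ)
    (hk : Set.InjOn key s) :
    ∃ e : ℕ → ι, (∀ i < s.card, e i ∈ s) ∧ (∀ d ∈ s, ∃ i < s.card, e i = d) ∧
      ∀ i j, i < j → j < s.card → key (e i) < key (e j) := by
  classical
  have hc : (s.image key).card = s.card := Finset.card_image_of_injOn hk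
  let f := (s.image key).orderEmbOfFin hc
  have hf : ∀ i : Fin s.card, ∃ d ∈ s, key d = f i := fun i =>
    Finset.mem_image.mp (Finset.orderEmbOfFin_mem _ hc i)
  choose e' he1 he2 using hf
  refine ⟨fun i => if h : i < s.card then e' ⟨i, h⟩ else Classical.arbitrary ι, ?_, ?_, ?_⟩
  · intro i hi
    simp only [hi, dif_pos]
    exact he1 _
  · intro d hd
    have : key d ∈ Set.range f := by
      rw [Finset.range_orderEmbOfFin]
      exact Finset.mem_coe.mpr (Finset.mem_image_of_mem key hd)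
    obtain ⟨i, hi⟩ := this
    refine ⟨i, i.2, ?_⟩
    simp only [i.2, dif_pos]
    exact hk (he1 _) hd (by rw [he2, ← hi])
  · intro i j hij hj
    have hi : i < s.card := hij.trans hj
    simp only [hi, hj, dif_pos, he2]
    exact f.strictMono hij

namespace LS

variable {Hf V P D : Type} (L : LS Hf V P D)

/-- Half-edge of a directed dart. -/
def E (y : D × Bool) : Hf := if y.2 then L.R.ε y.1 else L.τ (L.R.ε y.1)

/-- Reversal. -/
def rev (y : D × Bool) : D × Bool := (y.1, !y.2)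

/-- Successor. -/
def Φ (y : D × Bool) : D × Bool := if y.2 then (L.R.φ y.1, true) else (L.R.φ⁻¹ y.1, false)

/-- Partner. -/
def A (y : D × Bool) : D × Bool := (L.R.α y.1, !y.2)

/-- Head vertex. -/
def hd (y : D × Bool) : V := L.S.vert (L.τ (L.E y))

/-- The directed darts of `U`. -/
def U2 : Finset (D × Bool) := L.U ×ˢ univ

variable {L}

@[simp] theorem mem_U2 {y : D × Bool} : y ∈ L.U2 ↔ y.1 ∈ L.U := by simp [U2]

theorem card_U2 : L.U2.card = 2 * L.U.card := by simp [U2, mul_comm]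

@[simp] theorem rev_rev (y : D × Bool) : rev (rev y) = y := by simp [rev]

@[simp] theorem rev_fst (y : D × Bool) : (rev y).1 = y.1 := rfl

theorem rev_inj : Function.Injective (rev : D × Bool → D × Bool) :=
  Function.Involutive.injective rev_rev

theorem rev_mem {y : D × Bool} : rev y ∈ L.U2 ↔ y ∈ L.U2 := by simp

theorem E_rev (y : D × Bool) : L.E (rev y) = L.τ (L.E y) := by
  rcases y with ⟨d, _ | _⟩ <;> simp [E, rev, L.ττ]

theorem Φ_rev_Φ (y : D × Bool) : L.Φ (rev (L.Φ y)) = rev y := by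
  rcases y with ⟨d, _ | _⟩ <;> simp [Φ, rev]

theorem Φ_inj : Function.Injective L.Φ := by
  intro y y' h
  have := congrArg (fun z => rev (L.Φ (rev z))) h
  simpa [Φ_rev_Φ] using this

@[simp] theorem A_A (y : D × Bool) : L.A (L.A y) = y := by simp [A, L.R.αα]

theorem A_inj : Function.Injective L.A := Function.Involutive.injective A_A

theorem A_rev (y : D × Bool) : L.A (rev y) = rev (L.A y) := rfl

theorem τ_inj : Function.Injective L.τ := Function.Involutive.injective L.ττ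

theorem col_A {y : D × Bool} (hy : y ∈ L.U2) (hA : L.A y ∈ L.U2) :
    L.S.col (L.E (L.A y)) = L.S.col (L.E y) := by
  rcases y with ⟨d, _ | _⟩
  · have := L.R.lab d (L.sub (mem_U2.mp hy)) (L.sub (mem_U2.mp hA))
    simp [E, A, this, L.τcol]
  · have := L.R.lab d (L.sub (mem_U2.mp hy)) (L.sub (mem_U2.mp hA))
    simp [E, A, this, L.τcol, L.σσ]

theorem E_A_ne {y : D × Bool} (hy : y ∈ L.U2) (hA : L.A y ∈ L.U2) : L.E (L.A y) ≠ L.E y := by
  rcases y with ⟨d, _ | _⟩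
  · simpa [E, A] using L.R.red d (L.sub (mem_U2.mp hy)) (L.sub (mem_U2.mp hA))
  · have := L.R.red d (L.sub (mem_U2.mp hy)) (L.sub (mem_U2.mp hA))
    intro h
    apply this
    simp only [E, A, Bool.not_true, Bool.false_eq_true, if_false, if_true] at h
    rw [← h, L.ττ]

theorem vert_Φ {y : D × Bool} (hy : y ∈ L.U2) (hΦ : L.Φ y ∈ L.U2) :
    L.S.vert (L.E (L.Φ y)) = L.hd y := by
  rcases y with ⟨d, _ | _⟩
  · have h1 : L.R.φ⁻¹ d ∈ L.U := by simpa [Φ] using hΦ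
    have := L.R.path (L.R.φ⁻¹ d) (L.sub h1) (by simpa using L.sub (mem_U2.mp hy))
    simpa [E, Φ, hd, L.ττ] using this
  · have h1 : L.R.φ d ∈ L.U := by simpa [Φ] using hΦ
    have := L.R.path d (L.sub (mem_U2.mp hy)) (L.sub h1)
    simpa [E, Φ, hd] using this.symm

theorem E_Φ_ne {y : D × Bool} (hy : y ∈ L.U2) (hΦ : L.Φ y ∈ L.U2) :
    L.E (L.Φ y) ≠ L.τ (L.E y) := by
  rcases y with ⟨d, _ | _⟩
  · have h1 : L.R.φ⁻¹ d ∈ L.U := by simpa [Φ] using hΦ
    have := L.R.nb (L.R.φ⁻¹ d) (L.sub h1) (by simpa using L.sub (mem_U2.mp hy))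
    simpa [E, Φ, L.ττ] using this.symm
  · have h1 : L.R.φ d ∈ L.U := by simpa [Φ] using hΦ
    simpa [E, Φ] using L.R.nb d (L.sub (mem_U2.mp hy)) (L.sub h1)

theorem hd_rev (y : D × Bool) : L.hd (rev y) = L.S.vert (L.E y) := by
  rw [hd, E_rev, L.ττ]

theorem no_loop (h : Hf) : L.S.vert (L.τ h) ≠ L.S.vert h :=
  L.girth 1 (fun _ => h) one_pos L.two_le (fun i hi => by omega)

variable (L)

open Classical in
/-- The half-edges of the image graph. -/
noncomputable def HH : Finset Hf := L.U2.image L.E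

open Classical in
/-- Multiplicity. -/
noncomputable def m (h : Hf) : ℕ := (L.U2.filter (fun y => L.E y = h)).card

open Classical in
/-- Degree in the image graph. -/
noncomputable def deg (v : V) : ℕ := (L.HH.filter (fun h => L.S.vert h = v)).card

/-- Plain vertices. -/
def Plain (v : V) : Prop :=
  L.deg v ≤ 2 ∧ ∀ y ∈ L.U2, L.hd y = v → L.Φ y ∈ L.U2 ∧ ¬ (y.2 = true ∧ y.1 ∈ L.Last)

variable {L}

theorem E_mem {y : D × Bool} (hy : y ∈ L.U2) : L.E y ∈ L.HH := by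
  classical
  exact Finset.mem_image.mpr ⟨y, hy, rfl⟩

theorem mem_HH {h : Hf} : h ∈ L.HH ↔ ∃ y ∈ L.U2, L.E y = h := by
  classical
  exact Finset.mem_image

theorem τ_mem {h : Hf} (hh : h ∈ L.HH) : L.τ h ∈ L.HH := by
  obtain ⟨y, hy, rfl⟩ := mem_HH.mp hh
  rw [← E_rev]
  exact E_mem (rev_mem.mpr hy)

theorem m_τ (h : Hf) : L.m (L.τ h) = L.m h := by
  classical
  unfold m
  refine Finset.card_bij (fun y _ => rev y) ?_ ?_ ?_
  · intro y hy
    simp only [mem_filter] at hy ⊢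
    exact ⟨rev_mem.mpr hy.1, by rw [E_rev, hy.2, L.ττ]⟩
  · intro y _ y' _ h
    exact rev_inj h
  · intro y hy
    simp only [mem_filter] at hy
    refine ⟨rev y, ?_, rev_rev y⟩
    simp only [mem_filter]
    exact ⟨rev_mem.mpr hy.1, by rw [E_rev, hy.2]⟩

theorem plain_two {v : V} (hv : L.Plain v) {h₁ h₂ h : Hf} (m₁ : h₁ ∈ L.HH) (m₂ : h₂ ∈ L.HH)
    (m₃ : h ∈ L.HH) (v₁ : L.S.vert h₁ = v) (v₂ : L.S.vert h₂ = v) (v₃ : L.S.vert h = v)
    (hne : h₁ ≠ h₂) : h = h₁ ∨ h = h₂ := by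
  classical
  by_contra hc
  push Not at hc
  have : 2 < L.deg v := by
    unfold deg
    rw [Finset.two_lt_card_iff]
    exact ⟨h₁, h₂, h, by simp [m₁, v₁], by simp [m₂, v₂], by simp [m₃, v₃], hne, hc.1.symm,
      hc.2.symm⟩
  have := hv.1
  omega

theorem plain_Φ {y : D × Bool} (hy : y ∈ L.U2) (hv : L.Plain (L.hd y)) : L.Φ y ∈ L.U2 :=
  (hv.2 y hy rfl).1

/-- At a plain head vertex there are just two half-edges. -/
theorem plain_cases {y : D × Bool} (hy : y ∈ L.U2) (hv : L.Plain (L.hd y)) {h : Hf}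
    (hh : h ∈ L.HH) (hvert : L.S.vert h = L.hd y) : h = L.τ (L.E y) ∨ h = L.E (L.Φ y) :=
  plain_two hv (τ_mem (E_mem hy)) (E_mem (plain_Φ hy hv)) hh rfl (vert_Φ hy (plain_Φ hy hv)) hvert
    (E_Φ_ne hy (plain_Φ hy hv)).symm

theorem E_Φ_congr {y y' : D × Bool} (hy : y ∈ L.U2) (hy' : y' ∈ L.U2) (hv : L.Plain (L.hd y))
    (h : L.E y' = L.E y) : L.Φ y' ∈ L.U2 ∧ L.E (L.Φ y') = L.E (L.Φ y) := by
  have hh : L.hd y' = L.hd y := by rw [hd, h, hd]
  have h1 : L.Φ y' ∈ L.U2 := plain_Φ hy' (hh ▸ hv)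
  refine ⟨h1, ?_⟩
  rcases plain_cases hy hv (E_mem h1) (by rw [vert_Φ hy' h1, hh]) with h2 | h2
  · exact absurd (h2.trans (by rw [h])) (E_Φ_ne hy' h1)
  · exact h2

theorem m_le_m_Φ {y : D × Bool} (hy : y ∈ L.U2) (hv : L.Plain (L.hd y)) :
    L.m (L.E y) ≤ L.m (L.E (L.Φ y)) := by
  classical
  unfold m
  refine Finset.card_le_card_of_injOn L.Φ ?_ (Φ_inj.injOn)
  intro y' hy'
  simp only [coe_filter, Set.mem_ofPred_eq] at hy' ⊢
  exact E_Φ_congr hy hy'.1 hv hy'.2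

theorem m_Φ {y : D × Bool} (hy : y ∈ L.U2) (hv : L.Plain (L.hd y)) :
    L.m (L.E (L.Φ y)) = L.m (L.E y) := by
  refine le_antisymm ?_ (m_le_m_Φ hy hv)
  have h1 := plain_Φ hy hv
  have := m_le_m_Φ (rev_mem.mpr h1) (by rw [hd_rev, vert_Φ hy h1]; exact hv)
  rwa [Φ_rev_Φ, E_rev, E_rev, m_τ, m_τ] at this

variable (L)

open Classical in
/-- First visits. -/
noncomputable def FV : Finset D :=
  L.U.filter (fun d => ∀ y ∈ L.U2, L.E y = L.R.ε d → L.idx d ≤ L.idx y.1)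

variable {L}

theorem mem_FV {d : D} :
    d ∈ L.FV ↔ d ∈ L.U ∧ ∀ y ∈ L.U2, L.E y = L.R.ε d → L.idx d ≤ L.idx y.1 := by
  classical
  simp only [FV, mem_filter]

theorem FV_le {d : D} (hd : d ∈ L.FV) (b : Bool) {y : D × Bool} (hy : y ∈ L.U2)
    (h : L.E y = L.E (d, b)) : L.idx d ≤ L.idx y.1 := by
  cases b
  · have := (mem_FV.mp hd).2 (rev y) (rev_mem.mpr hy) (by rw [E_rev, h]; simp [E, L.ττ])
    exact this
  · exact (mem_FV.mp hd).2 y hy h

theorem exists_FV {h : Hf} (hh : h ∈ L.HH) : ∃ d ∈ L.FV, ∃ b, L.E (d, b) = h := by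
  classical
  obtain ⟨y₀, hy₀, h₀⟩ := mem_HH.mp hh
  obtain ⟨y, hy, hmin⟩ := Finset.exists_min_image (L.U2.filter (fun y => L.E y = h))
    (fun y => L.idx y.1) ⟨y₀, by simp only [mem_filter]; exact ⟨hy₀, h₀⟩⟩
  simp only [mem_filter, and_imp] at hy hmin
  refine ⟨y.1, mem_FV.mpr ⟨mem_U2.mp hy.1, fun y' hy' h' => ?_⟩, y.2, hy.2⟩
  rcases y with ⟨d, _ | _⟩
  · exact hmin (rev y') (rev_mem.mpr hy') (by rw [E_rev, h', ← hy.2]; simp [E])
  · exact hmin y' hy' (by rw [h', ← hy.2]; simp [E])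

theorem FV_inj {d d' : D} (hd : d ∈ L.FV) (hd' : d' ∈ L.FV) {b b' : Bool}
    (h : L.E (d, b) = L.E (d', b')) : d = d' ∧ b = b' := by
  have h1 := FV_le hd b (y := (d', b')) (mem_U2.mpr (mem_FV.mp hd').1) h.symm
  have h2 := FV_le hd' b' (y := (d, b)) (mem_U2.mpr (mem_FV.mp hd).1) h
  have h3 : d = d' := L.inj (le_antisymm h1 h2)
  subst h3
  refine ⟨rfl, ?_⟩
  cases b <;> cases b' <;> simp only [E, Bool.false_eq_true, if_false, if_true] at h
  · rfl
  · exact absurd h (L.τne _)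
  · exact absurd h.symm (L.τne _)
  · rfl

theorem idx_Φ_of_plain {y : D × Bool} (hy : y ∈ L.U2) (hv : L.Plain (L.hd y)) :
    (y.2 = true → L.idx (L.Φ y).1 = L.idx y.1 + 1) ∧
      (y.2 = false → L.idx (L.Φ y).1 + 1 = L.idx y.1) := by
  have h1 := plain_Φ hy hv
  rcases y with ⟨d, _ | _⟩
  · refine ⟨by simp, fun _ => ?_⟩
    have h2 := (hv.2 (rev (L.Φ (d, false))) (rev_mem.mpr h1) (by rw [hd_rev, vert_Φ hy h1])).2
    have h3 : L.R.φ⁻¹ d ∉ L.Last := by simpa [rev, Φ] using h2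
    have := L.succ _ h3
    simpa [Φ] using this.symm
  · refine ⟨fun _ => ?_, by simp⟩
    have h3 : d ∉ L.Last := by simpa using (hv.2 _ hy rfl).2
    simpa [Φ] using L.succ _ h3

theorem φ_mem_FV {d : D} (hd : d ∈ L.FV) (hv : L.Plain (L.hd (d, true))) : L.R.φ d ∈ L.FV := by
  have hy : (d, true) ∈ L.U2 := mem_U2.mpr (mem_FV.mp hd).1
  have h1 := plain_Φ hy hv
  have hi : L.idx (L.R.φ d) = L.idx d + 1 := (idx_Φ_of_plain hy hv).1 rfl
  refine mem_FV.mpr ⟨by simpa [Φ] using h1, fun y' hy' h' => ?_⟩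
  have h' : L.E y' = L.E (L.Φ (d, true)) := h'
  -- the reversed dart arrives at the plain vertex
  have hr : rev y' ∈ L.U2 := rev_mem.mpr hy'
  have hhd : L.hd (rev y') = L.hd (d, true) := by rw [hd_rev, h', vert_Φ hy h1]
  have h2 := E_Φ_congr (rev_mem.mpr h1) hr (by rw [hd_rev, vert_Φ hy h1]; exact hv)
    (by rw [E_rev, E_rev, h'])
  rw [Φ_rev_Φ] at h2
  have h3 := FV_le hd false h2.1 h2.2
  have h4 := idx_Φ_of_plain hr (hhd ▸ hv)
  by_contra hlt
  push Not at hlt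
  rcases y' with ⟨d', _ | _⟩
  · have h5 := h4.1 rfl
    simp only [rev_fst] at h5 hlt
    -- `Φ (rev y')` has index `idx d' + 1 ≤ idx d`
    have hne : d' ≠ d := by
      rintro rfl
      exact E_Φ_ne hy h1 (by rw [← h']; simp [E])
    have h6 : L.idx d' ≠ L.idx d := fun h => hne (L.inj h)
    have h7 : (L.Φ (rev (d', false))).1 = d := L.inj (by omega)
    have h8 : L.Φ (rev (d', false)) = (d, true) := Prod.ext h7 (by simp [Φ, rev])
    rw [h8] at h2
    exact L.τne _ (by simpa [E, rev] using h2.2.symm)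
  · have h5 := h4.2 rfl
    simp only [rev_fst] at h5 hlt
    omega

/-- An enumeration of the edges of the image graph. -/
structure Enum (L : LS Hf V P D) where
  e : ℕ → D
  mem : ∀ i < L.FV.card, e i ∈ L.FV
  surj : ∀ d ∈ L.FV, ∃ i < L.FV.card, e i = d
  lt : ∀ i j, i < j → j < L.FV.card → L.m (L.R.ε (e j)) < L.m (L.R.ε (e i)) ∨
    (L.m (L.R.ε (e j)) = L.m (L.R.ε (e i)) ∧ L.idx (e i) < L.idx (e j))

theorem exists_Enum [Nonempty D] (L : LS Hf V P D) : Nonempty (Enum L) := by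
  obtain ⟨e, h1, h2, h3⟩ := exists_enum L.FV
    (fun d => (toLex (OrderDual.toDual (L.m (L.R.ε d)), L.idx d) : ℕᵒᵈ ×ₗ ℕ))
    (fun d _ d' _ h => L.inj (congrArg (fun z => (ofLex z).2) h))
  refine ⟨⟨e, h1, h2, fun i j hij hj => ?_⟩⟩
  have := h3 i j hij hj
  rw [Prod.Lex.toLex_lt_toLex] at this
  rcases this with h | ⟨h, h'⟩
  · exact Or.inl h
  · exact Or.inr ⟨(OrderDual.toDual_inj.mp h).symm, h'⟩

namespace Enum

variable (N : Enum L)

/-- The enumerated half-edges. -/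
def p (i : ℕ) : Hf := L.R.ε (N.e i)

theorem Hh_eq (z : ℕ × Bool) : Hh L.τ N.p z = L.E (N.e z.1, z.2) := rfl

theorem Hh_true (i : ℕ) : Hh L.τ N.p (i, true) = N.p i := rfl

theorem Hh_false (i : ℕ) : Hh L.τ N.p (i, false) = L.τ (N.p i) := rfl

theorem e_mem {i : ℕ} (hi : i < L.FV.card) (b : Bool) : (N.e i, b) ∈ L.U2 :=
  mem_U2.mpr (mem_FV.mp (N.mem i hi)).1

theorem e_inj {i j : ℕ} (hi : i < L.FV.card) (hj : j < L.FV.card) (h : N.e i = N.e j) : i = j := by
  rcases lt_trichotomy i j with h1 | h1 | h1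
  · have := N.lt i j h1 hj
    rw [h] at this
    omega
  · exact h1
  · have := N.lt j i h1 hi
    rw [h] at this
    omega

theorem Hh_inj {z z' : ℕ × Bool} (hz : z.1 < L.FV.card) (hz' : z'.1 < L.FV.card)
    (h : Hh L.τ N.p z = Hh L.τ N.p z') : z = z' := by
  have := FV_inj (N.mem _ hz) (N.mem _ hz') h
  exact Prod.ext (N.e_inj hz hz' this.1) this.2

theorem Hh_mem {z : ℕ × Bool} (hz : z.1 < L.FV.card) : Hh L.τ N.p z ∈ L.HH :=
  E_mem (N.e_mem hz z.2)

theorem Hh_surj {h : Hf} (hh : h ∈ L.HH) : ∃ z : ℕ × Bool, z.1 < L.FV.card ∧ Hh L.τ N.p z = h := by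
  obtain ⟨d, hd, b, hb⟩ := exists_FV hh
  obtain ⟨i, hi, rfl⟩ := N.surj d hd
  exact ⟨(i, b), hi, hb⟩

theorem m_anti {i j : ℕ} (hij : i ≤ j) (hj : j < L.FV.card) : L.m (N.p j) ≤ L.m (N.p i) := by
  rcases hij.eq_or_lt with rfl | h
  · exact le_rfl
  · have := N.lt i j h hj
    unfold p
    omega

theorem hd_e (i : ℕ) : L.hd (N.e i, true) = L.S.vert (L.τ (N.p i)) := rfl

theorem succ_plain {i : ℕ} (hi : i < L.FV.card) (hv : L.Plain (L.S.vert (L.τ (N.p i)))) :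
    i + 1 < L.FV.card ∧ N.e (i + 1) = L.R.φ (N.e i) := by
  have hy := N.e_mem hi true
  have h1 := φ_mem_FV (N.mem i hi) hv
  have h2 : L.m (L.R.ε (L.R.φ (N.e i))) = L.m (L.R.ε (N.e i)) := m_Φ hy hv
  have h3 : L.idx (L.R.φ (N.e i)) = L.idx (N.e i) + 1 := (idx_Φ_of_plain hy hv).1 rfl
  obtain ⟨j, hj, hje⟩ := N.surj _ h1
  have hij : i < j := by
    rcases lt_trichotomy i j with h | h | h
    · exact h
    · subst h
      rw [← hje] at h3
      omega
    · have := N.lt j i h hi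
      rw [hje] at this
      omega
  have hji : j = i + 1 := by
    by_contra hne
    have a1 := N.lt i (i + 1) (by omega) (by omega)
    have a2 := N.lt (i + 1) j (by omega) hj
    rw [hje] at a2
    omega
  subst hji
  exact ⟨hj, hje⟩

theorem E_Φ_e {i : ℕ} (hi : i < L.FV.card) (hv : L.Plain (L.S.vert (L.τ (N.p i)))) :
    L.E (L.Φ (N.e i, true)) = N.p (i + 1) := by
  rw [p, (N.succ_plain hi hv).2]
  rfl

theorem vert_succ {i : ℕ} (hi : i < L.FV.card) (hv : L.Plain (L.S.vert (L.τ (N.p i)))) :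
    L.S.vert (N.p (i + 1)) = L.S.vert (L.τ (N.p i)) := by
  rw [← N.E_Φ_e hi hv]
  exact vert_Φ (N.e_mem hi true) (plain_Φ (N.e_mem hi true) hv)

theorem m_succ {i : ℕ} (hi : i < L.FV.card) (hv : L.Plain (L.S.vert (L.τ (N.p i)))) :
    L.m (N.p (i + 1)) = L.m (N.p i) := by
  rw [← N.E_Φ_e hi hv]
  exact m_Φ (N.e_mem hi true) hv

theorem cases_succ {i : ℕ} (hi : i < L.FV.card) (hv : L.Plain (L.S.vert (L.τ (N.p i)))) {h : Hf}
    (hh : h ∈ L.HH) (hvert : L.S.vert h = L.S.vert (L.τ (N.p i))) :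
    h = L.τ (N.p i) ∨ h = N.p (i + 1) := by
  rw [← N.E_Φ_e hi hv]
  exact plain_cases (N.e_mem hi true) hv hh hvert

/-- Every plain vertex of the image graph is the head of an enumerated edge. -/
theorem exists_head {y : D × Bool} (hy : y ∈ L.U2) (hv : L.Plain (L.hd y)) :
    ∃ i < L.FV.card, L.S.vert (L.τ (N.p i)) = L.hd y := by
  classical
  obtain ⟨y₁, hy₁, hmin⟩ := Finset.exists_min_image (L.U2.filter (fun y' => L.hd y' = L.hd y))
    (fun y' => L.idx y'.1) ⟨y, by simp only [mem_filter]; exact ⟨hy, trivial⟩⟩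
  simp only [mem_filter, and_imp] at hy₁ hmin
  have hv₁ : L.Plain (L.hd y₁) := hy₁.2 ▸ hv
  have hΦ := plain_Φ hy₁.1 hv₁
  rcases y₁ with ⟨d, _ | _⟩
  · have h1 := hmin (rev (L.Φ (d, false))) (rev_mem.mpr hΦ)
      (by rw [hd_rev, vert_Φ hy₁.1 hΦ, hy₁.2])
    have h2 := (idx_Φ_of_plain hy₁.1 hv₁).2 rfl
    simp only [rev_fst] at h1 h2
    omega
  · have hd : d ∈ L.FV := mem_FV.mpr ⟨mem_U2.mp hy₁.1, fun y' hy' h' =>
      hmin y' hy' (by rw [← hy₁.2, LS.hd, h']; rfl)⟩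
    obtain ⟨i, hi, rfl⟩ := N.surj d hd
    exact ⟨i, hi, hy₁.2⟩

theorem E_Φ_dsucc {y : D × Bool} (hy : y ∈ L.U2) {z : ℕ × Bool} (hz : z.1 < L.FV.card)
    (h : L.E y = Hh L.τ N.p z) (hv : L.Plain (L.hd y)) :
    L.E (L.Φ y) = Hh L.τ N.p (dsucc z) := by
  rcases z with ⟨j, _ | _⟩
  · obtain ⟨i, hi, hvi⟩ := N.exists_head hy hv
    have hvi' : L.Plain (L.S.vert (L.τ (N.p i))) := hvi ▸ hv
    have hi1 := (N.succ_plain hi hvi').1
    have hτ : L.τ (L.E y) = N.p j := by rw [h, Hh_false, L.ττ]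
    have hji : j = i + 1 := by
      rcases N.cases_succ hi hvi' (N.Hh_mem (z := (j, true)) hz)
        (by rw [Hh_true, ← hτ, hvi]; rfl) with h1 | h1
      · have := N.Hh_inj (z := (j, true)) (z' := (i, false)) hz hi h1
        simp at this
      · exact congrArg Prod.fst (N.Hh_inj (z := (j, true)) (z' := (i + 1, true)) hz hi1 h1)
    subst hji
    have hΦ := plain_Φ hy hv
    rcases N.cases_succ hi hvi' (E_mem hΦ) (by rw [vert_Φ hy hΦ, hvi]) with h1 | h1
    · simpa [dsucc, Hh_false] using h1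
    · exact absurd (h1.trans hτ.symm) (E_Φ_ne hy hΦ)
  · have hv' : L.Plain (L.S.vert (L.τ (N.p j))) := by
      have : L.hd y = L.S.vert (L.τ (N.p j)) := by rw [LS.hd, h]; rfl
      exact this ▸ hv
    have := (E_Φ_congr (N.e_mem hz true) hy hv' h).2
    rw [this, N.E_Φ_e hz hv']
    rfl

theorem new_vertex {i : ℕ} (hi : i < L.FV.card) (hv : L.Plain (L.S.vert (L.τ (N.p i))))
    (z : ℕ × Bool) (hz : z.1 < i + 1) (hne : z ≠ (i, false)) :
    L.S.vert (Hh L.τ N.p z) ≠ L.S.vert (N.p (i + 1)) := by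
  intro h
  have hi1 := (N.succ_plain hi hv).1
  have hz' : z.1 < L.FV.card := by omega
  rcases N.cases_succ hi hv (N.Hh_mem hz') (h.trans (N.vert_succ hi hv)) with h1 | h1
  · exact hne (N.Hh_inj (z' := (i, false)) hz' hi h1)
  · have := N.Hh_inj (z' := (i + 1, true)) hz' hi1 h1
    rw [this] at hz
    simp at hz

end Enum

end LS

end Crest.Agent.R177
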