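import Crest.Agent.R177.LocA

/-!
Local inequality, part B: counting ends, visits, branch vertices and layers.
-/

set_option autoImplicit false

namespace Crest.Agent.R177

open Finset

namespace LS

variable {Hf V P D : Type} (L : LS Hf V P D)

open Classical in
/-- The number of ends. -/
noncomputable def nb : ℕ := (L.U.filter (fun d => L.R.φ d ∉ L.U)).card

open Classical in
/-- Directed ends. -/
noncomputable def En : Finset (D × Bool) := L.U2.filter (fun y => L.Φ y ∉ L.U2)

open Classical in
/-- Directed darts with a given head. -/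
noncomputable def heads (v : V) : Finset (D × Bool) := L.U2.filter (fun y => L.hd y = v)

open Classical in
/-- The vertices of the image graph. -/
noncomputable def W : Finset V := L.HH.image L.S.vert

open Classical in
/-- Non-plain vertices. -/
noncomputable def NP : Finset V := L.W.filter (fun v => ¬ L.Plain v)

open Classical in
/-- Branch vertices. -/
noncomputable def Br : Finset V := L.W.filter (fun v => 3 ≤ L.deg v)

variable {L}

theorem mem_En {y : D × Bool} : y ∈ L.En ↔ y ∈ L.U2 ∧ L.Φ y ∉ L.U2 := by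
  classical
  simp only [En, mem_filter]

theorem mem_heads {v : V} {y : D × Bool} : y ∈ L.heads v ↔ y ∈ L.U2 ∧ L.hd y = v := by
  classical
  simp only [heads, mem_filter]

theorem hd_mem_W {y : D × Bool} (hy : y ∈ L.U2) : L.hd y ∈ L.W := by
  classical
  exact Finset.mem_image.mpr ⟨_, τ_mem (E_mem hy), rfl⟩

theorem mem_W {v : V} : v ∈ L.W ↔ ∃ h ∈ L.HH, L.S.vert h = v := by
  classical
  exact Finset.mem_image

theorem mem_NP {v : V} : v ∈ L.NP ↔ v ∈ L.W ∧ ¬ L.Plain v := by
  classical
  simp only [NP, mem_filter]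

theorem card_En : L.En.card ≤ 2 * L.nb := by
  classical
  have h1 : (L.U.filter (fun d => L.R.φ⁻¹ d ∉ L.U)).card ≤ L.nb := by
    have a1 := Finset.card_filter_add_card_filter_not (s := L.U) (fun d => L.R.φ d ∈ L.U)
    have a2 := Finset.card_filter_add_card_filter_not (s := L.U) (fun d => L.R.φ⁻¹ d ∈ L.U)
    have a3 : (L.U.filter (fun d => L.R.φ d ∈ L.U)).card ≤
        (L.U.filter (fun d => L.R.φ⁻¹ d ∈ L.U)).card := by
      refine Finset.card_le_card_of_injOn L.R.φ ?_ (L.R.φ.injective.injOn)
      intro d hd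
      simp only [coe_filter, Set.mem_ofPred_eq] at hd ⊢
      exact ⟨hd.2, by simpa using hd.1⟩
    have a4 : L.nb = (L.U.filter (fun d => ¬ L.R.φ d ∈ L.U)).card := by
      unfold nb
      congr
    omega
  have h2 : L.En ⊆ ((L.U.filter (fun d => L.R.φ d ∉ L.U)).image (fun d => (d, true))) ∪
      ((L.U.filter (fun d => L.R.φ⁻¹ d ∉ L.U)).image (fun d => (d, false))) := by
    rintro ⟨d, _ | _⟩ hy
    · rw [mem_En] at hy
      simp only [mem_U2, Φ] at hy
      simpa using hy
    · rw [mem_En] at hy
      simp only [mem_U2, Φ] at hy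
      simpa using hy
  have h3 := (Finset.card_le_card h2).trans (Finset.card_union_le _ _)
  have h4 := Finset.card_image_le (s := L.U.filter (fun d => L.R.φ d ∉ L.U))
    (f := fun d => (d, true))
  have h5 := Finset.card_image_le (s := L.U.filter (fun d => L.R.φ⁻¹ d ∉ L.U))
    (f := fun d => (d, false))
  have a4 : L.nb = (L.U.filter (fun d => L.R.φ d ∉ L.U)).card := by
    unfold nb
    congr
  omega

theorem girth_iter {y : D × Bool} {l : ℕ} (hl : 0 < l) (hg : l < L.g)
    (hin : ∀ i ≤ l, L.Φ^[i] y ∈ L.U2) : L.S.vert (L.E (L.Φ^[l] y)) ≠ L.S.vert (L.E y) := by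
  have h := L.girth l (fun i => L.E (L.Φ^[i] y)) hl hg (fun i hi => by
    have h1 := hin i (by omega)
    have h2 := hin (i + 1) (by omega)
    rw [Function.iterate_succ_apply'] at h2
    simp only [Function.iterate_succ_apply']
    exact ⟨(vert_Φ h1 h2).symm, E_Φ_ne h1 h2⟩)
  obtain ⟨l, rfl⟩ : ∃ l', l = l' + 1 := ⟨l - 1, by omega⟩
  have h1 := hin l (by omega)
  have h2 := hin (l + 1) le_rfl
  rw [Function.iterate_succ_apply'] at h2 ⊢
  rw [vert_Φ h1 h2]
  simpa [hd] using h

theorem iter_inj {y y' : D × Bool} {j j' : ℕ} (hj : j < L.g) (hj' : j' < L.g)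
    (hin : ∀ i ≤ j, L.Φ^[i] y ∈ L.U2) (hin' : ∀ i ≤ j', L.Φ^[i] y' ∈ L.U2)
    (hv : L.S.vert (L.E y) = L.S.vert (L.E y')) (h : L.Φ^[j] y = L.Φ^[j'] y') :
    y = y' ∧ j = j' := by
  wlog hle : j ≤ j' generalizing y y' j j'
  · have := this hj' hj hin' hin hv.symm h.symm (by omega)
    exact ⟨this.1.symm, this.2.symm⟩
  obtain ⟨c, rfl⟩ := Nat.exists_eq_add_of_le hle
  rw [Function.iterate_add_apply] at h
  have h1 : y = L.Φ^[c] y' := (Φ_inj.iterate j) h
  rcases Nat.eq_zero_or_pos c with rfl | hc
  · exact ⟨h1, rfl⟩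
  · exact absurd (h1 ▸ hv) (girth_iter hc (by omega) (fun i hi => hin' i (by omega)))

theorem card_heads {N : ℕ} (hU : L.U.card ≤ N * L.g) (hb : L.nb ≤ N) (v : V) :
    (L.heads v).card ≤ 4 * N := by
  classical
  let T := L.U2.filter (fun y => L.S.vert (L.E y) = v)
  have h0 : (L.heads v).card ≤ T.card := by
    refine Finset.card_le_card_of_injOn rev ?_ (rev_inj.injOn)
    intro y hy
    have hy := mem_heads.mp hy
    simp only [T, coe_filter, Set.mem_ofPred_eq]
    exact ⟨rev_mem.mpr hy.1, by rw [E_rev]; exact hy.2⟩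
  let Q : D × Bool → Prop := fun y => ∀ i < L.g, L.Φ^[i] y ∈ L.U2
  have h1 : (T.filter Q).card * L.g ≤ L.U2.card := by
    have hc : (T.filter Q).card * L.g = (T.filter Q ×ˢ range L.g).card := by
      rw [Finset.card_product, Finset.card_range]
    rw [hc]
    refine Finset.card_le_card_of_injOn (fun w => L.Φ^[w.2] w.1) ?_ ?_
    · intro w hw
      simp only [coe_product, coe_filter, Set.mem_prod, Set.mem_ofPred_eq, coe_range,
        Set.mem_Iio] at hw
      exact hw.1.2 _ hw.2
    · intro w hw w' hw' h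
      simp only [T, coe_product, coe_filter, Set.mem_prod, Set.mem_ofPred_eq, coe_range,
        Set.mem_Iio, mem_filter] at hw hw'
      have := iter_inj hw.2 hw'.2 (fun i hi => hw.1.2 i (by omega))
        (fun i hi => hw'.1.2 i (by omega)) (hw.1.1.2.trans hw'.1.1.2.symm) h
      exact Prod.ext this.1 this.2
  have h2 : (T.filter (fun y => ¬ Q y)).card ≤ L.En.card := by
    have hex : ∀ y : D × Bool, ∃ j : ℕ, y ∈ T.filter (fun y => ¬ Q y) →
        j < L.g ∧ (∀ i ≤ j, L.Φ^[i] y ∈ L.U2) ∧ L.Φ^[j + 1] y ∉ L.U2 := by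
      intro y
      by_cases hy : y ∈ T.filter (fun y => ¬ Q y)
      · simp only [T, Q, mem_filter] at hy
        have hne : ∃ i, L.Φ^[i] y ∉ L.U2 := by
          by_contra hc
          push Not at hc
          exact hy.2 fun i _ => hc i
        have hs := Nat.find_spec hne
        have hlt : Nat.find hne < L.g := by
          by_contra hc
          exact hy.2 fun i hi => by
            by_contra hc'
            have := Nat.find_min' hne hc'
            omega
        have hpos : 0 < Nat.find hne := by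
          rcases Nat.eq_zero_or_pos (Nat.find hne) with h | h
          · rw [h] at hs
            exact absurd hy.1.1 hs
          · exact h
        refine ⟨Nat.find hne - 1, fun _ => ⟨by omega, fun i hi => ?_, ?_⟩⟩
        · by_contra hc
          have := Nat.find_min' hne hc
          omega
        · rwa [Nat.sub_add_cancel hpos]
      · exact ⟨0, fun h => absurd h hy⟩
    choose j hj using hex
    refine Finset.card_le_card_of_injOn (fun y => L.Φ^[j y] y) ?_ ?_
    · intro y hy
      have := hj y hy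
      rw [Finset.mem_coe, mem_En]
      exact ⟨this.2.1 _ le_rfl, by rw [← Function.iterate_succ_apply' L.Φ]; exact this.2.2⟩
    · intro y hy y' hy' h
      have a := hj y hy
      have a' := hj y' hy'
      simp only [T, coe_filter, Set.mem_ofPred_eq, mem_filter] at hy hy'
      exact (iter_inj a.1 a'.1 a.2.1 a'.2.1 (hy.1.2.trans hy'.1.2.symm) h).1
  have h3 := Finset.card_filter_add_card_filter_not (s := T) Q
  have h4 := card_En (L := L)
  have h5 : (T.filter Q).card ≤ 2 * N := by
    rw [card_U2] at h1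
    have hg : 0 < L.g := by have := L.two_le; omega
    have : (T.filter Q).card * L.g ≤ 2 * N * L.g := by nlinarith
    exact Nat.le_of_mul_le_mul_right this hg
  omega

theorem m_le_heads (h : Hf) : L.m h ≤ (L.heads (L.S.vert h)).card := by
  classical
  rw [← m_τ]
  unfold m
  refine Finset.card_le_card ?_
  intro y hy
  simp only [mem_filter] at hy
  exact mem_heads.mpr ⟨hy.1, by rw [hd, hy.2, L.ττ]⟩

open Classical in
theorem two_m_le (h : Hf) : 2 * L.m h ≤ (L.heads (L.S.vert h)).card +
    (L.En.filter (fun y => L.hd y = L.S.vert h)).card := by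
  let A₀ := L.U2.filter (fun y => L.E y = L.τ h)
  have hA : A₀.card = L.m h := by rw [← m_τ]; rfl
  have hsub : A₀ ⊆ L.heads (L.S.vert h) := by
    intro y hy
    simp only [A₀, mem_filter] at hy
    exact mem_heads.mpr ⟨hy.1, by rw [hd, hy.2, L.ττ]⟩
  have h1 := Finset.card_filter_add_card_filter_not (s := A₀) (fun y => L.Φ y ∈ L.U2)
  have h2 : (A₀.filter (fun y => ¬ L.Φ y ∈ L.U2)).card ≤
      (L.En.filter (fun y => L.hd y = L.S.vert h)).card := by
    refine Finset.card_le_card ?_
    intro y hy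
    simp only [mem_filter] at hy ⊢
    have := mem_heads.mp (hsub hy.1)
    exact ⟨mem_En.mpr ⟨this.1, hy.2⟩, this.2⟩
  have h3 : (A₀.filter (fun y => L.Φ y ∈ L.U2)).card ≤ (L.heads (L.S.vert h) \ A₀).card := by
    refine Finset.card_le_card_of_injOn (fun y => rev (L.Φ y)) ?_ ((rev_inj.comp Φ_inj).injOn)
    intro y hy
    simp only [coe_filter, Set.mem_ofPred_eq] at hy
    have h4 := mem_heads.mp (hsub hy.1)
    have h5 : L.E y = L.τ h := by
      have := hy.1
      simp only [A₀, mem_filter] at this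
      exact this.2
    rw [Finset.mem_coe, Finset.mem_sdiff, mem_heads]
    refine ⟨⟨rev_mem.mpr hy.2, by rw [hd_rev, vert_Φ h4.1 hy.2, h4.2]⟩, ?_⟩
    simp only [A₀, mem_filter, not_and]
    intro _ h6
    rw [E_rev] at h6
    apply E_Φ_ne h4.1 hy.2
    rw [τ_inj h6, h5, L.ττ]
  have h4 := Finset.card_sdiff_add_card_eq_card hsub
  omega

theorem sum_heads : ∑ v ∈ L.W, (L.heads v).card = 2 * L.U.card := by
  classical
  rw [← card_U2, Finset.card_eq_sum_card_fiberwise (f := L.hd) (t := L.W)
    (fun y hy => hd_mem_W hy)]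
  rfl

open Classical in
theorem sum_En : ∑ v ∈ L.W, (L.En.filter (fun y => L.hd y = v)).card = L.En.card := by
  rw [Finset.card_eq_sum_card_fiberwise (f := L.hd) (t := L.W) (s := L.En)
    (fun y hy => hd_mem_W (mem_En.mp hy).1)]

open Classical in
theorem card_NP : L.NP.card ≤ L.Br.card + 2 * L.nb + (L.U.filter (fun d => d ∈ L.Last)).card := by
  have h1 : L.NP ⊆ L.Br ∪ L.En.image L.hd ∪
      (L.U.filter (fun d => d ∈ L.Last)).image (fun d => L.hd (d, true)) := by
    intro v hv
    rw [mem_NP] at hv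
    simp only [mem_union, mem_image, mem_filter, Br]
    by_cases hd : 3 ≤ L.deg v
    · exact Or.inl (Or.inl ⟨hv.1, hd⟩)
    · have h2 := hv.2
      unfold Plain at h2
      push Not at h2
      obtain ⟨y, hy, hyv, h3⟩ := h2 (by omega)
      by_cases h4 : L.Φ y ∈ L.U2
      · obtain ⟨h5, h6⟩ := h3 h4
        refine Or.inr ⟨y.1, ⟨mem_U2.mp hy, h6⟩, ?_⟩
        rw [← hyv, ← h5]
      · exact Or.inl (Or.inr ⟨y, mem_En.mpr ⟨hy, h4⟩, hyv⟩)
  have h2 := (Finset.card_le_card h1).trans ((Finset.card_union_le _ _).trans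
    (Nat.add_le_add (Finset.card_union_le _ _) Finset.card_image_le))
  have h3 := Finset.card_image_le (s := L.En) (f := L.hd)
  have h4 := card_En (L := L)
  omega

theorem deg_sum : 2 * L.W.card + L.Br.card ≤ L.HH.card + 2 * L.nb := by
  classical
  have h1 : L.HH.card = ∑ v ∈ L.W, L.deg v := by
    rw [Finset.card_eq_sum_card_fiberwise (f := L.S.vert) (t := L.W)
      (fun h hh => mem_W.mpr ⟨h, hh, rfl⟩)]
    rfl
  have h2 : ∀ v ∈ L.W, 2 + (if 3 ≤ L.deg v then 1 else 0) ≤
      L.deg v + (L.En.filter (fun y => L.hd y = v)).card := by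
    intro v hv
    by_cases h3 : 2 ≤ L.deg v
    · split_ifs <;> omega
    · rw [if_neg (by omega)]
      obtain ⟨h, hh, rfl⟩ := mem_W.mp hv
      have hmem : h ∈ L.HH.filter (fun h' => L.S.vert h' = L.S.vert h) := by
        simp only [mem_filter]; exact ⟨hh, trivial⟩
      have h4 : 0 < L.deg (L.S.vert h) := Finset.card_pos.mpr ⟨h, hmem⟩
      obtain ⟨y, hy, hyE⟩ := mem_HH.mp (τ_mem hh)
      have hyv : L.hd y = L.S.vert h := by rw [hd, hyE, L.ττ]
      have h5 : L.Φ y ∉ L.U2 := by
        intro hΦ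
        have h6 : 1 < L.deg (L.S.vert h) := by
          unfold deg
          rw [Finset.one_lt_card]
          refine ⟨h, hmem, L.E (L.Φ y), ?_, ?_⟩
          · simp only [mem_filter]
            exact ⟨E_mem hΦ, by rw [vert_Φ hy hΦ, hyv]⟩
          · have := E_Φ_ne hy hΦ
            rw [hyE, L.ττ] at this
            exact this.symm
        omega
      have h7 : 0 < (L.En.filter (fun y => L.hd y = L.S.vert h)).card :=
        Finset.card_pos.mpr ⟨y, by simp only [mem_filter]; exact ⟨mem_En.mpr ⟨hy, h5⟩, hyv⟩⟩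
      omega
  have h3 := Finset.sum_le_sum h2
  rw [Finset.sum_add_distrib, Finset.sum_add_distrib, ← h1, sum_En, ← Finset.card_filter] at h3
  have h4 := card_En (L := L)
  simp only [sum_const, smul_eq_mul] at h3
  have h5 : L.Br.card = (L.W.filter (fun v => 3 ≤ L.deg v)).card := by
    unfold Br
    congr
  omega

open Classical in
theorem card_at [Fintype P] (Z : Finset V) :
    (L.HH.filter (fun h => L.S.vert h ∈ Z)).card ≤ Fintype.card P * Z.card := by
  rw [mul_comm, ← Finset.card_univ, ← Finset.card_product]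
  refine Finset.card_le_card_of_injOn (fun h => (L.S.vert h, L.S.col h)) ?_ ?_
  · intro h hh
    simp only [coe_filter, Set.mem_ofPred_eq] at hh
    simp [hh.2]
  · intro h _ h' _ e
    exact L.S.fold _ _ (congrArg Prod.fst e) (congrArg Prod.snd e)

open Classical in
theorem card_heads_in {N : ℕ} (hU : L.U.card ≤ N * L.g) (hb : L.nb ≤ N) (Z : Finset V) :
    (L.U2.filter (fun y => L.hd y ∈ Z)).card ≤ 4 * N * Z.card := by
  rw [Finset.card_eq_sum_card_fiberwise (f := L.hd) (t := Z)
    (fun y hy => by simpa using (Finset.mem_filter.mp hy).2)]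
  refine (Finset.sum_le_card_nsmul _ _ (4 * N) fun v _ => ?_).trans (by rw [smul_eq_mul, mul_comm])
  refine le_trans (Finset.card_le_card ?_) (card_heads hU hb v)
  intro y hy
  simp only [mem_filter] at hy
  exact mem_heads.mpr ⟨hy.1.1, hy.2⟩

namespace Enum

variable (N : Enum L)

theorem sum_HH {M : Type} [AddCommMonoid M] (f : Hf → M) :
    ∑ h ∈ L.HH, f h = ∑ i ∈ range L.FV.card, (f (N.p i) + f (L.τ (N.p i))) := by
  rw [← Finset.sum_bij (s := range L.FV.card ×ˢ (univ : Finset Bool)) (t := L.HH)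
    (f := fun z => f (Hh L.τ N.p z)) (g := f) (fun z _ => Hh L.τ N.p z)]
  · rw [Finset.sum_product]
    refine Finset.sum_congr rfl fun i _ => ?_
    simp [Hh]
  · intro z hz
    exact N.Hh_mem (by simpa using hz)
  · intro z hz z' hz' h
    exact N.Hh_inj (by simpa using hz) (by simpa using hz') h
  · intro h hh
    obtain ⟨z, hz, rfl⟩ := N.Hh_surj hh
    exact ⟨z, by simpa using hz, rfl⟩
  · intro z _
    rfl

include N in
theorem card_HH : L.HH.card = 2 * L.FV.card := by
  rw [Finset.card_eq_sum_ones, N.sum_HH]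
  simp [mul_comm]

theorem sum_m : ∑ i ∈ range L.FV.card, L.m (N.p i) = L.U.card := by
  classical
  have h1 : ∑ h ∈ L.HH, L.m h = L.U2.card := by
    rw [Finset.card_eq_sum_card_fiberwise (f := L.E) (t := L.HH) (fun y hy => E_mem hy)]
    rfl
  rw [N.sum_HH, card_U2] at h1
  simp only [m_τ, ← two_mul, ← Finset.mul_sum] at h1
  omega

theorem mem_verts {k : ℕ} {v : V} : v ∈ verts L.S L.τ N.p k ↔
    ∃ z : ℕ × Bool, z.1 < k ∧ L.S.vert (Hh L.τ N.p z) = v := by
  classical
  simp only [verts, mem_image, mem_product, mem_range, mem_univ, and_true]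

theorem verts_eq : verts L.S L.τ N.p L.FV.card = L.W := by
  ext v
  rw [N.mem_verts, mem_W]
  constructor
  · rintro ⟨z, hz, rfl⟩
    exact ⟨_, N.Hh_mem hz, rfl⟩
  · rintro ⟨h, hh, rfl⟩
    obtain ⟨z, hz, rfl⟩ := N.Hh_surj hh
    exact ⟨z, hz, rfl⟩

/-- Steps through a plain vertex. -/
def N1 (i : ℕ) : Prop := 0 < i ∧ L.Plain (L.S.vert (L.τ (N.p (i - 1))))

open Classical in
theorem card_not_N1 [Fintype P] :
    ((range L.FV.card).filter (fun i => ¬ N.N1 i)).card ≤ 1 + Fintype.card P * L.NP.card := by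
  have h1 : (range L.FV.card).filter (fun i => ¬ N.N1 i) ⊆
      insert 0 ((range L.FV.card).filter (fun i => 0 < i ∧ ¬ N.N1 i)) := by
    intro i hi
    simp only [mem_insert, mem_filter] at hi ⊢
    rcases Nat.eq_zero_or_pos i with h | h
    · exact Or.inl h
    · exact Or.inr ⟨hi.1, h, hi.2⟩
  have h2 : ((range L.FV.card).filter (fun i => 0 < i ∧ ¬ N.N1 i)).card ≤
      (L.HH.filter (fun h => L.S.vert h ∈ L.NP)).card := by
    refine Finset.card_le_card_of_injOn (fun i => L.τ (N.p (i - 1))) ?_ ?_
    · intro i hi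
      simp only [coe_filter, Set.mem_ofPred_eq, mem_range] at hi ⊢
      have hm := N.Hh_mem (z := (i - 1, false)) (by simp only; omega)
      exact ⟨hm, mem_NP.mpr ⟨mem_W.mpr ⟨_, hm, rfl⟩, fun h => hi.2.2 ⟨hi.2.1, h⟩⟩⟩
    · intro i hi j hj h
      simp only [coe_filter, Set.mem_ofPred_eq, mem_range] at hi hj
      have := N.Hh_inj (z := (i - 1, false)) (z' := (j - 1, false)) (by simp only; omega)
        (by simp only; omega) h
      simp only [Prod.mk.injEq, and_true] at this
      omega
  have h3 := (Finset.card_le_card h1).trans (Finset.card_insert_le _ _)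
  have h4 := card_at (L := L) L.NP
  omega

open Classical in
/-- The length of the layer `t`. -/
noncomputable def kt (t : ℕ) : ℕ := ((range L.FV.card).filter (fun i => t ≤ L.m (N.p i))).card

theorem lt_kt {t i : ℕ} : i < N.kt t ↔ i < L.FV.card ∧ t ≤ L.m (N.p i) := by
  classical
  constructor
  · intro h
    by_contra hc
    have hsub : (range L.FV.card).filter (fun i => t ≤ L.m (N.p i)) ⊆ range i := by
      intro j hj
      simp only [mem_filter, mem_range] at hj ⊢
      by_contra hji
      exact hc ⟨by omega, hj.2.trans (N.m_anti (by omega) hj.1)⟩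
    have := Finset.card_le_card hsub
    rw [Finset.card_range] at this
    unfold kt at h
    omega
  · intro h
    have hsub : range (i + 1) ⊆ (range L.FV.card).filter (fun i => t ≤ L.m (N.p i)) := by
      intro j hj
      simp only [mem_filter, mem_range] at hj ⊢
      exact ⟨by omega, h.2.trans (N.m_anti (by omega) h.1)⟩
    have := Finset.card_le_card hsub
    rw [Finset.card_range] at this
    unfold kt
    omega

theorem kt_le (t : ℕ) : N.kt t ≤ L.FV.card := by
  by_contra h
  have := (N.lt_kt (t := t) (i := L.FV.card)).mp (by omega)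
  omega

open Classical in
theorem sum_layers {T : ℕ} (hT : ∀ h, L.m h ≤ T) (q : ℕ → Prop) (f : ℕ → ℝ) :
    ∑ t ∈ Icc 1 T, ∑ i ∈ (range (N.kt t)).filter q, f i =
      ∑ i ∈ (range L.FV.card).filter q, (L.m (N.p i) : ℝ) * f i := by
  have h1 : ∀ t, ∑ i ∈ (range (N.kt t)).filter q, f i =
      ∑ i ∈ (range L.FV.card).filter q, if t ≤ L.m (N.p i) then f i else 0 := by
    intro t
    rw [← Finset.sum_filter]
    refine Finset.sum_congr ?_ fun _ _ => rfl
    ext i
    simp only [mem_filter, mem_range, N.lt_kt]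
    tauto
  simp only [h1]
  rw [Finset.sum_comm]
  refine Finset.sum_congr rfl fun i _ => ?_
  rw [← Finset.sum_filter, Finset.sum_const, nsmul_eq_mul]
  congr 2
  have : (Icc 1 T).filter (fun t => t ≤ L.m (N.p i)) = Icc 1 (L.m (N.p i)) := by
    ext t
    simp only [mem_filter, mem_Icc]
    have := hT (N.p i)
    omega
  rw [this, Nat.card_Icc]
  omega

theorem sum_kt {T : ℕ} (hT : ∀ h, L.m h ≤ T) : ∑ t ∈ Icc 1 T, (N.kt t : ℝ) = L.U.card := by
  classical
  have := N.sum_layers hT (fun _ => True) (fun _ => 1)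
  simp only [filter_true, sum_const, card_range, nsmul_eq_mul, mul_one] at this
  rw [this, ← N.sum_m]
  push_cast
  rfl

theorem sum_verts (T : ℕ) :
    ∑ t ∈ Icc 1 T, (verts L.S L.τ N.p (N.kt t)).card ≤ L.U.card + L.nb := by
  classical
  have h1 : ∀ t, (verts L.S L.τ N.p (N.kt t)).card =
      ∑ v ∈ L.W, if v ∈ verts L.S L.τ N.p (N.kt t) then 1 else 0 := by
    intro t
    rw [← Finset.card_filter]
    congr 1
    ext v
    simp only [mem_filter]
    refine ⟨fun h => ⟨?_, h⟩, fun h => h.2⟩
    obtain ⟨z, hz, rfl⟩ := N.mem_verts.mp h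
    exact mem_W.mpr ⟨_, N.Hh_mem (hz.trans_le (N.kt_le t)), rfl⟩
  simp only [h1]
  rw [Finset.sum_comm]
  have h2 : ∀ v ∈ L.W, 2 * (∑ t ∈ Icc 1 T, if v ∈ verts L.S L.τ N.p (N.kt t) then 1 else 0) ≤
      (L.heads v).card + (L.En.filter (fun y => L.hd y = v)).card := by
    intro v _
    rw [← Finset.card_filter]
    rcases ((Icc 1 T).filter (fun t => v ∈ verts L.S L.τ N.p (N.kt t))).eq_empty_or_nonempty with
      h | h
    · rw [h]
      simp
    · obtain ⟨t, ht, hmax⟩ := Finset.exists_max_image _ id h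
      simp only [mem_filter] at ht
      obtain ⟨z, hz, rfl⟩ := N.mem_verts.mp ht.2
      have h3 : t ≤ L.m (Hh L.τ N.p z) := by
        have := (N.lt_kt.mp hz).2
        rcases z with ⟨i, _ | _⟩
        · rwa [Hh_false, m_τ]
        · exact this
      have h4 : ((Icc 1 T).filter
          (fun t => L.S.vert (Hh L.τ N.p z) ∈ verts L.S L.τ N.p (N.kt t))).card ≤ t := by
        have : (Icc 1 T).filter
            (fun t => L.S.vert (Hh L.τ N.p z) ∈ verts L.S L.τ N.p (N.kt t)) ⊆ Icc 1 t := by
          intro s hs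
          have a := hmax s hs
          simp only [mem_filter, mem_Icc, id] at hs a ⊢
          omega
        have := Finset.card_le_card this
        rw [Nat.card_Icc] at this
        omega
      have h5 := two_m_le (L := L) (Hh L.τ N.p z)
      omega
  have h3 := Finset.sum_le_sum h2
  rw [← Finset.mul_sum, Finset.sum_add_distrib, sum_heads, sum_En] at h3
  have h4 := card_En (L := L)
  omega

end Enum

end LS

end Crest.Agent.R177
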