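import Crest.Agent.R177.LocB

/-!
Local inequality, part C: branch vertices, witnesses, exceptions.
-/

set_option autoImplicit false

namespace Crest.Agent.R177

open Finset

namespace Consts

variable {P : Type} [Fintype P] {σ : P → P} (K : Consts P σ)

theorem R_pos (c c' : P) : 0 < K.R c c' :=
  lt_of_lt_of_le (by have := K.one_le_C; positivity) (K.R_lo c c')

theorem logC_nonneg : 0 ≤ Real.log K.C := Real.log_nonneg K.one_le_C

theorem neg_log_R_le (c c' : P) : - Real.log (K.R c c') ≤ Real.log K.C := by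
  have h1 : 0 < K.C := lt_of_lt_of_le one_pos K.one_le_C
  have := Real.log_le_log (by positivity) (K.R_lo c c')
  rw [one_div, Real.log_inv] at this
  linarith

theorem two_log_R_le (c c' : P) : 2 * Real.log (K.R c c') ≤ - K.η := by
  have := Real.log_le_log (pow_pos (K.R_pos c c') 2) (K.R_hi c c')
  rw [Real.log_pow] at this
  unfold η
  push_cast at this
  linarith

theorem val_le {Hf V : Type} (S : HS Hf V P) (p : ℕ → Hf) (ptr : ℕ → Option (ℕ × Bool)) (i : ℕ) :
    val K S p ptr i ≤ Real.log K.C := by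
  unfold val
  have h1 := K.neg_log_R_le (σ (S.col (p (i - 1)))) (S.col (p i))
  have h2 := K.two_log_R_le (σ (S.col (p (i - 1)))) (S.col (p i))
  have h3 := K.η_pos
  have h4 := K.logC_nonneg
  split_ifs <;> linarith

end Consts

open Classical in
theorem card_up_le (f : ℕ → Prop) (k : ℕ) :
    ((range k).filter (fun j => ¬ f j ∧ f (j + 1))).card ≤
      ((range k).filter (fun j => f j ∧ ¬ f (j + 1))).card + (if f k then 1 else 0) := by
  induction k with
  | zero => simp
  | succ k ih =>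
    rw [Finset.range_add_one, Finset.filter_insert, Finset.filter_insert]
    by_cases h1 : f k <;> by_cases h2 : f (k + 1) <;>
      simp only [h1, h2, not_true, not_false_iff, and_true, and_false, and_self,
        if_true, if_false] at ih ⊢
    · exact ih
    · rw [Finset.card_insert_of_notMem (by simp)]
      exact ih
    · rw [Finset.card_insert_of_notMem (by simp)]
      omega
    · exact ih

namespace LS

variable {Hf V P D : Type} {L : LS Hf V P D}

variable (L) in
open Classical in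
/-- Darts where the corner is not shared. -/
noncomputable def NS2 : Finset (D × Bool) :=
  L.U2.filter (fun y => L.Φ y ∈ L.U2 ∧ L.A (L.Φ y) ≠ L.Φ (L.A y))

theorem mem_NS2 {y : D × Bool} :
    y ∈ L.NS2 ↔ y ∈ L.U2 ∧ L.Φ y ∈ L.U2 ∧ L.A (L.Φ y) ≠ L.Φ (L.A y) := by
  classical
  simp only [NS2, mem_filter]

open Classical in
theorem card_NS2 : L.NS2.card ≤
    2 * (L.U.filter (fun d => L.R.α (L.R.φ (L.R.α (L.R.φ d))) ≠ d)).card := by
  set Z := L.U.filter (fun d => L.R.α (L.R.φ (L.R.α (L.R.φ d))) ≠ d) with hZ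
  have h1 : L.NS2 ⊆ Z.image (fun d => (d, true)) ∪ Z.image (fun d => (L.R.φ d, false)) := by
    rintro ⟨d, _ | _⟩ hy
    · rw [mem_NS2] at hy
      refine Finset.mem_union_right _ (Finset.mem_image.mpr ⟨L.R.φ⁻¹ d, ?_, by simp⟩)
      rw [hZ, mem_filter]
      refine ⟨by simpa [Φ] using hy.2.1, fun h => hy.2.2 ?_⟩
      have h2 := congrArg L.R.α h
      rw [L.R.αα] at h2
      simp only [Equiv.Perm.coe_inv, Equiv.apply_symm_apply] at h2
      simp [A, Φ, h2]
    · rw [mem_NS2] at hy
      refine Finset.mem_union_left _ (Finset.mem_image.mpr ⟨d, ?_, rfl⟩)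
      rw [hZ, mem_filter]
      refine ⟨mem_U2.mp hy.1, fun h => hy.2.2 ?_⟩
      have h2 := congrArg L.R.α h
      rw [L.R.αα] at h2
      simp [A, Φ, ← h2]
  have h2 := (Finset.card_le_card h1).trans (Finset.card_union_le _ _)
  have h3 := Finset.card_image_le (s := Z) (f := fun d => (d, true))
  have h4 := Finset.card_image_le (s := Z) (f := fun d => (L.R.φ d, false))
  omega

open Classical in
theorem card_notA : (L.U2.filter (fun y => L.A y ∉ L.U2)).card ≤
    2 * (L.U.filter (fun d => L.R.α d ∉ L.U)).card := by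
  have : L.U2.filter (fun y => L.A y ∉ L.U2) ⊆
      (L.U.filter (fun d => L.R.α d ∉ L.U)) ×ˢ (univ : Finset Bool) := by
    intro y hy
    simp only [mem_filter, mem_U2, A] at hy
    simpa using hy
  have := Finset.card_le_card this
  rw [Finset.card_product] at this
  simp only [card_univ, Fintype.card_bool] at this
  omega

open Classical in
theorem card_heads_A {N : ℕ} (hU : L.U.card ≤ N * L.g) (hb : L.nb ≤ N) (Z : Finset V) :
    (L.U2.filter (fun y => L.A y ∈ L.U2 ∧ L.hd (L.A y) ∈ Z)).card ≤ 4 * N * Z.card := by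
  refine le_trans ?_ (card_heads_in hU hb Z)
  refine Finset.card_le_card_of_injOn L.A ?_ A_inj.injOn
  intro y hy
  simp only [coe_filter, Set.mem_ofPred_eq] at hy ⊢
  exact hy.2

theorem card_FV_le : L.FV.card ≤ L.U.card := by
  refine Finset.card_le_card fun d hd => (mem_FV.mp hd).1

namespace Enum

variable (M : Enum L)

theorem N1_spec {i : ℕ} (hi : i < L.FV.card) (h : M.N1 i) :
    0 < i ∧ L.S.vert (M.p i) = L.S.vert (L.τ (M.p (i - 1))) ∧
      ∀ y : ℕ × Bool, y.1 < i → y ≠ (i - 1, false) →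
        L.S.vert (Hh L.τ M.p y) ≠ L.S.vert (M.p i) := by
  obtain ⟨j, rfl⟩ : ∃ j, i = j + 1 := ⟨i - 1, by have := h.1; omega⟩
  have hv := h.2
  simp only [Nat.add_sub_cancel] at hv ⊢
  exact ⟨h.1, M.vert_succ (by omega) hv, fun y hy hne => M.new_vertex (by omega) hv y hy hne⟩

include M in
open Classical in
theorem card_NP_le [Fintype P] (K : Consts P L.σ) {n₀ B N : ℕ} {δ x : ℝ}
    (hS : SeqBound K L.S L.τ n₀ B δ x) (hδ0 : 0 ≤ δ) (hδ : δ ≤ K.η / 4) (hx : 1 ≤ x)
    (hg : 4 * x * ((Fintype.card P : ℝ) + 1) ≤ L.g) (hn : (L.g : ℝ) ≤ Real.log n₀)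
    (hB : L.U.card ≤ B) (hU : L.U.card ≤ N * L.g) (hb : L.nb ≤ N)
    (hl : (L.U.filter (fun d => d ∈ L.Last)).card ≤ N) :
    (L.NP.card : ℝ) ≤ 10 * N + 4 * N * (Real.log K.C + K.η) + 2 := by
  have hk := card_FV_le (L := L)
  have h1 := hS L.FV.card (hk.trans hB) M.p M.N1 (fun _ => none)
    (fun y y' hy hy' h => M.Hh_inj hy hy' h) (by simp)
    (fun i hi h => ⟨(M.N1_spec hi h).1, (M.N1_spec hi h).2.1, rfl, (M.N1_spec hi h).2.2⟩)
  rw [M.verts_eq] at h1
  have h2 : ∑ i ∈ (range L.FV.card).filter M.N1, val K L.S M.p (fun _ => none) i ≤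
      L.FV.card * Real.log K.C := by
    refine (Finset.sum_le_card_nsmul _ _ (Real.log K.C) fun i _ => K.val_le _ _ _ _).trans ?_
    rw [nsmul_eq_mul]
    refine mul_le_mul_of_nonneg_right ?_ K.logC_nonneg
    exact_mod_cast (Finset.card_filter_le _ _).trans (Finset.card_range _).le
  have h3 : (((range L.FV.card).filter (fun i => ¬ M.N1 i)).card : ℝ) ≤
      1 + Fintype.card P * L.NP.card := by exact_mod_cast M.card_not_N1
  have h4 : (L.NP.card : ℝ) ≤ L.Br.card + 3 * N := by
    have := card_NP (L := L)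
    have : L.NP.card ≤ L.Br.card + 3 * N := by omega
    exact_mod_cast this
  have h5 : (2 * L.W.card + L.Br.card : ℝ) ≤ 2 * L.FV.card + 2 * N := by
    have := deg_sum (L := L)
    rw [M.card_HH] at this
    have : 2 * L.W.card + L.Br.card ≤ 2 * L.FV.card + 2 * N := by omega
    exact_mod_cast this
  have h6 : (L.FV.card : ℝ) ≤ N * L.g := by exact_mod_cast hk.trans hU
  have hc := K.logC_nonneg
  have hη := K.η_pos
  have hD : (0 : ℝ) ≤ Fintype.card P := Nat.cast_nonneg _
  have hN : (0 : ℝ) ≤ N := Nat.cast_nonneg _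
  have hnp : (0 : ℝ) ≤ L.NP.card := Nat.cast_nonneg _
  have hk0 : (0 : ℝ) ≤ L.FV.card := Nat.cast_nonneg _
  generalize (((range L.FV.card).filter (fun i => ¬ M.N1 i)).card : ℝ) = r at *
  generalize (∑ i ∈ (range L.FV.card).filter M.N1, val K L.S M.p (fun _ => none) i) = sv at *
  generalize Real.log n₀ = Ln at *
  generalize (L.Br.card : ℝ) = β at *
  generalize (L.FV.card : ℝ) = k at *
  generalize (L.W.card : ℝ) = w at *
  generalize (L.NP.card : ℝ) = np at *
  generalize (Fintype.card P : ℝ) = Dc at *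
  generalize Real.log K.C = c at *
  have hg2 : (2 : ℝ) ≤ L.g := by exact_mod_cast L.two_le
  have hL : 0 < Ln := by linarith
  have a1 : x * Dc ≤ Ln / 4 := by nlinarith
  have a2 : x ≤ Ln / 4 := by nlinarith
  have a3 : k ≤ N * Ln := h6.trans (mul_le_mul_of_nonneg_left hn hN)
  have a4 : x * (r + 1) ≤ Ln / 2 + Ln / 4 * np := by
    have : x * (r + 1) ≤ x * (2 + Dc * np) := mul_le_mul_of_nonneg_left (by linarith) (by linarith)
    have : x * Dc * np ≤ Ln / 4 * np := mul_le_mul_of_nonneg_right a1 hnp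
    nlinarith
  have a5 : k * c + δ * k ≤ N * Ln * (c + K.η) := by
    have : k * (c + δ) ≤ N * Ln * (c + K.η) :=
      mul_le_mul a3 (by linarith) (by linarith) (by positivity)
    linarith
  have a6 : (np - 5 * N) / 2 * Ln ≤ (k - w) * Ln :=
    mul_le_mul_of_nonneg_right (by linarith) hL.le
  have a7 : (np / 4) * Ln ≤ (5 * N / 2 + N * (c + K.η) + 1 / 2) * Ln := by nlinarith
  have a8 := le_of_mul_le_mul_right a7 hL
  linarith

/-- Valid witnesses for a pointer. -/
def Valid (i : ℕ) (w : (D × Bool) × (ℕ × Bool)) : Prop :=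
  w.1 ∈ L.U2 ∧ L.E w.1 = M.p i ∧ L.A w.1 ∈ L.U2 ∧ w.2.1 < i ∧ L.E (L.A w.1) = Hh L.τ M.p w.2

open Classical in
/-- A fresh witness. -/
noncomputable def fresh (i : ℕ) : Option ((D × Bool) × (ℕ × Bool)) :=
  if h : ∃ w, M.Valid i w then some (Classical.choose h) else none

open Classical in
/-- The chosen witnesses. -/
noncomputable def wit : ℕ → Option ((D × Bool) × (ℕ × Bool))
  | 0 => M.fresh 0
  | i + 1 => if h : ∃ w, wit i = some w ∧ M.Valid (i + 1) (L.Φ w.1, dsucc w.2) then
      some (L.Φ (Classical.choose h).1, dsucc (Classical.choose h).2) else M.fresh (i + 1)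

theorem fresh_some {i : ℕ} {w : (D × Bool) × (ℕ × Bool)} (h : M.fresh i = some w) :
    M.Valid i w := by
  unfold fresh at h
  split_ifs at h with h1
  obtain rfl := Option.some.inj h
  exact Classical.choose_spec h1

theorem fresh_none {i : ℕ} (h : M.fresh i = none) (w : (D × Bool) × (ℕ × Bool)) :
    ¬ M.Valid i w := by
  unfold fresh at h
  split_ifs at h with h1
  exact fun h2 => h1 ⟨w, h2⟩

theorem wit_some {i : ℕ} {w : (D × Bool) × (ℕ × Bool)} (h : M.wit i = some w) : M.Valid i w := by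
  cases i with
  | zero => exact M.fresh_some h
  | succ i =>
    rw [wit] at h
    split_ifs at h with h1
    · obtain rfl := Option.some.inj h
      exact (Classical.choose_spec h1).2
    · exact M.fresh_some h

theorem wit_none {i : ℕ} (h : M.wit i = none) (w : (D × Bool) × (ℕ × Bool)) : ¬ M.Valid i w := by
  cases i with
  | zero => exact M.fresh_none h w
  | succ i =>
    rw [wit] at h
    split_ifs at h with h1
    exact M.fresh_none h w

theorem wit_succ {i : ℕ} {w : (D × Bool) × (ℕ × Bool)} (h : M.wit i = some w)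
    (hv : M.Valid (i + 1) (L.Φ w.1, dsucc w.2)) : M.wit (i + 1) = some (L.Φ w.1, dsucc w.2) := by
  have h1 : ∃ w, M.wit i = some w ∧ M.Valid (i + 1) (L.Φ w.1, dsucc w.2) := ⟨w, h, hv⟩
  rw [wit, dif_pos h1]
  have h2 := h.symm.trans (Classical.choose_spec h1).1
  rw [← Option.some.inj h2]

/-- The pointers. -/
noncomputable def ptr (i : ℕ) : Option (ℕ × Bool) := (M.wit i).map Prod.snd

/-- Normal steps. -/
def nm (i : ℕ) : Prop := M.N1 i ∧ M.ptr i = (M.ptr (i - 1)).map dsucc

theorem ptr_spec {i : ℕ} {z : ℕ × Bool} (h : M.ptr i = some z) :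
    z.1 < i ∧ L.S.col (Hh L.τ M.p z) = L.S.col (M.p i) := by
  unfold ptr at h
  obtain ⟨w, hw, rfl⟩ := Option.map_eq_some_iff.mp h
  obtain ⟨h1, h2, h3, h4, h5⟩ := M.wit_some hw
  exact ⟨h4, by rw [← h5, ← h2, col_A h1 h3]⟩

theorem valid_succ {j : ℕ} (hj : j + 1 < L.FV.card) (h1 : M.N1 (j + 1))
    {w : (D × Bool) × (ℕ × Bool)} (hw : M.Valid j w) (hs : w.1 ∉ L.NS2)
    (hp : L.hd (L.A w.1) ∉ L.NP) : M.Valid (j + 1) (L.Φ w.1, dsucc w.2) := by
  obtain ⟨a1, a2, a3, a4, a5⟩ := hw
  have hv : L.Plain (L.S.vert (L.τ (M.p j))) := by simpa using h1.2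
  have hj' : j < L.FV.card := by omega
  have b1 := E_Φ_congr (M.e_mem hj' true) a1 hv a2
  have hp' : L.Plain (L.hd (L.A w.1)) := by
    by_contra hc
    exact hp (mem_NP.mpr ⟨hd_mem_W a3, hc⟩)
  have b2 : L.A (L.Φ w.1) = L.Φ (L.A w.1) := by
    by_contra hc
    exact hs (mem_NS2.mpr ⟨a1, b1.1, hc⟩)
  refine ⟨b1.1, b1.2.trans (M.E_Φ_e hj' hv), ?_, ?_, ?_⟩
  · show L.A (L.Φ w.1) ∈ L.U2
    rw [b2]
    exact plain_Φ a3 hp'
  · show (dsucc w.2).1 < j + 1
    unfold dsucc
    split_ifs <;> simp only <;> omega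
  · show L.E (L.A (L.Φ w.1)) = _
    rw [b2]
    exact M.E_Φ_dsucc a3 (by omega) a5 hp'

/-- Breaking points of a pointer. -/
def Brk (j : ℕ) : Prop :=
  M.N1 (j + 1) ∧ ∃ w, M.wit j = some w ∧ ¬ M.Valid (j + 1) (L.Φ w.1, dsucc w.2)

open Classical in
theorem card_Brk {N : ℕ} (hU : L.U.card ≤ N * L.g) (hb : L.nb ≤ N) :
    ((range (L.FV.card - 1)).filter M.Brk).card ≤ L.NS2.card + 4 * N * L.NP.card := by
  refine le_trans ?_ ((Finset.card_union_le _ _).trans
    (Nat.add_le_add_left (card_heads_A hU hb L.NP) _))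
  rcases ((range (L.FV.card - 1)).filter M.Brk).eq_empty_or_nonempty with h0 | ⟨j₀, hj₀⟩
  · rw [h0]
    simp
  obtain ⟨w₀, -⟩ := (Finset.mem_filter.mp hj₀).2.2
  refine Finset.card_le_card_of_injOn (fun j => ((M.wit j).getD w₀).1) ?_ ?_
  · intro j hj
    simp only [coe_filter, Set.mem_ofPred_eq, mem_range] at hj
    obtain ⟨hj, h1, w, hw, hv⟩ := hj
    have hval := M.wit_some hw
    simp only [hw, Option.getD_some, coe_union, Set.mem_union, mem_coe, mem_filter]
    by_contra hc
    push Not at hc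
    exact hv (M.valid_succ (by omega) h1 hval hc.1 (hc.2 hval.1 hval.2.2.1))
  · intro j hj j' hj' h
    simp only [coe_filter, Set.mem_ofPred_eq, mem_range] at hj hj'
    obtain ⟨hj, -, w, hw, -⟩ := hj
    obtain ⟨hj', -, w', hw', -⟩ := hj'
    simp only [hw, hw', Option.getD_some] at h
    have a := (M.wit_some hw).2.1
    have a' := (M.wit_some hw').2.1
    rw [h, a'] at a
    have := M.Hh_inj (z := (j', true)) (z' := (j, true)) (by simp only; omega)
      (by simp only; omega) a
    exact (congrArg Prod.fst this).symm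

open Classical in
theorem card_not_nm : ((range L.FV.card).filter (fun i => ¬ M.nm i)).card ≤
    1 + 2 * (((range L.FV.card).filter (fun i => ¬ M.N1 i)).card +
      ((range (L.FV.card - 1)).filter M.Brk).card) := by
  set k := L.FV.card
  set X₁ := (range k).filter (fun i => ¬ M.N1 i) with hX₁
  set X₂ := (range (k - 1)).filter M.Brk with hX₂
  obtain ⟨f, hf⟩ : ∃ f : ℕ → Prop, ∀ i, f i ↔ M.wit i ≠ none := ⟨_, fun _ => Iff.rfl⟩
  have h1 := card_up_le f (k - 1)
  have h1' : (if f (k - 1) then 1 else 0) ≤ 1 := by split_ifs <;> omega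
  have h2 : ((range (k - 1)).filter (fun j => f j ∧ ¬ f (j + 1))) ⊆
      X₁.image (fun i => i - 1) ∪ X₂ := by
    intro j hj
    simp only [hf, mem_filter, mem_range, not_not] at hj
    by_cases h3 : M.N1 (j + 1)
    · refine Finset.mem_union_right _ ?_
      simp only [hX₂, mem_filter, mem_range]
      obtain ⟨w, hw⟩ := Option.ne_none_iff_exists'.mp hj.2.1
      exact ⟨hj.1, h3, w, hw, M.wit_none hj.2.2 _⟩
    · refine Finset.mem_union_left _ (Finset.mem_image.mpr ⟨j + 1, ?_, by simp⟩)
      simp only [hX₁, mem_filter, mem_range]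
      exact ⟨by omega, h3⟩
  have h3 : (range k).filter (fun i => ¬ M.nm i) ⊆ X₁ ∪ X₂.image (fun j => j + 1) ∪
      ((range (k - 1)).filter (fun j => ¬ f j ∧ f (j + 1))).image (fun j => j + 1) := by
    intro i hi
    simp only [mem_filter, mem_range] at hi
    by_cases h4 : M.N1 i
    · obtain ⟨j, rfl⟩ : ∃ j, i = j + 1 := ⟨i - 1, by have := h4.1; omega⟩
      have h5 : M.ptr (j + 1) ≠ (M.ptr j).map dsucc := fun h => hi.2 ⟨h4, h⟩
      rcases hw : M.wit j with _ | w
      · refine Finset.mem_union_right _ (Finset.mem_image.mpr ⟨j, ?_, rfl⟩)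
        simp only [hf, mem_filter, mem_range, not_not]
        refine ⟨by omega, hw, fun h => h5 ?_⟩
        simp [ptr, hw, h]
      · refine Finset.mem_union_left _ (Finset.mem_union_right _
          (Finset.mem_image.mpr ⟨j, ?_, rfl⟩))
        simp only [hX₂, mem_filter, mem_range]
        refine ⟨by omega, h4, w, hw, fun h => h5 ?_⟩
        simp [ptr, hw, M.wit_succ hw h]
    · refine Finset.mem_union_left _ (Finset.mem_union_left _ ?_)
      simp only [hX₁, mem_filter, mem_range]
      exact ⟨hi.1, h4⟩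
  have h4 := (Finset.card_le_card h2).trans ((Finset.card_union_le _ _).trans
    (Nat.add_le_add_right Finset.card_image_le _))
  have h5 := (Finset.card_le_card h3).trans ((Finset.card_union_le _ _).trans
    (Nat.add_le_add ((Finset.card_union_le _ _).trans (Nat.add_le_add_left Finset.card_image_le _))
      Finset.card_image_le))
  omega

end Enum

end LS

end Crest.Agent.R177
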