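import Crest.Agent.R177.LocC

/-!
Local inequality, part D: the corner sum and the layers.
-/

set_option autoImplicit false

namespace Crest.Agent.R177

open Finset

namespace LS

variable {Hf V P D : Type} {L : LS Hf V P D}

namespace Enum

variable (M : Enum L)

open Classical in
/-- The normal steps. -/
noncomputable def I : Finset ℕ := (range L.FV.card).filter M.nm

theorem mem_I {i : ℕ} : i ∈ M.I ↔ i < L.FV.card ∧ M.nm i := by
  classical
  simp only [I, mem_filter, mem_range]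

theorem I_plain {i : ℕ} (hi : i ∈ M.I) : L.Plain (L.S.vert (M.p i)) := by
  rw [M.mem_I] at hi
  rw [(M.N1_spec hi.1 hi.2.1).2.1]
  exact hi.2.1.2

theorem I_inj {i j : ℕ} (hi : i ∈ M.I) (hj : j ∈ M.I)
    (h : L.S.vert (M.p i) = L.S.vert (M.p j)) : i = j := by
  rw [M.mem_I] at hi hj
  rcases lt_trichotomy i j with h1 | h1 | h1
  · exact absurd h ((M.N1_spec hj.1 hj.2.1).2.2 (i, true) h1 (by simp))
  · exact h1
  · exact absurd h.symm ((M.N1_spec hi.1 hi.2.1).2.2 (j, true) h1 (by simp))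

theorem I_cases {i : ℕ} (hi : i ∈ M.I) {h : Hf} (hh : h ∈ L.HH)
    (hv : L.S.vert h = L.S.vert (M.p i)) : h = L.τ (M.p (i - 1)) ∨ h = M.p i := by
  rw [M.mem_I] at hi
  have h1 := M.N1_spec hi.1 hi.2.1
  have h2 := M.cases_succ (i := i - 1) (by omega) hi.2.1.2 hh (hv.trans h1.2.1)
  rwa [Nat.sub_add_cancel h1.1] at h2

theorem I_corner {i : ℕ} (hi : i ∈ M.I) {y : D × Bool} (hy : y ∈ L.U2)
    (hv : L.hd y = L.S.vert (M.p i)) :
    L.Φ y ∈ L.U2 ∧ ((L.τ (L.E y) = L.τ (M.p (i - 1)) ∧ L.E (L.Φ y) = M.p i) ∨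
      (L.τ (L.E y) = M.p i ∧ L.E (L.Φ y) = L.τ (M.p (i - 1)))) := by
  have hΦ := plain_Φ hy (hv ▸ M.I_plain hi)
  refine ⟨hΦ, ?_⟩
  have h1 := M.I_cases hi (τ_mem (E_mem hy)) hv
  have h2 := M.I_cases hi (E_mem hΦ) ((vert_Φ hy hΦ).trans hv)
  have h3 := E_Φ_ne hy hΦ
  rcases h1 with h1 | h1 <;> rcases h2 with h2 | h2
  · exact absurd (h2.trans h1.symm) h3
  · exact Or.inl ⟨h1, h2⟩
  · exact Or.inr ⟨h1, h2⟩
  · exact absurd (h2.trans h1.symm) h3

theorem card_heads_I {i : ℕ} (hi : i ∈ M.I) :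
    (L.heads (L.S.vert (M.p i))).card = 2 * L.m (M.p i) := by
  classical
  have hi' := M.mem_I.mp hi
  have h1 := M.N1_spec hi'.1 hi'.2.1
  have h2 : L.heads (L.S.vert (M.p i)) = L.U2.filter (fun y => L.E y = M.p (i - 1)) ∪
      L.U2.filter (fun y => L.E y = L.τ (M.p i)) := by
    ext y
    simp only [mem_heads, mem_union, mem_filter]
    constructor
    · rintro ⟨hy, hv⟩
      rcases M.I_cases hi (τ_mem (E_mem hy)) hv with h | h
      · exact Or.inl ⟨hy, τ_inj h⟩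
      · exact Or.inr ⟨hy, by rw [← h, L.ττ]⟩
    · rintro (⟨hy, h⟩ | ⟨hy, h⟩)
      · exact ⟨hy, by rw [hd, h, h1.2.1]⟩
      · exact ⟨hy, by rw [hd, h, L.ττ]⟩
  have h3 : Disjoint (L.U2.filter (fun y => L.E y = M.p (i - 1)))
      (L.U2.filter (fun y => L.E y = L.τ (M.p i))) := by
    rw [Finset.disjoint_filter]
    intro y _ a b
    have := M.Hh_inj (z := (i - 1, true)) (z' := (i, false)) (by simp only; omega) hi'.1
      (a.symm.trans b)
    simp at this
  have h4 := M.m_succ (i := i - 1) (by omega) hi'.2.1.2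
  rw [Nat.sub_add_cancel h1.1] at h4
  have h5 := m_τ (L := L) (M.p i)
  rw [h2, Finset.card_union_of_disjoint h3]
  have h6 : (L.U2.filter (fun y => L.E y = M.p (i - 1))).card = L.m (M.p (i - 1)) := by
    unfold m
    congr
  have h7 : (L.U2.filter (fun y => L.E y = L.τ (M.p i))).card = L.m (L.τ (M.p i)) := by
    unfold m
    congr
  omega

variable [Fintype P] (K : Consts P L.σ)

open Classical in
/-- The value of a vertex. -/
noncomputable def vv (v : V) : ℝ :=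
  ∑ i ∈ M.I, if L.S.vert (M.p i) = v then val K L.S M.p M.ptr i else 0

theorem vv_eq {i : ℕ} (hi : i ∈ M.I) : M.vv K (L.S.vert (M.p i)) = val K L.S M.p M.ptr i := by
  unfold vv
  rw [Finset.sum_eq_single i, if_pos rfl]
  · intro j hj hne
    rw [if_neg (fun h => hne (M.I_inj hj hi h))]
  · exact fun h => absurd hi h

theorem vv_le (v : V) : M.vv K v ≤ Real.log K.C := by
  by_cases h : ∃ i ∈ M.I, L.S.vert (M.p i) = v
  · obtain ⟨i, hi, rfl⟩ := h
    rw [M.vv_eq K hi]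
    exact K.val_le _ _ _ _
  · unfold vv
    rw [Finset.sum_eq_zero]
    · exact K.logC_nonneg
    · intro i hi
      rw [if_neg (fun h' => h ⟨i, hi, h'⟩)]

theorem sum_vv : ∑ y ∈ L.U2, M.vv K (L.hd y) =
    2 * ∑ i ∈ M.I, (L.m (M.p i) : ℝ) * val K L.S M.p M.ptr i := by
  classical
  unfold vv
  rw [Finset.sum_comm, Finset.mul_sum]
  refine Finset.sum_congr rfl fun i hi => ?_
  rw [← Finset.sum_filter, Finset.sum_const, nsmul_eq_mul]
  have h1 : L.U2.filter (fun y => L.S.vert (M.p i) = L.hd y) = L.heads (L.S.vert (M.p i)) := by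
    ext y
    simp only [mem_filter, mem_heads, eq_comm]
  rw [h1, M.card_heads_I hi]
  push_cast
  ring

theorem R_corner {i : ℕ} (hi : i ∈ M.I) {y : D × Bool} (hy : y ∈ L.U2)
    (hv : L.hd y = L.S.vert (M.p i)) :
    K.R (L.σ (L.S.col (M.p (i - 1)))) (L.S.col (M.p i)) =
      K.R (L.σ (L.S.col (L.E y))) (L.S.col (L.E (L.Φ y))) := by
  rcases (M.I_corner hi hy hv).2 with h | h
  · rw [τ_inj h.1, h.2]
  · rw [← L.τcol, ← L.τcol, h.1, h.2, K.R_symm]

omit [Fintype P] in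
theorem ptr_ne_none {i j : ℕ} (hi : i ∈ M.I) (hj : j ∈ M.I) (hji : j < i) {y : D × Bool}
    (hy : y ∈ L.U2) (hA : L.A y ∈ L.U2) (hs : L.A (L.Φ y) = L.Φ (L.A y))
    (hv : L.hd y = L.S.vert (M.p i)) (hv' : L.hd (L.A y) = L.S.vert (M.p j)) :
    M.ptr i ≠ none := by
  intro h
  have h0 : M.wit i = none := by simpa [ptr] using h
  have a := M.I_corner hi hy hv
  have b := M.I_corner hj hA hv'
  have key : ∀ y' ∈ L.U2, L.E y' = M.p i → L.A y' ∈ L.U2 →
      (L.E (L.A y') = L.τ (M.p (j - 1)) ∨ L.E (L.A y') = M.p j) → False := by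
    intro y' h1 h2 h3 h4
    rcases h4 with h4 | h4
    · exact M.wit_none h0 (y', (j - 1, false)) ⟨h1, h2, h3, by simp only; omega, h4⟩
    · exact M.wit_none h0 (y', (j, true)) ⟨h1, h2, h3, hji, h4⟩
  rcases a.2 with h1 | h1
  · refine key (L.Φ y) a.1 h1.2 (hs ▸ b.1) ?_
    rw [hs]
    rcases b.2 with h2 | h2
    · exact Or.inr h2.2
    · exact Or.inl h2.2
  · refine key (rev y) (rev_mem.mpr hy) (by rw [E_rev, h1.1]) (by rw [A_rev]; exact rev_mem.mpr hA) ?_
    rw [A_rev, E_rev]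
    rcases b.2 with h2 | h2
    · exact Or.inl h2.1
    · exact Or.inr h2.1

theorem pair_le {i j : ℕ} (hi : i ∈ M.I) (hj : j ∈ M.I) {y : D × Bool}
    (hy : y ∈ L.U2) (hA : L.A y ∈ L.U2) (hs : L.A (L.Φ y) = L.Φ (L.A y))
    (hv : L.hd y = L.S.vert (M.p i)) (hv' : L.hd (L.A y) = L.S.vert (M.p j)) :
    val K L.S M.p M.ptr i + val K L.S M.p M.ptr j ≤ - K.η := by
  have a := M.I_corner hi hy hv
  have b := M.I_corner hj hA hv'
  have r1 := M.R_corner K hi hy hv
  have r2 := M.R_corner K hj hA hv'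
  rw [col_A hy hA, ← hs, col_A a.1 (hs ▸ b.1), ← r1] at r2
  have hne : i ≠ j := by
    rintro rfl
    have h1 := L.S.fold (L.τ (L.E (L.A y))) (L.τ (L.E y)) (hv'.trans hv.symm)
      (by rw [L.τcol, L.τcol, col_A hy hA])
    exact E_A_ne hy hA (τ_inj h1)
  have hs' : L.A (L.Φ (L.A y)) = L.Φ (L.A (L.A y)) := by rw [← hs, A_A, A_A]
  have hp : M.ptr i ≠ none ∨ M.ptr j ≠ none := by
    rcases lt_or_gt_of_ne hne with h | h
    · exact Or.inr (M.ptr_ne_none hj hi h hA (by rwa [A_A]) hs' hv' (by rwa [A_A]))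
    · exact Or.inl (M.ptr_ne_none hi hj h hy hA hs hv hv')
  have h2 := K.two_log_R_le (L.σ (L.S.col (M.p (i - 1)))) (L.S.col (M.p i))
  unfold val
  rw [r2]
  split_ifs with c1 c2 c2
  · rcases hp with h | h
    · exact absurd c1 h
    · exact absurd c2 h
  · linarith
  · linarith
  · linarith

open Classical in
/-- The vertices of normal steps. -/
noncomputable def VI : Finset V := M.I.image (fun i => L.S.vert (M.p i))

omit [Fintype P] in
theorem mem_VI {v : V} : v ∈ M.VI ↔ ∃ i ∈ M.I, L.S.vert (M.p i) = v := by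
  classical
  exact Finset.mem_image

omit [Fintype P] in
open Classical in
theorem card_W_sdiff : (L.W \ M.VI).card ≤
    L.NP.card + ((range L.FV.card).filter (fun i => ¬ M.nm i)).card := by
  have h1 : L.W \ M.VI ⊆ L.NP ∪
      ((range L.FV.card).filter (fun i => ¬ M.nm i)).image (fun i => L.S.vert (M.p i)) := by
    intro v hv
    rw [Finset.mem_sdiff] at hv
    by_cases hp : L.Plain v
    · refine Finset.mem_union_right _ ?_
      obtain ⟨h, hh, rfl⟩ := mem_W.mp hv.1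
      obtain ⟨y, hy, hyE⟩ := mem_HH.mp (τ_mem hh)
      have hyv : L.hd y = L.S.vert h := by rw [hd, hyE, L.ττ]
      obtain ⟨i, hi, hvi⟩ := M.exists_head hy (hyv ▸ hp)
      have hp' : L.Plain (L.S.vert (L.τ (M.p i))) := by rw [hvi, hyv]; exact hp
      have h2 := (M.vert_succ hi hp').trans (hvi.trans hyv)
      have h3 := (M.succ_plain hi hp').1
      refine Finset.mem_image.mpr ⟨i + 1, ?_, h2⟩
      simp only [mem_filter, mem_range]
      exact ⟨h3, fun h4 => hv.2 (M.mem_VI.mpr ⟨i + 1, M.mem_I.mpr ⟨h3, h4⟩, h2⟩)⟩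
    · exact Finset.mem_union_left _ (mem_NP.mpr ⟨hv.1, hp⟩)
  exact (Finset.card_le_card h1).trans ((Finset.card_union_le _ _).trans
    (Nat.add_le_add_left Finset.card_image_le _))

open Classical in
/-- Good directed darts. -/
noncomputable def Good : Finset (D × Bool) := L.U2.filter (fun y => L.A y ∈ L.U2 ∧
  L.A (L.Φ y) = L.Φ (L.A y) ∧ L.hd y ∈ M.VI ∧ L.hd (L.A y) ∈ M.VI)

omit [Fintype P] in
theorem mem_Good {y : D × Bool} : y ∈ M.Good ↔ y ∈ L.U2 ∧ L.A y ∈ L.U2 ∧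
    L.A (L.Φ y) = L.Φ (L.A y) ∧ L.hd y ∈ M.VI ∧ L.hd (L.A y) ∈ M.VI := by
  classical
  simp only [Good, mem_filter]

omit [Fintype P] in
theorem A_Good {y : D × Bool} (hy : y ∈ M.Good) : L.A y ∈ M.Good := by
  rw [mem_Good] at hy ⊢
  refine ⟨hy.2.1, by rw [A_A]; exact hy.1, by rw [← hy.2.2.1, A_A, A_A], hy.2.2.2.2, ?_⟩
  rw [A_A]
  exact hy.2.2.2.1

theorem sum_Good : 2 * ∑ y ∈ M.Good, M.vv K (L.hd y) ≤ - K.η * M.Good.card := by
  have h1 : ∑ y ∈ M.Good, M.vv K (L.hd (L.A y)) = ∑ y ∈ M.Good, M.vv K (L.hd y) :=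
    Finset.sum_nbij' L.A L.A (fun y hy => M.A_Good hy) (fun y hy => M.A_Good hy)
      (fun y _ => A_A y) (fun y _ => A_A y) (fun y _ => rfl)
  rw [two_mul]
  nth_rewrite 2 [← h1]
  rw [← Finset.sum_add_distrib, mul_comm, ← nsmul_eq_mul]
  refine Finset.sum_le_card_nsmul _ _ _ fun y hy => ?_
  obtain ⟨a1, a2, a3, a4, a5⟩ := M.mem_Good.mp hy
  obtain ⟨i, hi, hvi⟩ := M.mem_VI.mp a4
  obtain ⟨j, hj, hvj⟩ := M.mem_VI.mp a5
  rw [← hvi, ← hvj, M.vv_eq K hi, M.vv_eq K hj]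
  exact M.pair_le K hi hj a1 a2 a3 hvi.symm hvj.symm

omit [Fintype P] in
open Classical in
theorem card_Bad {N : ℕ} (hU : L.U.card ≤ N * L.g) (hb : L.nb ≤ N) :
    (L.U2 \ M.Good).card ≤ 2 * (L.U.filter (fun d => L.R.α d ∉ L.U)).card + L.NS2.card +
      2 * (4 * N * (L.W \ M.VI).card) := by
  have h1 : L.U2 \ M.Good ⊆ L.U2.filter (fun y => L.A y ∉ L.U2) ∪ L.NS2 ∪
      L.U2.filter (fun y => L.hd y ∈ L.W \ M.VI) ∪
      L.U2.filter (fun y => L.A y ∈ L.U2 ∧ L.hd (L.A y) ∈ L.W \ M.VI) := by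
    intro y hy
    rw [Finset.mem_sdiff, mem_Good] at hy
    simp only [mem_union, mem_filter, mem_NS2, Finset.mem_sdiff]
    by_cases c1 : L.A y ∈ L.U2
    · by_cases c2 : L.hd y ∈ M.VI
      · by_cases c3 : L.hd (L.A y) ∈ M.VI
        · obtain ⟨i, hi, hvi⟩ := M.mem_VI.mp c2
          exact Or.inl (Or.inl (Or.inr ⟨hy.1, (M.I_corner hi hy.1 hvi.symm).1,
            fun h => hy.2 ⟨hy.1, c1, h, c2, c3⟩⟩))
        · exact Or.inr ⟨hy.1, c1, hd_mem_W c1, c3⟩
      · exact Or.inl (Or.inr ⟨hy.1, hd_mem_W hy.1, c2⟩)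
    · exact Or.inl (Or.inl (Or.inl ⟨hy.1, c1⟩))
  have h2 := (Finset.card_le_card h1).trans ((Finset.card_union_le _ _).trans
    (Nat.add_le_add_right ((Finset.card_union_le _ _).trans
      (Nat.add_le_add_right (Finset.card_union_le _ _) _)) _))
  have h3 := card_notA (L := L)
  have h4 := card_heads_in hU hb (L.W \ M.VI)
  have h5 := card_heads_A hU hb (L.W \ M.VI)
  omega

open Classical in
theorem corner_sum : 2 * ∑ i ∈ M.I, (L.m (M.p i) : ℝ) * val K L.S M.p M.ptr i ≤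
    - K.η * L.U.card + (K.η / 2 + Real.log K.C) * (L.U2 \ M.Good).card := by
  have hsub : M.Good ⊆ L.U2 := fun y hy => (M.mem_Good.mp hy).1
  rw [← M.sum_vv K, ← Finset.sum_sdiff hsub]
  have h1 := M.sum_Good K
  have h2 : ∑ y ∈ L.U2 \ M.Good, M.vv K (L.hd y) ≤ (L.U2 \ M.Good).card * Real.log K.C := by
    rw [← nsmul_eq_mul]
    exact Finset.sum_le_card_nsmul _ _ _ fun y _ => M.vv_le K _
  have h3 : ((L.U2 \ M.Good).card : ℝ) + M.Good.card = 2 * L.U.card := by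
    have := Finset.card_sdiff_add_card_eq_card hsub
    rw [card_U2] at this
    exact_mod_cast this
  have h4 : (M.Good.card : ℝ) = 2 * L.U.card - (L.U2 \ M.Good).card := by linarith
  rw [h4] at h1
  linarith

open Classical in
theorem layer_sum {n₀ B N : ℕ} {δ x : ℝ} (hS : SeqBound K L.S L.τ n₀ B δ x) (hx : 0 ≤ x)
    (hn : 0 ≤ Real.log n₀) (hB : L.U.card ≤ B) (hU : L.U.card ≤ N * L.g) (hb : L.nb ≤ N) :
    - (L.nb * Real.log n₀) ≤ ∑ i ∈ M.I, (L.m (M.p i) : ℝ) * val K L.S M.p M.ptr i +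
      δ * L.U.card + 4 * N * (x * (((range L.FV.card).filter (fun i => ¬ M.nm i)).card + 1)) := by
  have hk := card_FV_le (L := L)
  have hT : ∀ h, L.m h ≤ 4 * N := fun h => (m_le_heads h).trans (card_heads hU hb _)
  have h1 : ∀ t ∈ Icc 1 (4 * N),
      ((M.kt t : ℝ) - (verts L.S L.τ M.p (M.kt t)).card) * Real.log n₀ ≤
      ∑ i ∈ (range (M.kt t)).filter M.nm, val K L.S M.p M.ptr i + δ * M.kt t +
        x * (((range L.FV.card).filter (fun i => ¬ M.nm i)).card + 1) := by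
    intro t _
    have hkt := M.kt_le t
    have h2 := hS (M.kt t) (hkt.trans (hk.trans hB)) M.p M.nm M.ptr
      (fun y y' hy hy' h => M.Hh_inj (by omega) (by omega) h)
      (fun i _ y h => M.ptr_spec h)
      (fun i hi h => ⟨(M.N1_spec (by omega) h.1).1, (M.N1_spec (by omega) h.1).2.1, h.2,
        (M.N1_spec (by omega) h.1).2.2⟩)
    refine h2.trans (add_le_add_right (mul_le_mul_of_nonneg_left ?_ hx) _)
    have : ((range (M.kt t)).filter (fun i => ¬ M.nm i)).card ≤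
        ((range L.FV.card).filter (fun i => ¬ M.nm i)).card :=
      Finset.card_le_card (Finset.filter_subset_filter _ (Finset.range_subset_range.mpr hkt))
    have : (((range (M.kt t)).filter (fun i => ¬ M.nm i)).card : ℝ) ≤
        ((range L.FV.card).filter (fun i => ¬ M.nm i)).card := by exact_mod_cast this
    linarith
  have h2 := Finset.sum_le_sum h1
  rw [← Finset.sum_mul, Finset.sum_sub_distrib, Finset.sum_add_distrib, Finset.sum_add_distrib,
    ← Finset.mul_sum, M.sum_kt hT, M.sum_layers hT, Finset.sum_const, nsmul_eq_mul,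
    Nat.card_Icc, Nat.add_sub_cancel] at h2
  have h3 : ∑ t ∈ Icc 1 (4 * N), ((verts L.S L.τ M.p (M.kt t)).card : ℝ) ≤ L.U.card + L.nb := by
    exact_mod_cast M.sum_verts (4 * N)
  have h4 : - (L.nb : ℝ) * Real.log n₀ ≤
      (L.U.card - ∑ t ∈ Icc 1 (4 * N), ((verts L.S L.τ M.p (M.kt t)).card : ℝ)) * Real.log n₀ :=
    mul_le_mul_of_nonneg_right (by linarith) hn
  push_cast at h2
  unfold I
  linarith

end Enum

end LS

end Crest.Agent.R177
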