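import Crest.Agent.R177.Model_A

/-!
Task R177-M: matchings of large girth exist, and in the uniform model prescribed edges are present
with the expected probability (switching).

Let `D = card P` (a vertex has at most `D` half-edges by `fold`).  A *partial matching* is
`τ : Hf → Hf` with `τ (τ h) = h`, `cmp (vert (τ h)) = cmp (vert h)` and
`τ h ≠ h → col (τ h) = σ (col h)` (fixed points = unmatched half-edges).
`W τ A u n v` (inductive in `n v`): a walk of length `≤ n` from `u` to `v`, each step goes from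
`vert h` to `vert (τ h)` with `h ∉ A`.  (Walks can be reversed if `A` is `τ`-invariant; balls
`{v | W τ ∅ u n v}` have at most `(D+1)^n` elements.)
Edge-girth `EG τ`: for all `f` with `τ f ≠ f` there is no `W τ {f, τ f} (vert (τ f)) (g-2) (vert f)`.
* `EG τ → Girth S τ g` for a perfect matching: take a closed non-backtracking path of minimal length
  `l < g`; `p i ≠ p 0` and `p i ≠ τ (p 0)` for `0 < i < l` (otherwise `p 0 .. p (i-1)`, resp.
  `p 1 .. p (i-1)` (non-empty by non-backtracking) is a shorter one), so `p 1 .. p (l-1)` is a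
  forbidden walk (`l = 1`: walk of length `0`; note `2 ≤ g` as `0 < l < g`).
* DEL: unmatching an edge keeps `EG` (walks only disappear; a step along a fixed point does nothing).
* FIRST: if `τ'` is `τ` plus a new edge `{a,b}` (`a ≠ b` fixed by `τ`), a `τ'`-walk from `u` either is a
  `τ`-walk or there is a `τ`-walk of smaller length from `u` to `vert a` or `vert b`.
* ADD: if moreover `EG τ` and there is no `W τ ∅ (vert a) (g-2) (vert b)` then `EG τ'`.  For `f = a, b`
  clear.  For other `f` and a `τ'`-walk avoiding `f, τ f` from `x = vert (τ f)`, induct along the walk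
  with the invariant: (A) a `τ`-walk of the same length bound from `x` to the current point, or
  (B) `τ`-walks `x ⇝ vert a` and `vert b ⇝` current point with total length `<` current length, or
  (B') the same with `a, b` exchanged.  At the end (B) gives `vert b ⇝ vert f → x ⇝ vert a`.
* SWITCH: `EG τ₀`, `h ≠ h'` fixed by `τ₀` with `col h' = σ (col h)`, same component, `j` in the class
  (component, colour) of `h`, with `vert j` not within `g` of `vert h`, `vert h'` and `vert (τ₀ j)`
  not within `g` of `vert h`.  If `τ₀ j = j` add `{j, h'}`.  Otherwise delete `{j, τ₀ j}`, add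
  `{h, τ₀ j}`, then add `{j, h'}` (FIRST + `EG` at `j` shows `vert j`, `vert h'` are still far).
  At most `3 (D+1)^g` elements `j` of the class are excluded (an element of a class is determined by its
  vertex; `j ↦ τ₀ j` is injective and for matched `j` lands in one class).
* Non-emptiness: take a partial matching with `EG` and a minimal number of fixed points.  If `h` is
  fixed, then by `bal` (and `even` when `σ c = c`) the class `(x, σ c)` contains a fixed `h' ≠ h`
  (the matched parts of the two classes correspond under `τ`); SWITCH reduces the number of fixed points.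
* Counting: `𝒢` = perfect matchings with `EG`, `𝒢_k` = those containing the first `k` edges.  For
  `τ ∈ 𝒢_{k+1}`, `h = p k`, `h' = p' k` and `j` in the class of `h`, far (for `τ₀ = τ` minus the edge `h`)
  and different from all `p i, p' i` (`i ≤ k`), the switched matching `τ'` is in `𝒢_k`, and
  `(τ, j) ↦ τ'` is injective (`j = τ' h'`, `τ = swap h j ∘ τ' ∘ swap h j`).
-/

set_option autoImplicit false

namespace Crest.Agent.R177

open Finset

namespace M

variable {Hf V P X : Type} {S : HS Hf V P} {σ : P → P} {cmp : V → X}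

open Classical in
theorem exists_partner [Fintype Hf] {τ : Hf → Hf} (hσ : ∀ c, σ (σ c) = c) (hP : PM S σ cmp τ)
    (bal : ∀ x c, clsCard S cmp x c = clsCard S cmp x (σ c))
    (even : ∀ x c, σ c = c → Even (clsCard S cmp x c)) {h : Hf} (hh : τ h = h) :
    ∃ h', τ h' = h' ∧ h ≠ h' ∧ S.col h' = σ (S.col h) ∧ cmp (S.vert h') = cmp (S.vert h) := by
  set x := cmp (S.vert h) with hx
  set c := S.col h with hc
  let C : P → Finset Hf := fun c => univ.filter (fun j : Hf => cmp (S.vert j) = x ∧ S.col j = c)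
  have hsplit : ∀ c, ((C c).filter (fun j => τ j = j)).card +
      ((C c).filter (fun j => ¬ τ j = j)).card = clsCard S cmp x c := by
    intro c
    rw [card_filter_add_card_filter_not]
    rfl
  have hmap : ∀ c j, j ∈ (C c).filter (fun j => ¬ τ j = j) →
      τ j ∈ (C (σ c)).filter (fun j => ¬ τ j = j) := by
    intro c j hj
    simp only [C, mem_filter, mem_univ, true_and] at hj ⊢
    refine ⟨⟨by rw [hP.cmp, hj.1.1], by rw [hP.col j hj.2, hj.1.2]⟩, ?_⟩
    rw [hP.invol]
    exact fun e => hj.2 e.symm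
  have hM : ((C c).filter (fun j => ¬ τ j = j)).card =
      ((C (σ c)).filter (fun j => ¬ τ j = j)).card := by
    refine card_nbij' τ τ (fun j hj => hmap c j hj) (fun j hj => ?_)
      (fun j _ => hP.invol j) (fun j _ => hP.invol j)
    have := hmap (σ c) j hj
    rwa [hσ] at this
  have hmem : h ∈ (C c).filter (fun j => τ j = j) := by
    simp only [C, mem_filter, mem_univ, true_and]
    exact ⟨⟨rfl, rfl⟩, hh⟩
  have hpos := card_pos.2 ⟨h, hmem⟩
  by_cases e : σ c = c
  · have hev : Even ((C c).filter (fun j => ¬ τ j = j)).card := by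
      have h0 : ∑ j ∈ (C c).filter (fun j => ¬ τ j = j), (1 : ZMod 2) = 0 := by
        refine sum_involution (fun j _ => τ j) (fun _ _ => by decide) (fun j hj _ => ?_)
          (fun j hj => ?_) (fun j _ => hP.invol j)
        · exact (mem_filter.1 hj).2
        · have := hmap c j hj
          rwa [e] at this
      rw [sum_const, nsmul_eq_mul, mul_one] at h0
      exact ZMod.natCast_eq_zero_iff_even.1 h0
    have h2 := even x c e
    rw [← hsplit c] at h2
    have h3 : 1 < ((C c).filter (fun j => τ j = j)).card := by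
      obtain ⟨a, ha⟩ := hev
      obtain ⟨b, hb⟩ := h2
      omega
    obtain ⟨h', hh', hne⟩ := exists_mem_ne h3 h
    simp only [C, mem_filter, mem_univ, true_and] at hh'
    exact ⟨h', hh'.2, hne.symm, by rw [hh'.1.2, e], hh'.1.1⟩
  · have h1 := hsplit c
    have h2 := hsplit (σ c)
    have h3 := bal x c
    have h4 : 0 < ((C (σ c)).filter (fun j => τ j = j)).card := by omega
    obtain ⟨h', hh'⟩ := card_pos.1 h4
    simp only [C, mem_filter, mem_univ, true_and] at hh'
    refine ⟨h', hh'.2, ?_, hh'.1.2, hh'.1.1⟩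
    rintro rfl
    exact e hh'.1.2.symm

open Classical in
theorem exists_perfect [Fintype Hf] [Fintype V] [Fintype P] (hσ : ∀ c, σ (σ c) = c) (n₀ g : ℕ)
    (cls_lo : ∀ h : Hf, n₀ ≤ clsCard S cmp (cmp (S.vert h)) (S.col h))
    (bal : ∀ x c, clsCard S cmp x c = clsCard S cmp x (σ c))
    (even : ∀ x c, σ c = c → Even (clsCard S cmp x c))
    (hn : 3 * (Fintype.card P + 1) ^ g < n₀) :
    ∃ τ : Hf → Hf, PM S σ cmp τ ∧ EG S τ (g - 2) ∧ ∀ h, τ h ≠ h := by
  have key : ∀ n, ∀ τ : Hf → Hf, PM S σ cmp τ → EG S τ (g - 2) →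
      (univ.filter (fun h => τ h = h)).card = n →
      ∃ τ : Hf → Hf, PM S σ cmp τ ∧ EG S τ (g - 2) ∧ ∀ h, τ h ≠ h := by
    intro n
    induction n using Nat.strong_induction_on with
    | _ n ih =>
      intro τ hP hE hn'
      by_cases hall : ∀ h, τ h ≠ h
      · exact ⟨τ, hP, hE, hall⟩
      push Not at hall
      obtain ⟨h, hh⟩ := hall
      obtain ⟨h', hh', hne, hc, hx⟩ := exists_partner hσ hP bal even hh
      have h1 := far_card hP g h h' (cmp (S.vert h)) (S.col h)
      have h2 := cls_lo h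
      obtain ⟨j, hj⟩ := card_pos.1 (show 0 < (univ.filter (fun j : Hf =>
        (cmp (S.vert j) = cmp (S.vert h) ∧ S.col j = S.col h) ∧ Far S τ g h h' j)).card by omega)
      rw [mem_filter] at hj
      obtain ⟨τ', hP', hE', e1, hjh, hjh', e2, e3, e4⟩ :=
        switch hσ hP hE hh hh' hne hc hx hj.2.1.2 hj.2.1.1 hj.2.2
      refine ih _ ?_ τ' hP' hE' rfl
      rw [← hn']
      refine card_lt_card ⟨fun f hf => ?_, fun hsub => ?_⟩
      · simp only [mem_filter, mem_univ, true_and] at hf ⊢
        by_cases f1 : f = h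
        · rw [f1, hh]
        by_cases f2 : f = h'
        · rw [f2, hh']
        by_cases f3 : f = j
        · exfalso
          have := hP'.invol h'
          rw [e1, ← f3, hf] at this
          exact f2 this
        by_cases f4 : f = τ j
        · by_cases f5 : τ j = j
          · exact absurd (f4.trans f5) f3
          · exfalso
            have := hP'.invol h
            rw [e2 f5, ← f4, hf] at this
            exact f1 this
        rw [← e4 f f1 f2 f3 f4, hf]
      · have := hsub (show h' ∈ univ.filter (fun h => τ h = h) by simp [hh'])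
        simp only [mem_filter, mem_univ, true_and] at this
        exact hjh' (e1.symm.trans this)
  exact key _ id ⟨fun _ => rfl, fun _ => rfl, fun h hh => absurd rfl hh⟩
    (fun f hf => absurd rfl hf) rfl

open Classical in
theorem step_count [Fintype Hf] [Fintype V] [Fintype P] (hσ : ∀ c, σ (σ c) = c) (n₀ g k m : ℕ)
    (cls_lo : ∀ h : Hf, n₀ ≤ clsCard S cmp (cmp (S.vert h)) (S.col h))
    (hm : m + 2 * k + 3 * (Fintype.card P + 1) ^ g ≤ n₀) (p p' : ℕ → Hf)
    (hinj : ∀ y y' : ℕ × Bool, y.1 < k + 1 → y'.1 < k + 1 →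
      (if y.2 then p y.1 else p' y.1) = (if y'.2 then p y'.1 else p' y'.1) → y = y')
    (𝒢 : Finset (Hf → Hf))
    (h𝒢 : ∀ τ, τ ∈ 𝒢 ↔ PM S σ cmp τ ∧ EG S τ (g - 2) ∧ ∀ h, τ h ≠ h) :
    (𝒢.filter (fun τ => ∀ i < k + 1, τ (p i) = p' i)).card * m ≤
      (𝒢.filter (fun τ => ∀ i < k, τ (p i) = p' i)).card := by
  set G1 := 𝒢.filter (fun τ => ∀ i < k + 1, τ (p i) = p' i) with hG1
  set G0 := 𝒢.filter (fun τ => ∀ i < k, τ (p i) = p' i) with hG0
  set h := p k with hh
  set h' := p' k with hh'
  let J : (Hf → Hf) → Finset Hf := fun τ =>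
    (univ.filter (fun j : Hf => (cmp (S.vert j) = cmp (S.vert h) ∧ S.col j = S.col h) ∧
      Far S (del τ h) g h h' j)) \ ((range k).image p ∪ (range k).image p')
  have hJ : ∀ τ ∈ G1, m ≤ (J τ).card := by
    intro τ hτ
    have hP := ((h𝒢 τ).1 (mem_filter.1 hτ).1).1
    have h1 := far_card (hP.del h) g h h' (cmp (S.vert h)) (S.col h)
    have h2 := cls_lo h
    have h3 : ((range k).image p ∪ (range k).image p').card ≤ 2 * k := by
      refine (card_union_le _ _).trans ?_
      have a1 := card_image_le (s := range k) (f := p)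
      have a2 := card_image_le (s := range k) (f := p')
      rw [card_range] at a1 a2
      omega
    have h4 := le_card_sdiff ((range k).image p ∪ (range k).image p')
      (univ.filter (fun j : Hf => (cmp (S.vert j) = cmp (S.vert h) ∧ S.col j = S.col h) ∧
      Far S (del τ h) g h h' j))
    simp only [J]
    omega
  have hne : h ≠ h' := by
    intro e
    have := hinj (k, true) (k, false) (by simp) (by simp) (by simpa using e)
    simp at this
  have hex : ∀ τ j, τ ∈ G1 → j ∈ J τ → ∃ τ' ∈ G0, τ' h' = j ∧ τ' h = τ j ∧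
      ∀ f, f ≠ h → f ≠ h' → f ≠ j → f ≠ τ j → τ' f = τ f := by
    intro τ j hτ hj
    obtain ⟨hτ𝒢, hτp⟩ := mem_filter.1 hτ
    obtain ⟨hP, hE, hperf⟩ := (h𝒢 τ).1 hτ𝒢
    have hτh : τ h = h' := hτp k (by omega)
    simp only [J, mem_sdiff, mem_filter, mem_univ, true_and, mem_union, mem_image, mem_range,
      not_or, not_exists, not_and] at hj
    obtain ⟨⟨⟨hjx, hjc⟩, hfar⟩, hjp, hjp'⟩ := hj
    obtain ⟨τ', hP', hE', e1, hjh, hjh', e2, e3, e4⟩ :=
      switch hσ (hP.del h) (hE.del h) (del_a h) (by rw [← hτh]; exact del_b h) hne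
        (by rw [← hτh]; exact hP.col h (hperf h)) (by rw [← hτh]; exact hP.cmp h) hjc hjx hfar
    have dj : del τ h j = τ j := del_ne hjh (by rw [hτh]; exact hjh')
    rw [dj] at e2 e3 e4
    have e2' := e2 (hperf j)
    have e4' : ∀ f, f ≠ h → f ≠ h' → f ≠ j → f ≠ τ j → τ' f = τ f := by
      intro f f1 f2 f3 f4
      rw [e4 f f1 f2 f3 f4, del_ne f1 (by rw [hτh]; exact f2)]
    refine ⟨τ', mem_filter.2 ⟨(h𝒢 τ').2 ⟨hP', hE', fun f hf => ?_⟩, fun i hi => ?_⟩, e1, e2', e4'⟩
    · by_cases f1 : f = h
      · rw [f1, e2'] at hf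
        apply hjh'
        rw [← hP.invol j, hf, hτh]
      by_cases f2 : f = h'
      · rw [f2, e1] at hf
        exact hjh' hf
      by_cases f3 : f = j
      · have := hP'.invol h'
        rw [e1, ← f3, hf] at this
        exact f2 this
      by_cases f4 : f = τ j
      · have := hP'.invol h
        rw [e2', ← f4, hf] at this
        exact f1 this
      rw [e4' f f1 f2 f3 f4] at hf
      exact hperf f hf
    · have hi' := hτp i (by omega)
      rw [e4' (p i) ?_ ?_ (hjp i hi) ?_, hi']
      · intro e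
        have := hinj (i, true) (k, true) (by simp; omega) (by simp) (by simpa using e)
        simp at this
        omega
      · intro e
        have := hinj (i, true) (k, false) (by simp; omega) (by simp) (by simpa using e)
        simp at this
      · intro e
        apply hjp' i hi
        rw [← hi', e, hP.invol]
  choose! F hF using hex
  have hcard : (G1.sigma J).card ≤ G0.card := by
    refine card_le_card_of_injOn (fun z => F z.1 z.2) ?_ ?_
    · intro z hz
      have := mem_sigma.1 (mem_coe.1 hz)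
      exact (hF _ _ this.1 this.2).1
    · rintro ⟨τ₁, j₁⟩ hz₁ ⟨τ₂, j₂⟩ hz₂ e
      have m₁ := mem_sigma.1 (mem_coe.1 hz₁)
      have m₂ := mem_sigma.1 (mem_coe.1 hz₂)
      obtain ⟨_, a1, a2, a3⟩ := hF _ _ m₁.1 m₁.2
      obtain ⟨_, b1, b2, b3⟩ := hF _ _ m₂.1 m₂.2
      simp only at e a1 a2 a3 b1 b2 b3
      have ej : j₁ = j₂ := by rw [← a1, ← b1, e]
      subst ej
      have et : τ₁ j₁ = τ₂ j₁ := by rw [← a2, ← b2, e]
      have P₁ := ((h𝒢 τ₁).1 (mem_filter.1 m₁.1).1).1
      have P₂ := ((h𝒢 τ₂).1 (mem_filter.1 m₂.1).1).1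
      have q₁ : τ₁ h = h' := (mem_filter.1 m₁.1).2 k (by omega)
      have q₂ : τ₂ h = h' := (mem_filter.1 m₂.1).2 k (by omega)
      have : τ₁ = τ₂ := by
        funext f
        by_cases f1 : f = h
        · rw [f1, q₁, q₂]
        by_cases f2 : f = h'
        · have r₁ := P₁.invol h
          have r₂ := P₂.invol h
          rw [q₁] at r₁
          rw [q₂] at r₂
          rw [f2, r₁, r₂]
        by_cases f3 : f = j₁
        · rw [f3, et]
        by_cases f4 : f = τ₁ j₁
        · rw [f4, P₁.invol, et, P₂.invol]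
        rw [← a3 f f1 f2 f3 f4, ← b3 f f1 f2 f3 (by rw [← et]; exact f4), e]
      subst this
      rfl
  rw [card_sigma] at hcard
  calc G1.card * m = ∑ τ ∈ G1, m := by rw [sum_const, smul_eq_mul]
    _ ≤ ∑ τ ∈ G1, (J τ).card := sum_le_sum hJ
    _ ≤ _ := hcard

end M

open Classical in
theorem exists_model {Hf V P X : Type} [Fintype Hf] [Fintype V] [Fintype P] {σ : P → P}
    (hσ : ∀ c, σ (σ c) = c) (S : HS Hf V P) (cmp : V → X) (n₀ g B : ℕ)
    (cls_lo : ∀ h : Hf, n₀ ≤ clsCard S cmp (cmp (S.vert h)) (S.col h))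
    (bal : ∀ x c, clsCard S cmp x c = clsCard S cmp x (σ c))
    (even : ∀ x c, σ c = c → Even (clsCard S cmp x c))
    (hn : 2 * B + 4 * (Fintype.card P + 1) ^ g < n₀) :
    ∃ 𝒢 : Finset (Hf → Hf), 𝒢.Nonempty ∧ (∀ τ ∈ 𝒢, IsMatch S σ cmp τ ∧ Girth S τ g) ∧
      ∀ k ≤ B, ∀ p p' : ℕ → Hf,
        (∀ y y' : ℕ × Bool, y.1 < k → y'.1 < k →
          (if y.2 then p y.1 else p' y.1) = (if y'.2 then p y'.1 else p' y'.1) → y = y') →
        (𝒢.filter (fun τ => ∀ i < k, τ (p i) = p' i)).card *
          (n₀ - 2 * B - 4 * (Fintype.card P + 1) ^ g) ^ k ≤ 𝒢.card := by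
  let 𝒢 : Finset (Hf → Hf) :=
    univ.filter (fun τ => M.PM S σ cmp τ ∧ M.EG S τ (g - 2) ∧ ∀ h, τ h ≠ h)
  have h𝒢 : ∀ τ, τ ∈ 𝒢 ↔ M.PM S σ cmp τ ∧ M.EG S τ (g - 2) ∧ ∀ h, τ h ≠ h := by
    intro τ
    simp [𝒢]
  refine ⟨𝒢, ?_, fun τ hτ => ?_, ?_⟩
  · obtain ⟨τ, hτ⟩ := M.exists_perfect hσ n₀ g cls_lo bal even (by omega)
    exact ⟨τ, (h𝒢 τ).2 hτ⟩
  · obtain ⟨hP, hE, hperf⟩ := (h𝒢 τ).1 hτ
    exact ⟨⟨hP.invol, hperf, fun h => hP.col h (hperf h), hP.cmp⟩, M.girth_of_EG hperf hE⟩
  · intro k
    induction k with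
    | zero =>
      intro _ p p' _
      simp
    | succ k ih =>
      intro hk p p' hinj
      have h1 := ih (by omega) p p' (fun y y' hy hy' => hinj y y' (by omega) (by omega))
      have h2 := M.step_count hσ n₀ g k (n₀ - 2 * B - 4 * (Fintype.card P + 1) ^ g) cls_lo
        (by omega) p p' hinj 𝒢 h𝒢
      calc _ = (𝒢.filter (fun τ => ∀ i < k + 1, τ (p i) = p' i)).card *
            (n₀ - 2 * B - 4 * (Fintype.card P + 1) ^ g) *
            (n₀ - 2 * B - 4 * (Fintype.card P + 1) ^ g) ^ k := by ring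
        _ ≤ _ := Nat.mul_le_mul_right _ h2
        _ ≤ _ := h1

end Crest.Agent.R177
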