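import Crest.Agent.R177.Defs

/-! Walks in partial matchings (helpers for task R177-M). -/

set_option autoImplicit false
set_option linter.unusedSectionVars false
set_option linter.unusedVariables false

namespace Crest.Agent.R177.M

open Finset

variable {Hf V P X : Type}

/-- partial matchings -/
structure PM (S : HS Hf V P) (σ : P → P) (cmp : V → X) (τ : Hf → Hf) : Prop where
  invol : ∀ h, τ (τ h) = h
  cmp : ∀ h, cmp (S.vert (τ h)) = cmp (S.vert h)
  col : ∀ h, τ h ≠ h → S.col (τ h) = σ (S.col h)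

/-- walks of length at most `n` avoiding `A` -/
inductive W (S : HS Hf V P) (τ : Hf → Hf) (A : Set Hf) (u : V) : ℕ → V → Prop
  | refl (n : ℕ) : W S τ A u n u
  | step {n : ℕ} (h : Hf) : W S τ A u n (S.vert h) → h ∉ A → W S τ A u (n + 1) (S.vert (τ h))

variable {S : HS Hf V P} {τ : Hf → Hf} {A : Set Hf}

theorem W.succ {u v : V} {n : ℕ} (h : W S τ A u n v) : W S τ A u (n + 1) v := by
  induction h with
  | refl n => exact W.refl _
  | step h _ hA ih => exact W.step h ih hA

theorem W.mono {u v : V} {n m : ℕ} (h : W S τ A u n v) (hnm : n ≤ m) : W S τ A u m v := by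
  induction hnm with
  | refl => exact h
  | step _ ih => exact ih.succ

theorem W.trans {u v w : V} {n m : ℕ} (h : W S τ A u n v) (h' : W S τ A v m w) :
    W S τ A u (n + m) w := by
  induction h' with
  | refl m => exact h.mono (Nat.le_add_right _ _)
  | step f _ hA ih => exact W.step f ih hA

theorem W.single (h : Hf) (hA : h ∉ A) : W S τ A (S.vert h) 1 (S.vert (τ h)) :=
  W.step h (W.refl 0) hA

theorem W.weaken {A' : Set Hf} {u v : V} {n : ℕ} (h : W S τ A u n v) (hA : A' ⊆ A) :
    W S τ A' u n v := by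
  induction h with
  | refl n => exact W.refl _
  | step f _ hf ih => exact W.step f ih (fun hh => hf (hA hh))

theorem W.symm (hi : ∀ h, τ (τ h) = h) {u v : V} {n : ℕ} (h : W S τ ∅ u n v) :
    W S τ ∅ v n u := by
  induction h with
  | refl n => exact W.refl _
  | @step n f _ hf ih =>
    have h1 : W S τ ∅ (S.vert (τ f)) 1 (S.vert f) := by
      have := W.single (S := S) (τ := τ) (A := ∅) (τ f) (by simp)
      rwa [hi] at this
    have := h1.trans ih
    rwa [Nat.add_comm] at this

theorem W.zero {u v : V} (h : W S τ A u 0 v) : v = u := by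
  cases h with
  | refl => rfl

theorem W.inv {u v : V} {n : ℕ} (h : W S τ A u (n + 1) v) :
    W S τ A u n v ∨ ∃ f, W S τ A u n (S.vert f) ∧ v = S.vert (τ f) := by
  cases h with
  | refl => exact Or.inl (W.refl _)
  | step f hf hA => exact Or.inr ⟨f, hf, rfl⟩

open Classical in
theorem ball_card [Fintype Hf] [Fintype V] [Fintype P] (u : V) (n : ℕ) :
    (univ.filter (fun v => W S τ A u n v)).card ≤ (Fintype.card P + 1) ^ n := by
  induction n with
  | zero =>
    rw [pow_zero, card_le_one]
    intro a ha b hb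
    rw [mem_filter] at ha hb
    rw [ha.2.zero, hb.2.zero]
  | succ n ih =>
    set Bn := univ.filter (fun v => W S τ A u n v) with hBn
    have h1 : univ.filter (fun v => W S τ A u (n + 1) v) ⊆
        Bn ∪ (univ.filter (fun f : Hf => S.vert f ∈ Bn)).image (fun f => S.vert (τ f)) := by
      intro v hv
      rw [mem_filter] at hv
      rcases hv.2.inv with h | ⟨f, hf, rfl⟩
      · exact mem_union_left _ (by simp [hBn, h])
      · exact mem_union_right _ (mem_image.2 ⟨f, by simp [hBn, hf], rfl⟩)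
    have h2 : (univ.filter (fun f : Hf => S.vert f ∈ Bn)).card ≤ Bn.card * Fintype.card P := by
      rw [← card_univ, ← card_product]
      refine card_le_card_of_injOn (fun f => (S.vert f, S.col f)) ?_ ?_
      · intro f hf
        simp only [coe_filter, mem_univ, true_and, Set.mem_ofPred_eq] at hf
        simp [hf]
      · intro f _ f' _ hff
        simp only [Prod.mk.injEq] at hff
        exact S.fold _ _ hff.1 hff.2
    calc _ ≤ _ := card_le_card h1
      _ ≤ Bn.card + _ := card_union_le _ _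
      _ ≤ Bn.card + Bn.card * Fintype.card P := by
          gcongr
          exact card_image_le.trans h2
      _ = Bn.card * (Fintype.card P + 1) := by ring
      _ ≤ (Fintype.card P + 1) ^ n * (Fintype.card P + 1) := by gcongr
      _ = _ := by ring

/-- edge girth -/
def EG (S : HS Hf V P) (τ : Hf → Hf) (r : ℕ) : Prop :=
  ∀ f, τ f ≠ f → ¬ W S τ {f, τ f} (S.vert (τ f)) r (S.vert f)

theorem girth_of_EG {g : ℕ} (hne : ∀ h, τ h ≠ h) (hE : EG S τ (g - 2)) : Girth S τ g := by
  intro l
  induction l using Nat.strong_induction_on with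
  | _ l ih =>
    intro p hl hlg hp hclosed
    by_cases h1 : ∃ i, 0 < i ∧ i < l ∧ p i = p 0
    · obtain ⟨i, hi0, hil, hi⟩ := h1
      refine ih i hil p hi0 (by omega) (fun j hj => hp j (by omega)) ?_
      have := (hp (i - 1) (by omega)).1
      rw [this, show i - 1 + 1 = i by omega, hi]
    by_cases h2 : ∃ i, 0 < i ∧ i < l ∧ p i = τ (p 0)
    · obtain ⟨i, hi0, hil, hi⟩ := h2
      have hi1 : i ≠ 1 := by
        rintro rfl
        exact (hp 0 (by omega)).2 hi
      refine ih (i - 1) (by omega) (fun j => p (j + 1)) (by omega) (by omega)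
        (fun j hj => hp (j + 1) (by omega)) ?_
      have e1 := (hp (i - 1) (by omega)).1
      have e2 := (hp 0 (by omega)).1
      rw [show i - 1 - 1 + 1 = i - 1 by omega, e1, show i - 1 + 1 = i by omega, hi, e2]
    push Not at h1 h2
    have key : ∀ i, i < l → W S τ {p 0, τ (p 0)} (S.vert (τ (p 0))) i (S.vert (τ (p i))) := by
      intro i
      induction i with
      | zero => intro _; exact W.refl _
      | succ i ihi =>
        intro hi
        have e := (hp i hi).1
        have := ihi (by omega)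
        rw [e] at this
        refine W.step _ this ?_
        simp only [Set.mem_insert_iff, Set.mem_singleton_iff, not_or]
        exact ⟨h1 _ (by omega) hi, h2 _ (by omega) hi⟩
    have := key (l - 1) (by omega)
    rw [hclosed] at this
    exact hE (p 0) (hne _) (this.mono (by omega))

open Classical in
/-- add the edge `{a, b}` -/
noncomputable def add (τ : Hf → Hf) (a b : Hf) : Hf → Hf :=
  fun h => if h = a then b else if h = b then a else τ h

open Classical in
/-- delete the edge at `a` -/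
noncomputable def del (τ : Hf → Hf) (a : Hf) : Hf → Hf :=
  fun h => if h = a ∨ h = τ a then h else τ h

theorem add_a (a b : Hf) : add τ a b a = b := by simp [add]
theorem add_b (a b : Hf) : add τ a b b = a := by
  by_cases h : b = a <;> simp [add, h]
theorem add_ne {a b h : Hf} (h1 : h ≠ a) (h2 : h ≠ b) : add τ a b h = τ h := by simp [add, h1, h2]
theorem del_a (a : Hf) : del τ a a = a := by simp [del]
theorem del_b (a : Hf) : del τ a (τ a) = τ a := by simp [del]
theorem del_ne {a h : Hf} (h1 : h ≠ a) (h2 : h ≠ τ a) : del τ a h = τ h := by simp [del, h1, h2]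

theorem W.of_del {a : Hf} {u v : V} {n : ℕ} (h : W S (del τ a) A u n v) :
    W S τ (A ∪ {a, τ a}) u n v := by
  induction h with
  | refl n => exact W.refl _
  | step f _ hf ih =>
    by_cases h1 : f = a
    · subst h1; rw [del_a]; exact ih.succ
    by_cases h2 : f = τ a
    · subst h2; rw [del_b]; exact ih.succ
    rw [del_ne h1 h2]
    exact W.step f ih (by simp [hf, h1, h2])

theorem W.of_del' {a : Hf} {u v : V} {n : ℕ} (h : W S (del τ a) A u n v) :
    W S τ A u n v := h.of_del.weaken Set.subset_union_left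

variable {σ : P → P} {cmp : V → X}

theorem PM.del (h : PM S σ cmp τ) (a : Hf) : PM S σ cmp (del τ a) := by
  have key : ∀ f, f ≠ a → f ≠ τ a → τ f ≠ a ∧ τ f ≠ τ a := by
    intro f h1 h2
    refine ⟨fun e => h2 (by rw [← e, h.invol]), fun e => h1 ?_⟩
    rw [← h.invol f, e, h.invol]
  refine ⟨fun f => ?_, fun f => ?_, fun f => ?_⟩
  · by_cases h1 : f = a
    · subst h1; rw [del_a, del_a]
    by_cases h2 : f = τ a
    · subst h2; rw [del_b, del_b]
    rw [del_ne h1 h2, del_ne (key f h1 h2).1 (key f h1 h2).2, h.invol]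
  · by_cases h1 : f = a
    · subst h1; rw [del_a]
    by_cases h2 : f = τ a
    · subst h2; rw [del_b]
    rw [del_ne h1 h2, h.cmp]
  · by_cases h1 : f = a
    · subst h1; rw [del_a]; simp
    by_cases h2 : f = τ a
    · subst h2; rw [del_b]; simp
    rw [del_ne h1 h2]; exact h.col f

theorem EG.del {r : ℕ} (h : EG S τ r) (a : Hf) : EG S (del τ a) r := by
  intro f hf hw
  by_cases h1 : f = a
  · subst h1; exact hf (del_a _)
  by_cases h2 : f = τ a
  · subst h2; exact hf (del_b _)
  rw [del_ne h1 h2] at hf hw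
  exact h f hf hw.of_del'

theorem PM.add (hσ : ∀ c, σ (σ c) = c) (h : PM S σ cmp τ) {a b : Hf} (ha : τ a = a) (hb : τ b = b)
    (hc : S.col b = σ (S.col a)) (hx : cmp (S.vert b) = cmp (S.vert a)) :
    PM S σ cmp (add τ a b) := by
  have key : ∀ f, f ≠ a → f ≠ b → τ f ≠ a ∧ τ f ≠ b := by
    intro f h1 h2
    exact ⟨fun e => h1 (by rw [← h.invol f, e, ha]), fun e => h2 (by rw [← h.invol f, e, hb])⟩
  refine ⟨fun f => ?_, fun f => ?_, fun f => ?_⟩
  · by_cases h1 : f = a
    · subst h1; rw [add_a, add_b]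
    by_cases h2 : f = b
    · subst h2; rw [add_b, add_a]
    rw [add_ne h1 h2, add_ne (key f h1 h2).1 (key f h1 h2).2, h.invol]
  · by_cases h1 : f = a
    · subst h1; rw [add_a, hx]
    by_cases h2 : f = b
    · subst h2; rw [add_b, hx]
    rw [add_ne h1 h2, h.cmp]
  · by_cases h1 : f = a
    · subst h1; rw [add_a]; exact fun _ => hc
    by_cases h2 : f = b
    · subst h2; rw [add_b]; intro _; rw [hc, hσ]
    rw [add_ne h1 h2]; exact h.col f

theorem W.first {a b : Hf} {u v : V} {n : ℕ} (h : W S (add τ a b) A u n v) :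
    W S τ A u n v ∨ ∃ m < n, W S τ A u m (S.vert a) ∨ W S τ A u m (S.vert b) := by
  induction h with
  | refl n => exact Or.inl (W.refl _)
  | @step n f _ hf ih =>
    rcases ih with ih | ⟨m, hm, ih⟩
    · by_cases h1 : f = a
      · subst h1; exact Or.inr ⟨n, by omega, Or.inl ih⟩
      by_cases h2 : f = b
      · subst h2; exact Or.inr ⟨n, by omega, Or.inr ih⟩
      rw [add_ne h1 h2]
      exact Or.inl (W.step f ih hf)
    · exact Or.inr ⟨m, by omega, ih⟩

theorem W.avoid {a b : Hf} (ha : a ∈ A) (hb : b ∈ A) {u v : V} {n : ℕ}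
    (h : W S (add τ a b) A u n v) : W S τ A u n v := by
  induction h with
  | refl n => exact W.refl _
  | step f _ hf ih =>
    have h1 : f ≠ a := fun e => hf (e ▸ ha)
    have h2 : f ≠ b := fun e => hf (e ▸ hb)
    rw [add_ne h1 h2]
    exact W.step f ih hf

theorem W.split {a b : Hf} {u v : V} {n : ℕ} (h : W S (add τ a b) A u n v) :
    W S τ A u n v ∨
      (∃ m₁ m₂, m₁ + m₂ < n ∧ W S τ A u m₁ (S.vert a) ∧ W S τ A (S.vert b) m₂ v) ∨
      (∃ m₁ m₂, m₁ + m₂ < n ∧ W S τ A u m₁ (S.vert b) ∧ W S τ A (S.vert a) m₂ v) := by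
  induction h with
  | refl n => exact Or.inl (W.refl _)
  | @step n f _ hf ih =>
    by_cases h1 : f = a
    · subst h1
      rw [add_a]
      rcases ih with ih | ⟨m₁, m₂, hm, h1, h2⟩ | ⟨m₁, m₂, hm, h1, h2⟩
      · exact Or.inr (Or.inl ⟨n, 0, by omega, ih, W.refl _⟩)
      · exact Or.inr (Or.inl ⟨m₁, 0, by omega, h1, W.refl _⟩)
      · exact Or.inl (h1.mono (by omega))
    by_cases h2 : f = b
    · subst h2
      rw [add_b]
      rcases ih with ih | ⟨m₁, m₂, hm, h1, h2⟩ | ⟨m₁, m₂, hm, h1, h2⟩
      · exact Or.inr (Or.inr ⟨n, 0, by omega, ih, W.refl _⟩)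
      · exact Or.inl (h1.mono (by omega))
      · exact Or.inr (Or.inr ⟨m₁, 0, by omega, h1, W.refl _⟩)
    rw [add_ne h1 h2]
    rcases ih with ih | ⟨m₁, m₂, hm, h1, h2⟩ | ⟨m₁, m₂, hm, h1, h2⟩
    · exact Or.inl (W.step f ih hf)
    · exact Or.inr (Or.inl ⟨m₁, m₂ + 1, by omega, h1, W.step f h2 hf⟩)
    · exact Or.inr (Or.inr ⟨m₁, m₂ + 1, by omega, h1, W.step f h2 hf⟩)

theorem EG.add {r : ℕ} (hi : ∀ h, τ (τ h) = h) (h : EG S τ r) {a b : Hf}
    (hfar : ¬ W S τ ∅ (S.vert a) r (S.vert b)) : EG S (add τ a b) r := by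
  intro f hf hw
  by_cases h1 : f = a
  · subst h1
    rw [add_a] at hw
    exact hfar (((hw.avoid (by simp) (by simp)).weaken (Set.empty_subset _)).symm hi)
  by_cases h2 : f = b
  · subst h2
    rw [add_b] at hw
    exact hfar ((hw.avoid (by simp) (by simp)).weaken (Set.empty_subset _))
  rw [add_ne h1 h2] at hf hw
  have hs : W S τ ∅ (S.vert f) 1 (S.vert (τ f)) := W.single f (by simp)
  rcases hw.split with hw | ⟨m₁, m₂, hm, h1, h2⟩ | ⟨m₁, m₂, hm, h1, h2⟩
  · exact h f hf hw
  · have := ((h2.weaken (Set.empty_subset _)).trans hs).trans (h1.weaken (Set.empty_subset _))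
    exact hfar ((this.mono (by omega)).symm hi)
  · have := ((h2.weaken (Set.empty_subset _)).trans hs).trans (h1.weaken (Set.empty_subset _))
    exact hfar (this.mono (by omega))

/-- `j` is far from `h`, `h'` -/
def Far (S : HS Hf V P) (τ : Hf → Hf) (g : ℕ) (h h' j : Hf) : Prop :=
  ¬ W S τ ∅ (S.vert h) g (S.vert j) ∧ ¬ W S τ ∅ (S.vert h') g (S.vert j) ∧
    ¬ W S τ ∅ (S.vert h) g (S.vert (τ j))

theorem switch (hσ : ∀ c, σ (σ c) = c) {g : ℕ} (hP : PM S σ cmp τ) (hE : EG S τ (g - 2))
    {h h' j : Hf} (hh : τ h = h) (hh' : τ h' = h') (hne : h ≠ h')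
    (hc : S.col h' = σ (S.col h)) (hx : cmp (S.vert h') = cmp (S.vert h))
    (hjc : S.col j = S.col h) (hjx : cmp (S.vert j) = cmp (S.vert h)) (hfar : Far S τ g h h' j) :
    ∃ τ' : Hf → Hf, PM S σ cmp τ' ∧ EG S τ' (g - 2) ∧ τ' h' = j ∧ j ≠ h ∧ j ≠ h' ∧
      (τ j ≠ j → τ' h = τ j) ∧ (τ j = j → τ' h = h) ∧
      ∀ f, f ≠ h → f ≠ h' → f ≠ j → f ≠ τ j → τ' f = τ f := by
  obtain ⟨f1, f2, f3⟩ := hfar
  have hjh : j ≠ h := by rintro rfl; exact f1 (W.refl _)
  have hjh' : j ≠ h' := by rintro rfl; exact f2 (W.refl _)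
  by_cases hj : τ j = j
  · refine ⟨add τ j h', hP.add hσ hj hh' (by rw [hc, hjc]) (by rw [hx, hjx]),
      hE.add hP.invol (fun hw => f2 ((hw.symm hP.invol).mono (by omega))), add_b _ _, hjh, hjh',
      fun h0 => absurd hj h0, fun _ => ?_, fun f _ h2 h3 _ => add_ne h3 h2⟩
    rw [add_ne hjh.symm hne, hh]
  · have hkh : τ j ≠ h := by intro e; rw [e] at f3; exact f3 (W.refl _)
    have hkh' : τ j ≠ h' := by
      intro e; apply hjh'; rw [← hP.invol j, e, hh']
    have hP1 := hP.del j
    have hE1 := hE.del j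
    have d1 : del τ j h = h := by rw [del_ne hjh.symm hkh.symm, hh]
    have d2 : del τ j h' = h' := by rw [del_ne hjh'.symm hkh'.symm, hh']
    have hP2 : PM S σ cmp (add (del τ j) h (τ j)) :=
      hP1.add hσ d1 (del_b _) (by rw [hP.col j hj, hjc]) (by rw [hP.cmp, hjx])
    have hE2 : EG S (add (del τ j) h (τ j)) (g - 2) :=
      hE1.add hP1.invol (fun hw => f3 (hw.of_del'.mono (by omega)))
    have a1 : add (del τ j) h (τ j) j = j := by rw [add_ne hjh (Ne.symm hj), del_a]
    have a2 : add (del τ j) h (τ j) h' = h' := by rw [add_ne hne.symm hkh'.symm, d2]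
    refine ⟨add (add (del τ j) h (τ j)) j h', hP2.add hσ a1 a2 (by rw [hc, hjc]) (by rw [hx, hjx]),
      hE2.add hP2.invol ?_, add_b _ _, hjh, hjh', fun _ => ?_, fun h0 => absurd h0 hj,
      fun f h1 h2 h3 h4 => ?_⟩
    · intro hw
      rcases hw.first with hw | ⟨m, hm, hw | hw⟩
      · exact f2 ((hw.of_del'.symm hP.invol).mono (by omega))
      · exact f1 ((hw.of_del'.symm hP.invol).mono (by omega))
      · have h0 := hE (τ j) (by rw [hP.invol]; exact Ne.symm hj)
        rw [hP.invol] at h0
        refine h0 ((hw.of_del.weaken ?_).mono (by omega))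
        intro x hx
        simp only [Set.mem_insert_iff, Set.mem_singleton_iff] at hx
        simp only [Set.empty_union, Set.mem_insert_iff, Set.mem_singleton_iff]
        tauto
    · rw [add_ne hjh.symm hne, add_a]
    · rw [add_ne h3 h2, add_ne h1 h4, del_ne h3 h4]

open Classical in
theorem far_card [Fintype Hf] [Fintype V] [Fintype P] (hP : PM S σ cmp τ) (g : ℕ) (h h' : Hf)
    (x : X) (c : P) :
    clsCard S cmp x c ≤ (univ.filter (fun j : Hf => (cmp (S.vert j) = x ∧ S.col j = c) ∧
      Far S τ g h h' j)).card + 3 * (Fintype.card P + 1) ^ g := by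
  unfold clsCard
  set C := univ.filter (fun j : Hf => cmp (S.vert j) = x ∧ S.col j = c) with hC
  have hb : ∀ u : V, (C.filter (fun j => W S τ ∅ u g (S.vert j))).card ≤
      (Fintype.card P + 1) ^ g := by
    intro u
    refine le_trans ?_ (ball_card (S := S) (τ := τ) (A := ∅) u g)
    refine card_le_card_of_injOn (fun j => S.vert j) ?_ ?_
    · intro j hj
      simp only [coe_filter, Set.mem_ofPred_eq] at hj
      simp [hj.2]
    · intro j hj j' hj' e
      simp only [hC, coe_filter, mem_filter, mem_univ, true_and, Set.mem_ofPred_eq] at hj hj'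
      exact S.fold _ _ e (by rw [hj.1.2, hj'.1.2])
  have hb3 : (C.filter (fun j => τ j ≠ j ∧ W S τ ∅ (S.vert h) g (S.vert (τ j)))).card ≤
      (Fintype.card P + 1) ^ g := by
    refine le_trans ?_ (ball_card (S := S) (τ := τ) (A := ∅) (S.vert h) g)
    refine card_le_card_of_injOn (fun j => S.vert (τ j)) ?_ ?_
    · intro j hj
      simp only [coe_filter, Set.mem_ofPred_eq] at hj
      simp [hj.2.2]
    · intro j hj j' hj' e
      simp only [hC, coe_filter, mem_filter, mem_univ, true_and, Set.mem_ofPred_eq] at hj hj'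
      have := S.fold _ _ e (by rw [hP.col j hj.2.1, hP.col j' hj'.2.1, hj.1.2, hj'.1.2])
      rw [← hP.invol j, this, hP.invol]
  have hsub : C ⊆ (univ.filter (fun j : Hf => (cmp (S.vert j) = x ∧ S.col j = c) ∧
      Far S τ g h h' j)) ∪ ((C.filter (fun j => W S τ ∅ (S.vert h) g (S.vert j))) ∪
      ((C.filter (fun j => W S τ ∅ (S.vert h') g (S.vert j))) ∪
      (C.filter (fun j => τ j ≠ j ∧ W S τ ∅ (S.vert h) g (S.vert (τ j)))))) := by
    intro j hj
    have hj' := hj
    simp only [hC, mem_filter, mem_univ, true_and] at hj'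
    by_cases hf : Far S τ g h h' j
    · exact mem_union_left _ (mem_filter.2 ⟨mem_univ _, hj', hf⟩)
    refine mem_union_right _ ?_
    simp only [mem_union, mem_filter, hj, true_and]
    unfold Far at hf
    by_cases e : τ j = j
    · rw [e] at hf; tauto
    · tauto
  have h1 := hb (S.vert h)
  have h2 := hb (S.vert h')
  calc C.card ≤ _ := card_le_card hsub
    _ ≤ _ + _ := card_union_le _ _
    _ ≤ _ + (_ + _) := by gcongr; exact card_union_le _ _
    _ ≤ _ + (_ + (_ + _)) := by gcongr; exact card_union_le _ _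
    _ ≤ _ := by omega

end Crest.Agent.R177.M
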