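import Crest.Agent.R177.SeqB

/-! Lower bounds for the weights of realised sequences. -/

set_option autoImplicit false

namespace Crest.Agent.R177.SeqAux

open Finset

/-- The potential. -/
noncomputable def pot {Hf V P : Type} [Fintype P] {σ : P → P} (K : Consts P σ) (S : HS Hf V P)
    (p : ℕ → Hf) (ptr : ℕ → Option (ℕ × Bool)) (i : ℕ) : ℝ :=
  K.γ (S.col (p i)) * (if ptr i = none then K.h (σ (S.col (p i))) else 1)

theorem pot_bounds {Hf V P : Type} [Fintype P] {σ : P → P} (K : Consts P σ) (S : HS Hf V P)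
    (p : ℕ → Hf) (ptr : ℕ → Option (ℕ × Bool)) (i : ℕ) :
    1 / K.C ≤ pot K S p ptr i ∧ pot K S p ptr i ≤ K.C ^ 2 := by
  have hC := K.one_le_C
  have h1 := K.γ_pos (S.col (p i))
  have h2 := K.γ_le (S.col (p i))
  have h3 := K.γ_σ (S.col (p i))
  have h4 := K.γ_le (σ (S.col (p i)))
  have h5 := K.h_lo (σ (S.col (p i)))
  have h6 := K.h_hi (σ (S.col (p i)))
  have h7 : 1 / K.C ≤ K.γ (S.col (p i)) := by
    rw [div_le_iff₀ (by linarith)]
    nlinarith
  unfold pot
  split_ifs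
  · constructor <;> nlinarith
  · constructor <;> nlinarith

theorem pot_pos {Hf V P : Type} [Fintype P] {σ : P → P} (K : Consts P σ) (S : HS Hf V P)
    (p : ℕ → Hf) (ptr : ℕ → Option (ℕ × Bool)) (i : ℕ) : 0 < pot K S p ptr i :=
  lt_of_lt_of_le (by have := K.one_le_C; positivity) (pot_bounds K S p ptr i).1

theorem lp_diff {Hf V P : Type} [Fintype P] {σ : P → P} (K : Consts P σ) (S : HS Hf V P)
    (p : ℕ → Hf) (ptr : ℕ → Option (ℕ × Bool)) (i j : ℕ) :
    Real.log (pot K S p ptr i) - Real.log (pot K S p ptr j) ≤ 3 * Real.log K.C := by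
  have hC := K.one_le_C
  have h1 := Real.log_le_log (pot_pos K S p ptr i) (pot_bounds K S p ptr i).2
  have h2 := Real.log_le_log (by positivity) (pot_bounds K S p ptr j).1
  rw [Real.log_pow] at h1
  rw [one_div, Real.log_inv] at h2
  push_cast at h1
  linarith

open Classical in
theorem om_lb {V : Type} [Fintype V] (B n₀ : ℕ) (C : ℝ) (hC : 1 ≤ C) (hn : 0 < n₀)
    (hV : (Fintype.card V : ℝ) ≤ C * n₀) (O : Finset V) (v : V) :
    1 / (4 * ((B : ℝ) + 1) * C) *
      Real.exp (-(((insert v O).card : ℝ) - O.card) * Real.log n₀) ≤ om B O v := by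
  have hB : (0 : ℝ) ≤ B := Nat.cast_nonneg _
  have hn' : (0 : ℝ) < n₀ := by exact_mod_cast hn
  have hv : (0 : ℝ) < Fintype.card V := by
    exact_mod_cast Fintype.card_pos_iff.mpr ⟨v⟩
  unfold om
  by_cases h : v ∈ O
  · rw [if_pos h, Finset.insert_eq_of_mem h, sub_self, neg_zero, zero_mul, Real.exp_zero, mul_one]
    have h1 : 1 / (4 * ((B : ℝ) + 1) * C) ≤ 1 / (4 * ((B : ℝ) + 1)) :=
      one_div_le_one_div_of_le (by positivity) (by nlinarith)
    have h2 : 0 ≤ 1 / (2 * (Fintype.card V : ℝ)) := by positivity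
    linarith
  · rw [if_neg h, Finset.card_insert_of_notMem h, add_zero]
    push_cast
    rw [add_sub_cancel_left, neg_one_mul, Real.exp_neg, Real.exp_log hn', ← one_div,
      one_div_mul_one_div]
    refine one_div_le_one_div_of_le (by positivity) ?_
    have : 0 ≤ C * n₀ := by positivity
    nlinarith

/-- The constant part of the cost of an exception. -/
noncomputable def cA (C : ℝ) (D : ℕ) : ℝ := Real.log (96 * C ^ 2 * ((D : ℝ) + 1) ^ 2)

theorem cA_nonneg (C : ℝ) (hC : 1 ≤ C) (D : ℕ) : 0 ≤ cA C D := by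
  have h1 : (1 : ℝ) ≤ C ^ 2 := one_le_pow₀ hC
  have h2 : (1 : ℝ) ≤ ((D : ℝ) + 1) ^ 2 := one_le_pow₀ (by have : (0 : ℝ) ≤ D := Nat.cast_nonneg _; linarith)
  exact Real.log_nonneg (by nlinarith)

open Classical in
theorem exc_lb {Hf V P : Type} [Fintype V] [Fintype P] (S : HS Hf V P) (B n₀ : ℕ) (C : ℝ)
    (hC : 1 ≤ C) (hn : 0 < n₀) (hV : (Fintype.card V : ℝ) ≤ C * n₀) (O : Finset V) (a b : Hf) :
    Real.exp (-(((insert (S.vert b) (insert (S.vert a) O)).card : ℝ) - O.card) * Real.log n₀ -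
      (cA C (Fintype.card P) + 4 * Real.log ((B : ℝ) + 1))) ≤
      1 / ((B : ℝ) + 2) * exc S B O a b := by
  have hB : (0 : ℝ) ≤ B := Nat.cast_nonneg _
  have h1 := om_lb B n₀ C hC hn hV O (S.vert a)
  have h2 := om_lb B n₀ C hC hn hV (insert (S.vert a) O) (S.vert b)
  have h3 := mul_le_mul h1 h2 (by positivity) (om_nonneg _ _ _)
  have e : -(((insert (S.vert b) (insert (S.vert a) O)).card : ℝ) - O.card) * Real.log n₀ -
      (cA C (Fintype.card P) + 4 * Real.log ((B : ℝ) + 1)) =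
      -(((insert (S.vert a) O).card : ℝ) - O.card) * Real.log n₀ +
      -(((insert (S.vert b) (insert (S.vert a) O)).card : ℝ) - (insert (S.vert a) O).card) *
        Real.log n₀ + -(cA C (Fintype.card P)) + -(Real.log (((B : ℝ) + 1) ^ 4)) := by
    rw [Real.log_pow]
    push_cast
    ring
  rw [e, Real.exp_add, Real.exp_add, Real.exp_add, Real.exp_neg (cA _ _), Real.exp_neg (Real.log _),
    Real.exp_log (by positivity), cA, Real.exp_log (by positivity)]
  unfold exc
  set E1 := Real.exp (-(((insert (S.vert a) O).card : ℝ) - O.card) * Real.log n₀)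
  set E2 := Real.exp (-(((insert (S.vert b) (insert (S.vert a) O)).card : ℝ) -
    (insert (S.vert a) O).card) * Real.log n₀)
  have hE1 : 0 < E1 := Real.exp_pos _
  have hE2 : 0 < E2 := Real.exp_pos _
  have h4 : 1 / (2 * ((B : ℝ) + 1)) ≤ 1 / ((B : ℝ) + 2) :=
    one_div_le_one_div_of_le (by positivity) (by linarith)
  refine le_trans (le_of_eq ?_) (mul_le_mul h4 (div_le_div_of_nonneg_right h3 (by positivity))
    (by positivity) (by positivity))
  field_simp
  ring

/-- `τ` realises the first `k` edges of the sequence of items. -/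
def Re {Hf : Type} (k : ℕ) (z : ℕ → Item Hf) (τ : Hf → Hf) : Prop :=
  (∀ y y' : ℕ × Bool, y.1 < k → y'.1 < k →
    (if y.2 then (z y.1).2.2.1 else (z (y.1 + 1)).2.1) =
      (if y'.2 then (z y'.1).2.2.1 else (z (y'.1 + 1)).2.1) → y = y') ∧
  ∀ i < k, τ (z i).2.2.1 = (z (i + 1)).2.1

theorem Re_dep {Hf : Type} (k : ℕ) (z z' : ℕ → Item Hf) (τ : Hf → Hf)
    (h : ∀ j < k + 1, z' j = z j) (hR : Re k z τ) : Re k z' τ := by
  refine ⟨fun y y' hy hy' e => hR.1 y y' hy hy' ?_, fun i hi => ?_⟩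
  · rwa [h y.1 (by omega), h (y.1 + 1) (by omega), h y'.1 (by omega), h (y'.1 + 1) (by omega)] at e
  · rw [h i (by omega), h (i + 1) (by omega)]
    exact hR.2 i hi

open Classical in
/-- The items of a sequence of edges. -/
noncomputable def zz {Hf : Type} (τ : Hf → Hf) (k : ℕ) (p : ℕ → Hf) (nm : ℕ → Prop)
    (ptr : ℕ → Option (ℕ × Bool)) (i : ℕ) : Item Hf :=
  (decide (i < k ∧ nm i), if i = 0 then p 0 else τ (p (i - 1)),
    if i < k then p i else τ (p (i - 1)), if i < k then ptr i else none)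

theorem old_zz {Hf V P : Type} (S : HS Hf V P) (τ : Hf → Hf) (k : ℕ) (p : ℕ → Hf) (nm : ℕ → Prop)
    (ptr : ℕ → Option (ℕ × Bool)) (i : ℕ) (hi : i ≤ k) (v : V)
    (hv : v ∈ old S (zz τ k p nm ptr) i) :
    ∃ y : ℕ × Bool, y.1 < i ∧ y ≠ (i - 1, false) ∧ S.vert (Hh τ p y) = v := by
  induction i with
  | zero => simp [old] at hv
  | succ i ih =>
    unfold old at hv
    have hik : i < k := hi
    simp only [Finset.mem_insert] at hv
    rcases hv with hv | hv | hv
    · exact ⟨(i, true), by simp, by simp, by simp [hv, zz, hik, Hh]⟩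
    · by_cases h0 : i = 0
      · exact ⟨(0, true), by simp, by simp, by simp [hv, zz, h0, Hh]⟩
      · refine ⟨(i - 1, false), by simp, by simp; omega, by simp [hv, zz, h0, Hh]⟩
    · obtain ⟨y, h1, _, h3⟩ := ih (by omega) hv
      refine ⟨y, by omega, fun h => ?_, h3⟩
      rw [h] at h1
      simp at h1

theorem old_zz_last {Hf V P : Type} (S : HS Hf V P) (τ : Hf → Hf) (k : ℕ) (hk : 0 < k)
    (p : ℕ → Hf) (nm : ℕ → Prop) (ptr : ℕ → Option (ℕ × Bool)) :
    old S (zz τ k p nm ptr) (k + 1) ⊆ verts S τ p k := by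
  intro v hv
  have key : ∃ y : ℕ × Bool, y.1 < k ∧ S.vert (Hh τ p y) = v := by
    unfold old at hv
    simp only [Finset.mem_insert] at hv
    rcases hv with hv | hv | hv
    · exact ⟨(k - 1, false), by simp; omega, by simp [hv, zz, Hh]⟩
    · exact ⟨(k - 1, false), by simp; omega, by simp [hv, zz, hk.ne', Hh]⟩
    · obtain ⟨y, h1, _, h3⟩ := old_zz S τ k p nm ptr k le_rfl v hv
      exact ⟨y, h1, h3⟩
  obtain ⟨y, h1, h2⟩ := key
  unfold verts
  simp only [Finset.mem_image, Finset.mem_product, Finset.mem_range, Finset.mem_univ, and_true]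
  exact ⟨y, h1, h2⟩

theorem nrm_lb {Hf V P X : Type} [Fintype V] [Fintype P] {σ : P → P} (K : Consts P σ)
    (S : HS Hf V P) (cmp : V → X) (n₀ B : ℕ) (hn : 0 < n₀) (τ : Hf → Hf) (hτ : IsMatch S σ cmp τ)
    (k : ℕ) (p : ℕ → Hf) (nm : ℕ → Prop) (ptr : ℕ → Option (ℕ × Bool))
    (H1 : ∀ y y' : ℕ × Bool, y.1 < k → y'.1 < k → Hh τ p y = Hh τ p y' → y = y')
    (H2 : ∀ i < k, ∀ y, ptr i = some y → y.1 < i ∧ S.col (Hh τ p y) = S.col (p i))
    (i : ℕ) (hi : i < k) (hnm : nm i) (hi0 : 0 < i) (hv : S.vert (p i) = S.vert (τ (p (i - 1))))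
    (hp : ptr i = (ptr (i - 1)).map dsucc) :
    Real.exp (Real.log (pot K S p ptr i) - Real.log (pot K S p ptr (i - 1)) - Real.log n₀ -
      (val K S p ptr i + 1 / ((B : ℝ) + 1))) ≤
      st K S cmp n₀ B i (zz τ k p nm ptr) (zz τ k p nm ptr i) := by
  have hB : (0 : ℝ) ≤ B := Nat.cast_nonneg _
  have hn' : (0 : ℝ) < n₀ := by exact_mod_cast hn
  have hi1 : i - 1 < k := by omega
  have z1 : (zz τ k p nm ptr i).1 = true := by simp [zz, hi, hnm]
  have z2 : (zz τ k p nm ptr i).2.1 = τ (p (i - 1)) := by simp [zz, hi0.ne']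
  have z3 : ∀ j < k, (zz τ k p nm ptr j).2.2.1 = p j := fun j hj => by simp [zz, hj]
  have z4 : ∀ j < k, (zz τ k p nm ptr j).2.2.2 = ptr j := fun j hj => by simp [zz, hj]
  unfold st
  rw [z1, z2, z3 i hi, z4 i hi, z3 _ hi1, z4 _ hi1, if_pos rfl, if_pos ⟨hi0, hp⟩]
  unfold nrm
  have hne : S.col (p i) ≠ σ (S.col (p (i - 1))) := by
    intro h
    have h1 : p i = τ (p (i - 1)) := S.fold _ _ hv (by rw [h, hτ.col])
    have := H1 (i, true) (i - 1, false) hi hi1 (by simpa [Hh] using h1)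
    simp at this
  rw [if_pos ⟨hτ.col _, hτ.cmp _, hv, hne⟩]
  have e1 : Real.exp (-(1 / ((B : ℝ) + 1))) ≤ ((B : ℝ) + 1) / (B + 2) := by
    rw [Real.exp_neg, ← one_div, div_le_div_iff₀ (Real.exp_pos _) (by positivity)]
    have h := Real.add_one_le_exp (1 / ((B : ℝ) + 1))
    have h2 := mul_le_mul_of_nonneg_left h (show (0 : ℝ) ≤ (B : ℝ) + 1 by positivity)
    have h3 : ((B : ℝ) + 1) * (1 / ((B : ℝ) + 1) + 1) = B + 2 := by field_simp; ring
    linarith
  have e : Real.log (pot K S p ptr i) - Real.log (pot K S p ptr (i - 1)) - Real.log n₀ -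
      (val K S p ptr i + 1 / ((B : ℝ) + 1)) = -(1 / ((B : ℝ) + 1)) +
      (Real.log (pot K S p ptr i) - Real.log (pot K S p ptr (i - 1)) - Real.log n₀ -
        val K S p ptr i) := by ring
  rw [e, Real.exp_add]
  refine mul_le_mul e1 (le_of_eq ?_) (Real.exp_pos _).le (by positivity)
  rw [Real.exp_sub, Real.exp_sub, Real.exp_sub, Real.exp_log (pot_pos K S p ptr _),
    Real.exp_log (pot_pos K S p ptr _), Real.exp_log hn']
  have g1 := K.γ_pos (S.col (p i))
  have g2 := K.γ_pos (S.col (p (i - 1)))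
  have g3 : K.γ (σ (S.col (p (i - 1)))) = 1 / K.γ (S.col (p (i - 1))) := by
    rw [eq_div_iff g2.ne', mul_comm]
    exact K.γ_σ _
  have g4 := R_pos K (σ (S.col (p (i - 1)))) (S.col (p i))
  have g5 := K.θ_pos
  have g6 := K.h_lo (σ (S.col (p (i - 1))))
  unfold pot val
  cases h : ptr i with
  | none =>
    have h' : ptr (i - 1) = none := by
      rw [h] at hp
      simpa using hp.symm
    simp only [h', if_true, Option.map_none, qq, Consts.η, neg_neg]
    rw [Real.exp_sub, Real.exp_log g5, Real.exp_log g4, g3]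
    field_simp
  | some y =>
    have h' : ptr (i - 1) ≠ none := by
      intro h'
      rw [h, h'] at hp
      simp at hp
    obtain ⟨hy1, hy2⟩ := H2 i hi y h
    have hf : frc S σ (zz τ k p nm ptr) i y = S.col (p i) := by
      unfold frc
      rw [min_eq_left (by omega), z3 _ (by omega), ← hy2]
      unfold Hh
      split_ifs
      · rfl
      · exact (hτ.col _).symm
    simp only [h', if_false, Option.map_some, qq, hf, if_true, reduceCtorEq]
    rw [Real.exp_log g4, g3]
    field_simp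

end Crest.Agent.R177.SeqAux
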