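import Crest.Agent.R177.Model
import Crest.Agent.R177.SeqC

/-!
Task R177-S: "no hypercompression" (`SeqBound`) for a good matching.  Use `exists_model` (task R177-M).

Notation: `n⋆ = n₀ - 2B - 4 (D+1)^g > 0`, `D = card P`, `ā c c' = R c c' * n₀ / (γ c * γ c')`,
`Q c c' = R c c' ^ 2 * h (σ c') / (θ * h c)` (so `∑_{c' ≠ c} Q c c' ≤ 1` by `row`; `exp η = 1/θ`).

**Kraft lemma.** `I` a finite inhabited type, `st : ℕ → (ℕ → I) → I → ℝ` nonnegative, `st i z` depending only
on `z` below `i`, `∑ x, st i z x ≤ 1`.  Then `∑_{y : Fin k → I} ∏_{i<k} st i (ext y) (ext y i) ≤ 1`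
(induction with `Fin.snoc`/`Fin.insertNthEquiv`; `ext` extends by `default`).

**Items.** `I = Bool × Hf × Hf × Option (Fin (B+1) × Bool)`: (normal?, `a` = reverse half-edge of the previous
edge, `b` = this half-edge, pointer).  `old i z` = vertices of all `a`'s and `b`'s of items `< i`
(at most `2i ≤ 2B` of them), `ω O v = 1/(2 card V) + [v ∈ O]/(2(2B+2))` (sums to `≤ 1` if `|O| ≤ 2B+2`),
`ϑ = 1/(2(B+1))`.
* exception item: weight `ϑ · ω (old) (vert a) · ω (old ∪ {vert a}) (vert b) / (D² · card Ptr)`;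
* normal item (`i > 0`; `c₀ = col (z (i-1)).b`, `c̄ = σ c₀`): weight `0` unless `col a = c̄`,
  `cmp (vert a) = cmp (vert (z (i-1)).b)`, `vert b = vert a`, `col b ≠ c̄`, pointer `= dsucc` of the previous
  pointer (as pairs of naturals; `none ↦ none`); then `(1-ϑ) q / ā c̄ (col b)`, with `q = Q c̄ (col b)` if the
  pointer is `none`, and `q = [y.1 < i ∧ col b = (if y.2 then id else σ) (col (z y.1).b)]` if it is `y`.
  The normal weights sum to `≤ 1-ϑ` by `pair` and `fold`.
**Good `τ`.**  For `k ≤ B` and `y : Fin (k+1) → I` with all `(z i).b`, `(z (i+1)).a` (`i < k`) distinct and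
`W(y) n⋆^k > M := B + 2`, the proportion of `τ ∈ 𝒢` with `τ (z i).b = (z (i+1)).a` for `i<k` is
`≤ n⋆^(-k) < W(y)/M`.  Summing over `y` and `k`, some `τ ∈ 𝒢` has `W(y) n⋆^k ≤ M` for all realised `y`.
**Deduction.**  Given `k, p, nm, ptr` with `k ≥ 1` take items `z 0 = (false, p 0, p 0, ptr 0)`,
`z i = (nm i, τ (p (i-1)), p i, ptr i)` for `0<i<k`, `z k = (false, τ (p (k-1)), τ (p (k-1)), none)`.
Put `pot i = γ (col (p i)) * (if ptr i = none then h (σ (col (p i))) else 1) ∈ [1/C, C²]`.  A normal step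
has weight exactly `(1-ϑ) (pot i / pot (i-1)) exp (-val i) / n₀` (use `γ (σ c) = 1/γ c`) and adds one new
vertex to `old`; an exception step has weight `≥ ϑ κ₀² /(D² card Ptr) · n₀^(-(number of new vertices))`,
`κ₀ = 1/(4 (B+1) C)` (`card V ≤ C n₀`, `n₀ ≥ 1`).  Induction on `i` gives
`W_i ≥ (1-ϑ)^i · n₀^(-|old i|) · exp (-∑ val) · pot (i-1) · (C⁻³ ϑ κ₀²/(D² card Ptr))^(#exceptions)`, and
`old (k+1) = verts S τ p k`, `(1-ϑ)^(k+1) ≥ 1/2`.  Take logarithms, `log n⋆ ≥ log n₀ - δ`.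
The case `k = 0` is trivial.
-/

set_option autoImplicit false

namespace Crest.Agent.R177

namespace SeqAux

open Finset

theorem deduce {Hf V P X : Type} [Fintype Hf] [Fintype V] [Fintype P] {σ : P → P}
    (K : Consts P σ) (S : HS Hf V P) (cmp : V → X) (n₀ B : ℕ) (δ m : ℝ) (hs : Scale K S cmp n₀)
    (hn : 0 < n₀) (τ : Hf → Hf) (hτ : IsMatch S σ cmp τ) (hm : (n₀ : ℝ) * Real.exp (-δ) ≤ m)
    (hg : ∀ k ≤ B, ∀ z : ℕ → Item Hf, (∀ i < k + 1, z i ∈ Its Hf B) → Re k z τ →
      (∏ i ∈ range (k + 1), st K S cmp n₀ B i z (z i)) * m ^ k ≤ B + 1) :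
    SeqBound K S τ n₀ B δ ((6 * Real.log K.C + cA K.C (Fintype.card P) + 6) *
      (1 + Real.log ((B : ℝ) + 1))) := by
  classical
  intro k hk p nm ptr H1 H2 H3
  have hB : (0 : ℝ) ≤ B := Nat.cast_nonneg _
  have hn' : (0 : ℝ) < n₀ := by exact_mod_cast hn
  have hL : 0 ≤ Real.log (n₀ : ℝ) := Real.log_nonneg (by exact_mod_cast hn)
  have hlC : 0 ≤ Real.log K.C := Real.log_nonneg K.one_le_C
  have hlB : 0 ≤ Real.log ((B : ℝ) + 1) := Real.log_nonneg (by linarith)
  have hA := cA_nonneg K.C K.one_le_C (Fintype.card P)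
  rcases Nat.eq_zero_or_pos k with hk0 | hk0
  · subst hk0
    simp only [verts, range_zero, empty_product, image_empty, card_empty, filter_empty, sum_empty,
      Nat.cast_zero, sub_self, zero_mul, mul_zero, zero_add, add_zero, mul_one]
    positivity
  set z := zz τ k p nm ptr with hz
  set x₀ : ℝ := 3 * Real.log K.C + (cA K.C (Fintype.card P) + 4 * Real.log ((B : ℝ) + 1)) with hx₀
  set Φ : ℕ → ℝ := fun i => Real.log (pot K S p ptr (i - 1)) -
    ((old S z i).card : ℝ) * Real.log n₀ with hΦ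
  set u : ℕ → ℝ := fun i => if i < k ∧ nm i then val K S p ptr i + 1 / ((B : ℝ) + 1) else x₀
    with hu
  have step : ∀ i ∈ range (k + 1),
      Real.exp (Φ (i + 1) - Φ i - u i) ≤ st K S cmp n₀ B i z (z i) := by
    intro i _
    by_cases h : i < k ∧ nm i
    · obtain ⟨a1, a2, a3, a4⟩ := H3 i h.1 h.2
      refine le_trans (Real.exp_le_exp.mpr ?_)
        (nrm_lb K S cmp n₀ B hn τ hτ k p nm ptr H1 H2 i h.1 h.2 a1 a2 a3)
      have hnew : S.vert (p i) ∉ old S z i := by
        intro hv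
        obtain ⟨y, b1, b2, b3⟩ := old_zz S τ k p nm ptr i h.1.le _ hv
        exact a4 y b1 b2 b3
      have hc : (old S z i).card + 1 ≤ (old S z (i + 1)).card := by
        rw [← Finset.card_insert_of_notMem hnew]
        refine Finset.card_le_card (fun v hv => ?_)
        have z3 : (z i).2.2.1 = p i := by simp [hz, zz, h.1]
        simp only [old, z3, Finset.mem_insert] at hv ⊢
        tauto
      have hc' : ((old S z i).card : ℝ) + 1 ≤ (old S z (i + 1)).card := by exact_mod_cast hc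
      have := mul_le_mul_of_nonneg_right hc' hL
      simp only [hΦ, hu, if_pos h, Nat.add_sub_cancel]
      linarith
    · have z1 : (z i).1 = false := by simpa [hz, zz] using h
      have e : st K S cmp n₀ B i z (z i) =
          1 / ((B : ℝ) + 2) * exc S B (old S z i) (z i).2.1 (z i).2.2.1 := by
        unfold st
        simp [z1]
      rw [e]
      refine le_trans (Real.exp_le_exp.mpr ?_)
        (exc_lb S B n₀ K.C K.one_le_C hn hs.cardV (old S z i) (z i).2.1 (z i).2.2.1)
      have := lp_diff K S p ptr i (i - 1)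
      simp only [hΦ, hu, if_neg h, Nat.add_sub_cancel, old]
      linarith
  have hIt : ∀ i < k + 1, z i ∈ Its Hf B := by
    intro i _
    simp only [Its, Finset.mem_product, Finset.mem_univ, true_and, Ptr, Finset.mem_insertNone]
    intro y hy
    by_cases hik : i < k
    · have : ptr i = some y := by simpa [hz, zz, hik] using hy
      have := (H2 i hik y this).1
      simp only [Finset.mem_range, and_true]
      omega
    · simp [hz, zz, hik] at hy
  have hRe : Re k z τ := by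
    refine ⟨fun y y' hy hy' e => H1 y y' hy hy' ?_, fun i hi => ?_⟩
    · simpa [hz, zz, hy, hy', Hh] using e
    · simp [hz, zz, hi]
  have h1 := hg k hk z hIt hRe
  have h2 : Real.exp (∑ i ∈ range (k + 1), (Φ (i + 1) - Φ i - u i)) ≤
      ∏ i ∈ range (k + 1), st K S cmp n₀ B i z (z i) := by
    rw [Real.exp_sum]
    exact Finset.prod_le_prod (fun i _ => (Real.exp_pos _).le) step
  have h3 : Real.exp (k * (Real.log n₀ - δ)) ≤ m ^ k := by
    rw [Real.exp_nat_mul, sub_eq_add_neg, Real.exp_add, Real.exp_log hn']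
    exact pow_le_pow_left₀ (by positivity) hm k
  have h4 : ∑ i ∈ range (k + 1), (Φ (i + 1) - Φ i - u i) + k * (Real.log n₀ - δ) ≤
      Real.log ((B : ℝ) + 1) := by
    rw [Real.le_log_iff_exp_le (by positivity), Real.exp_add]
    exact le_trans (mul_le_mul h2 h3 (Real.exp_pos _).le
      (Finset.prod_nonneg (fun i _ => st_nonneg _ _ _ _ _ _ _ _))) h1
  rw [Finset.sum_sub_distrib, Finset.sum_range_sub, Finset.sum_range_succ] at h4
  have h5 : ∑ i ∈ range k, u i ≤ ∑ i ∈ (range k).filter nm, val K S p ptr i + 1 +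
      x₀ * ((range k).filter (fun i => ¬ nm i)).card := by
    have e : ∑ i ∈ range k, u i =
        ∑ i ∈ range k, (if nm i then val K S p ptr i + 1 / ((B : ℝ) + 1) else x₀) :=
      Finset.sum_congr rfl (fun i hi => by simp [hu, Finset.mem_range.mp hi])
    rw [e, Finset.sum_ite, Finset.sum_add_distrib, Finset.sum_const, Finset.sum_const,
      nsmul_eq_mul, nsmul_eq_mul]
    have c1 : ((range k).filter nm).card ≤ B :=
      le_trans (Finset.card_filter_le _ _) (by simpa using hk)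
    have c2 : (((range k).filter nm).card : ℝ) ≤ B := by exact_mod_cast c1
    have c3 : (((range k).filter nm).card : ℝ) * (1 / ((B : ℝ) + 1)) ≤ 1 := by
      rw [mul_one_div, div_le_one (by positivity)]
      linarith
    linarith
  have h6 : u k = x₀ := by simp [hu]
  have h7 : ((old S z (k + 1)).card : ℝ) ≤ (verts S τ p k).card := by
    exact_mod_cast Finset.card_le_card (old_zz_last S τ k hk0 p nm ptr)
  have h8 := mul_le_mul_of_nonneg_right h7 hL
  have h9 := lp_diff K S p ptr 0 k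
  have h10 : Φ 0 = Real.log (pot K S p ptr 0) := by simp [hΦ, old]
  have h11 : Φ (k + 1) = Real.log (pot K S p ptr k) -
      ((old S z (k + 1)).card : ℝ) * Real.log n₀ := by simp [hΦ]
  set e : ℝ := (((range k).filter (fun i => ¬ nm i)).card : ℝ) with he
  have he0 : 0 ≤ e := Nat.cast_nonneg _
  have h12 : x₀ + (3 * Real.log K.C + 1 + Real.log ((B : ℝ) + 1)) ≤
      (6 * Real.log K.C + cA K.C (Fintype.card P) + 6) * (1 + Real.log ((B : ℝ) + 1)) := by
    have := mul_nonneg (show 0 ≤ 6 * Real.log K.C + cA K.C (Fintype.card P) by positivity) hlB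
    nlinarith
  have h13 := mul_le_mul_of_nonneg_right h12 (show 0 ≤ e + 1 by positivity)
  have h14 := mul_nonneg (show 0 ≤ 3 * Real.log K.C + 1 + Real.log ((B : ℝ) + 1) by positivity) he0
  have goal : ((k : ℝ) - (verts S τ p k).card) * Real.log n₀ ≤
      ∑ i ∈ (range k).filter nm, val K S p ptr i + δ * k +
        (6 * Real.log K.C + cA K.C (Fintype.card P) + 6) * (1 + Real.log ((B : ℝ) + 1)) *
          (e + 1) := by
    linarith
  convert goal

end SeqAux

theorem exists_seqBound {P : Type} [Fintype P] {σ : P → P} (K : Consts P σ) :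
    ∃ c₁ : ℝ, 1 ≤ c₁ ∧ ∀ {Hf V X : Type} [Fintype Hf] [Fintype V] (S : HS Hf V P) (cmp : V → X)
      (n₀ g B : ℕ) (δ : ℝ), Scale K S cmp n₀ →
      2 * B + 4 * (Fintype.card P + 1) ^ g < n₀ →
      (n₀ : ℝ) * Real.exp (-δ) ≤ (n₀ : ℝ) - 2 * B - 4 * ((Fintype.card P : ℝ) + 1) ^ g →
      ∃ τ : Hf → Hf, IsMatch S σ cmp τ ∧ Girth S τ g ∧
        SeqBound K S τ n₀ B δ (c₁ * (1 + Real.log ((B : ℝ) + 1))) := by
  classical
  have hlC : 0 ≤ Real.log K.C := Real.log_nonneg K.one_le_C
  have hA := SeqAux.cA_nonneg K.C K.one_le_C (Fintype.card P)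
  refine ⟨6 * Real.log K.C + SeqAux.cA K.C (Fintype.card P) + 6, by linarith, ?_⟩
  intro Hf V X _ _ S cmp n₀ g B δ hs hn hδ
  have hn0 : 0 < n₀ := by omega
  obtain ⟨𝒢, hne, h𝒢, hcnt⟩ := exists_model K.σσ S cmp n₀ g B hs.cls_lo hs.bal hs.even hn
  have hcast : ((n₀ - 2 * B - 4 * (Fintype.card P + 1) ^ g : ℕ) : ℝ) =
      (n₀ : ℝ) - 2 * B - 4 * ((Fintype.card P : ℝ) + 1) ^ g := by
    rw [Nat.cast_sub (by omega), Nat.cast_sub (by omega)]
    push_cast
    ring
  obtain ⟨τ, hτ, hg⟩ := SeqAux.good 𝒢 hne B (SeqAux.Its Hf B) (SeqAux.st K S cmp n₀ B)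
    (SeqAux.st_nonneg K S cmp n₀ B) (SeqAux.st_dep K S cmp n₀ B)
    (SeqAux.sum_st K S cmp n₀ B hs hn0) SeqAux.Re SeqAux.Re_dep
    ((n₀ - 2 * B - 4 * (Fintype.card P + 1) ^ g : ℕ) : ℝ) (Nat.cast_nonneg _) (by
      intro k hk z
      by_cases hd : ∀ y y' : ℕ × Bool, y.1 < k → y'.1 < k →
          (if y.2 then (z y.1).2.2.1 else (z (y.1 + 1)).2.1) =
            (if y'.2 then (z y'.1).2.2.1 else (z (y'.1 + 1)).2.1) → y = y'
      · have h := hcnt k hk (fun i => (z i).2.2.1) (fun i => (z (i + 1)).2.1) hd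
        have h' : (Finset.filter (fun τ => SeqAux.Re k z τ) 𝒢).card *
            (n₀ - 2 * B - 4 * (Fintype.card P + 1) ^ g) ^ k ≤ 𝒢.card := by
          refine le_trans (Nat.mul_le_mul_right _ (Finset.card_le_card (fun τ hτ => ?_))) h
          simp only [Finset.mem_filter] at hτ ⊢
          exact ⟨hτ.1, hτ.2.2⟩
        exact_mod_cast h'
      · rw [Finset.filter_eq_empty_iff.mpr (fun τ _ h => hd h.1)]
        simp)
  exact ⟨τ, (h𝒢 τ hτ).1, (h𝒢 τ hτ).2,
    SeqAux.deduce K S cmp n₀ B δ _ hs hn0 τ (h𝒢 τ hτ).1 (by rw [hcast]; exact hδ) hg⟩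

end Crest.Agent.R177
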