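import Crest.Agent.R177.Defs

/-! Abstract Kraft lemma and the averaging argument for `exists_seqBound`. -/

set_option autoImplicit false

namespace Crest.Agent.R177.SeqAux

open Finset

theorem kraft {I : Type} (It : Finset I) (st : ℕ → (ℕ → I) → I → ℝ) (N : ℕ)
    (h0 : ∀ i z x, 0 ≤ st i z x)
    (dep : ∀ i z z', (∀ j < i, z j = z' j) → st i z = st i z')
    (h1 : ∀ i < N, ∀ z, ∑ x ∈ It, st i z x ≤ 1) (k : ℕ) (hk : k ≤ N) :
    ∃ Z : Finset (ℕ → I), ∑ z ∈ Z, ∏ i ∈ range k, st i z (z i) ≤ 1 ∧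
      ∀ z : ℕ → I, (∀ i < k, z i ∈ It) → ∃ z' ∈ Z, ∀ i < k, z' i = z i := by
  classical
  induction k with
  | zero =>
    by_cases h : Nonempty (ℕ → I)
    · obtain ⟨z0⟩ := h
      exact ⟨{z0}, by simp, fun z _ => ⟨z0, by simp, by simp⟩⟩
    · exact ⟨∅, by simp, fun z _ => absurd ⟨z⟩ h⟩
  | succ k ih =>
    obtain ⟨Z, hZ, hc⟩ := ih (by omega)
    refine ⟨(Z ×ˢ It).image (fun q => Function.update q.1 k q.2), ?_, ?_⟩
    · refine le_trans (Finset.sum_image_le_of_nonneg
        (fun z _ => Finset.prod_nonneg (fun i _ => h0 _ _ _))) ?_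
      rw [Finset.sum_product]
      refine le_trans (Finset.sum_le_sum (fun z _ => ?_)) hZ
      have key : ∀ x, ∏ i ∈ range (k + 1), st i (Function.update z k x) (Function.update z k x i)
          = (∏ i ∈ range k, st i z (z i)) * st k z x := by
        intro x
        rw [Finset.prod_range_succ]
        congr 1
        · refine Finset.prod_congr rfl (fun i hi => ?_)
          have hi' := Finset.mem_range.mp hi
          rw [dep i (Function.update z k x) z
            (fun j hj => Function.update_of_ne (by omega) _ _), Function.update_of_ne (by omega)]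
        · rw [dep k (Function.update z k x) z
            (fun j hj => Function.update_of_ne (by omega) _ _), Function.update_self]
      simp only [key]
      rw [← Finset.mul_sum]
      exact mul_le_of_le_one_right (Finset.prod_nonneg (fun i _ => h0 _ _ _)) (h1 k (by omega) z)
    · intro z hz
      obtain ⟨z', hz', he⟩ := hc z (fun i hi => hz i (by omega))
      refine ⟨Function.update z' k (z k), Finset.mem_image.mpr ⟨(z', z k),
        Finset.mem_product.mpr ⟨hz', hz k (by omega)⟩, rfl⟩, fun i hi => ?_⟩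
      by_cases hik : i = k
      · subst hik; simp
      · rw [Function.update_of_ne hik]; exact he i (by omega)

open Classical in
theorem good {T I : Type} (𝒢 : Finset T) (hne : 𝒢.Nonempty) (B : ℕ) (It : Finset I)
    (st : ℕ → (ℕ → I) → I → ℝ) (h0 : ∀ i z x, 0 ≤ st i z x)
    (dep : ∀ i z z', (∀ j < i, z j = z' j) → st i z = st i z')
    (h1 : ∀ i < B + 1, ∀ z, ∑ x ∈ It, st i z x ≤ 1)
    (Re : ℕ → (ℕ → I) → T → Prop)
    (Rdep : ∀ k z z' τ, (∀ j < k + 1, z' j = z j) → Re k z τ → Re k z' τ)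
    (m : ℝ) (hm : 0 ≤ m)
    (cnt : ∀ k ≤ B, ∀ z, ((𝒢.filter (fun τ => Re k z τ)).card : ℝ) * m ^ k ≤ 𝒢.card) :
    ∃ τ ∈ 𝒢, ∀ k ≤ B, ∀ z : ℕ → I, (∀ i < k + 1, z i ∈ It) → Re k z τ →
      (∏ i ∈ range (k + 1), st i z (z i)) * m ^ k ≤ B + 1 := by
  have hZ : ∀ k : ℕ, ∃ Z : Finset (ℕ → I), k ≤ B →
      (∑ z ∈ Z, ∏ i ∈ range (k + 1), st i z (z i) ≤ 1 ∧
      ∀ z : ℕ → I, (∀ i < k + 1, z i ∈ It) → ∃ z' ∈ Z, ∀ i < k + 1, z' i = z i) := by
    intro k
    by_cases hk : k ≤ B
    · obtain ⟨Z, h⟩ := kraft It st (B + 1) h0 dep h1 (k + 1) (by omega)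
      exact ⟨Z, fun _ => h⟩
    · exact ⟨∅, fun h => absurd h hk⟩
  choose Z hZ using hZ
  set W : ℕ → (ℕ → I) → ℝ := fun k z => ∏ i ∈ range (k + 1), st i z (z i) with hW
  have W0 : ∀ k z, 0 ≤ W k z := fun k z => Finset.prod_nonneg (fun i _ => h0 _ _ _)
  set F : T → ℝ := fun τ => ∑ k ∈ range (B + 1), ∑ z ∈ Z k,
    if Re k z τ then W k z * m ^ k else 0 with hF
  have hsum : ∑ τ ∈ 𝒢, F τ ≤ ∑ _τ ∈ 𝒢, ((B : ℝ) + 1) := by
    simp only [hF]
    rw [Finset.sum_comm]
    have : ∀ k ∈ range (B + 1), ∑ τ ∈ 𝒢, ∑ z ∈ Z k,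
        (if Re k z τ then W k z * m ^ k else 0) ≤ 𝒢.card := by
      intro k hk
      have hk' : k ≤ B := by have := Finset.mem_range.mp hk; omega
      rw [Finset.sum_comm]
      calc ∑ z ∈ Z k, ∑ τ ∈ 𝒢, (if Re k z τ then W k z * m ^ k else 0)
          ≤ ∑ z ∈ Z k, W k z * 𝒢.card := by
            refine Finset.sum_le_sum (fun z _ => ?_)
            rw [← Finset.sum_filter, Finset.sum_const, nsmul_eq_mul]
            have := mul_le_mul_of_nonneg_left (cnt k hk' z) (W0 k z)
            linarith [mul_left_comm (W k z) ((𝒢.filter (fun τ => Re k z τ)).card : ℝ) (m ^ k)]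
        _ ≤ 𝒢.card := by
            rw [← Finset.sum_mul]
            exact mul_le_of_le_one_left (Nat.cast_nonneg _) (hZ k hk').1
    refine le_trans (Finset.sum_le_sum this) ?_
    simp only [Finset.sum_const, Finset.card_range, nsmul_eq_mul]
    push_cast
    exact le_of_eq (mul_comm _ _)
  obtain ⟨τ, hτ, hle⟩ := Finset.exists_le_of_sum_le hne hsum
  refine ⟨τ, hτ, fun k hk z hz hR => le_trans ?_ hle⟩
  obtain ⟨z', hz', he⟩ := (hZ k hk).2 z hz
  have hWe : W k z' = ∏ i ∈ range (k + 1), st i z (z i) := by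
    refine Finset.prod_congr rfl (fun i hi => ?_)
    have hi' := Finset.mem_range.mp hi
    rw [dep i z' z (fun j hj => he j (by omega)), he i hi']
  have nn : ∀ k z, 0 ≤ (if Re k z τ then W k z * m ^ k else 0) := by
    intro k z
    split_ifs
    · exact mul_nonneg (W0 _ _) (pow_nonneg hm _)
    · exact le_rfl
  calc (∏ i ∈ range (k + 1), st i z (z i)) * m ^ k
      = (if Re k z' τ then W k z' * m ^ k else 0) := by
        rw [if_pos (Rdep k z z' τ he hR), hWe]
    _ ≤ ∑ z ∈ Z k, if Re k z τ then W k z * m ^ k else 0 :=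
        Finset.single_le_sum (f := fun z => if Re k z τ then W k z * m ^ k else 0)
          (fun z _ => nn k z) hz'
    _ ≤ F τ :=
        Finset.single_le_sum (f := fun k => ∑ z ∈ Z k, if Re k z τ then W k z * m ^ k else 0)
          (fun k _ => Finset.sum_nonneg (fun z _ => nn k z)) (Finset.mem_range.mpr (by omega))

end Crest.Agent.R177.SeqAux
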