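import Crest.Agent.R177.SeqA

/-! The concrete weights for `exists_seqBound` and the Kraft conditions. -/

set_option autoImplicit false

namespace Crest.Agent.R177.SeqAux

open Finset

/-- (normal?, reverse of the previous edge, this half-edge, pointer). -/
abbrev Item (Hf : Type) : Type := Bool × Hf × Hf × Option (ℕ × Bool)

open Classical in
/-- The vertices seen so far. -/
noncomputable def old {Hf V P : Type} (S : HS Hf V P) (z : ℕ → Item Hf) : ℕ → Finset V
  | 0 => ∅
  | i + 1 => insert (S.vert (z i).2.2.1) (insert (S.vert (z i).2.1) (old S z i))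

theorem old_card {Hf V P : Type} (S : HS Hf V P) (z : ℕ → Item Hf) (i : ℕ) :
    (old S z i).card ≤ 2 * i := by
  classical
  induction i with
  | zero => simp [old]
  | succ i ih =>
    unfold old
    refine le_trans (Finset.card_insert_le _ _) ?_
    have := Finset.card_insert_le (S.vert (z i).2.1) (old S z i)
    have h2 : (@insert V (Finset V) (@Finset.instInsert V (fun a b => Classical.propDecidable _))
      (S.vert (z i).2.1) (old S z i)).card ≤ (old S z i).card + 1 := by convert this
    omega

theorem old_dep {Hf V P : Type} (S : HS Hf V P) (z z' : ℕ → Item Hf) (i : ℕ)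
    (h : ∀ j < i, z j = z' j) : old S z i = old S z' i := by
  induction i with
  | zero => rfl
  | succ i ih =>
    unfold old
    rw [ih (fun j hj => h j (by omega)), h i (by omega)]

open Classical in
/-- The weight of a vertex. -/
noncomputable def om {V : Type} [Fintype V] (B : ℕ) (O : Finset V) (v : V) : ℝ :=
  1 / (2 * Fintype.card V) + if v ∈ O then 1 / (4 * ((B : ℝ) + 1)) else 0

theorem om_nonneg {V : Type} [Fintype V] (B : ℕ) (O : Finset V) (v : V) : 0 ≤ om B O v := by
  unfold om
  split_ifs <;> positivity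

theorem sum_om {V : Type} [Fintype V] (B : ℕ) (O : Finset V) (hO : O.card ≤ 2 * B + 2) :
    ∑ v, om B O v ≤ 1 := by
  classical
  unfold om
  rw [Finset.sum_add_distrib, Finset.sum_const, Finset.card_univ, nsmul_eq_mul]
  have h1 : (Fintype.card V : ℝ) * (1 / (2 * Fintype.card V)) ≤ 1 / 2 := by
    rcases Nat.eq_zero_or_pos (Fintype.card V) with h | h
    · simp [h]
    · have : (0 : ℝ) < Fintype.card V := by exact_mod_cast h
      apply le_of_eq
      field_simp
  have h2 : ∑ v : V, (if v ∈ O then 1 / (4 * ((B : ℝ) + 1)) else 0) ≤ 1 / 2 := by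
    rw [← Finset.sum_filter, Finset.sum_const, nsmul_eq_mul]
    have e : (univ.filter (fun v => v ∈ O)) = O := by ext; simp
    rw [e]
    have : (O.card : ℝ) ≤ 2 * B + 2 := by exact_mod_cast hO
    rw [mul_one_div, div_le_iff₀ (by positivity)]
    linarith
  have h3 : ∑ v : V, (@ite ℝ (v ∈ O) (Classical.propDecidable _) (1 / (4 * ((B : ℝ) + 1))) 0)
      ≤ 1 / 2 := by convert h2
  linarith

theorem sum_vert {Hf V P : Type} [Fintype Hf] [Fintype V] [Fintype P] (S : HS Hf V P)
    (f : V → ℝ) (hf : ∀ v, 0 ≤ f v) (h1 : ∑ v, f v ≤ 1) :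
    ∑ a, f (S.vert a) ≤ (Fintype.card P : ℝ) + 1 := by
  classical
  have hinj : Function.Injective (fun a : Hf => (S.vert a, S.col a)) := by
    intro a b h
    simp only [Prod.mk.injEq] at h
    exact S.fold a b h.1 h.2
  have e : ∑ a, f (S.vert a) =
      ∑ q ∈ univ.image (fun a : Hf => (S.vert a, S.col a)), f q.1 := by
    rw [Finset.sum_image (fun a _ b _ h => hinj h)]
  rw [e]
  calc ∑ q ∈ univ.image (fun a : Hf => (S.vert a, S.col a)), f q.1
      ≤ ∑ q : V × P, f q.1 :=
        Finset.sum_le_sum_of_subset_of_nonneg (Finset.subset_univ _) (fun q _ _ => hf _)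
    _ = Fintype.card P * ∑ v, f v := by
        rw [Fintype.sum_prod_type, Finset.mul_sum]
        simp
    _ ≤ Fintype.card P * 1 := mul_le_mul_of_nonneg_left h1 (Nat.cast_nonneg _)
    _ ≤ _ := by linarith

open Classical in
/-- The weight of an exceptional item. -/
noncomputable def exc {Hf V P : Type} [Fintype V] [Fintype P] (S : HS Hf V P) (B : ℕ)
    (O : Finset V) (a b : Hf) : ℝ :=
  om B O (S.vert a) * om B (insert (S.vert a) O) (S.vert b) /
    (((Fintype.card P : ℝ) + 1) ^ 2 * (3 * ((B : ℝ) + 1)))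

theorem exc_nonneg {Hf V P : Type} [Fintype V] [Fintype P] (S : HS Hf V P) (B : ℕ)
    (O : Finset V) (a b : Hf) : 0 ≤ exc S B O a b :=
  div_nonneg (mul_nonneg (om_nonneg _ _ _) (om_nonneg _ _ _)) (by positivity)

theorem sum_exc {Hf V P : Type} [Fintype Hf] [Fintype V] [Fintype P] (S : HS Hf V P) (B : ℕ)
    (O : Finset V) (hO : O.card ≤ 2 * B + 1) :
    ∑ a, ∑ b, exc S B O a b ≤ 1 / (3 * ((B : ℝ) + 1)) := by
  classical
  unfold exc
  simp only [← Finset.sum_div, ← Finset.mul_sum]
  rw [div_le_div_iff₀ (by positivity) (by positivity), one_mul]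
  refine mul_le_mul_of_nonneg_right ?_ (by positivity)
  have h1 := sum_vert S (om B O) (om_nonneg B O) (sum_om B O (by omega))
  calc _ ≤ ∑ a, om B O (S.vert a) * ((Fintype.card P : ℝ) + 1) := by
        refine Finset.sum_le_sum (fun a _ => mul_le_mul_of_nonneg_left ?_ (om_nonneg _ _ _))
        refine sum_vert S _ (om_nonneg B _) (sum_om B _ ?_)
        refine le_trans (Finset.card_insert_le _ _) (by omega)
    _ ≤ _ := by
        rw [← Finset.sum_mul, sq]
        exact mul_le_mul_of_nonneg_right h1 (by positivity)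

open Classical in
/-- The probability of the next colour. -/
noncomputable def qq {P : Type} [Fintype P] {σ : P → P} (K : Consts P σ) (d : P) :
    Option P → P → ℝ
  | none, c => K.R d c ^ 2 * K.h (σ c) / (K.θ * K.h d)
  | some c', c => if c = c' then 1 else 0

theorem qq_nonneg {P : Type} [Fintype P] {σ : P → P} (K : Consts P σ) (d : P) (f : Option P)
    (c : P) : 0 ≤ qq K d f c := by
  have h1 := K.h_lo (σ c)
  have h2 := K.h_lo d
  have h3 := K.θ_pos
  cases f with
  | none => unfold qq; positivity
  | some c' => simp only [qq]; split_ifs <;> norm_num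

open Classical in
theorem sum_qq {P : Type} [Fintype P] {σ : P → P} (K : Consts P σ) (d : P) (f : Option P) :
    ∑ c ∈ univ.erase d, qq K d f c ≤ 1 := by
  have h2 := K.h_lo d
  have h3 := K.θ_pos
  cases f with
  | none =>
    simp only [qq]
    rw [← Finset.sum_div, div_le_one (by positivity)]
    exact K.row d
  | some c' =>
    simp only [qq]
    rw [Finset.sum_ite_eq']
    split_ifs <;> norm_num

theorem R_pos {P : Type} [Fintype P] {σ : P → P} (K : Consts P σ) (c c' : P) : 0 < K.R c c' :=
  lt_of_lt_of_le (by have := K.one_le_C; positivity) (K.R_lo c c')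

open Classical in
/-- The weight of a normal item. -/
noncomputable def nrm {Hf V P X : Type} [Fintype P] {σ : P → P} (K : Consts P σ) (S : HS Hf V P)
    (cmp : V → X) (n₀ : ℕ) (x : X) (d : P) (f : Option P) (a b : Hf) : ℝ :=
  if S.col a = d ∧ cmp (S.vert a) = x ∧ S.vert b = S.vert a ∧ S.col b ≠ d then
    qq K d f (S.col b) * (K.γ d * K.γ (S.col b) / (K.R d (S.col b) * n₀)) else 0

theorem nrm_nonneg {Hf V P X : Type} [Fintype P] {σ : P → P} (K : Consts P σ) (S : HS Hf V P)
    (cmp : V → X) (n₀ : ℕ) (x : X) (d : P) (f : Option P) (a b : Hf) :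
    0 ≤ nrm K S cmp n₀ x d f a b := by
  unfold nrm
  split_ifs
  · have := qq_nonneg K d f (S.col b)
    have := K.γ_pos d
    have := K.γ_pos (S.col b)
    have := R_pos K d (S.col b)
    positivity
  · exact le_rfl

theorem sum_nrm {Hf V P X : Type} [Fintype Hf] [Fintype V] [Fintype P] {σ : P → P}
    (K : Consts P σ) (S : HS Hf V P) (cmp : V → X) (n₀ : ℕ) (hs : Scale K S cmp n₀)
    (hn : 0 < n₀) (x : X) (d : P) (f : Option P) :
    ∑ a, ∑ b, nrm K S cmp n₀ x d f a b ≤ 1 := by
  classical
  rw [← Fintype.sum_prod_type' (fun a b => nrm K S cmp n₀ x d f a b)]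
  set w : P → ℝ := fun c => qq K d f c * (K.γ d * K.γ c / (K.R d c * n₀)) with hw
  have hn' : (0 : ℝ) < n₀ := by exact_mod_cast hn
  have w0 : ∀ c, 0 ≤ w c := by
    intro c
    have := qq_nonneg K d f c
    have := K.γ_pos d
    have := K.γ_pos c
    have := R_pos K d c
    simp only [hw]
    positivity
  set cond : Hf × Hf → P → Prop := fun q c =>
    S.col q.1 = d ∧ cmp (S.vert q.1) = x ∧ S.vert q.2 = S.vert q.1 ∧ S.col q.2 = c with hcond
  calc ∑ q : Hf × Hf, nrm K S cmp n₀ x d f q.1 q.2
      ≤ ∑ q : Hf × Hf, ∑ c ∈ univ.erase d, (if cond q c then w c else 0) := by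
        refine Finset.sum_le_sum (fun q _ => ?_)
        have nn : ∀ c ∈ univ.erase d, 0 ≤ (if cond q c then w c else 0) := by
          intro c _
          split_ifs
          · exact w0 c
          · exact le_rfl
        unfold nrm
        split_ifs with h
        · refine le_trans ?_ (Finset.single_le_sum nn
            (Finset.mem_erase.mpr ⟨h.2.2.2, Finset.mem_univ _⟩))
          rw [if_pos ⟨h.1, h.2.1, h.2.2.1, rfl⟩]
        · exact Finset.sum_nonneg nn
    _ = ∑ c ∈ univ.erase d, ((univ.filter (fun q => cond q c)).card : ℝ) * w c := by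
        rw [Finset.sum_comm]
        refine Finset.sum_congr rfl (fun c _ => ?_)
        rw [← Finset.sum_filter, Finset.sum_const, nsmul_eq_mul]
    _ ≤ ∑ c ∈ univ.erase d, qq K d f c := by
        refine Finset.sum_le_sum (fun c hc => ?_)
        have hcd : d ≠ c := (Finset.mem_erase.mp hc).1.symm
        have h1 : (univ.filter (fun q => cond q c)).card ≤ pairCard S cmp x d c := by
          unfold pairCard
          refine Finset.card_le_card_of_injOn (fun q => S.vert q.1) ?_ ?_
          · intro q hq
            have hq' : cond q c := by simpa using hq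
            simp only [Finset.coe_filter, Finset.mem_univ, true_and, Set.mem_ofPred_eq]
            exact ⟨hq'.2.1, ⟨q.1, rfl, hq'.1⟩, ⟨q.2, hq'.2.2.1, hq'.2.2.2⟩⟩
          · intro q hq q' hq' e
            have h1 : cond q c := by simpa using hq
            have h2 : cond q' c := by simpa using hq'
            have e' : S.vert q.1 = S.vert q'.1 := e
            refine Prod.ext (S.fold _ _ e' (h1.1.trans h2.1.symm)) (S.fold _ _ ?_ ?_)
            · rw [h1.2.2.1, h2.2.2.1, e']
            · rw [h1.2.2.2, h2.2.2.2]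
        have h2 : ((univ.filter (fun q => cond q c)).card : ℝ) ≤
            K.R d c * n₀ / (K.γ d * K.γ c) :=
          le_trans (by exact_mod_cast h1) (hs.pair x d c hcd)
        refine le_trans (mul_le_mul_of_nonneg_right h2 (w0 c)) (le_of_eq ?_)
        have := K.γ_pos d
        have := K.γ_pos c
        have := R_pos K d c
        simp only [hw]
        field_simp
    _ ≤ 1 := by convert sum_qq K d f

/-- The admissible pointers. -/
def Ptr (B : ℕ) : Finset (Option (ℕ × Bool)) := insertNone (range (B + 1) ×ˢ univ)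

theorem Ptr_card (B : ℕ) : ((Ptr B).card : ℝ) ≤ 3 * ((B : ℝ) + 1) := by
  have : (Ptr B).card = 2 * (B + 1) + 1 := by
    simp [Ptr, mul_comm]
  rw [this]
  push_cast
  have : (0 : ℝ) ≤ B := Nat.cast_nonneg _
  linarith

/-- The colour forced by a pointer. -/
def frc {Hf V P : Type} (S : HS Hf V P) (σ : P → P) (z : ℕ → Item Hf) (i : ℕ) (y : ℕ × Bool) : P :=
  if y.2 then S.col (z (min y.1 (i - 1))).2.2.1 else σ (S.col (z (min y.1 (i - 1))).2.2.1)

open Classical in
/-- The weight of an item given the history. -/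
noncomputable def st {Hf V P X : Type} [Fintype V] [Fintype P] {σ : P → P} (K : Consts P σ)
    (S : HS Hf V P) (cmp : V → X) (n₀ B : ℕ) (i : ℕ) (z : ℕ → Item Hf) (x : Item Hf) : ℝ :=
  if x.1 then
    (if 0 < i ∧ x.2.2.2 = ((z (i - 1)).2.2.2).map dsucc then
      ((B : ℝ) + 1) / (B + 2) * nrm K S cmp n₀ (cmp (S.vert (z (i - 1)).2.2.1))
        (σ (S.col (z (i - 1)).2.2.1)) (x.2.2.2.map (frc S σ z i)) x.2.1 x.2.2.1
    else 0)
  else 1 / ((B : ℝ) + 2) * exc S B (old S z i) x.2.1 x.2.2.1

theorem st_nonneg {Hf V P X : Type} [Fintype V] [Fintype P] {σ : P → P} (K : Consts P σ)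
    (S : HS Hf V P) (cmp : V → X) (n₀ B : ℕ) (i : ℕ) (z : ℕ → Item Hf) (x : Item Hf) :
    0 ≤ st K S cmp n₀ B i z x := by
  unfold st
  split_ifs
  · exact mul_nonneg (by positivity) (nrm_nonneg _ _ _ _ _ _ _ _ _)
  · exact le_rfl
  · exact mul_nonneg (by positivity) (exc_nonneg _ _ _ _ _)

theorem st_dep {Hf V P X : Type} [Fintype V] [Fintype P] {σ : P → P} (K : Consts P σ)
    (S : HS Hf V P) (cmp : V → X) (n₀ B : ℕ) (i : ℕ) (z z' : ℕ → Item Hf)
    (h : ∀ j < i, z j = z' j) : st K S cmp n₀ B i z = st K S cmp n₀ B i z' := by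
  funext x
  unfold st
  rw [old_dep S z z' i h]
  rcases Nat.eq_zero_or_pos i with hi | hi
  · simp [hi]
  · have e : frc S σ z i = frc S σ z' i := by
      funext y
      unfold frc
      rw [h (min y.1 (i - 1)) (by omega)]
    rw [e, h (i - 1) (by omega)]

/-- The admissible items. -/
def Its (Hf : Type) [Fintype Hf] (B : ℕ) : Finset (Item Hf) := univ ×ˢ univ ×ˢ univ ×ˢ Ptr B

theorem sum_st {Hf V P X : Type} [Fintype Hf] [Fintype V] [Fintype P] {σ : P → P}
    (K : Consts P σ) (S : HS Hf V P) (cmp : V → X) (n₀ B : ℕ) (hs : Scale K S cmp n₀)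
    (hn : 0 < n₀) (i : ℕ) (hi : i < B + 1) (z : ℕ → Item Hf) :
    ∑ x ∈ Its Hf B, st K S cmp n₀ B i z x ≤ 1 := by
  classical
  unfold Its
  rw [Finset.sum_product, Fintype.sum_bool]
  simp only [Finset.sum_product]
  have h1 : ∑ a : Hf, ∑ b : Hf, ∑ π ∈ Ptr B, st K S cmp n₀ B i z (true, a, b, π) ≤
      ((B : ℝ) + 1) / (B + 2) := by
    set π₀ := ((z (i - 1)).2.2.2).map dsucc
    calc _ ≤ ∑ a : Hf, ∑ b : Hf, ((B : ℝ) + 1) / (B + 2) *
            nrm K S cmp n₀ (cmp (S.vert (z (i - 1)).2.2.1))
              (σ (S.col (z (i - 1)).2.2.1)) (π₀.map (frc S σ z i)) a b := by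
          refine Finset.sum_le_sum (fun a _ => Finset.sum_le_sum (fun b _ => ?_))
          have nn : 0 ≤ ((B : ℝ) + 1) / (B + 2) *
            nrm K S cmp n₀ (cmp (S.vert (z (i - 1)).2.2.1))
              (σ (S.col (z (i - 1)).2.2.1)) (π₀.map (frc S σ z i)) a b :=
            mul_nonneg (by positivity) (nrm_nonneg _ _ _ _ _ _ _ _ _)
          calc _ ≤ ∑ π ∈ Ptr B, (if π = π₀ then ((B : ℝ) + 1) / (B + 2) *
                nrm K S cmp n₀ (cmp (S.vert (z (i - 1)).2.2.1))
                  (σ (S.col (z (i - 1)).2.2.1)) (π₀.map (frc S σ z i)) a b else 0) := by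
                refine Finset.sum_le_sum (fun π _ => ?_)
                unfold st
                simp only [if_true]
                by_cases hπ : π = π₀
                · subst hπ
                  rw [if_pos rfl]
                  split_ifs
                  · exact le_rfl
                  · exact nn
                · rw [if_neg hπ, if_neg (fun h => hπ h.2)]
            _ ≤ _ := by
                rw [Finset.sum_ite_eq']
                split_ifs
                · exact le_rfl
                · exact nn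
      _ ≤ _ := by
          simp only [← Finset.mul_sum]
          exact mul_le_of_le_one_right (by positivity) (sum_nrm K S cmp n₀ hs hn _ _ _)
  have h2 : ∑ a : Hf, ∑ b : Hf, ∑ π ∈ Ptr B, st K S cmp n₀ B i z (false, a, b, π) ≤
      1 / ((B : ℝ) + 2) := by
    have e : ∀ a b π, st K S cmp n₀ B i z (false, a, b, π) =
        1 / ((B : ℝ) + 2) * exc S B (old S z i) a b := by
      intro a b π
      unfold st
      simp
    simp only [e, Finset.sum_const, nsmul_eq_mul, ← Finset.mul_sum]
    rw [mul_left_comm]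
    refine mul_le_of_le_one_right (by positivity) ?_
    have h3 := sum_exc S B (old S z i) (le_trans (old_card S z i) (by omega))
    have h4 := Ptr_card B
    calc _ ≤ 3 * ((B : ℝ) + 1) * (1 / (3 * ((B : ℝ) + 1))) :=
          mul_le_mul h4 h3 (Finset.sum_nonneg (fun a _ => Finset.sum_nonneg
            (fun b _ => exc_nonneg _ _ _ _ _))) (by positivity)
      _ = 1 := by field_simp
  have h3 : ((B : ℝ) + 1) / (B + 2) + 1 / ((B : ℝ) + 2) = 1 := by
    field_simp
    ring
  linarith

end Crest.Agent.R177.SeqAux
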