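import Crest.Agent.R177.TopA2

/-!
Task R177-TA: the Cayley complex is contractible (obstruction theory by hand).

`o = c.v 1`.  For a space `K` and `χ : C(K, E)` let `𝒫 χ = {(k, γ) : K × C(I, E) | γ 0 = χ k ∧ γ 1 = o}`; a map
`d : C(K', K)` with `χ ∘ d = χ'` induces `𝒫 χ' → 𝒫 χ`.  `Ω = {γ : C(I,E) | γ 0 = o ∧ γ 1 = o}`.  `cat` = concatenation of
composable elements of `C(I,E)` (continuous on the subtype of composable pairs: uncurry and `continuous_if_le`, or
`Continuous.path_trans`).
1. `H = Perm (Σ g, Path.Homotopic.Quotient (v g) o)`; the generator `s` acts by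
   `(g * x s, q) ↦ (g, e (g,s) · q)` (bijective); `f (g,t)` and convexity of `Tri` give the relations; `Q.univ` gives an
   action of `G`, and with `Q.gen` one gets paths `p g` from `v g` to `o` with `e (g,s) · p (g * x s) ≃ p g`
   (`p g` = class obtained from `(1, refl)` by `g⁻¹`-ish; check by `Subgroup.closure_induction` that the action moves the first
   coordinate by right multiplication).
2. Hence `(0, p g)` and `(1, p (g * x s))` are joined by a path `η₀ (g,s)` in `𝒫 (e (g,s))`
   (homotopy `p g ≃ e · p'`, then slide `r ↦ (r, e|[r,1] · p')`, then `const · p' ≃ p'`).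
3. `𝒜` = subgroup of `∏ (cells c : edges and triangles) (y : 𝒫 c), FundamentalGroup (𝒫 c) y` of the families that are natural
   (`a y · m = m · a y'` for every path class `m` from `y` to `y'` in `𝒫 c`) and compatible with the three face maps.  It is
   commutative (naturality with `m = b y`).  (*) For a triangle `c`, `y ∈ 𝒫 c` and a loop `m` at `y` there is `a ∈ 𝒜` with
   `a y = m`: `μ : 𝒫 χ × Ω → 𝒫 χ`, `((k,γ),ω) ↦ (k, γ · ω)`, `U y = μ (y, const)`, `U ≃ id` by reparametrisation
   (track `tr y` from `U y` to `y`); a loop `A` in `Ω` at `const` defines `a y = (tr y)⁻¹ · μ (refl y, A) · tr y ∈ 𝒜`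
   (naturality: `Path.Homotopic.prod`/`comp_prod_eq_prod_comp` and naturality of the track of a homotopy).  For `y₀ = (k₀, γ₀)`
   let `J ω = μ (y₀, ω)`, `R (k,γ) = γ₀⁻¹ · (χ ∘ seg k₀ k · γ)`; `J ∘ R ≃ id`, so every loop at `y₀` is conjugate (in the groupoid) to
   `J (A)` with `A` a loop at `const` (`R y₀` is joined to `const` in `Ω`); by naturality it equals `a y₀`.
4. For a triangle let `κ (g,t) ∈ 𝒜` have component `η₀ c · (η₀ a · η₀ b)⁻¹` at `(vertex 0, p g)`; `Q.cs` (with
   `M = Additive 𝒜`) gives `ψ`; `η (g,s) = ψ (g,s) (0, p g) · η₀ (g,s)` satisfies `η a · η b ≃ η c` in `𝒫 (f (g,t))`.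
5. If `p · q ≃ r` rel endpoints in `Y` there is `Gm : C(Tri, Y)` with sides `p, q, r`: the map `I × I → Tri`,
   `(s,u) ↦ (1-s) β u + s ρ u` (`β` the broken path `0 → 1 → 2`, `ρ` the side `0 → 2`) is a quotient map, injective except on
   `u ∈ {0,1}` (in coordinates `u = p.2 + p.1/2`, `p.1 = 2 (1-s) min u (1-u)`).
6. Glue into `Y = C(I, E)`: for a cell `χ : C(K,E)` (`K` convex) with `Gm k = (k', γ)` use `cat (χ ∘ seg k k') γ`; for vertices
   `cat (const) (p g)`.  Face maps are affine, so these are `CellMaps`.  The glued `F : C(E, C(I,E))` has `F z 0 = z`, `F z 1 = o`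
   (`surj`); uncurry and use `contractible_iff_id_nullhomotopic`.
-/

set_option autoImplicit false

namespace Crest.Agent.R177

namespace TopA

open unitInterval Path.Homotopic.Quotient

variable {G : Type} [Group G] {S T : Type} {Qp : TriPres G S T} {E : Type} [TopologicalSpace E]
  (c : CellMaps Qp E)

/-- the path along an edge -/
def ep (g : G) (s : S) (g' : G) (h : g' = g * Qp.x s) : Path (c.v g) (c.v g') :=
  ⟨c.e (g, s), c.e0 g s, by rw [h]; exact c.e1 g s⟩

lemma joined_v (g : G) : Joined (c.v g) (c.v 1) := by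
  have h1 : ∀ g : G, ∀ h, Joined (c.v h) (c.v (h * g)) := by
    intro g
    have hg : g ∈ Subgroup.closure (Set.range Qp.x) := Qp.gen ▸ Subgroup.mem_top g
    induction hg using Subgroup.closure_induction with
    | mem x hx =>
      obtain ⟨s, rfl⟩ := hx
      exact fun h => ⟨ep c h s _ rfl⟩
    | one => intro h; rw [mul_one]
    | mul x y _ _ hx hy =>
      intro h
      rw [← mul_assoc]
      exact (hx h).trans (hy _)
    | inv x _ hx =>
      intro h
      have := hx (h * x⁻¹)
      rw [inv_mul_cancel_right] at this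
      exact this.symm
  have := h1 g 1
  rw [one_mul] at this
  exact this.symm

lemma rel' (g : G) (t : T) : g * Qp.x (Qp.c t) = g * Qp.x (Qp.a t) * Qp.x (Qp.b t) := by
  rw [mul_assoc, Qp.rel]

lemma ep_tri (g : G) (t : T) :
    (mk (ep c g (Qp.a t) _ rfl)).trans (mk (ep c _ (Qp.b t) _ (rel' g t))) =
      mk (ep c g (Qp.c t) _ rfl) := by
  let p1 : Path (d01 0) (d01 1) := ⟨d01, rfl, rfl⟩
  let p2 : Path (d01 1) (d02 1) := ⟨d12, d_11, d_22⟩
  let p3 : Path (d01 0) (d02 1) := ⟨d02, d_00, rfl⟩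
  have h0 : c.v g = c.f (g, t) (d01 0) := by rw [c.f01, c.e0]
  have h2 : c.v (g * Qp.x (Qp.c t)) = c.f (g, t) (d02 1) := by rw [c.f02, c.e1]
  have h := ((segT.homotopic (p1.trans p2) p3).map (c.f (g, t))).pathCast h0 h2
  rw [← mk_trans, Path.Homotopic.Quotient.eq]
  convert h using 1
  · ext r
    simp only [Path.cast_coe, Path.map_coe, Function.comp_apply, Path.trans_apply]
    split_ifs
    · exact (c.f01 g t _).symm
    · exact (c.f12 g t _).symm
  · ext r
    exact (c.f02 g t r).symm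

lemma exists_paths : ∃ p : ∀ g, Path (c.v g) (c.v 1), ∀ g s,
    ((ep c g s _ rfl).trans (p (g * Qp.x s))).Homotopic (p g) := by
  let p₀ : ∀ g, Q (c.v g) (c.v 1) := fun g => mk (joined_v c g).somePath
  let l : G × S → FundamentalGroup E (c.v 1) := fun i =>
    (p₀ i.1).symm.trans ((mk (ep c i.1 i.2 _ rfl)).trans (p₀ _))
  have hl : ∀ g s g' (h : g' = g * Qp.x s),
      l (g, s) = (p₀ g).symm.trans ((mk (ep c g s g' h)).trans (p₀ g')) := by
    intro g s g' h; subst h; rfl
  obtain ⟨w, hw⟩ := cocycle Qp l (fun g t => by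
    rw [FundamentalGroup.mul_def, hl g (Qp.a t) _ rfl, hl _ (Qp.b t) _ (rel' g t),
      hl g (Qp.c t) _ rfl, ← ep_tri]
    simp only [trans_assoc, trans_symm_cancel])
  have hex : ∀ g, ∃ p : Path (c.v g) (c.v 1),
      mk p = (p₀ g).trans (Path.Homotopic.Quotient.symm (w g)) :=
    fun g => mk_surjective _
  choose p hp using hex
  refine ⟨p, fun g s => ?_⟩
  rw [← Path.Homotopic.Quotient.eq, mk_trans, hp, hp, hw, FundamentalGroup.mul_def, hl g s _ rfl]
  simp only [symm_trans', symm_symm', trans_assoc, trans_symm_cancel]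

variable (p : ∀ g, Path (c.v g) (c.v 1))

/-- start point over an edge -/
def y0 (g : G) (s : S) : PP (c.v 1) (c.e (g, s)) :=
  mkP 0 (p g).toContinuousMap ((p g).source.trans (c.e0 g s).symm) (p g).target

/-- end point over an edge -/
def y1 (g : G) (s : S) : PP (c.v 1) (c.e (g, s)) :=
  mkP 1 (p (g * Qp.x s)).toContinuousMap ((p _).source.trans (c.e1 g s).symm) (p _).target

lemma joined_edge (g : G) (s : S) (h : ((ep c g s _ rfl).trans (p (g * Qp.x s))).Homotopic (p g)) :
    Joined (y0 c p g s) (y1 c p g s) := by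
  have h1 : Joined (y1 c p g s) (DD segI _ _ 0 (y1 c p g s)) :=
    ⟨(slideH segI _ _ 0).evalAt (y1 c p g s)⟩
  have h2 := joined_of_homotopic (χ := c.e (g, s)) 0 (c.e0 g s).symm h
  refine (h1.trans ((congrArg (fun z => Joined z (y0 c p g s)) ?_).mpr h2)).symm
  refine Subtype.ext (Prod.ext rfl ?_)
  change cat _ _ (segI.path_one 0 (y1 c p g s)) =
    ((ep c g s _ rfl).trans (p (g * Qp.x s))).toContinuousMap
  rw [← cat_eq_trans _ _ (by simp)]
  refine cat_congr ?_ rfl _ _
  ext u
  rw [Seg.path_apply]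
  change c.e (g, s) _ = c.e (g, s) u
  congr 1
  ext
  simp [segI_coe, y1, mkP]

/-- the three face maps -/
def F01 (g : G) (t : T) : C(PP (c.v 1) (c.e (g, Qp.a t)), PP (c.v 1) (c.f (g, t))) :=
  face d01 (c.f01 g t)

/-- the three face maps -/
def F12 (g : G) (t : T) :
    C(PP (c.v 1) (c.e (g * Qp.x (Qp.a t), Qp.b t)), PP (c.v 1) (c.f (g, t))) :=
  face d12 (c.f12 g t)

/-- the three face maps -/
def F02 (g : G) (t : T) : C(PP (c.v 1) (c.e (g, Qp.c t)), PP (c.v 1) (c.f (g, t))) :=
  face d02 (c.f02 g t)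

lemma z0_eq (g : G) (t : T) : F01 c g t (y0 c p g _) = F02 c g t (y0 c p g _) :=
  Subtype.ext (Prod.ext d_00.symm rfl)

lemma z1_eq (g : G) (t : T) : F01 c g t (y1 c p g _) = F12 c g t (y0 c p _ _) :=
  Subtype.ext (Prod.ext d_11.symm rfl)

lemma z2_eq (g : G) (t : T) : F02 c g t (y1 c p g _) = F12 c g t (y1 c p _ _) := by
  refine Subtype.ext (Prod.ext d_22.symm ?_)
  change (p (g * Qp.x (Qp.c t))).toContinuousMap = (p (g * Qp.x (Qp.a t) * Qp.x (Qp.b t))).toContinuousMap
  rw [rel']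

lemma exists_edges (hp : ∀ g s, ((ep c g s _ rfl).trans (p (g * Qp.x s))).Homotopic (p g)) :
    ∃ η : ∀ i : G × S, Path (y0 c p i.1 i.2) (y1 c p i.1 i.2), ∀ g t,
      (((η (g, Qp.a t)).map (F01 c g t).continuous).trans
        (((η (g * Qp.x (Qp.a t), Qp.b t)).map (F12 c g t).continuous).cast
          (z1_eq c p g t) (z2_eq c p g t))).Homotopic
        (((η (g, Qp.c t)).map (F02 c g t).continuous).cast (z0_eq c p g t) rfl) := by
  let η₀ : ∀ i : G × S, Q (y0 c p i.1 i.2) (y1 c p i.1 i.2) := fun i =>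
    mk (joined_edge c p i.1 i.2 (hp i.1 i.2)).somePath
  let α := fun g t => ((η₀ (g, Qp.a t)).map (F01 c g t)).cast rfl rfl
  let β := fun g t => ((η₀ (g * Qp.x (Qp.a t), Qp.b t)).map (F12 c g t)).cast
    (z1_eq c p g t) (z2_eq c p g t)
  let γ := fun g t => ((η₀ (g, Qp.c t)).map (F02 c g t)).cast (z0_eq c p g t) rfl
  choose κ hκ using fun i : G × T => act_surj segT (F01 c i.1 i.2 (y0 c p i.1 _))
    ((γ i.1 i.2).trans ((β i.1 i.2).symm.trans (α i.1 i.2).symm))
  obtain ⟨ψ, hψ⟩ := Qp.cs (Additive (Abelianization (FundamentalGroup (Om (c.v 1)) (cst _))))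
    (fun i => Additive.ofMul (Abelianization.of (κ i)))
  have hex : ∀ i, ∃ A : FundamentalGroup (Om (c.v 1)) (cst _),
      Abelianization.of A = Additive.toMul (ψ i) :=
    fun i => QuotientGroup.mk_surjective _
  choose A hA using hex
  have hex2 : ∀ i : G × S, ∃ η : Path (y0 c p i.1 i.2) (y1 c p i.1 i.2),
      mk η = (act (y0 c p i.1 i.2) (A i)).trans (η₀ i) := fun i => mk_surjective _
  choose η hη using hex2
  refine ⟨η, fun g t => ?_⟩
  have h1 := act_of_ab (F01 c g t (y0 c p g _)) (A := A (g, Qp.a t))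
    (B := A (g * Qp.x (Qp.a t), Qp.b t)) (C := A (g, Qp.c t)) (D := κ (g, t)) (by
      rw [hA, hA, hA]
      exact congrArg Additive.toMul (hψ g t))
  rw [hκ (g, t)] at h1
  have e1 : mk ((η (g, Qp.a t)).map (F01 c g t).continuous) =
      (act (F01 c g t (y0 c p g _)) (A (g, Qp.a t))).trans (α g t) := by
    rw [mk_map, hη, ← cast_rfl_rfl (Path.Homotopic.Quotient.map _ _)]
    exact act_face_cast d01 (c.f01 g t) _ _ rfl rfl
  have e2 : mk (((η (g * Qp.x (Qp.a t), Qp.b t)).map (F12 c g t).continuous).cast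
      (z1_eq c p g t) (z2_eq c p g t)) =
      (act (F01 c g t (y1 c p g _)) (A (g * Qp.x (Qp.a t), Qp.b t))).trans (β g t) := by
    rw [mk_cast, mk_map, hη]
    exact act_face_cast d12 (c.f12 g t) _ _ (z1_eq c p g t) (z2_eq c p g t)
  have e3 : mk (((η (g, Qp.c t)).map (F02 c g t).continuous).cast (z0_eq c p g t) rfl) =
      (act (F01 c g t (y0 c p g _)) (A (g, Qp.c t))).trans (γ g t) := by
    rw [mk_cast, mk_map, hη]
    exact act_face_cast d02 (c.f02 g t) _ _ (z0_eq c p g t) rfl
  rw [← Path.Homotopic.Quotient.eq, mk_trans, e1, e2, e3, trans_assoc, ← trans_assoc (α g t),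
    ← act_nat (α g t), trans_assoc, ← trans_assoc, h1]
  simp only [trans_assoc, symm_trans_cancel, symm_trans, trans_refl]

/-- the section over a cell -/
noncomputable def sec {K : Type} [TopologicalSpace K] (Sg : Seg K) {o : E} {χ : C(K, E)}
    (Gm : C(K, PP o χ)) : C(K, C(I, E)) :=
  ⟨fun k => cat (Sg.path χ k (Gm k).1.1) (Gm k).1.2 (Sg.path_one k (Gm k)), by
    refine continuous_cat (Sg.continuous_path χ ?_ ?_) ?_ _ <;> fun_prop⟩

lemma sec_apply {K : Type} [TopologicalSpace K] (Sg : Seg K) {o : E} {χ : C(K, E)}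
    (Gm : C(K, PP o χ)) (k : K) :
    sec Sg Gm k = cat (Sg.path χ k (Gm k).1.1) (Gm k).1.2 (Sg.path_one k (Gm k)) := rfl

lemma sec_zero {K : Type} [TopologicalSpace K] (Sg : Seg K) {o : E} {χ : C(K, E)}
    (Gm : C(K, PP o χ)) (k : K) : sec Sg Gm k 0 = χ k := by
  rw [sec_apply, cat_zero, Sg.path_apply, Sg.s0]

lemma sec_one {K : Type} [TopologicalSpace K] (Sg : Seg K) {o : E} {χ : C(K, E)}
    (Gm : C(K, PP o χ)) (k : K) : sec Sg Gm k 1 = o := by
  rw [sec_apply, cat_one, (Gm k).2.2]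

lemma sec_face {o : E} {χ : C(Tri, E)} {χ' : C(I, E)} (d : C(I, Tri)) (hd : ∀ k, χ (d k) = χ' k)
    (hs : ∀ a b u, segT.s (d a, d b, u) = d (segI.s (a, b, u))) (Gm : C(Tri, PP o χ))
    (η : C(I, PP o χ')) (r : I) (h : Gm (d r) = face d hd (η r)) :
    sec segT Gm (d r) = sec segI η r := by
  rw [sec_apply, sec_apply]
  refine cat_congr ?_ (by rw [h]; rfl) _ _
  ext u
  rw [Seg.path_apply, Seg.path_apply, h, ← hd, ← hs]
  rfl

lemma sec_vertex {o : E} {χ' : C(I, E)} (η : C(I, PP o χ')) (r : I) {x : E} (q : Path x o)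
    (h1 : (η r).1.1 = r) (h2 : (η r).1.2 = q.toContinuousMap) (hx : χ' r = x) :
    sec segI η r = cat (ContinuousMap.const I x) q.toContinuousMap q.source.symm := by
  rw [sec_apply]
  refine cat_congr ?_ h2 _ _
  ext u
  rw [Seg.path_apply, h1, segI.sk, hx]
  rfl

end TopA

open TopA unitInterval in
theorem contractible_of_cellSpace {G : Type} [Group G] {S T : Type} {Q : TriPres G S T} {E : Type}
    [TopologicalSpace E] (c : CellMaps Q E) (hc : IsCellSpace c) : ContractibleSpace E := by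
  obtain ⟨p, hp⟩ := exists_paths c
  obtain ⟨η, hη⟩ := exists_edges c p hp
  choose Gm h01 h12 h02 using fun i : G × T => fill _ _ _ (hη i.1 i.2)
  let c' : CellMaps Q C(I, E) :=
    { v := fun g => cat (ContinuousMap.const I (c.v g)) (p g).toContinuousMap (p g).source.symm
      e := fun i => sec segI (η i).toContinuousMap
      f := fun i => sec segT (Gm i)
      e0 := fun g s => sec_vertex _ 0 (p g) (congrArg (fun y => y.1.1) (η (g, s)).source)
        (congrArg (fun y => y.1.2) (η (g, s)).source) (c.e0 g s)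
      e1 := fun g s => sec_vertex _ 1 (p _) (congrArg (fun y => y.1.1) (η (g, s)).target)
        (congrArg (fun y => y.1.2) (η (g, s)).target) (c.e1 g s)
      f01 := fun g t r => sec_face d01 (c.f01 g t) seg_d01 _ _ r (h01 (g, t) r)
      f12 := fun g t r => sec_face d12 (c.f12 g t) seg_d12 _ _ r (h12 (g, t) r)
      f02 := fun g t r => sec_face d02 (c.f02 g t) seg_d02 _ _ r (h02 (g, t) r) }
  obtain ⟨F, hv, he, hf⟩ := hc.glue C(I, E) c'
  have hF : ∀ z, F z 0 = z ∧ F z 1 = c.v 1 := by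
    intro z
    rcases hc.surj z with ⟨g, rfl⟩ | ⟨i, r, rfl⟩ | ⟨i, k, rfl⟩
    · rw [hv]
      exact ⟨cat_zero _ _ (p g).source.symm, (cat_one _ _ (p g).source.symm).trans (p g).target⟩
    · rw [he]
      exact ⟨sec_zero _ _ _, sec_one _ _ _⟩
    · rw [hf]
      exact ⟨sec_zero _ _ _, sec_one _ _ _⟩
  rw [contractible_iff_id_nullhomotopic]
  exact ⟨c.v 1, ⟨{ toFun := fun z => F z.2 z.1
                   continuous_toFun := by fun_prop
                   map_zero_left := fun z => (hF z).1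
                   map_one_left := fun z => (hF z).2 }⟩⟩

end Crest.Agent.R177
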