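import Crest.Agent.R177.TopDefs

/-! Task R177-TA, part 1: spaces of paths over a cell, the action of loops in the loop space. -/

set_option autoImplicit false

namespace Crest.Agent.R177.TopA

open unitInterval Set

variable {E : Type} [TopologicalSpace E]

/-- clamp to the unit interval -/
noncomputable abbrev pj (x : ℝ) : I := projIcc (0 : ℝ) 1 zero_le_one x

/-- two paths, parametrised by `[-1, 0]` and `[0, 1]` -/
noncomputable def cext (γ γ' : C(I, E)) (τ : ℝ) : E :=
  if τ ≤ 0 then γ (pj (τ + 1)) else γ' (pj τ)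

lemma continuous_cext {Z : Type*} [TopologicalSpace Z] {A B : Z → C(I, E)} (hA : Continuous A)
    (hB : Continuous B) (h : ∀ z, A z 1 = B z 0) {w : Z → ℝ} (hw : Continuous w) :
    Continuous fun z => cext (A z) (B z) (w z) := by
  unfold cext
  refine Continuous.if_le ?_ ?_ hw continuous_const ?_
  · exact hA.eval (continuous_projIcc.comp (hw.add continuous_const))
  · exact hB.eval (continuous_projIcc.comp hw)
  · intro z hz
    simp [hz, h z]

lemma cext_sub_one (γ γ' : C(I, E)) (t : I) : cext γ γ' ((t : ℝ) - 1) = γ t := by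
  have : (t : ℝ) - 1 ≤ 0 := by linarith [t.2.2]
  simp [cext, this]

lemma cext_neg (γ γ' : C(I, E)) (t : I) : cext γ γ' (-(t : ℝ)) = γ (σ t) := by
  rw [← cext_sub_one γ γ' (σ t)]
  congr 1
  simp

lemma cext_coe {γ γ' : C(I, E)} (h : γ 1 = γ' 0) (t : I) : cext γ γ' (t : ℝ) = γ' t := by
  unfold cext
  split_ifs with ht
  · have : t = 0 := Subtype.ext (le_antisymm ht t.2.1)
    subst this
    simpa using h
  · simp

/-- concatenation -/
noncomputable def cat (γ γ' : C(I, E)) (h : γ 1 = γ' 0) : C(I, E) :=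
  ⟨fun t => cext γ γ' (2 * (t : ℝ) - 1),
    continuous_cext continuous_const continuous_const (fun _ => h) (by fun_prop)⟩

lemma cat_apply (γ γ' : C(I, E)) (h : γ 1 = γ' 0) (t : I) :
    cat γ γ' h t = cext γ γ' (2 * (t : ℝ) - 1) := rfl

lemma cat_zero (γ γ' : C(I, E)) (h : γ 1 = γ' 0) : cat γ γ' h 0 = γ 0 := by
  rw [← cext_sub_one γ γ' 0, cat_apply]; simp

lemma cat_one (γ γ' : C(I, E)) (h : γ 1 = γ' 0) : cat γ γ' h 1 = γ' 1 := by
  rw [← cext_coe h 1, cat_apply]; norm_num

lemma continuous_cat {Z : Type*} [TopologicalSpace Z] {A B : Z → C(I, E)} (hA : Continuous A)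
    (hB : Continuous B) (h : ∀ z, A z 1 = B z 0) : Continuous fun z => cat (A z) (B z) (h z) := by
  refine ContinuousMap.continuous_of_continuous_uncurry _ ?_
  exact continuous_cext (Z := Z × I) (hA.comp continuous_fst) (hB.comp continuous_fst)
    (fun z => h z.1) (w := fun z => 2 * (z.2 : ℝ) - 1) (by fun_prop)

lemma cat_congr {γ₁ γ₂ γ₁' γ₂' : C(I, E)} (e1 : γ₁ = γ₂) (e2 : γ₁' = γ₂') (h : γ₁ 1 = γ₁' 0)
    (h' : γ₂ 1 = γ₂' 0) : cat γ₁ γ₁' h = cat γ₂ γ₂' h' := by
  subst e1 e2; rfl

lemma cat_eq_trans {x y z : E} (p : Path x y) (q : Path y z)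
    (h : p.toContinuousMap 1 = q.toContinuousMap 0) :
    cat p.toContinuousMap q.toContinuousMap h = (p.trans q).toContinuousMap := by
  ext t
  rw [cat_apply, Path.coe_toContinuousMap, Path.trans_apply]
  unfold cext
  by_cases ht : (t : ℝ) ≤ 1 / 2
  · rw [if_pos (by linarith), dif_pos ht, Path.coe_toContinuousMap]
    congr 1
    rw [sub_add_cancel]
    exact projIcc_of_mem _ _
  · rw [if_neg (by linarith), dif_neg ht, Path.coe_toContinuousMap]
    congr 1
    exact projIcc_of_mem _ _

variable {K : Type} [TopologicalSpace K]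

/-- points of the cell with a path to the base point -/
abbrev PP (o : E) (χ : C(K, E)) : Type := {y : K × C(I, E) // y.2 0 = χ y.1 ∧ y.2 1 = o}

/-- the loop space -/
abbrev Om (o : E) : Type := PP o (ContinuousMap.const Unit o)

/-- the constant loop -/
def cst (o : E) : Om o := ⟨((), ContinuousMap.const I o), rfl, rfl⟩

variable {o : E} {χ : C(K, E)}

/-- constructor -/
def mkP (k : K) (γ : C(I, E)) (h0 : γ 0 = χ k) (h1 : γ 1 = o) : PP o χ := ⟨(k, γ), h0, h1⟩

lemma continuous_mkP {Z : Type*} [TopologicalSpace Z] {a : Z → K} {A : Z → C(I, E)}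
    (ha : Continuous a) (hA : Continuous A) (h0 : ∀ z, A z 0 = χ (a z)) (h1 : ∀ z, A z 1 = o) :
    Continuous fun z => mkP (a z) (A z) (h0 z) (h1 z) :=
  Continuous.subtype_mk (Continuous.prodMk ha hA) _

lemma mu_aux (y : PP o χ) (ω : Om o) : y.1.2 1 = ω.1.2 0 := y.2.2.trans ω.2.1.symm

noncomputable def mu (y : PP o χ) (ω : Om o) : PP o χ :=
  mkP y.1.1 (cat y.1.2 ω.1.2 (mu_aux y ω)) ((cat_zero _ _ _).trans y.2.1)
    ((cat_one _ _ _).trans ω.2.2)

lemma continuous_mu {Z : Type*} [TopologicalSpace Z] {A : Z → PP o χ} {B : Z → Om o}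
    (hA : Continuous A) (hB : Continuous B) : Continuous fun z => mu (A z) (B z) :=
  continuous_mkP (a := fun z => (A z).1.1) (by fun_prop)
    (continuous_cat (A := fun z => (A z).1.2) (B := fun z => (B z).1.2) (by fun_prop) (by fun_prop)
      (fun z => mu_aux (A z) (B z))) _ _

/-- reparametrised pair of paths -/
noncomputable def rep (γ γ' : C(I, E)) (h : γ 1 = γ' 0) (w : I → ℝ) (hw : Continuous w) : C(I, E) :=
  ⟨fun t => cext γ γ' (w t), continuous_cext continuous_const continuous_const (fun _ => h) hw⟩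

lemma rep_apply (γ γ' : C(I, E)) (h : γ 1 = γ' 0) (w : I → ℝ) (hw : Continuous w) (t : I) :
    rep γ γ' h w hw t = cext γ γ' (w t) := rfl

lemma continuous_rep {Z : Type*} [TopologicalSpace Z] {A B : Z → C(I, E)} (hA : Continuous A)
    (hB : Continuous B) (h : ∀ z, A z 1 = B z 0) {w : Z → I → ℝ}
    (hw : Continuous fun z : Z × I => w z.1 z.2) (hw' : ∀ z, Continuous (w z)) :
    Continuous fun z => rep (A z) (B z) (h z) (w z) (hw' z) := by
  refine ContinuousMap.continuous_of_continuous_uncurry _ ?_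
  exact continuous_cext (Z := Z × I) (hA.comp continuous_fst) (hB.comp continuous_fst)
    (fun z => h z.1) hw

noncomputable def UU (o : E) (χ : C(K, E)) : C(PP o χ, PP o χ) :=
  ⟨fun y => mu y (cst o), continuous_mu continuous_id continuous_const⟩

noncomputable def JJ (y : PP o χ) : C(Om o, PP o χ) :=
  ⟨fun ω => mu y ω, continuous_mu continuous_const continuous_id⟩

/-- `γ · const ≃ γ` -/
noncomputable def trH (o : E) (χ : C(K, E)) : (UU o χ).Homotopy (ContinuousMap.id _) where
  toFun z := mkP z.2.1.1 (rep z.2.1.2 (ContinuousMap.const I o) z.2.2.2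
      (fun t => (2 - (z.1 : ℝ)) * t - 1) (by fun_prop))
      (by
        refine Eq.trans ?_ ((cext_sub_one z.2.1.2 (ContinuousMap.const I o) 0).trans z.2.2.1)
        simp [rep_apply])
      (by
        refine Eq.trans ?_ (cext_coe (γ' := ContinuousMap.const I o) z.2.2.2 (σ z.1))
        rw [rep_apply]
        congr 1
        simp only [Icc.coe_one, coe_symm_eq]
        ring)
  continuous_toFun := by
    refine continuous_mkP ?_ (continuous_rep ?_ ?_ _ ?_ _) _ _ <;> fun_prop
  map_zero_left y := by
    refine Subtype.ext (Prod.ext rfl ?_)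
    ext t
    simp [UU, mu, mkP, cat_apply, cst, rep_apply]
  map_one_left y := by
    refine Subtype.ext (Prod.ext rfl ?_)
    ext t
    refine Eq.trans ?_ (cext_sub_one y.1.2 (ContinuousMap.const I o) t)
    simp only [mkP, rep_apply, Icc.coe_one]
    congr 1
    ring

/-- homotopy classes of paths -/
abbrev Q {X : Type} [TopologicalSpace X] (x y : X) : Type := Path.Homotopic.Quotient x y

section groupoid
open Path.Homotopic.Quotient
variable {X Y : Type} [TopologicalSpace X] [TopologicalSpace Y] {x y z : X}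

lemma symm_trans_cancel (a : Q x y) (b : Q y z) : a.symm.trans (a.trans b) = b := by
  rw [← trans_assoc, symm_trans, refl_trans]

lemma trans_symm_cancel (a : Q y x) (b : Q y z) : a.trans (a.symm.trans b) = b := by
  rw [← trans_assoc, trans_symm, refl_trans]

lemma cancel_left (a : Q x y) {b c : Q y z} (h : a.trans b = a.trans c) : b = c := by
  rw [← symm_trans_cancel a b, h, symm_trans_cancel]

lemma cancel_right (a : Q y z) {b c : Q x y} (h : b.trans a = c.trans a) : b = c := by
  have := congrArg (fun q => Path.Homotopic.Quotient.trans q a.symm) h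
  simpa using this

lemma map_trans' (a : Q x y) (b : Q y z) (f : C(X, Y)) :
    (a.trans b).map f = (a.map f).trans (b.map f) :=
  (FundamentalGroupoid.map f).map_comp (X := ⟨x⟩) (Y := ⟨y⟩) (Z := ⟨z⟩) a b

lemma map_symm' (a : Q x y) (f : C(X, Y)) : a.symm.map f = (a.map f).symm := by
  apply cancel_left (a.map f)
  rw [← map_trans', trans_symm, trans_symm]
  rfl

lemma symm_trans' (a : Q x y) (b : Q y z) : (a.trans b).symm = b.symm.trans a.symm := by
  apply cancel_left (a.trans b)
  rw [trans_symm, trans_assoc, trans_symm_cancel, trans_symm]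

lemma symm_symm' (a : Q x y) : a.symm.symm = a := by
  apply cancel_left a.symm
  rw [trans_symm, symm_trans]

lemma map_id' (a : Q x y) : a.map (ContinuousMap.id X) = a := by
  induction a using Path.Homotopic.Quotient.ind
  rfl

lemma nat_homotopy {f g : C(X, Y)} (H : f.Homotopy g) (m : Q x y) :
    (m.map f).trans (mk (H.evalAt y)) = (mk (H.evalAt x)).trans (m.map g) := by
  induction m using Path.Homotopic.Quotient.ind with
  | mk p => exact Path.Homotopic.Quotient.eq.2 (Path.Homotopic.map_trans_evalAt H p)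

end groupoid

open Path.Homotopic.Quotient

noncomputable def trq (y : PP o χ) : Q (mu y (cst o)) y := mk ((trH o χ).evalAt y)

noncomputable def muq (y : PP o χ) {ω ω' : Om o} (A : Q ω ω') : Q (mu y ω) (mu y ω') :=
  A.map (JJ y)

noncomputable def mapU {y y' : PP o χ} (m : Q y y') : Q (mu y (cst o)) (mu y' (cst o)) :=
  m.map (UU o χ)

lemma muq_trans (y : PP o χ) {ω ω' ω'' : Om o} (A : Q ω ω') (B : Q ω' ω'') :
    muq y (A.trans B) = (muq y A).trans (muq y B) := map_trans' A B (JJ y)

lemma muq_symm (y : PP o χ) {ω ω' : Om o} (A : Q ω ω') : muq y A.symm = (muq y A).symm :=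
  map_symm' A (JJ y)

lemma trq_nat {y y' : PP o χ} (m : Q y y') : (mapU m).trans (trq y') = (trq y).trans m := by
  have := nat_homotopy (trH o χ) m
  rw [map_id'] at this
  exact this

lemma muq_nat {y y' : PP o χ} (m : Q y y') (A : Q (cst o) (cst o)) :
    (mapU m).trans (muq y' A) = (muq y A).trans (mapU m) := by
  induction A using Path.Homotopic.Quotient.ind with
  | mk A =>
    let H : (UU o χ).Homotopy (UU o χ) :=
      { toFun := fun z => mu z.2 (A z.1)
        continuous_toFun := continuous_mu continuous_snd (by fun_prop)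
        map_zero_left := fun y => by simp [UU]
        map_one_left := fun y => by simp [UU] }
    exact nat_homotopy H m

/-- the action of loops in the loop space -/
noncomputable def act (y : PP o χ) (A : Q (cst o) (cst o)) : Q y y :=
  (trq y).symm.trans ((muq y A).trans (trq y))

lemma act_trans (y : PP o χ) (A B : Q (cst o) (cst o)) :
    act y (A.trans B) = (act y A).trans (act y B) := by
  simp only [act, muq_trans, trans_assoc, trans_symm_cancel]

lemma act_nat {y y' : PP o χ} (m : Q y y') (A : Q (cst o) (cst o)) :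
    (act y A).trans m = m.trans (act y' A) := by
  apply cancel_left (trq y)
  simp only [act, trans_assoc, trans_symm_cancel]
  rw [← trq_nat, ← trans_assoc, ← muq_nat, ← trans_assoc (trq y), ← trq_nat]
  simp only [trans_assoc, trans_symm_cancel]

lemma ab_aux {G H : Type*} [Group G] [Group H] (φ : G → H) (h1 : ∀ a b, φ (a * b) = φ a * φ b)
    (h2 : ∀ a m, m * φ a = φ a * m) {A B C D : G}
    (h : Abelianization.of A * Abelianization.of B / Abelianization.of C = Abelianization.of D) :
    φ B * φ A = φ D * φ C := by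
  let _ : CommGroup (Subgroup.center H) :=
    { (inferInstance : Group (Subgroup.center H)) with
      mul_comm := fun a b => Subtype.ext (Subgroup.mem_center_iff.1 b.2 a) }
  let f : G →* Subgroup.center H := MonoidHom.mk'
    (fun a => ⟨φ a, Subgroup.mem_center_iff.2 (h2 a)⟩) (fun a b => Subtype.ext (h1 a b))
  have h3 := congrArg (Abelianization.lift f) h
  simp only [map_div, map_mul, Abelianization.lift_apply_of] at h3
  rw [div_eq_iff_eq_mul, mul_comm (f A)] at h3
  exact congrArg Subtype.val h3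

lemma act_of_ab (y : PP o χ) {A B C D : FundamentalGroup (Om o) (cst o)}
    (h : Abelianization.of A * Abelianization.of B / Abelianization.of C = Abelianization.of D) :
    (act y A).trans (act y B) = (act y C).trans (act y D) :=
  ab_aux (G := FundamentalGroup (Om o) (cst o)) (H := FundamentalGroup (PP o χ) y)
    (fun A => act y A) (fun A B => act_trans y B A)
    (fun A m => act_nat m A) h

/-- face maps -/
def face {K' : Type} [TopologicalSpace K'] {χ' : C(K', E)} (d : C(K', K)) (hd : ∀ k, χ (d k) = χ' k) :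
    C(PP o χ', PP o χ) :=
  ⟨fun y => mkP (d y.1.1) y.1.2 (y.2.1.trans (hd _).symm) y.2.2,
    by refine continuous_mkP ?_ ?_ _ _ <;> fun_prop⟩

lemma act_face {K' : Type} [TopologicalSpace K'] {χ' : C(K', E)} (d : C(K', K))
    (hd : ∀ k, χ (d k) = χ' k) (y : PP o χ') (A : Q (cst o) (cst o)) :
    (act y A).map (face d hd) = act (face d hd y) A := by
  induction A using Path.Homotopic.Quotient.ind with
  | mk A =>
    unfold act
    rw [map_trans', map_trans', map_symm']
    rfl

lemma act_face_cast {K' : Type} [TopologicalSpace K'] {χ' : C(K', E)} (d : C(K', K))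
    (hd : ∀ k, χ (d k) = χ' k) {y y' : PP o χ'} (A : Q (cst o) (cst o)) (η : Q y y')
    {z z' : PP o χ} (h : z = face d hd y) (h' : z' = face d hd y') :
    (((act y A).trans η).map (face d hd)).cast h h' =
      (act z A).trans ((η.map (face d hd)).cast h h') := by
  subst h h'
  rw [cast_rfl_rfl, cast_rfl_rfl, map_trans', act_face]

lemma joined_of_homotopic {x : E} (k : K) (hk : x = χ k) {p q : Path x o} (h : p.Homotopic q) :
    Joined (⟨(k, p.toContinuousMap), p.source.trans hk, p.target⟩ : PP o χ)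
      ⟨(k, q.toContinuousMap), q.source.trans hk, q.target⟩ := by
  obtain ⟨H⟩ := h
  refine ⟨⟨⟨fun s => ⟨(k, H.toContinuousMap.curry s), (H.source s).trans hk, H.target s⟩,
    by fun_prop⟩, ?_, ?_⟩⟩
  · refine Subtype.ext (Prod.ext rfl ?_)
    ext t
    exact H.apply_zero t
  · refine Subtype.ext (Prod.ext rfl ?_)
    ext t
    exact H.apply_one t

/-- segments in a convex cell -/
structure Seg (K : Type) [TopologicalSpace K] where
  s : C(K × K × I, K)
  s0 : ∀ k k', s (k, k', 0) = k
  s1 : ∀ k k', s (k, k', 1) = k'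
  sk : ∀ k u, s (k, k, u) = k

/-- the image of a segment -/
def Seg.path (S : Seg K) (χ : C(K, E)) (k k' : K) : C(I, E) :=
  ⟨fun u => χ (S.s (k, k', u)), by fun_prop⟩

lemma Seg.path_apply (S : Seg K) (χ : C(K, E)) (k k' : K) (u : I) :
    S.path χ k k' u = χ (S.s (k, k', u)) := rfl

lemma Seg.continuous_path (S : Seg K) (χ : C(K, E)) {Z : Type*} [TopologicalSpace Z] {a b : Z → K}
    (ha : Continuous a) (hb : Continuous b) : Continuous fun z => S.path χ (a z) (b z) := by
  refine ContinuousMap.continuous_of_continuous_uncurry _ ?_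
  change Continuous fun z : Z × I => χ (S.s (a z.1, b z.1, z.2))
  fun_prop

lemma Seg.homotopic (S : Seg K) {k k' : K} (p q : Path k k') : p.Homotopic q :=
  ⟨{ toFun := fun z => S.s (p z.2, q z.2, z.1)
     continuous_toFun := by fun_prop
     map_zero_left := fun t => S.s0 _ _
     map_one_left := fun t => S.s1 _ _
     prop' := fun s t ht => by
       rcases ht with rfl | rfl
       · simp [S.sk]
       · simp [S.sk] }⟩

lemma Seg.path_one (S : Seg K) (k : K) (y : PP o χ) : S.path χ k y.1.1 1 = y.1.2 0 := by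
  rw [S.path_apply, S.s1, y.2.1]

/-- move to the base point `k₀` of the cell -/
noncomputable def DD (S : Seg K) (o : E) (χ : C(K, E)) (k₀ : K) : C(PP o χ, PP o χ) :=
  ⟨fun y => mkP k₀ (cat (S.path χ k₀ y.1.1) y.1.2 (S.path_one k₀ y))
      (by rw [cat_zero, S.path_apply, S.s0]) ((cat_one _ _ _).trans y.2.2),
    by refine continuous_mkP ?_ (continuous_cat (S.continuous_path χ ?_ ?_) ?_ _) _ _ <;> fun_prop⟩

noncomputable def slideH (S : Seg K) (o : E) (χ : C(K, E)) (k₀ : K) :
    (ContinuousMap.id _).Homotopy (DD S o χ k₀) where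
  toFun z := mkP (S.s (k₀, z.2.1.1, σ z.1)) (rep (S.path χ k₀ z.2.1.1) z.2.1.2 (S.path_one k₀ z.2)
      (fun t => (1 + (z.1 : ℝ)) * t - z.1) (by fun_prop))
      (by
        refine Eq.trans ?_ (cext_neg (S.path χ k₀ z.2.1.1) z.2.1.2 z.1)
        simp [rep_apply])
      (by
        refine Eq.trans ?_ ((cext_coe (S.path_one k₀ z.2) 1).trans z.2.2.2)
        simp [rep_apply])
  continuous_toFun := by
    refine continuous_mkP ?_ (continuous_rep (S.continuous_path χ ?_ ?_) ?_ _ ?_ _) _ _ <;> fun_prop
  map_zero_left y := by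
    refine Subtype.ext (Prod.ext (by simp [S.s1, mkP]) ?_)
    ext t
    refine Eq.trans ?_ (cext_coe (S.path_one k₀ y) t)
    simp [mkP, rep_apply]
  map_one_left y := by
    refine Subtype.ext (Prod.ext (by simp [S.s0, DD, mkP]) ?_)
    ext t
    simp only [DD, mkP, rep_apply, ContinuousMap.coe_mk, cat_apply, Icc.coe_one]
    congr 1
    ring

/-- reversed path -/
def rev (γ : C(I, E)) : C(I, E) := ⟨fun t => γ (σ t), by fun_prop⟩

lemma rev_one (S : Seg K) (y₀ y : PP o χ) : rev y₀.1.2 1 = (DD S o χ y₀.1.1 y).1.2 0 := by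
  rw [(DD S o χ y₀.1.1 y).2.1]
  simpa [rev, DD, mkP] using y₀.2.1

noncomputable def RR (S : Seg K) (y₀ : PP o χ) : C(PP o χ, Om o) :=
  ⟨fun y => mkP () (cat (rev y₀.1.2) (DD S o χ y₀.1.1 y).1.2 (rev_one S y₀ y))
      (by rw [cat_zero]; simpa [rev] using y₀.2.2)
      ((cat_one _ _ _).trans (DD S o χ y₀.1.1 y).2.2),
    by
      refine continuous_mkP ?_ (continuous_cat ?_ ?_ _) _ _
      · fun_prop
      · fun_prop
      · exact continuous_snd.comp (continuous_subtype_val.comp (DD S o χ y₀.1.1).continuous)⟩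

noncomputable def foldH (S : Seg K) (y₀ : PP o χ) :
    (DD S o χ y₀.1.1).Homotopy ((JJ y₀).comp (RR S y₀)) where
  toFun z := mkP y₀.1.1 (rep (rev y₀.1.2) (DD S o χ y₀.1.1 z.2).1.2 (rev_one S y₀ z.2)
      (fun t => (1 - (z.1 : ℝ)) * t + z.1 * max (-(2 * (t : ℝ))) (4 * t - 3)) (by fun_prop))
      (by
        refine Eq.trans ?_ ((cext_coe (rev_one S y₀ z.2) 0).trans (DD S o χ y₀.1.1 z.2).2.1)
        simp [rep_apply])
      (by
        refine Eq.trans ?_ ((cext_coe (rev_one S y₀ z.2) 1).trans (DD S o χ y₀.1.1 z.2).2.2)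
        simp only [rep_apply, Icc.coe_one]
        congr 1
        norm_num)
  continuous_toFun := by
    refine continuous_mkP ?_ (continuous_rep ?_ ?_ _ ?_ _) _ _
    · fun_prop
    · fun_prop
    · exact continuous_snd.comp (continuous_subtype_val.comp
        ((DD S o χ y₀.1.1).continuous.comp continuous_snd))
    · fun_prop
  map_zero_left y := by
    refine Subtype.ext (Prod.ext rfl ?_)
    ext t
    refine Eq.trans ?_ (cext_coe (rev_one S y₀ y) t)
    simp [mkP, rep_apply]
  map_one_left y := by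
    refine Subtype.ext (Prod.ext rfl ?_)
    ext t
    change cext _ _ _ = cext y₀.1.2 (cat (rev y₀.1.2) _ (rev_one S y₀ y)) (2 * (t : ℝ) - 1)
    simp only [Icc.coe_one, sub_self, zero_mul, one_mul, zero_add]
    by_cases ht : (t : ℝ) ≤ 1 / 2
    · have h2 : 2 * (t : ℝ) ∈ I := ⟨by linarith [t.2.1], by linarith⟩
      rw [max_eq_left (by linarith), cext_neg _ _ ⟨_, h2⟩, cext_sub_one _ _ ⟨_, h2⟩]
      simp [rev]
    · have h2 : 2 * (t : ℝ) - 1 ∈ I := ⟨by linarith, by linarith [t.2.2]⟩
      rw [max_eq_right (by linarith), cext_coe _ ⟨_, h2⟩, cat_apply]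
      · congr 1
        ring
      · rw [cat_zero]; simp [rev]

lemma joined_RR (S : Seg K) (y₀ : PP o χ) : Joined (cst o) (RR S y₀ y₀) := by
  let P : Path (χ y₀.1.1) o := ⟨y₀.1.2, y₀.2.1, y₀.2.2⟩
  have h : (Path.refl o).Homotopic (P.symm.trans ((Path.refl _).trans P)) :=
    ((((Path.Homotopic.refl _).hcomp (Path.Homotopic.refl_trans P))).trans
      (Path.Homotopic.symm_trans P)).symm
  have := joined_of_homotopic (χ := ContinuousMap.const Unit o) () rfl h
  refine (congrArg (Joined (cst o)) ?_).mpr this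
  refine Subtype.ext (Prod.ext rfl ?_)
  change cat _ _ (rev_one S y₀ y₀) = (P.symm.trans ((Path.refl _).trans P)).toContinuousMap
  rw [← cat_eq_trans _ _ (by simp)]
  refine cat_congr rfl ?_ _ _
  rw [← cat_eq_trans _ _ (by simp)]
  refine cat_congr ?_ rfl (S.path_one y₀.1.1 y₀) _
  ext u
  simp [S.path_apply, S.sk]

/-- every loop over a convex cell comes from the loop space -/
lemma act_surj (S : Seg K) (y₀ : PP o χ) (m : Q y₀ y₀) : ∃ A, act y₀ A = m := by
  obtain ⟨ρ⟩ := joined_RR S y₀
  let τ : Q y₀ (mu y₀ (RR S y₀ y₀)) := mk (((slideH S o χ y₀.1.1).trans (foldH S y₀)).evalAt y₀)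
  let m' : Q (RR S y₀ y₀) (RR S y₀ y₀) := m.map (RR S y₀)
  have h1 : m.trans τ = τ.trans (muq y₀ m') := by
    have := nat_homotopy ((slideH S o χ y₀.1.1).trans (foldH S y₀)) m
    rw [map_id', map_comp] at this
    exact this
  refine ⟨(mk ρ).trans (m'.trans (mk ρ).symm), ?_⟩
  set A := (mk ρ).trans (m'.trans (mk ρ).symm) with hA
  let n : Q y₀ y₀ := (trq y₀).symm.trans ((muq y₀ (mk ρ)).trans τ.symm)
  have h2 : (act y₀ A).trans n = n.trans m := by
    simp only [act, hA, n, muq_trans, muq_symm, trans_assoc, trans_symm_cancel, symm_trans_cancel]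
    congr 2
    apply cancel_left τ
    rw [trans_symm_cancel, ← trans_assoc, ← h1, trans_assoc, trans_symm, trans_refl]
  rw [act_nat] at h2
  exact cancel_left n h2

end Crest.Agent.R177.TopA
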