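import Crest.Agent.R177.TopA1

/-! Task R177-TA, part 2: filling triangles, segments, the non-abelian cocycle lemma. -/

set_option autoImplicit false

namespace Crest.Agent.R177.TopA

open unitInterval Set

/-- segments in the interval -/
def segI : Seg I where
  s := ⟨fun z => ⟨(1 - (z.2.2 : ℝ)) * z.1 + z.2.2 * z.2.1, by
      have := z.1.2.1; have := z.2.1.2.1; have := z.2.2.2.1; have := z.2.2.2.2
      nlinarith, by
      have := z.1.2.2; have := z.2.1.2.2; have := z.2.2.2.1; have := z.2.2.2.2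
      nlinarith⟩, by fun_prop⟩
  s0 k k' := by simp
  s1 k k' := by simp
  sk k u := by ext; simp; ring

lemma segI_coe (a b u : I) : (segI.s (a, b, u) : ℝ) = (1 - (u : ℝ)) * a + u * b := rfl

/-- segments in the triangle -/
def segT : Seg Tri where
  s := ⟨fun z => ⟨((1 - (z.2.2 : ℝ)) * z.1.1.1 + z.2.2 * z.2.1.1.1,
      (1 - (z.2.2 : ℝ)) * z.1.1.2 + z.2.2 * z.2.1.1.2), by
      have := z.1.2.1; have := z.2.1.2.1; have := z.2.2.2.1; have := z.2.2.2.2
      dsimp only
      nlinarith, by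
      have := z.1.2.2.1; have := z.2.1.2.2.1; have := z.2.2.2.1; have := z.2.2.2.2
      dsimp only
      nlinarith, by
      have := z.1.2.2.2; have := z.2.1.2.2.2; have := z.2.2.2.1; have := z.2.2.2.2
      dsimp only
      nlinarith⟩, by fun_prop⟩
  s0 k k' := by simp
  s1 k k' := by simp
  sk k u := by ext <;> simp <;> ring

lemma segT_coe (a b : Tri) (u : I) : (segT.s (a, b, u)).1 =
    ((1 - (u : ℝ)) * a.1.1 + u * b.1.1, (1 - (u : ℝ)) * a.1.2 + u * b.1.2) := rfl

lemma seg_d01 (a b u : I) : segT.s (d01 a, d01 b, u) = d01 (segI.s (a, b, u)) := by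
  apply Subtype.ext
  simp [segT_coe, d01, segI_coe]

lemma seg_d12 (a b u : I) : segT.s (d12 a, d12 b, u) = d12 (segI.s (a, b, u)) := by
  apply Subtype.ext
  simp only [segT_coe, d12, segI_coe, ContinuousMap.coe_mk, Prod.mk.injEq, and_true]
  ring

lemma seg_d02 (a b u : I) : segT.s (d02 a, d02 b, u) = d02 (segI.s (a, b, u)) := by
  apply Subtype.ext
  simp [segT_coe, d02, segI_coe]

lemma d_00 : d02 0 = d01 0 := by apply Subtype.ext; simp [d01, d02]
lemma d_11 : d12 0 = d01 1 := by apply Subtype.ext; simp [d01, d12]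
lemma d_22 : d12 1 = d02 1 := by apply Subtype.ext; simp [d02, d12]

/-- the square onto the triangle -/
noncomputable def sq : C(I × I, Tri) :=
  ⟨fun z => ⟨(2 * (1 - (z.1 : ℝ)) * min (z.2 : ℝ) (1 - z.2),
      (z.2 : ℝ) - (1 - (z.1 : ℝ)) * min (z.2 : ℝ) (1 - z.2)), by
    have h1 := z.1.2.1; have h2 := z.1.2.2; have h3 := z.2.2.1; have h4 := z.2.2.2
    have h5 := min_le_left (z.2 : ℝ) (1 - z.2)
    have h6 := min_le_right (z.2 : ℝ) (1 - z.2)
    have h7 : 0 ≤ min (z.2 : ℝ) (1 - z.2) := le_min h3 (by linarith)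
    dsimp only
    refine ⟨by nlinarith, by nlinarith, by nlinarith⟩⟩, by fun_prop⟩

lemma sq_coe (s u : I) : (sq (s, u)).1 = (2 * (1 - (s : ℝ)) * min (u : ℝ) (1 - u),
    (u : ℝ) - (1 - (s : ℝ)) * min (u : ℝ) (1 - u)) := rfl

lemma sq_surj : Function.Surjective sq := by
  rintro ⟨⟨a, b⟩, ha, hb, hab⟩
  dsimp only at ha hb hab
  have hu : b + a / 2 ∈ I := ⟨by linarith, by linarith⟩
  set m := min (b + a / 2) (1 - (b + a / 2)) with hm
  have h1 : a / 2 ≤ m := le_min (by linarith) (by linarith)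
  by_cases h0 : m = 0
  · refine ⟨(0, ⟨_, hu⟩), Subtype.ext ?_⟩
    have : a = 0 := by linarith
    rw [sq_coe]
    simp only [← hm, h0]
    simp [this]
  · have hm0 : 0 < m := lt_of_le_of_ne (by linarith) (Ne.symm h0)
    have hs : 1 - a / (2 * m) ∈ I := by
      constructor
      · rw [sub_nonneg, div_le_one (by linarith)]; linarith
      · have : 0 ≤ a / (2 * m) := by positivity
        linarith
    refine ⟨(⟨_, hs⟩, ⟨_, hu⟩), Subtype.ext ?_⟩
    rw [sq_coe]
    simp only [← hm, Prod.mk.injEq]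
    constructor <;> field_simp <;> ring

lemma sq_inj {s u s' u' : I} (h : sq (s, u) = sq (s', u')) :
    u = u' ∧ (s = s' ∨ u = 0 ∨ u = 1) := by
  have h1 := congrArg Subtype.val h
  rw [sq_coe, sq_coe, Prod.mk.injEq] at h1
  have hu : u = u' := Subtype.ext (by linarith [h1.1, h1.2])
  subst hu
  refine ⟨rfl, ?_⟩
  have h2 : ((s : ℝ) - s') * min (u : ℝ) (1 - u) = 0 := by linarith [h1.1]
  rcases mul_eq_zero.1 h2 with h3 | h3
  · exact Or.inl (Subtype.ext (by linarith))
  · rcases min_eq_iff.1 h3 with h4 | h4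
    · exact Or.inr (Or.inl (Subtype.ext h4.1))
    · exact Or.inr (Or.inr (Subtype.ext (show (u : ℝ) = 1 by linarith [h4.1])))

lemma fill {Y : Type} [TopologicalSpace Y] {y₀ y₁ y₂ : Y} (p : Path y₀ y₁) (q : Path y₁ y₂)
    (r : Path y₀ y₂) (h : (p.trans q).Homotopic r) :
    ∃ Gm : C(Tri, Y), (∀ t, Gm (d01 t) = p t) ∧ (∀ t, Gm (d12 t) = q t) ∧ ∀ t, Gm (d02 t) = r t := by
  obtain ⟨H⟩ := h
  have hq : Topology.IsQuotientMap sq := sq.continuous.isClosedMap.isQuotientMap sq.continuous sq_surj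
  have hf : Function.FactorsThrough H.toContinuousMap sq := by
    rintro ⟨s, u⟩ ⟨s', u'⟩ h
    obtain ⟨rfl, h | rfl | rfl⟩ := sq_inj h
    · rw [h]
    · exact (H.source s).trans (H.source s').symm
    · exact (H.target s).trans (H.target s').symm
  have key : ∀ z, hq.lift H.toContinuousMap hf (sq z) = H z := fun z =>
    congrFun (congrArg DFunLike.coe (hq.lift_comp H.toContinuousMap hf)) z
  refine ⟨hq.lift H.toContinuousMap hf, fun t => ?_, fun t => ?_, fun t => ?_⟩
  · have ht : (t : ℝ) / 2 ∈ I := ⟨by linarith [t.2.1], by linarith [t.2.1, t.2.2]⟩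
    have : d01 t = sq (0, ⟨_, ht⟩) := by
      apply Subtype.ext
      rw [sq_coe, min_eq_left (by simp only; linarith [t.2.2])]
      simp only [d01, ContinuousMap.coe_mk, Icc.coe_zero, Prod.mk.injEq]
      constructor <;> ring
    rw [this, key, H.apply_zero, Path.coe_toContinuousMap, Path.trans_apply,
      dif_pos (by simp only; linarith [t.2.2])]
    congr 1
    ext; simp only; ring
  · have ht : (1 + (t : ℝ)) / 2 ∈ I := ⟨by linarith [t.2.1], by linarith [t.2.1, t.2.2]⟩
    have : d12 t = sq (0, ⟨_, ht⟩) := by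
      apply Subtype.ext
      rw [sq_coe, min_eq_right (by simp only; linarith [t.2.1])]
      simp only [d12, ContinuousMap.coe_mk, Icc.coe_zero, Prod.mk.injEq]
      constructor <;> ring
    rw [this, key, H.apply_zero, Path.coe_toContinuousMap, Path.trans_apply]
    split_ifs with h
    · have h0 : t = 0 := Subtype.ext (by simp only at h; linarith [t.2.1, Icc.coe_zero (R := ℝ)])
      subst h0
      rw [q.source]
      refine Eq.trans ?_ p.target
      congr 1
      ext; simp
    · congr 1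
      ext; simp only; ring
  · have : d02 t = sq (1, t) := by
      apply Subtype.ext
      rw [sq_coe]
      simp [d02]
    rw [this, key, H.apply_one, Path.coe_toContinuousMap]

/-- non-abelian `1`-cocycles on the Cayley complex are coboundaries -/
lemma cocycle {G : Type} [Group G] {S T : Type} (Q : TriPres G S T) {H : Type} [Group H]
    (l : G × S → H) (hl : ∀ g t, l (g * Q.x (Q.a t), Q.b t) * l (g, Q.a t) = l (g, Q.c t)) :
    ∃ w : G → H, ∀ g s, w (g * Q.x s) = l (g, s) * w g := by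
  let φ : S → Equiv.Perm (G × H) := fun s =>
    { toFun := fun z => (z.1 * Q.x s, l (z.1, s) * z.2)
      invFun := fun z => (z.1 * (Q.x s)⁻¹, (l (z.1 * (Q.x s)⁻¹, s))⁻¹ * z.2)
      left_inv := fun z => by simp
      right_inv := fun z => by simp }
  have hφ : ∀ s z, φ s z = (z.1 * Q.x s, l (z.1, s) * z.2) := fun _ _ => rfl
  obtain ⟨F, hF⟩ := Q.univ (Equiv.Perm (G × H)) (fun s => (φ s)⁻¹) (fun t => by
    rw [← mul_inv_rev]
    congr 1
    ext z
    · simp [hφ, mul_assoc, Q.rel]
    · simp [hφ, ← mul_assoc, hl])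
  have h1 : ∀ g : G, ∀ z, ((F g)⁻¹ z).1 = z.1 * g := by
    intro g
    have hg : g ∈ Subgroup.closure (Set.range Q.x) := Q.gen ▸ Subgroup.mem_top g
    induction hg using Subgroup.closure_induction with
    | mem x hx =>
      obtain ⟨s, rfl⟩ := hx
      intro z
      rw [hF, inv_inv, hφ]
    | one => intro z; simp
    | mul x y _ _ hx hy =>
      intro z
      rw [map_mul, mul_inv_rev, Equiv.Perm.mul_apply, hy, hx, mul_assoc]
    | inv x _ hx =>
      intro z
      have := hx ((F x⁻¹)⁻¹ z)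
      rw [← Equiv.Perm.mul_apply, ← mul_inv_rev, ← map_mul, inv_mul_cancel, map_one, inv_one,
        Equiv.Perm.one_apply] at this
      rw [this, mul_inv_cancel_right]
  refine ⟨fun g => ((F g)⁻¹ (1, 1)).2, fun g s => ?_⟩
  simp only
  rw [map_mul, mul_inv_rev, Equiv.Perm.mul_apply, hF, inv_inv, hφ, h1, one_mul]

end Crest.Agent.R177.TopA
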