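import Crest.Agent.R177.TopB1

/-!
Task R177-TB, part 2: the concrete model of the Cayley complex.
-/

set_option autoImplicit false

namespace Crest.Agent.R177.TB

open unitInterval Set Topology

open Classical in
/-- Kronecker delta -/
noncomputable def dl {ι : Type} (i j : ι) : ℝ := if i = j then 1 else 0

theorem dl_self {ι : Type} (i : ι) : dl i i = 1 := if_pos rfl
theorem dl_ne {ι : Type} {i j : ι} (h : i ≠ j) : dl i j = 0 := if_neg h
theorem dl_nonneg {ι : Type} (i j : ι) : 0 ≤ dl i j := by unfold dl; split_ifs <;> norm_num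

variable {G S T : Type} [Group G]

theorem dl_mul (h g k : G) : dl g (h⁻¹ * k) = dl (h * g) k := by
  by_cases e : h * g = k
  · rw [← e, inv_mul_cancel_left, dl_self, dl_self]
  · rw [dl_ne e, dl_ne (fun e' => e (by rw [e', mul_inv_cancel_left]))]

theorem dl_mul2 {A : Type} (h g k : G) (a b : A) :
    dl (g, a) (h⁻¹ * k, b) = dl (h * g, a) (k, b) := by
  by_cases e : (h * g, a) = (k, b)
  · obtain ⟨rfl, rfl⟩ := Prod.mk.inj e
    rw [inv_mul_cancel_left, dl_self, dl_self]
  · rw [dl_ne e, dl_ne (fun e' => e (by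
      obtain ⟨rfl, rfl⟩ := Prod.mk.inj e'
      rw [mul_inv_cancel_left]))]

/-- ambient space -/
abbrev Amb (G S T : Type) : Type := (G → ℝ) × (G × S → ℝ × ℝ) × (G × T → ℝ × ℝ × ℝ)

variable (Q : TriPres G S T)

/-- vertices -/
noncomputable def vtx (g : G) : Amb G S T := (dl g, 0, 0)

/-- edges -/
noncomputable def edg (i : G × S) (r : ℝ) : Amb G S T :=
  (fun k => (1 - r) * dl i.1 k + r * dl (i.1 * Q.x i.2) k,
    fun j => dl i j • ((1 - r) * r, (1 - r) * r ^ 2), 0)

/-- triangles -/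
noncomputable def tri (i : G × T) (p : ℝ × ℝ) : Amb G S T :=
  (fun k => (1 - p.1 - p.2) * dl i.1 k + p.1 * dl (i.1 * Q.x (Q.a i.2)) k +
      p.2 * dl (i.1 * Q.x (Q.c i.2)) k,
    fun j => dl (i.1, Q.a i.2) j • ((1 - p.1 - p.2) * p.1, (1 - p.1 - p.2) * p.1 ^ 2) +
      dl (i.1 * Q.x (Q.a i.2), Q.b i.2) j • (p.1 * p.2, p.1 * p.2 ^ 2) +
      dl (i.1, Q.c i.2) j • ((1 - p.1 - p.2) * p.2, (1 - p.1 - p.2) * p.2 ^ 2),
    fun j => dl i j • ((1 - p.1 - p.2) * p.1 * p.2, (1 - p.1 - p.2) * p.1 * p.2 * p.1,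
      (1 - p.1 - p.2) * p.1 * p.2 * p.2))

/-- the cell maps into the ambient space -/
noncomputable def c0 : CellMaps Q (Amb G S T) where
  v := vtx
  e i := ⟨fun r => edg Q i r, by unfold edg; fun_prop⟩
  f i := ⟨fun p => tri Q i p, by unfold tri; fun_prop⟩
  e0 g s := by
    simp only [ContinuousMap.coe_mk, edg, vtx]
    ext <;> simp
  e1 g s := by
    simp only [ContinuousMap.coe_mk, edg, vtx]
    ext <;> simp
  f01 g t r := by
    simp only [ContinuousMap.coe_mk, edg, tri, d01]
    ext <;> simp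
  f12 g t r := by
    simp only [ContinuousMap.coe_mk, edg, tri, d12, mul_assoc g, Q.rel]
    ext <;> simp
  f02 g t r := by
    simp only [ContinuousMap.coe_mk, edg, tri, d02]
    ext <;> simp

/-- translation -/
def act (h : G) (z : Amb G S T) : Amb G S T :=
  (fun k => z.1 (h⁻¹ * k), fun j => z.2.1 (h⁻¹ * j.1, j.2), fun j => z.2.2 (h⁻¹ * j.1, j.2))

theorem continuous_act (h : G) : Continuous (act (S := S) (T := T) h) := by
  unfold act; fun_prop

theorem act_one (z : Amb G S T) : act 1 z = z := by simp [act]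

theorem act_mul (h h' : G) (z : Amb G S T) : act (h * h') z = act h (act h' z) := by
  simp [act, mul_assoc]

theorem act_pt (h g : G) (x : PP S T) : act h (pt (c0 Q) g x) = pt (c0 Q) (h * g) x := by
  rcases x with x | ⟨s, r⟩ | ⟨t, p⟩
  · simp only [pt, c0, act, vtx, dl_mul]
    rfl
  · simp only [pt, c0, act, edg, ContinuousMap.coe_mk, dl_mul, dl_mul2, mul_assoc]
    rfl
  · simp only [pt, c0, act, tri, ContinuousMap.coe_mk, dl_mul, dl_mul2, mul_assoc]

theorem pt_inj {g g' : G} {x x' : PP S T} (hx : ok x) (hx' : ok x')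
    (h : pt (c0 Q) g x = pt (c0 Q) g' x') : g = g' ∧ x = x' := by
  have pe : ∀ {s : S} {r : I}, ok (.inr (.inl ⟨s, r⟩) : PP S T) → 0 < (1 - (r : ℝ)) * r :=
    fun h => mul_pos (sub_pos.2 h.2) h.1
  have pf : ∀ {t : T} {p : Tri}, ok (.inr (.inr ⟨t, p⟩) : PP S T) →
      0 < (1 - p.1.1 - p.1.2) * p.1.1 * p.1.2 :=
    fun h => mul_pos (mul_pos (by have := h.2.2; simp only at this; linarith) h.1) h.2.1
  rcases x with x | ⟨s, r⟩ | ⟨t, p⟩ <;> rcases x' with x' | ⟨s', r'⟩ | ⟨t', p'⟩
  · refine ⟨?_, rfl⟩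
    by_contra hne
    have := congrFun (congrArg Prod.fst h) g'
    simp only [pt, c0, vtx, dl_self, dl_ne hne] at this
    exact zero_ne_one this
  · have := congrArg (fun z : Amb G S T => (z.2.1 (g', s')).1) h
    simp only [pt, c0, vtx, edg, ContinuousMap.coe_mk, dl_self, one_smul, Pi.zero_apply,
      Prod.fst_zero] at this
    exact absurd this (pe hx').ne
  · have := congrArg (fun z : Amb G S T => (z.2.2 (g', t')).1) h
    simp only [pt, c0, vtx, tri, ContinuousMap.coe_mk, dl_self, one_smul, Pi.zero_apply,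
      Prod.fst_zero] at this
    exact absurd this (pf hx').ne
  · have := congrArg (fun z : Amb G S T => (z.2.1 (g, s)).1) h
    simp only [pt, c0, vtx, edg, ContinuousMap.coe_mk, dl_self, one_smul, Pi.zero_apply,
      Prod.fst_zero] at this
    exact absurd this (pe hx).ne'
  · have := congrArg (fun z : Amb G S T => z.2.1 (g, s)) h
    simp only [pt, c0, edg, ContinuousMap.coe_mk, dl_self, one_smul] at this
    by_cases hne : (g', s') = (g, s)
    · rw [hne, dl_self, one_smul, Prod.mk.injEq] at this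
      obtain ⟨rfl, rfl⟩ := Prod.mk.inj hne
      have h1 : (r : ℝ) = r' := by
        apply mul_left_cancel₀ (pe hx).ne'
        calc (1 - (r : ℝ)) * r * r = (1 - (r : ℝ)) * r ^ 2 := by ring
          _ = (1 - (r' : ℝ)) * r' * r' := by rw [this.2]; ring
          _ = _ := by rw [this.1]
      rw [Subtype.ext h1]
      exact ⟨rfl, rfl⟩
    · rw [dl_ne hne, zero_smul] at this
      exact absurd (congrArg Prod.fst this) (pe hx).ne'
  · have := congrArg (fun z : Amb G S T => (z.2.2 (g', t')).1) h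
    simp only [pt, c0, edg, tri, ContinuousMap.coe_mk, dl_self, one_smul, Pi.zero_apply,
      Prod.fst_zero] at this
    exact absurd this (pf hx').ne
  · have := congrArg (fun z : Amb G S T => (z.2.2 (g, t)).1) h
    simp only [pt, c0, vtx, tri, ContinuousMap.coe_mk, dl_self, one_smul, Pi.zero_apply,
      Prod.fst_zero] at this
    exact absurd this (pf hx).ne'
  · have := congrArg (fun z : Amb G S T => (z.2.2 (g, t)).1) h
    simp only [pt, c0, edg, tri, ContinuousMap.coe_mk, dl_self, one_smul, Pi.zero_apply,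
      Prod.fst_zero] at this
    exact absurd this (pf hx).ne'
  · have := congrArg (fun z : Amb G S T => z.2.2 (g, t)) h
    simp only [pt, c0, tri, ContinuousMap.coe_mk, dl_self, one_smul] at this
    by_cases hne : (g', t') = (g, t)
    · rw [hne, dl_self, one_smul, Prod.mk.injEq, Prod.mk.injEq] at this
      obtain ⟨rfl, rfl⟩ := Prod.mk.inj hne
      obtain ⟨a1, a2, a3⟩ := this
      rw [← a1] at a2 a3
      have h1 := mul_left_cancel₀ (pf hx).ne' a2
      have h2 := mul_left_cancel₀ (pf hx).ne' a3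
      rw [show p = p' from Subtype.ext (Prod.ext h1 h2)]
      exact ⟨rfl, rfl⟩
    · rw [dl_ne hne, zero_smul] at this
      exact absurd (congrArg Prod.fst this) (pf hx).ne'

theorem pt_pos (g : G) {x : PP S T} (hx : ok x) : 0 < (pt (c0 Q) g x).1 g := by
  rcases x with x | ⟨s, r⟩ | ⟨t, p⟩
  · simp [pt, c0, vtx, dl_self]
  · simp only [pt, c0, edg, ContinuousMap.coe_mk, dl_self, mul_one]
    have := mul_nonneg hx.1.le (dl_nonneg (g * Q.x s) g)
    have h2 := hx.2
    simp only at this h2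
    linarith
  · simp only [pt, c0, tri, ContinuousMap.coe_mk, dl_self, mul_one]
    have h1 := mul_nonneg hx.1.le (dl_nonneg (g * Q.x (Q.a t)) g)
    have h2 := mul_nonneg hx.2.1.le (dl_nonneg (g * Q.x (Q.c t)) g)
    have h3 := hx.2.2
    simp only at h1 h2 h3
    linarith

theorem pt_supp (g k : G) (x : PP S T) (h : 0 < (pt (c0 Q) g x).1 k) :
    g ∈ insert k (range fun s => k * (Q.x s)⁻¹) := by
  by_contra hn
  simp only [mem_insert_iff, mem_range, not_or, not_exists] at hn
  have h1 : dl g k = 0 := dl_ne hn.1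
  have h2 : ∀ s, dl (g * Q.x s) k = 0 := fun s => dl_ne fun e => hn.2 s (by rw [← e]; simp)
  rcases x with x | ⟨s, r⟩ | ⟨t, p⟩ <;> simp [pt, c0, vtx, edg, tri, h1, h2] at h

/-- the Cayley complex -/
def EE : Type := {z : Amb G S T // ∃ g x, pt (c0 Q) g x = z}

instance : TopologicalSpace (EE Q) :=
  inferInstanceAs (TopologicalSpace {z : Amb G S T // ∃ g x, pt (c0 Q) g x = z})

instance : T2Space (EE Q) :=
  inferInstanceAs (T2Space {z : Amb G S T // ∃ g x, pt (c0 Q) g x = z})

instance : MulAction G (EE Q) where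
  smul h z := ⟨act h z.1, by
    obtain ⟨g, x, e⟩ := z.2
    exact ⟨h * g, x, by rw [← e, act_pt]⟩⟩
  one_smul z := Subtype.ext (act_one z.1)
  mul_smul h h' z := Subtype.ext (act_mul h h' z.1)

instance : ContinuousConstSMul G (EE Q) :=
  ⟨fun h => Continuous.subtype_mk ((continuous_act h).comp continuous_subtype_val) _⟩

/-- the cell maps into the Cayley complex -/
noncomputable def c1 : CellMaps Q (EE Q) where
  v g := ⟨(c0 Q).v g, g, .inl (), rfl⟩
  e i := ⟨fun r => ⟨(c0 Q).e i r, i.1, .inr (.inl ⟨i.2, r⟩), rfl⟩,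
    Continuous.subtype_mk ((c0 Q).e i).continuous _⟩
  f i := ⟨fun p => ⟨(c0 Q).f i p, i.1, .inr (.inr ⟨i.2, p⟩), rfl⟩,
    Continuous.subtype_mk ((c0 Q).f i).continuous _⟩
  e0 g s := Subtype.ext ((c0 Q).e0 g s)
  e1 g s := Subtype.ext ((c0 Q).e1 g s)
  f01 g t r := Subtype.ext ((c0 Q).f01 g t r)
  f12 g t r := Subtype.ext ((c0 Q).f12 g t r)
  f02 g t r := Subtype.ext ((c0 Q).f02 g t r)

theorem pt_c1 (g : G) (x : PP S T) : (pt (c1 Q) g x).1 = pt (c0 Q) g x := by
  rcases x with x | ⟨s, r⟩ | ⟨t, p⟩ <;> rfl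

/-- the properties of the model used below -/
structure Good {E : Type} [TopologicalSpace E] [MulAction G E] (c : CellMaps Q E) : Prop where
  surj : ∀ z, ∃ g x, pt c g x = z
  smul : ∀ (h g : G) x, h • pt c g x = pt c (h * g) x
  inj : ∀ g g' x x', ok x → ok x' → pt c g x = pt c g' x' → g = g' ∧ x = x'
  lf : LocallyFinite (fun g => range (pt c g))

theorem good_c1 [Finite S] : Good Q (c1 Q) where
  surj z := by
    obtain ⟨g, x, e⟩ := z.2
    exact ⟨g, x, Subtype.ext (by rw [pt_c1, e])⟩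
  smul h g x := Subtype.ext (by
    change act h (pt (c1 Q) g x).1 = _
    rw [pt_c1, pt_c1, act_pt])
  inj g g' x x' hx hx' h := pt_inj Q hx hx' (by rw [← pt_c1, ← pt_c1, h])
  lf z := by
    obtain ⟨g, x, e⟩ := z.2
    obtain ⟨k, x', h1, -, h2⟩ := norm Q g x
    have hc : Continuous (fun z : EE Q => z.1.1 k) :=
      (continuous_apply k).comp (continuous_fst.comp continuous_subtype_val)
    refine ⟨{z | 0 < z.1.1 k}, (isOpen_lt continuous_const hc).mem_nhds ?_, ?_⟩
    · change 0 < z.1.1 k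
      rw [← e, h2]
      exact pt_pos Q k h1
    · refine ((finite_range fun s => k * (Q.x s)⁻¹).insert k).subset ?_
      rintro g' ⟨_, ⟨y, rfl⟩, hy⟩
      exact pt_supp Q g' k y (by rw [← pt_c1]; exact hy)

end Crest.Agent.R177.TB
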