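import Crest.Agent.R177.TopA
import Crest.Agent.R177.TopB2
import Crest.Prelude.Def_ClassifyingComplex

/-!
Task R177-TB: a concrete model of the Cayley complex, the covering map and the CW structure.
Use `contractible_of_cellSpace` (task R177-TA).

Ambient space `𝔸 = (G → ℝ) × (G × S → ℝ × ℝ) × (G × T → ℝ × ℝ × ℝ)` (product topology, Hausdorff), `δ = Pi.single`.
`vtx g = (δ g 1, 0, 0)`; `edg (g,s) r = ((1-r) δ g + r δ (g x_s), δ (g,s) ((1-r) r, (1-r) r²), 0)`;
`tri (g,t) (t₁,t₂)`, `t₀ = 1 - t₁ - t₂`, has vertex part `t₀ δ g + t₁ δ (g x_a) + t₂ δ (g x_c)`, edge part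
`δ (g,a) (t₀t₁, t₀t₁²) + δ (g x_a, b) (t₁t₂, t₁t₂²) + δ (g,c) (t₀t₂, t₀t₂²)`, triangle part `δ (g,t) (t₀t₁t₂ • (1,t₁,t₂))`.
`E` = union of the ranges.  Open cells are disjoint and the maps are injective on them (look at the last non-zero part).
The open sets `{z | 0 < z.1 g}` cover `E` and meet finitely many closed cells, so the (compact) closed cells are a locally
finite cover: `E` is locally compact, `glue` holds (define `F` through a chosen representation, show it agrees with each cell
map; continuity on a cell image because a continuous surjection from a compact space to a Hausdorff space is a quotient map;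
`LocallyFinite.continuous`), and the left translation action of `G` on `E` is continuous, free (`IsCancelSMul`) and properly
discontinuous.  `X = Quotient (MulAction.orbitRel G E)`: `t2Space_of_properlyDiscontinuousSMul_of_t2Space`,
`isQuotientCoveringMap_quotientMk_of_properlyDiscontinuousSMul`, `IsQuotientCoveringMap.fundamentalGroupEquiv`
(to `Gᵐᵒᵖ`, compose with `MulEquiv.inv' G`), `IsQuotientCoveringMap.isCoveringMap`.
CW structure: `Topology.CWComplex.mkFinite` with cells `Unit`, `S`, `T` in dimensions `0,1,2` (`PEmpty` above); characteristic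
maps through `r = (1 + y 0)/2` (clamped with `Set.projIcc`), `t₂ = (1 + y 1)/2`, `t₁ = (1 - t₂)(1 + y 0)/2`.  The inverse is
continuous on the open cell by a general lemma: `φ` continuous on a compact `K` into a Hausdorff space, injective on `U ⊆ K` with
`φ '' U` disjoint from `φ '' (K \ U)` (images of closed subsets of `K` are closed).
-/

set_option autoImplicit false

namespace Crest.Agent.R177

namespace TB

open Set

variable {G S T : Type} [Group G] [Finite S] [Finite T] {Q : TriPres G S T} {E : Type}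
  [TopologicalSpace E] [T2Space E] [MulAction G E] {c : CellMaps Q E}

omit [Finite S] [Finite T] [T2Space E] in
theorem Good.surj_ok (h : Good Q c) (z : E) : ∃ g x, ok x ∧ pt c g x = z := by
  obtain ⟨g, x, rfl⟩ := h.surj z
  obtain ⟨g', x', h1, -, h2⟩ := norm Q g x
  exact ⟨g', x', h1, (h2 E c).symm⟩

omit [T2Space E] [MulAction G E] in
theorem isCompact_cell (c : CellMaps Q E) (g : G) : IsCompact (range (pt c g)) :=
  isCompact_range (continuous_pt c g)

theorem Good.isCellSpace (h : Good Q c) : IsCellSpace c where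
  surj z := by
    obtain ⟨g, x | ⟨s, r⟩ | ⟨t, p⟩, e⟩ := h.surj z
    · exact Or.inl ⟨g, e⟩
    · exact Or.inr (Or.inl ⟨_, _, e⟩)
    · exact Or.inr (Or.inr ⟨_, _, e⟩)
  glue Y _ c' := by
    choose γ ξ hγ using h.surj
    have key : ∀ g x, pt c' (γ (pt c g x)) (ξ (pt c g x)) = pt c' g x := by
      intro g x
      obtain ⟨g1, x1, a1, -, a2⟩ := norm Q g x
      obtain ⟨g2, x2, b1, -, b2⟩ := norm Q (γ (pt c g x)) (ξ (pt c g x))
      have := h.inj g1 g2 x1 x2 a1 b1 (by rw [← a2, ← b2, hγ])
      rw [a2 Y c', b2 Y c', this.1, this.2]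
    refine ⟨⟨fun z => pt c' (γ z) (ξ z), ?_⟩, fun g => key g (.inl ()),
      fun i r => key i.1 (.inr (.inl ⟨i.2, r⟩)), fun i p => key i.1 (.inr (.inr ⟨i.2, p⟩))⟩
    refine h.lf.continuous ?_ (fun g => (isCompact_cell c g).isClosed) (fun g => ?_)
    · rw [eq_univ_iff_forall]
      intro z
      exact mem_iUnion.2 ⟨γ z, ξ z, hγ z⟩
    · rw [continuousOn_iff_isClosed]
      intro t ht
      refine ⟨pt c g '' (pt c' g ⁻¹' t),
        ((ht.preimage (continuous_pt c' g)).isCompact.image (continuous_pt c g)).isClosed, ?_⟩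
      ext z
      constructor
      · rintro ⟨h1, x, rfl⟩
        rw [mem_preimage, key] at h1
        exact ⟨⟨x, h1, rfl⟩, x, rfl⟩
      · rintro ⟨⟨x, h1, rfl⟩, -⟩
        refine ⟨?_, x, rfl⟩
        rw [mem_preimage, key]
        exact h1

theorem Good.locallyCompact (h : Good Q c) : LocallyCompactSpace E := by
  haveI : WeaklyLocallyCompactSpace E := ⟨fun z => by
    obtain ⟨U, hU, hf⟩ := h.lf z
    refine ⟨⋃ g ∈ {g | (range (pt c g) ∩ U).Nonempty}, range (pt c g),
      hf.isCompact_biUnion (fun g _ => isCompact_cell c g), Filter.mem_of_superset hU ?_⟩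
    intro y hy
    obtain ⟨g, x, rfl⟩ := h.surj y
    exact mem_biUnion (t := fun g => range (pt c g)) (x := g) ⟨_, ⟨x, rfl⟩, hy⟩ ⟨x, rfl⟩⟩
  infer_instance

omit [Finite S] [Finite T] [T2Space E] in
theorem Good.properlyDiscontinuous (h : Good Q c) : ProperlyDiscontinuousSMul G E := by
  refine ⟨fun {K L} hK hL => ?_⟩
  have h1 := h.lf.finite_nonempty_inter_compact hK
  have h2 := h.lf.finite_nonempty_inter_compact hL
  refine (Finite.image2 (fun a b => b * a⁻¹) h1 h2).subset ?_
  rintro γ ⟨_, ⟨z, hz, rfl⟩, hz'⟩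
  obtain ⟨g, x, rfl⟩ := h.surj z
  refine ⟨g, ⟨_, ⟨x, rfl⟩, hz⟩, γ * g, ⟨_, ⟨x, rfl⟩, ?_⟩, by simp⟩
  rw [← h.smul]; exact hz'

omit [Finite S] [Finite T] [T2Space E] in
theorem Good.isCancel (h : Good Q c) : IsCancelSMul G E := by
  rw [isCancelSMul_iff_eq_one_of_smul_eq]
  intro γ z hz
  obtain ⟨g, x, hx, rfl⟩ := h.surj_ok z
  rw [h.smul] at hz
  simpa using (h.inj _ _ _ _ hx hx hz).1

theorem Good.main [ContinuousConstSMul G E] (h : Good Q c) :
    Crest.Topology.HasFiniteClassifyingComplex G 2 := by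
  haveI := h.locallyCompact
  haveI := h.properlyDiscontinuous
  haveI := h.isCancel
  haveI : ContractibleSpace E := contractible_of_cellSpace c h.isCellSpace
  have hq := isQuotientCoveringMap_quotientMk_of_properlyDiscontinuousSMul (G := G) (E := E)
  have hmv : ∀ g x, Quotient.mk (MulAction.orbitRel G E) (pt c g x) =
      Quotient.mk (MulAction.orbitRel G E) (pt c 1 x) := fun g x =>
    hq.apply_eq_iff_mem_orbit.2 ⟨g, by simp only [h.smul, mul_one]⟩
  obtain ⟨cw, h1, h2⟩ := cw_PP (fun x => Quotient.mk (MulAction.orbitRel G E) (pt c 1 x))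
    (hq.toIsQuotientMap.continuous.comp (continuous_pt c 1))
    (by
      intro y
      obtain ⟨z, rfl⟩ := Quotient.exists_rep y
      obtain ⟨g, x, rfl⟩ := h.surj z
      exact ⟨x, (hmv g x).symm⟩)
    (by
      intro x x' hx hx' e
      obtain ⟨g, hg⟩ := hq.apply_eq_iff_mem_orbit.1 e
      simp only [h.smul] at hg
      exact (h.inj _ _ _ _ hx' hx hg).2.symm)
    (by
      intro x hx
      obtain ⟨g', x', a1, a2, a3⟩ := norm Q 1 x
      exact ⟨x', a1, a2 hx, by rw [a3 E c, hmv]⟩)
  refine ⟨Quotient (MulAction.orbitRel G E), inferInstance, cw, inferInstance, h1, h2,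
    ⟨E, inferInstance, _, inferInstance, hq.isCoveringMap, Quotient.mk_surjective⟩,
    Quotient.mk _ (c.v 1), ⟨?_⟩⟩
  exact (hq.fundamentalGroupEquiv ⟨c.v 1, rfl⟩).trans (MulEquiv.inv' G).symm

end TB

theorem TriPres.hasFiniteClassifyingComplex {G : Type} [Group G] {S T : Type} [Finite S] [Finite T]
    (Q : TriPres G S T) : Crest.Topology.HasFiniteClassifyingComplex G 2 :=
  (TB.good_c1 Q).main

end Crest.Agent.R177
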