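import Crest.Agent.R177.TopDefs

/-!
Task R177-TB, part 1: a CW structure from a parametrisation by a space of cells, and the normal
forms of points of the Cayley complex.
-/

set_option autoImplicit false

namespace Crest.Agent.R177.TB

open unitInterval Set Metric Topology

/-- continuity of the inverse of a characteristic map -/
theorem continuousOn_inv {A X : Type} [TopologicalSpace A] [Nonempty A] [TopologicalSpace X]
    [T2Space X] {φ : A → X} (hφ : Continuous φ) {K U : Set A} (hK : IsCompact K) (hU : U ⊆ K)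
    (hinj : InjOn φ U) (hd : ∀ y ∈ U, ∀ y' ∈ K, φ y = φ y' → y' ∈ U) :
    ContinuousOn (Function.invFunOn φ U) (φ '' U) := by
  rw [continuousOn_iff_isClosed]
  intro t ht
  refine ⟨φ '' (t ∩ K), ((hK.inter_left ht).image hφ).isClosed, ?_⟩
  ext x
  constructor
  · rintro ⟨h1, y, hy, rfl⟩
    rw [mem_preimage, hinj.leftInvOn_invFunOn hy] at h1
    exact ⟨⟨y, ⟨h1, hU hy⟩, rfl⟩, y, hy, rfl⟩
  · rintro ⟨⟨y', ⟨h1, h2⟩, h3⟩, y, hy, rfl⟩
    refine ⟨?_, y, hy, rfl⟩
    rw [mem_preimage, hinj.leftInvOn_invFunOn hy, ← hinj (hd y hy y' h2 h3.symm) hy h3]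
    exact h1

theorem cw_of {X P : Type} [TopologicalSpace X] [T2Space X] [TopologicalSpace P] (ψ : P → X)
    (hψ : Continuous ψ) (hs : Function.Surjective ψ) (ok : P → Prop) (dim : P → ℕ)
    (hinj : ∀ x x', ok x → ok x' → ψ x = ψ x' → x = x')
    (hnorm : ∀ x, ¬ ok x → ∃ x', ok x' ∧ dim x' < dim x ∧ ψ x = ψ x')
    (cell : ℕ → Type) (χ : ∀ n, cell n → (Fin n → ℝ) → P) (hχ : ∀ n i, Continuous (χ n i))
    (hdim : ∀ n i y, dim (χ n i y) = n)
    (hok : ∀ n i, ∀ y ∈ ball (0 : Fin n → ℝ) 1, ok (χ n i y))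
    (hnok : ∀ n i, ∀ y ∈ sphere (0 : Fin n → ℝ) 1, ¬ ok (χ n i y))
    (hχinj : ∀ n i i', ∀ y ∈ ball (0 : Fin n → ℝ) 1, ∀ y' ∈ ball (0 : Fin n → ℝ) 1,
      χ n i y = χ n i' y' → i = i' ∧ y = y')
    (hsurj : ∀ x, ∃ n i, ∃ y ∈ closedBall (0 : Fin n → ℝ) 1, χ n i y = x)
    (hfin : ∀ n, Finite (cell n)) (d : ℕ) (hemp : ∀ n, d < n → IsEmpty (cell n)) :
    ∃ _ : CWComplex (univ : Set X), RelCWComplex.Finite (univ : Set X) ∧
      ∀ n : ℕ, d < n → IsEmpty (RelCWComplex.cell (univ : Set X) n) := by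
  have h1 : ∀ n i, InjOn (ψ ∘ χ n i) (ball 0 1) := fun n i y hy y' hy' h =>
    (hχinj n i i y hy y' hy' (hinj _ _ (hok n i y hy) (hok n i y' hy') h)).2
  let mp : ∀ n, cell n → PartialEquiv (Fin n → ℝ) X := fun n i =>
    InjOn.toPartialEquiv (ψ ∘ χ n i) (ball 0 1) (h1 n i)
  have e1 : ∀ᶠ n in Filter.atTop, IsEmpty (cell n) :=
    (Filter.eventually_gt_atTop d).mono hemp
  have e2 : ∀ n i, (mp n i).source = ball 0 1 := fun _ _ => rfl
  have e3 : ∀ n i, ContinuousOn (mp n i) (closedBall 0 1) := fun n i =>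
    (hψ.comp (hχ n i)).continuousOn
  have e4 : ∀ n i, ContinuousOn (mp n i).symm (mp n i).target := by
    intro n i
    refine continuousOn_inv (hψ.comp (hχ n i)) (isCompact_closedBall 0 1) ball_subset_closedBall
      (h1 n i) ?_
    intro y hy y' hy' h
    by_contra hn
    have hsp : y' ∈ sphere (0 : Fin n → ℝ) 1 := by
      rw [mem_sphere]
      rw [mem_closedBall] at hy'
      rw [mem_ball, not_lt] at hn
      exact le_antisymm hy' hn
    obtain ⟨x', a1, a2, a3⟩ := hnorm _ (hnok n i y' hsp)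
    have := hinj _ _ (hok n i y hy) a1 (h.trans a3)
    rw [← this, hdim, hdim] at a2
    exact lt_irrefl _ a2
  have e5 : (univ : Set (Σ n, cell n)).PairwiseDisjoint
      (fun ni => mp ni.1 ni.2 '' ball 0 1) := by
    rintro ⟨n, i⟩ - ⟨n', i'⟩ - hne
    rw [Function.onFun, Set.disjoint_left]
    rintro _ ⟨y, hy, rfl⟩ ⟨y', hy', h⟩
    have h2 := hinj _ _ (hok n' i' y' hy') (hok n i y hy) h
    have h3 : n' = n := by rw [← hdim n' i' y', h2, hdim]
    subst h3
    exact hne (by rw [(hχinj _ _ _ y' hy' y hy h2).1])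
  have e6 : ∀ n i, MapsTo (mp n i) (sphere 0 1)
      (⋃ (m < n) (j : cell m), mp m j '' closedBall 0 1) := by
    intro n i y hy
    obtain ⟨x', -, a2, a3⟩ := hnorm _ (hnok n i y hy)
    obtain ⟨m, j, y', hy', rfl⟩ := hsurj x'
    rw [hdim, hdim] at a2
    simp only [mem_iUnion]
    exact ⟨m, a2, j, y', hy', a3.symm⟩
  have e7 : ⋃ (n : ℕ) (j : cell n), mp n j '' closedBall 0 1 = univ := by
    rw [eq_univ_iff_forall]
    intro z
    obtain ⟨x, rfl⟩ := hs z
    obtain ⟨m, j, y', hy', rfl⟩ := hsurj x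
    simp only [mem_iUnion]
    exact ⟨m, j, y', hy', rfl⟩
  exact ⟨CWComplex.mkFinite univ cell mp e1 hfin e2 e3 e4 e5 e6 e7,
    CWComplex.finite_mkFinite univ cell mp e1 hfin e2 e3 e4 e5 e6 e7, hemp⟩

instance : CompactSpace Tri := by
  refine isCompact_iff_compactSpace.1 (?_ : IsCompact
    {p : ℝ × ℝ | 0 ≤ p.1 ∧ 0 ≤ p.2 ∧ p.1 + p.2 ≤ 1})
  refine (isCompact_Icc (a := ((0, 0) : ℝ × ℝ)) (b := (1, 1))).of_isClosed_subset ?_ ?_
  · exact (isClosed_le continuous_const continuous_fst).inter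
      ((isClosed_le continuous_const continuous_snd).inter
        (isClosed_le (continuous_fst.add continuous_snd) continuous_const))
  · rintro p ⟨h1, h2, h3⟩
    exact ⟨⟨h1, h2⟩, by simp only [Prod.le_def]; constructor <;> linarith⟩

/-- the disjoint union of the closed cells -/
abbrev PP (S T : Type) : Type := Unit ⊕ (Σ _ : S, I) ⊕ (Σ _ : T, Tri)

variable {S T : Type}

/-- points of open cells -/
def ok : PP S T → Prop
  | .inl _ => True
  | .inr (.inl x) => 0 < (x.2 : ℝ) ∧ (x.2 : ℝ) < 1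
  | .inr (.inr x) => 0 < x.2.1.1 ∧ 0 < x.2.1.2 ∧ x.2.1.1 + x.2.1.2 < 1

/-- dimension of the cell -/
def dim : PP S T → ℕ
  | .inl _ => 0
  | .inr (.inl _) => 1
  | .inr (.inr _) => 2

variable {G : Type} [Group G] {Q : TriPres G S T}

/-- the cell maps as one map -/
def pt {E : Type} [TopologicalSpace E] (c : CellMaps Q E) (g : G) : PP S T → E
  | .inl _ => c.v g
  | .inr (.inl x) => c.e (g, x.1) x.2
  | .inr (.inr x) => c.f (g, x.1) x.2

theorem continuous_pt {E : Type} [TopologicalSpace E] (c : CellMaps Q E) (g : G) :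
    Continuous (pt c g) := by
  rw [continuous_sum_dom]
  refine ⟨continuous_const, ?_⟩
  rw [continuous_sum_dom]
  exact ⟨continuous_sigma fun s => (c.e (g, s)).continuous,
    continuous_sigma fun t => (c.f (g, t)).continuous⟩

variable (Q) in
theorem norm_e (g : G) (s : S) (r : I) : ∃ (g' : G) (x' : PP S T), ok x' ∧ dim x' ≤ 1 ∧
    (¬ ok (.inr (.inl ⟨s, r⟩) : PP S T) → dim x' < 1) ∧
    ∀ (Y : Type) [TopologicalSpace Y] (c : CellMaps Q Y), c.e (g, s) r = pt c g' x' := by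
  by_cases h0 : r = 0
  · subst h0
    exact ⟨g, .inl (), trivial, zero_le_one, fun _ => zero_lt_one, fun Y _ c => c.e0 g s⟩
  by_cases h1 : r = 1
  · subst h1
    exact ⟨g * Q.x s, .inl (), trivial, zero_le_one, fun _ => zero_lt_one, fun Y _ c => c.e1 g s⟩
  have h : ok (.inr (.inl ⟨s, r⟩) : PP S T) :=
    ⟨lt_of_le_of_ne r.2.1 (fun h => h0 (Subtype.ext h.symm)),
      lt_of_le_of_ne r.2.2 (fun h => h1 (Subtype.ext h))⟩
  exact ⟨g, _, h, le_rfl, fun h' => absurd h h', fun _ _ _ => rfl⟩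

variable (Q) in
theorem norm (g : G) (x : PP S T) : ∃ (g' : G) (x' : PP S T), ok x' ∧
    (¬ ok x → dim x' < dim x) ∧
    ∀ (Y : Type) [TopologicalSpace Y] (c : CellMaps Q Y), pt c g x = pt c g' x' := by
  by_cases hx : ok x
  · exact ⟨g, x, hx, fun h => absurd hx h, fun _ _ _ => rfl⟩
  rcases x with x | ⟨s, r⟩ | ⟨t, p⟩
  · exact absurd trivial hx
  · obtain ⟨g', x', h1, -, h2, h3⟩ := norm_e Q g s r
    exact ⟨g', x', h1, h2, h3⟩
  · obtain ⟨⟨p1, p2⟩, a1, a2, a3⟩ := p
    simp only [ok, not_and, not_lt] at hx a1 a2 a3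
    by_cases b1 : p1 = 0
    · subst b1
      obtain ⟨g', x', h1, h2, -, h3⟩ := norm_e Q g (Q.c t) ⟨p2, a2, by simpa using a3⟩
      refine ⟨g', x', h1, fun _ => lt_of_le_of_lt h2 one_lt_two, fun Y _ c => ?_⟩
      rw [← h3, ← c.f02]; rfl
    by_cases b2 : p2 = 0
    · subst b2
      obtain ⟨g', x', h1, h2, -, h3⟩ := norm_e Q g (Q.a t) ⟨p1, a1, by simpa using a3⟩
      refine ⟨g', x', h1, fun _ => lt_of_le_of_lt h2 one_lt_two, fun Y _ c => ?_⟩
      rw [← h3, ← c.f01]; rfl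
    have b3 : p1 = 1 - p2 := by
      have := hx (lt_of_le_of_ne a1 (Ne.symm b1)) (lt_of_le_of_ne a2 (Ne.symm b2))
      linarith
    subst b3
    obtain ⟨g', x', h1, h2, -, h3⟩ := norm_e Q (g * Q.x (Q.a t)) (Q.b t) ⟨p2, a2, by linarith⟩
    refine ⟨g', x', h1, fun _ => lt_of_le_of_lt h2 one_lt_two, fun Y _ c => ?_⟩
    rw [← h3, ← c.f12]; rfl

/-! ### characteristic maps -/

/-- clamped affine map `[-1,1] → [0,1]` -/
noncomputable def rho (u : ℝ) : I := projIcc 0 1 zero_le_one ((1 + u) / 2)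

theorem continuous_rho : Continuous rho := continuous_projIcc.comp (by fun_prop)

theorem rho_val {u : ℝ} (h : |u| ≤ 1) : (rho u : ℝ) = (1 + u) / 2 := by
  obtain ⟨h1, h2⟩ := abs_le.1 h
  unfold rho
  rw [projIcc_of_mem _ ⟨by linarith, by linarith⟩]

/-- square to triangle -/
noncomputable def sqT (y : Fin 2 → ℝ) : Tri :=
  ⟨((1 - (rho (y 1) : ℝ)) * rho (y 0), rho (y 1)),
    mul_nonneg (sub_nonneg.2 (rho _).2.2) (rho _).2.1, (rho _).2.1, by
      have h1 := (rho (y 0)).2.2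
      have h2 := (rho (y 1)).2.2
      simp only
      nlinarith⟩

theorem continuous_sqT : Continuous sqT := by
  have h : ∀ i : Fin 2, Continuous fun y : Fin 2 → ℝ => (rho (y i) : ℝ) := fun i =>
    continuous_subtype_val.comp (continuous_rho.comp (continuous_apply i))
  exact Continuous.subtype_mk (((continuous_const.sub (h 1)).mul (h 0)).prodMk (h 1)) _

/-- the cells -/
def cell (S T : Type) : ℕ → Type
  | 0 => Unit
  | 1 => S
  | 2 => T
  | _ + 3 => Empty

/-- characteristic maps -/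
noncomputable def chi : ∀ n, cell S T n → (Fin n → ℝ) → PP S T
  | 0, _, _ => .inl ()
  | 1, s, y => .inr (.inl ⟨s, rho (y 0)⟩)
  | 2, t, y => .inr (.inr ⟨t, sqT y⟩)
  | _ + 3, e, _ => Empty.elim e

theorem mem_ball_pi {n : ℕ} {y : Fin n → ℝ} : y ∈ ball (0 : Fin n → ℝ) 1 ↔ ∀ i, |y i| < 1 := by
  rw [mem_ball_zero_iff, pi_norm_lt_iff one_pos]; rfl

theorem mem_closedBall_pi {n : ℕ} {y : Fin n → ℝ} :
    y ∈ closedBall (0 : Fin n → ℝ) 1 ↔ ∀ i, |y i| ≤ 1 := by
  rw [mem_closedBall_zero_iff, pi_norm_le_iff_of_nonneg zero_le_one]; rfl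

theorem ok_chi_iff (n : ℕ) (i : cell S T n) {y : Fin n → ℝ} (hy : ∀ i, |y i| ≤ 1) :
    ok (chi n i y) ↔ ∀ i, |y i| < 1 := by
  match n, i, y, hy with
  | 0, _, _, _ => simp [chi, ok]
  | 1, s, y, hy =>
    simp only [chi, ok, rho_val (hy 0), Fin.forall_fin_one, abs_lt]
    constructor <;> rintro ⟨h1, h2⟩ <;> constructor <;> linarith
  | 2, t, y, hy =>
    simp only [chi, ok, sqT, rho_val (hy 0), rho_val (hy 1), Fin.forall_fin_two, abs_lt]
    obtain ⟨a1, a2⟩ := abs_le.1 (hy 0)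
    obtain ⟨b1, b2⟩ := abs_le.1 (hy 1)
    constructor
    · rintro ⟨h1, h2, h3⟩
      refine ⟨⟨?_, ?_⟩, by linarith, ?_⟩ <;> by_contra h <;> nlinarith
    · rintro ⟨⟨h1, h2⟩, h3, h4⟩
      refine ⟨?_, by linarith, ?_⟩ <;> nlinarith
  | _ + 3, e, _, _ => exact Empty.elim e

theorem cw_PP [Finite S] [Finite T] {X : Type} [TopologicalSpace X] [T2Space X] (ψ : PP S T → X)
    (hψ : Continuous ψ) (hs : Function.Surjective ψ)
    (hinj : ∀ x x', ok x → ok x' → ψ x = ψ x' → x = x')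
    (hnorm : ∀ x, ¬ ok x → ∃ x', ok x' ∧ dim x' < dim x ∧ ψ x = ψ x') :
    ∃ _ : CWComplex (univ : Set X), RelCWComplex.Finite (univ : Set X) ∧
      ∀ n : ℕ, 2 < n → IsEmpty (RelCWComplex.cell (univ : Set X) n) := by
  refine cw_of ψ hψ hs ok dim hinj hnorm (cell S T) chi ?_ ?_ ?_ ?_ ?_ ?_ ?_ 2 ?_
  · intro n i
    match n, i with
    | 0, _ => exact continuous_const
    | 1, s =>
      exact continuous_inr.comp (continuous_inl.comp
        ((continuous_sigmaMk : Continuous (Sigma.mk (β := fun _ : S => I) s)).comp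
          (continuous_rho.comp (continuous_apply 0))))
    | 2, t =>
      exact continuous_inr.comp (continuous_inr.comp
        ((continuous_sigmaMk : Continuous (Sigma.mk (β := fun _ : T => Tri) t)).comp continuous_sqT))
    | _ + 3, e => exact Empty.elim e
  · intro n i y
    match n, i, y with
    | 0, _, _ => rfl
    | 1, _, _ => rfl
    | 2, _, _ => rfl
    | _ + 3, e, _ => exact Empty.elim e
  · intro n i y hy
    rw [mem_ball_pi] at hy
    exact (ok_chi_iff n i (fun i => (hy i).le)).2 hy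
  · intro n i y hy h
    have h1 := mem_closedBall_pi.1 (sphere_subset_closedBall hy)
    have h2 := mem_ball_pi.2 ((ok_chi_iff n i h1).1 h)
    rw [mem_sphere] at hy
    rw [mem_ball, hy] at h2
    exact lt_irrefl _ h2
  · intro n i i' y hy y' hy' h
    rw [mem_ball_pi] at hy hy'
    match n, i, i', y, y', hy, hy', h with
    | 0, _, _, _, _, _, _, _ => exact ⟨rfl, Subsingleton.elim _ _⟩
    | 1, s, s', y, y', hy, hy', h =>
      simp only [chi, Sum.inr.injEq, Sum.inl.injEq, Sigma.mk.injEq, heq_eq_eq] at h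
      refine ⟨h.1, funext fun i => ?_⟩
      have := congrArg Subtype.val h.2
      rw [rho_val (hy 0).le, rho_val (hy' 0).le] at this
      fin_cases i
      simp only [Fin.zero_eta]
      linarith
    | 2, t, t', y, y', hy, hy', h =>
      simp only [chi, Sum.inr.injEq, Sigma.mk.injEq, heq_eq_eq] at h
      have := congrArg Subtype.val h.2
      simp only [sqT, Prod.mk.injEq, rho_val (hy 0).le, rho_val (hy' 0).le, rho_val (hy 1).le,
        rho_val (hy' 1).le] at this
      have e1 : y 1 = y' 1 := by linarith [this.2]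
      have e0 : y 0 = y' 0 := by
        have h3 := this.1
        rw [← e1] at h3
        have h4 : 1 - (1 + y 1) / 2 ≠ 0 := by have := (abs_lt.1 (hy 1)).2; intro h; linarith
        have := mul_left_cancel₀ h4 h3
        linarith
      refine ⟨h.1, funext fun i => ?_⟩
      fin_cases i
      · exact e0
      · exact e1
    | _ + 3, e, _, _, _, _, _, _ => exact Empty.elim e
  · rintro (x | ⟨s, r⟩ | ⟨t, ⟨p1, p2⟩, a1, a2, a3⟩)
    · exact ⟨0, (), 0, mem_closedBall_self zero_le_one, rfl⟩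
    · have h : |2 * (r : ℝ) - 1| ≤ 1 := abs_le.2 ⟨by linarith [r.2.1], by linarith [r.2.2]⟩
      refine ⟨1, s, fun _ => 2 * r - 1, mem_closedBall_pi.2 fun _ => h, ?_⟩
      have : rho (2 * (r : ℝ) - 1) = r := Subtype.ext (by rw [rho_val h]; ring)
      simp only [chi, this]
    · simp only at a1 a2 a3
      obtain ⟨u, hu0, hu1, hu⟩ : ∃ u : ℝ, 0 ≤ u ∧ u ≤ 1 ∧ (1 - p2) * u = p1 := by
        by_cases h : p2 = 1
        · exact ⟨0, le_rfl, zero_le_one, by linarith⟩
        · have h' : 0 < 1 - p2 := lt_of_le_of_ne (by linarith) (fun h' => h (by linarith))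
          exact ⟨p1 / (1 - p2), div_nonneg a1 h'.le, (div_le_one h').2 (by linarith),
            mul_div_cancel₀ _ h'.ne'⟩
      have h0 : |2 * u - 1| ≤ 1 := abs_le.2 ⟨by linarith, by linarith⟩
      have h1 : |2 * p2 - 1| ≤ 1 := abs_le.2 ⟨by linarith, by linarith⟩
      refine ⟨2, t, ![2 * u - 1, 2 * p2 - 1], mem_closedBall_pi.2 (Fin.forall_fin_two.2 ⟨h0, h1⟩),
        ?_⟩
      have : sqT ![2 * u - 1, 2 * p2 - 1] = ⟨(p1, p2), a1, a2, a3⟩ := by
        apply Subtype.ext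
        simp only [sqT, Matrix.cons_val_zero, Matrix.cons_val_one, rho_val h0, rho_val h1,
          Prod.mk.injEq]
        constructor
        · rw [← hu]; ring
        · ring
      simp only [chi, this]
  · intro n
    match n with
    | 0 => exact (inferInstance : Finite Unit)
    | 1 => exact ‹Finite S›
    | 2 => exact ‹Finite T›
    | _ + 3 => exact (inferInstance : Finite Empty)
  · intro n hn
    match n, hn with
    | _ + 3, _ => exact (inferInstance : IsEmpty Empty)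

end Crest.Agent.R177.TB
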