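import Crest.Agent.R177.Defs

/-!
The Cayley complex of a triangular presentation: abstract interface.
-/

set_option autoImplicit false

namespace Crest.Agent.R177

open unitInterval

/-- The triangle, with barycentric coordinates `(1 - p.1 - p.2, p.1, p.2)`. -/
abbrev Tri : Type := {p : ℝ × ℝ // 0 ≤ p.1 ∧ 0 ≤ p.2 ∧ p.1 + p.2 ≤ 1}

/-- The side from vertex `0` to vertex `1`. -/
def d01 : C(I, Tri) :=
  ⟨fun r => ⟨((r : ℝ), 0), r.2.1, le_rfl, by simpa using r.2.2⟩, by fun_prop⟩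

/-- The side from vertex `1` to vertex `2`. -/
def d12 : C(I, Tri) :=
  ⟨fun r => ⟨(1 - (r : ℝ), (r : ℝ)), by simpa using r.2.2, r.2.1, by simp⟩, by fun_prop⟩

/-- The side from vertex `0` to vertex `2`. -/
def d02 : C(I, Tri) :=
  ⟨fun r => ⟨(0, (r : ℝ)), le_rfl, r.2.1, by simpa using r.2.2⟩, by fun_prop⟩

/-- Compatible maps from the cells of the Cayley complex to a space `E`. -/
structure CellMaps {G : Type} [Group G] {S T : Type} (Q : TriPres G S T) (E : Type)
    [TopologicalSpace E] where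
  v : G → E
  e : G × S → C(I, E)
  f : G × T → C(Tri, E)
  e0 : ∀ g s, e (g, s) 0 = v g
  e1 : ∀ g s, e (g, s) 1 = v (g * Q.x s)
  f01 : ∀ g t r, f (g, t) (d01 r) = e (g, Q.a t) r
  f12 : ∀ g t r, f (g, t) (d12 r) = e (g * Q.x (Q.a t), Q.b t) r
  f02 : ∀ g t r, f (g, t) (d02 r) = e (g, Q.c t) r

/-- `E` is the colimit of its cells. -/
structure IsCellSpace {G : Type} [Group G] {S T : Type} {Q : TriPres G S T} {E : Type}
    [TopologicalSpace E] (c : CellMaps Q E) : Prop where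
  surj : ∀ z : E, (∃ g, c.v g = z) ∨ (∃ i r, c.e i r = z) ∨ ∃ i p, c.f i p = z
  glue : ∀ (Y : Type) [TopologicalSpace Y] (c' : CellMaps Q Y), ∃ F : C(E, Y),
    (∀ g, F (c.v g) = c'.v g) ∧ (∀ i r, F (c.e i r) = c'.e i r) ∧ ∀ i p, F (c.f i p) = c'.f i p

end Crest.Agent.R177
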