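import Crest.Agent.R177.VKb

/-!
Task R177-V: van Kampen diagrams.  From `IsoP` to `CS` (asphericity) and to `ChainIso`.

Let `G = Grp S σ τ`, `L = Ltr V P`, `inv = linv σ`, and `F = PresentedGroup {x_c x_{σ c}}` on `P ⊕ V`, with
`X : L → F`, `X (inv a) = (X a)⁻¹`, `π₀ : F →* G` surjective, `ker π₀ = normalClosure {r h}`,
`r h = X (y_{vert h}) X (x_{col h}) X (y_{vert (τ h)})⁻¹`, `r (τ h) = (r h)⁻¹`.
(NF) a non-empty word `w : List L` with no `a, inv a` adjacent has `(w.map X).prod ≠ 1`: let `F` act on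
reduced words (`a • w = tail w` if `w` starts with `inv a`, else `a :: w`).

**The big graph.**  Half-edges `Hf⋆ = Hf ⊕ (V × Bool) ⊕ (F × L)`, vertices `V⋆ = Option V ⊕ F`, colours `L`:
`h : Hf` as in `S`; `(u,true)` at the hub `none` with colour `inr (u,true)`, `(u,false)` at `some u` with colour
`inr (u,false)`, `τ⋆ (u,b) = (u,!b)`; `(f,a)` at `f` with colour `a`, `τ⋆ (f,a) = (f * X a, inv a)`.
`pos : V⋆ → G`, `pos none = 1`, `pos (some u) = y_u`, `pos f = π₀ f`; `pos (vert⋆ h) * gx (col⋆ h) = pos (vert⋆ (τ⋆ h))`,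
`τ⋆` is an involution without fixed points.

**States.**  Fix a finite type `D` and functions `lab : D → L`, `π : D → G`, `ε : D → Hf⋆`, `tv : D → V⋆`, `Out : Finset D`
(never modified).  A state is `(A : Finset D, φ : Perm D, α : D → D)` with `Out ⊆ A`, `φ d ∈ Out ↔ d ∈ Out`, and
* `d ∈ A`: `α d ∈ A`, `α (α d) = d`, `α d ≠ d`, `lab (α d) = inv (lab d)`, `π (φ d) = π d * gx (lab d)`, `π (α d) = π (φ d)`;
* `d ∈ A \ Out`: `col⋆ (ε d) = lab d`, `vert⋆ (ε d) = tv d`, `vert⋆ (τ⋆ (ε d)) = tv (φ d)`;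
* `d ∉ A` (dead): `π (φ d) = π d`, `tv (φ d) = tv d`;
* PL: for all `χ : D → 𝔽₂` with `χ (φ d) = χ d` on dead darts and the equation of `PL` on `A`, there is a
  `φ`-invariant `κ` with `χ (α d) + κ (α d) = χ (φ d) + κ d` on `A`.
`gp d = π d * (pos (tv d))⁻¹` is `φ`-invariant off `Out`.  For antisymmetric `κ : G × Hf → M`, extended by `0` to `Hf⋆`,
`ev = ∑_{d ∈ A \ Out} κ (gp d, ε d)`.  Surgeries keep `ev` and decrease `2 |A| + |{d | φ d ≠ d}|`:
* DEL: `z` dead, `φ z ≠ z`: `φ' = φ * swap (φ⁻¹ z) z` (for PL redefine `χ z := χ (φ z)`).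
* MERGE: `d, d' = α d ∉ Out`, `ε d' = τ⋆ (ε d)`: `φ' = φ * swap d d'`, `A' = A \ {d,d'}` (the old `κ` has `κ d = κ d'`).
* FOLD: `d, d' = φ d ∈ A \ Out`, `ε d' = τ⋆ (ε d)`, `α d ≠ d'`: same `φ'`, `A'`, and `α'` exchanges `e = α d`, `e' = α d'`
  (for PL redefine `χ d' := χ d + χ (φ e) + χ e`).
In a minimal state dead darts are `φ`-fixed, so `φ` restricts to `A` (`Equiv.Perm.subtypePerm`).  There are no darts
over the tree part (the labels along a `φ`-cycle would contradict (NF)); a dart over `V × Bool` has its `α`-partner in `Out`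
(there is only one half-edge of each colour `inr _` outside the tree part).  With `In` = darts over `Hf` we get an
`RPS` on `A` with at most `2 |Out|` junk darts (`ε` on junk: any element of the nonempty `Hf`; consecutive genuine darts
satisfy `path`).  So `|In| ≤ 2 C |Out|`.

**Initial states.**  A *pre-diagram based at `s : G`*: finite `D`, a `Nodup` list `l` of *tree darts*, a permutation `φR`
fixing the elements of `l`, `α`, `lab`, `π`, `ε`, `tv`, `Out` satisfying the state axioms (with `A = univ`) for darts outside `l`,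
`π (α d) = π d * gx (lab d)` for all `d`, `π` is a chain along `l` from `s` to `s` (`Ch f st s [] t ↔ s = t`,
`Ch f st s (d :: l) t ↔ f d = s ∧ Ch f st (s * st d) l t`), and linear PL: for all `α`-invariant `ω : D → 𝔽₂`, all `χ` with
`χ (φR d) = χ d + ω d` off `l`, and all `s₀` there is `ψ` which is an additive chain along `l` from `s₀` to `s₀` with
`ψ (φR d) = ψ d + ω d` off `l` and `ψ (α d) = ψ d + ω d` everywhere.  Its *word* is `((l.map lab).map X).prod`.
Constructors: empty; concatenation (`D₁ ⊕ D₂`); conjugation by a letter (`D ⊕ Bool`, two new tree darts paired with each other,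
inner diagram based at `s * gx a`); double polygon (`ZMod b × Bool` or `Fin b × Bool`: tree darts `(i,false)` spell a closed
word, darts `(i,true)` form the reversed face) used for the triangle `r h` (face in the cone part of the big graph) and
for the outer word.  If the word is `1 ∈ F`, `φ = φR * l.formPerm` and `ε d = (prefix product, lab d)` on `l` give a state.
Consequences: (Z) for fixed `κ`, the submonoid (= subgroup) `𝒮 ≤ F × Multiplicative M` generated by
`(f * r h * f⁻¹, κ (π₀ f, h))` meets `{1} × M` trivially, and it projects onto `ker π₀`.  This defines an additive map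
`ζ : ker π₀ → M`; with a section `s : G → F` put `ψ (g, a) = ζ (s g * X a * (s (g * gx a))⁻¹)`.
For `ChainIso`: take a minimal state with outer word `w`; `T` = triangles `(gp d, y_u, x_c, y_{u'}⁻¹)` of the genuine darts.
For symmetric `ξ`, `∑_{d ∈ A} ξ (π d, lab d) = 0` (pair `d, α d`), and for `d ∈ A \ Out`
`ξ (π d, lab d) = [d genuine] ∂T d + sp d + sp (φ d)` with `sp d = ξ (gp d, y_u)` if `tv d = some u`, `0` at the hub.
-/

set_option autoImplicit false

namespace Crest.Agent.R177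

namespace VK

open Finset

variable {Hf V P X' : Type} {S : HS Hf V P} {σ : P → P} {τ : Hf → Hf} {cmp : V → X'}
  (hσ : ∀ c, σ (σ c) = c) (hτ : IsMatch S σ cmp τ) {M N : Type} [AddCommGroup M] [AddCommMonoid N]

/-- extension of a cochain by zero -/
def ext0 (κ : Grp S σ τ × Hf → M) (y : Grp S σ τ × HB Hf V σ) : M :=
  Sum.elim (fun h => κ (y.1, h)) (fun _ => 0) y.2

theorem ext0_anti {κ : Grp S σ τ × Hf → M} (hκ : ∀ g h, κ (g, τ h) = - κ (g, h)) (g : Grp S σ τ)
    (k : HB Hf V σ) : ext0 κ (g, (big S σ τ hσ hτ).τ k) = - ext0 κ (g, k) := by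
  rcases k with h | ⟨u, b⟩ | ⟨f, a⟩
  · exact hκ g h
  · simp [ext0, big]
  · simp [ext0, big]

/-- pre-diagrams between two elements of the free product -/
def PreF (κ : Grp S σ τ × Hf → M) (ξ : Grp S σ τ × Ltr V P → N) (s t : F V σ) (m : M) (n : N) :
    Prop :=
  Pre (big S σ τ hσ hτ) (ext0 κ) ξ (Sum.inr s) (Sum.inr t) (π₀ S σ τ s) m n

variable {hσ hτ} {κ : Grp S σ τ × Hf → M} {ξ : Grp S σ τ × Ltr V P → N}

theorem PreF.refl [Nonempty Hf] (s : F V σ) : PreF hσ hτ κ ξ s s 0 0 :=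
  Pre.refl (Sum.inl (Classical.arbitrary Hf)) _ _

theorem PreF.trans {s t u : F V σ} {m m' : M} {n n' : N} (hst : π₀ S σ τ s = π₀ S σ τ t)
    (h : PreF hσ hτ κ ξ s t m n) (h' : PreF hσ hτ κ ξ t u m' n') :
    PreF hσ hτ κ ξ s u (m + m') (n + n') :=
  Pre.trans h (by rw [hst]; exact h')

theorem PreF.conj {s t : F V σ} {m : M} {n : N} (a : Ltr V P)
    (h : PreF hσ hτ κ ξ (s * X σ a) (t * X σ a) m n) : PreF hσ hτ κ ξ s t m n := by
  refine Pre.conj (B := big S σ τ hσ hτ) (Sum.inr (Sum.inr (s, a))) (Sum.inr (Sum.inr (t, a))) rfl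
    (fun _ => rfl) (fun _ => rfl) ?_
  unfold PreF at h
  rw [map_mul, π₀_X] at h
  exact h

theorem PreF.conj' {m : M} {n : N} (f : F V σ) : ∀ {s t : F V σ},
    PreF hσ hτ κ ξ (s * f) (t * f) m n → PreF hσ hτ κ ξ s t m n := by
  induction f using F_induction with
  | h1 => intro s t h; simpa using h
  | hm a f ih =>
    intro s t h
    rw [← mul_assoc, ← mul_assoc] at h
    exact PreF.conj a (ih h)

theorem PreF.tri (s : F V σ) (h : Hf) :
    PreF hσ hτ κ ξ s (s * X σ (Sum.inr (S.vert h, true)) * X σ (Sum.inl (S.col h)) *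
      X σ (Sum.inr (S.vert (τ h), false))) (κ (π₀ S σ τ s, τ h)) 0 := by
  let a : ℕ → Ltr V P := fun i => match i with
    | 0 => Sum.inr (S.vert h, true)
    | 1 => Sum.inl (S.col h)
    | _ => Sum.inr (S.vert (τ h), false)
  let q : ℕ → F V σ := fun i => match i with
    | 0 => s
    | 1 => s * X σ (Sum.inr (S.vert h, true))
    | 2 => s * X σ (Sum.inr (S.vert h, true)) * X σ (Sum.inl (S.col h))
    | _ => s * X σ (Sum.inr (S.vert h, true)) * X σ (Sum.inl (S.col h)) *
      X σ (Sum.inr (S.vert (τ h), false))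
  let e' : ℕ → HB Hf V σ := fun i => match i with
    | 0 => Sum.inr (Sum.inl (S.vert h, false))
    | 1 => Sum.inl (τ h)
    | _ => Sum.inr (Sum.inl (S.vert (τ h), true))
  let v' : ℕ → WB V σ := fun i => match i with
    | 1 => Sum.inl (some (S.vert h))
    | 2 => Sum.inl (some (S.vert (τ h)))
    | _ => Sum.inl none
  have hr := gx_rel S σ τ h
  have key := Pre.polygon (B := big S σ τ hσ hτ) (κ := ext0 κ) (ξ := ξ) 3
    (fun i => Sum.inr (Sum.inr (q i, a i))) e' (fun i => Sum.inr (q i)) v'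
    (fun i => π₀ S σ τ (q i)) False (fun _ _ => rfl)
    (fun i hi => by interval_cases i <;> rfl)
    (fun i hi => by interval_cases i <;> simp only [q, a, big, map_mul, π₀_X])
    (by
      simp only [q, map_mul, π₀_X]
      rw [mul_assoc (π₀ S σ τ s), hr]
      simp [gx])
    (fun _ _ _ => rfl)
    (fun _ => ⟨fun i hi => by
      interval_cases i <;> simp [e', v', a, big, linv, hτ.col, hτ.invol], rfl⟩)
  simp only [if_false, sum_range_succ, range_zero, sum_empty, zero_add] at key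
  unfold PreF
  convert key using 1
  · rfl
  · rfl
  · rfl
  · simp only [e', v', q, ext0, big, Sum.elim_inl, Sum.elim_inr, map_mul, π₀_X, add_zero, zero_add]
    rw [mul_assoc (π₀ S σ τ s), hr, mul_inv_cancel_right]

theorem PreF.exists [Nonempty Hf] {s t : F V σ} (hst : π₀ S σ τ s = π₀ S σ τ t) :
    ∃ m, PreF hσ hτ κ ξ s t m 0 := by
  let Q : F V σ → Prop := fun f => π₀ S σ τ f = 1 ∧ ∀ s, ∃ m, PreF hσ hτ κ ξ s (s * f) m 0
  have Qm : ∀ f g, Q f → Q g → Q (f * g) := by
    rintro f g ⟨a1, a2⟩ ⟨b1, b2⟩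
    refine ⟨by rw [map_mul, a1, b1, one_mul], fun s => ?_⟩
    obtain ⟨m, hm⟩ := a2 s
    obtain ⟨m', hm'⟩ := b2 (s * f)
    have := hm.trans (by rw [map_mul, a1, mul_one]) hm'
    rw [add_zero, mul_assoc] at this
    exact ⟨_, this⟩
  have Qc : ∀ f g, Q f → Q (g * f * g⁻¹) := by
    rintro f g ⟨a1, a2⟩
    refine ⟨by simp [a1], fun s => ?_⟩
    obtain ⟨m, hm⟩ := a2 (s * g)
    refine ⟨m, PreF.conj' g ?_⟩
    convert hm using 1
    group
  have Qr : ∀ h, Q (X σ (Sum.inr (S.vert h, true)) * X σ (Sum.inl (S.col h)) *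
      X σ (Sum.inr (S.vert (τ h), false))) := by
    intro h
    refine ⟨?_, fun s => ⟨_, by simpa only [mul_assoc] using PreF.tri s h⟩⟩
    simp only [map_mul, π₀_X]
    rw [gx_rel]; simp [gx]
  let K : Subgroup (F V σ) :=
    { carrier := {f | Q f ∧ Q f⁻¹}
      one_mem' := by
        have : Q 1 := ⟨map_one _, fun s => ⟨0, by simpa using PreF.refl s⟩⟩
        exact ⟨this, by simpa using this⟩
      mul_mem' := fun {f g} a b => ⟨Qm _ _ a.1 b.1, by rw [mul_inv_rev]; exact Qm _ _ b.2 a.2⟩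
      inv_mem' := fun {f} a => ⟨a.2, by simpa using a.1⟩ }
  have : K.Normal := ⟨fun f a g => ⟨Qc _ _ a.1, by
    have := Qc _ g a.2
    convert this using 1; group⟩⟩
  obtain ⟨Φ, h1, h2⟩ := grp_lift S σ τ (H := F V σ ⧸ K)
    (fun c => QuotientGroup.mk' K (X σ (Sum.inl c)))
    (fun u => QuotientGroup.mk' K (X σ (Sum.inr (u, true))))
    (fun c => by
      rw [← map_mul]
      have := X_linv (V := V) σ (Sum.inl c)
      simp only [linv] at this
      rw [this, mul_inv_cancel, map_one])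
    (fun h => by
      rw [← map_mul, ← mul_inv_eq_one, ← map_inv, ← map_mul, QuotientGroup.mk'_apply,
        QuotientGroup.eq_one_iff]
      refine ⟨Qr h, ?_⟩
      have := Qr (τ h)
      rw [hτ.invol, hτ.col] at this
      convert this using 1
      have e := X_linv (V := V) σ (Sum.inl (S.col h))
      simp only [linv] at e
      rw [e]
      simp [X, mul_assoc])
  have h3 : ∀ f, Φ (π₀ S σ τ f) = QuotientGroup.mk' K f := by
    intro f
    induction f using F_induction with
    | h1 => simp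
    | hm a f ih =>
      rw [map_mul, map_mul, map_mul, ih, π₀_X]
      congr 1
      rcases a with c | ⟨u, _ | _⟩
      · exact h1 c
      · have e1 := gx_linv S σ τ (Sum.inr (u, true))
        have e2 := X_linv (V := V) σ (Sum.inr (u, true))
        simp only [linv, Bool.not_true] at e1 e2
        rw [e1, e2, map_inv, map_inv, h2]
      · exact h2 u
  have h4 : s⁻¹ * t ∈ K := by
    rw [← QuotientGroup.eq_one_iff, ← QuotientGroup.mk'_apply, ← h3, map_mul, map_inv, hst,
      inv_mul_cancel, map_one]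
  simpa using h4.1.2 s

theorem PreF.zero [Nonempty Hf] {C : ℕ} (hI : IsoP S σ τ C)
    (hκ : ∀ g h, κ (g, τ h) = - κ (g, h)) {s : F V σ} {m : M}
    (h : PreF hσ hτ κ (fun _ => (1 : ℕ)) s s m 0) : m = 0 := by
  obtain ⟨D, _, _, T, A, φ, α, a1, a2, a3, a4, a5, a6, a7⟩ := Pre.min (ext0_anti hσ hτ hκ) h
  have := card_in hI a1 a2 a5 a6 a7
  rw [← card_eq_sum_ones] at a4
  rw [a4, mul_zero, Nat.le_zero, card_eq_zero, filter_eq_empty_iff] at this
  rw [← a3]
  refine sum_eq_zero fun d hd => ?_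
  have := this hd
  rcases hε : T.ε d with k | k
  · rw [hε] at this; simp at this
  · rfl

theorem π₀_surj : Function.Surjective (π₀ S σ τ) := by
  rw [← MonoidHom.range_eq_top, eq_top_iff, ← gx_closure, Subgroup.closure_le]
  rintro _ ⟨a, rfl⟩
  exact ⟨X σ a, π₀_X S σ τ a⟩

theorem pathSum_eq {G L M : Type} [Group G] [AddCommMonoid M] (x : L → G) (ξ : G × L → M) (d : L)
    (w : List L) : ∀ g, pathSum x ξ g w =
      ∑ i ∈ range w.length, ξ (g * ((w.take i).map x).prod, w.getD i d) := by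
  induction w with
  | nil => intro g; simp [pathSum]
  | cons a w ih =>
    intro g
    rw [pathSum, ih, List.length_cons, sum_range_succ', add_comm]
    simp [mul_assoc]

theorem PreF.word [Nonempty Hf] (w : List (Ltr V P)) (hw : (w.map (gx S σ τ)).prod = 1)
    (d : Ltr V P) :
    PreF hσ hτ κ ξ 1 (w.map (X σ)).prod 0 (∑ i ∈ range w.length,
      ξ (((w.take i).map (gx S σ τ)).prod * gx S σ τ (w.getD i d), linv σ (w.getD i d))) := by
  have hπ : ∀ l : List (Ltr V P), π₀ S σ τ (l.map (X σ)).prod = (l.map (gx S σ τ)).prod := by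
    intro l
    rw [map_list_prod, List.map_map]
    congr 2
    funext a; exact π₀_X S σ τ a
  have hs : ∀ i < w.length, ((w.take (i + 1)).map (X σ)).prod =
      ((w.take i).map (X σ)).prod * X σ (w.getD i d) := by
    intro i hi
    rw [List.take_add_one, List.getD_eq_getElem _ _ hi, List.getElem?_eq_getElem hi,
      List.map_append, List.prod_append]
    simp
  have key := Pre.polygon (B := big S σ τ hσ hτ) (κ := ext0 κ) (ξ := ξ) w.length
    (fun i => Sum.inr (Sum.inr (((w.take i).map (X σ)).prod, w.getD i d)))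
    (fun _ => Sum.inl (Classical.arbitrary Hf))
    (fun i => Sum.inr ((w.take i).map (X σ)).prod) (fun _ => Sum.inl none)
    (fun i => π₀ S σ τ ((w.take i).map (X σ)).prod) True (fun _ _ => rfl)
    (fun i hi => by rw [hs i hi]; rfl)
    (fun i hi => by rw [hs i hi, map_mul, π₀_X]; rfl)
    (by simp [hπ, hw]) (fun _ _ _ => rfl) (fun a => absurd trivial a)
  simp only [if_true, List.take_length, List.take_zero, List.map_nil, List.prod_nil] at key
  unfold PreF
  convert key using 1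
  refine sum_congr rfl fun i hi => ?_
  rw [hs i (mem_range.1 hi), map_mul, π₀_X, hπ]; rfl

end VK

open VK Finset

theorem cs_of_isoP {Hf V P X : Type} [Nonempty Hf] (S : HS Hf V P) {σ : P → P}
    (hσ : ∀ c, σ (σ c) = c) (cmp : V → X) (τ : Hf → Hf) (hτ : IsMatch S σ cmp τ) (C : ℕ)
    (hI : IsoP S σ τ C) : CS S σ τ := by
  classical
  intro M _ κ hκ
  have ex : ∀ s t : F V σ, ∃ m, π₀ S σ τ s = π₀ S σ τ t →
      PreF hσ hτ κ (fun _ => (1 : ℕ)) s t m 0 := by
    intro s t
    by_cases h : π₀ S σ τ s = π₀ S σ τ t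
    · obtain ⟨m, hm⟩ := PreF.exists (hσ := hσ) (hτ := hτ) (κ := κ) (ξ := fun _ => (1 : ℕ)) h
      exact ⟨m, fun _ => hm⟩
    · exact ⟨0, fun a => absurd a h⟩
  choose ζ hζ using ex
  have uniq : ∀ s t m, π₀ S σ τ s = π₀ S σ τ t → PreF hσ hτ κ (fun _ => (1 : ℕ)) s t m 0 →
      ζ s t = m := by
    intro s t m h hm
    have a1 := ((hζ s t h).trans h (hζ t s h.symm)).zero hI hκ
    have a2 := (hm.trans h (hζ t s h.symm)).zero hI hκ
    exact add_right_cancel (a1.trans a2.symm)
  have add : ∀ s t u, π₀ S σ τ s = π₀ S σ τ t → π₀ S σ τ t = π₀ S σ τ u →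
      ζ s u = ζ s t + ζ t u := fun s t u h h' =>
    uniq s u _ (h.trans h') ((hζ s t h).trans h (hζ t u h'))
  have neg : ∀ s t, π₀ S σ τ s = π₀ S σ τ t → ζ t s = - ζ s t := fun s t h =>
    eq_neg_of_add_eq_zero_right (((hζ s t h).trans h (hζ t s h.symm)).zero hI hκ)
  have cj : ∀ s t f, π₀ S σ τ s = π₀ S σ τ t → ζ s t = ζ (s * f) (t * f) := fun s t f h =>
    uniq s t _ h (PreF.conj' f (hζ _ _ (by rw [map_mul, map_mul, h])))
  choose sec hsec using (π₀_surj (S := S) (σ := σ) (τ := τ))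
  refine ⟨fun y => ζ (sec y.1 * VK.X σ y.2) (sec (y.1 * gx S σ τ y.2)), fun g a => ?_,
    fun g h => ?_⟩
  · simp only
    rw [cj _ _ (VK.X σ a) (by simp [hsec, π₀_X]), ← neg _ _ (by simp [hsec, π₀_X]), X_linv,
      gx_linv, inv_mul_cancel_right, mul_inv_cancel_right]
  · simp only
    have hr := gx_rel S σ τ h
    have e1 : VK.X σ (Sum.inr (S.vert (τ h), false)) =
        (VK.X σ (Sum.inr (S.vert (τ h), true)))⁻¹ := rfl
    rw [cj _ _ (VK.X σ (Sum.inl (S.col h))) (by simp [hsec, π₀_X]),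
      ← add _ _ _ (by simp [hsec, π₀_X]) (by simp [hsec, π₀_X]), mul_assoc g, hr, sub_eq_add_neg,
      ← neg _ _ (by simp [hsec, π₀_X]),
      ← add _ _ _ (by simp [hsec, π₀_X, mul_assoc, hr]) (by simp [hsec, π₀_X]),
      cj _ _ (VK.X σ (Sum.inr (S.vert (τ h), false))) (by simp [π₀_X, mul_assoc, hr])]
    have e2 : π₀ S σ τ (sec g) = π₀ S σ τ (sec g * VK.X σ (Sum.inr (S.vert h, true)) *
        VK.X σ (Sum.inl (S.col h)) * VK.X σ (Sum.inr (S.vert (τ h), false))) := by
      rw [e1]; simp [π₀_X, mul_assoc, ← hr]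
    have e3 := uniq _ _ _ e2 (PreF.tri (sec g) h)
    conv_lhs => enter [2]; rw [e1, mul_inv_cancel_right]
    rw [neg _ _ e2, e3, hκ, neg_neg, hsec]

theorem chainIso_of_isoP {Hf V P X : Type} [Nonempty Hf] (S : HS Hf V P) {σ : P → P}
    (hσ : ∀ c, σ (σ c) = c) (cmp : V → X) (τ : Hf → Hf) (hτ : IsMatch S σ cmp τ) (C : ℕ)
    (hI : IsoP S σ τ C) : ChainIso (gx S σ τ) (linv σ) (2 * C) := by
  classical
  intro w hw
  let ξ₀ : Grp S σ τ × Ltr V P → ℕ × ((Grp S σ τ × Ltr V P → ZMod 2) → ZMod 2) :=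
    fun y => (1, fun ξ => ξ y)
  let d₀ : Ltr V P := Sum.inl (S.col (Classical.arbitrary Hf))
  have p1 := PreF.word (hσ := hσ) (hτ := hτ) (κ := fun _ => (0 : ZMod 2)) (ξ := ξ₀) w hw d₀
  have hπ : π₀ S σ τ 1 = π₀ S σ τ (w.map (VK.X σ)).prod := by
    rw [map_list_prod, List.map_map, map_one, ← hw]
    congr 2
    funext a; exact (π₀_X S σ τ a).symm
  obtain ⟨m, p2⟩ := PreF.exists (hσ := hσ) (hτ := hτ) (κ := fun _ => (0 : ZMod 2)) (ξ := ξ₀) hπ.symm
  obtain ⟨D, _, _, T, A, φ, α, a1, a2, -, a4, a5, a6, a7⟩ :=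
    Pre.min (ext0_anti hσ hτ (by simp)) (p1.trans hπ p2)
  have hc := card_in hI a1 a2 a5 a6 a7
  rw [add_zero] at a4
  have b1 : (A ∩ T.Out).card = w.length := by
    have := congrArg Prod.fst a4
    simpa [Prod.fst_sum, ξ₀] using this
  have b2 : ∀ ξ : Grp S σ τ × Ltr V P → ZMod 2, (∀ g a, ξ (g * gx S σ τ a, linv σ a) = ξ (g, a)) →
      ∑ x ∈ A ∩ T.Out, ξ (T.π x, T.lab x) = pathSum (gx S σ τ) ξ 1 w := by
    intro ξ hξ
    have := congrFun (congrArg Prod.snd a4) ξ
    simp only [Prod.snd_sum, ξ₀, Finset.sum_apply, hξ] at this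
    rw [this, pathSum_eq _ _ d₀]
    simp
  set B := big S σ τ hσ hτ with hB
  let e : D → Hf := fun d => Sum.elim id (fun _ => Classical.arbitrary Hf) (T.ε d)
  let tri : D → Grp S σ τ × Ltr V P × Ltr V P × Ltr V P := fun d =>
    (gp B T d, Sum.inr (S.vert (e d), true), Sum.inl (S.col (e d)),
      Sum.inr (S.vert (τ (e d)), false))
  refine ⟨(((A \ T.Out).filter fun d => (T.ε d).isLeft).toList).map tri, ?_, ?_, fun ξ hξ => ?_⟩
  · rw [List.length_map, length_toList, ← b1]; exact hc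
  · intro t ht
    obtain ⟨d, -, rfl⟩ := List.mem_map.1 ht
    simp only [tri]
    rw [gx_rel]; simp [gx]
  · rw [List.map_map, Finset.sum_map_toList, ← b2 ξ hξ, sum_filter]
    have two : ∀ a : ZMod 2, a + a = 0 := by decide
    have s1 : ∑ x ∈ A, ξ (T.π x, T.lab x) = 0 := by
      refine sum_involution (fun d _ => α d) (fun d hd => ?_) (fun d hd _ => a1.α_ne d hd)
        (fun d hd => a1.αA d hd) (fun d hd => a1.αα d hd)
      rw [a1.πα d hd, a1.lab d hd]
      exact (congrArg (ξ (T.π d, T.lab d) + ·) (hξ _ _)).trans (two _)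
    let sp : D → ZMod 2 := fun d => match T.tv d with
      | Sum.inl (some u) => ξ (gp B T d, Sum.inr (u, true))
      | _ => 0
    have s2 : ∑ x ∈ A \ T.Out, sp (φ x) = ∑ x ∈ A \ T.Out, sp x :=
      sum_equiv φ (fun x => by simp only [mem_sdiff, mem_φ a5, a1.out]) (fun _ _ => rfl)
    have s3 : ∀ d ∈ A \ T.Out, ξ (T.π d, T.lab d) = (if (T.ε d).isLeft then
        ((fun t : Grp S σ τ × Ltr V P × Ltr V P × Ltr V P => ξ (t.1, t.2.1) +
          ξ (t.1 * gx S σ τ t.2.1, t.2.2.1) +
          ξ (t.1 * gx S σ τ t.2.1 * gx S σ τ t.2.2.1, t.2.2.2)) ∘ tri) d else 0) +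
        (sp (φ d) + sp d) := by
      intro d hd
      obtain ⟨d1, d2⟩ := mem_sdiff.1 hd
      have c1 := a1.col d d1 d2
      have c2 := a1.vert d d1 d2
      have c3 := (a2 d d2).1 d1
      have c4 := gp_φ a1 (a2 d) d2
      have c5 : T.π d = gp B T d * B.pos (T.tv d) := by simp [gp]
      simp only [sp, c4, tri, e, Function.comp]
      rw [c5, c3, ← c1, ← c2]
      generalize gp B T d = g
      rcases hε : T.ε d with k | ⟨u, _ | _⟩ | y
      · have f1 := hξ g (Sum.inr (S.vert (τ k), true))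
        simp only [linv, Bool.not_true] at f1
        simp only [hB, big, Sum.isLeft_inl, if_true, Sum.elim_inl, id]
        rw [mul_assoc g, gx_rel, f1]
        generalize ξ (g, Sum.inr (S.vert (τ k), true)) = a
        generalize ξ (g, Sum.inr (S.vert k, true)) = b
        generalize ξ (g * gx S σ τ (Sum.inr (S.vert k, true)), Sum.inl (S.col k)) = c
        revert a b c; decide
      · have f1 := hξ g (Sum.inr (u, true))
        simp only [linv, Bool.not_true] at f1
        simp [hB, big, f1]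
      · simp [hB, big]
      · exact absurd hε (no_tree a1 a2 a5 a6 d d1 d2 y)
    rw [← sum_inter_add_sum_sdiff A T.Out, sum_congr rfl s3, sum_add_distrib, sum_add_distrib, s2,
      two, add_zero] at s1
    exact (by decide : ∀ a b : ZMod 2, a + b = 0 → a = b) _ _ s1

end Crest.Agent.R177
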