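import Crest.Agent.R177.Design2
import Crest.Agent.R177.Glob
import Crest.Agent.R177.VK

/-!
Task R177-T2: characteristic two.

## `two_core`
`design_two` and `main` give `S, τ, C` with `IsoP S σ τ C`.  Split the vertex `sp 1`: `V' = Option V`,
`vert' h = none` if `vert h = sp 1 ∧ col h ∉ Z`, else `some (vert h)` (so `a' = some (sp 1)` has colours `cols ∩ Z`, `a'' = none` has `cols \ Z`),
`cmp' none = 1`.  `IsMatch` and `IsoP` pass from `S` to `S'` (an `RPS` over `S'` is one over `S`).  In `𝔽₂[Grp S' σ τ]` let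
`αᵢ = ∑_{cmp' u = i} y_u`, `βⱼ = ∑_{cmp' v = j} y_v⁻¹`; `sum_com` with `f u v = y_u y_v⁻¹` gives `α₀ β₂ = y_{sp 0} y_{sp 2}⁻¹`, `α₁ β₂ = 0`,
`α₁ β₃ = (y_{a'} + y_{a''}) y_{sp 3}⁻¹`.  With `a = y_{sp 0}⁻¹ α₀`, `b = β₂ y_{sp 2}`: `a b = 1`, and `b a = 1` gives `α₁ = α₁ b a = 0`, so
`y_{a'} = y_{a''}`.  This is false: use `cs_of_isoP` for the *unsplit* `S` with `M = ℤ`, `κ (g,h) = F (vert' (τ h)) - F (vert' h)`,
`F = indicator of none`, and let `Grp S' σ τ` act (`grp_lift`, into `(Equiv.Perm (Grp S σ τ × ℤ))ᵐᵒᵖ`) by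
`x_c : (g,n) ↦ (g x_c, n + ψ (g, x_c))`, `y_u : (g,n) ↦ (g y_ū, n + ψ (g, y_ū) + F u)`.

-/

set_option autoImplicit false

namespace Crest.Agent.R177

namespace T2

open Finset

variable {Hf V P : Type}

/-- forget the splitting -/
def bar (s : V) : Option V → V
  | none => s
  | some v => v

open Classical in
/-- the split system -/
noncomputable def spl (S : HS Hf V P) (s : V) (Z : Finset P) : HS Hf (Option V) P where
  vert h := if S.vert h = s ∧ S.col h ∉ Z then none else some (S.vert h)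
  col := S.col
  fold h h' h1 h2 := by
    refine S.fold h h' ?_ h2
    by_cases a : S.vert h = s ∧ S.col h ∉ Z <;> by_cases b : S.vert h' = s ∧ S.col h' ∉ Z <;>
      simp only [a, b, if_true, if_false, and_self, reduceCtorEq, Option.some.injEq,
        not_false_eq_true] at h1
    · rw [a.1, b.1]
    · exact h1

theorem bar_vert (S : HS Hf V P) (s : V) (Z : Finset P) (h : Hf) :
    bar s ((spl S s Z).vert h) = S.vert h := by
  unfold spl
  by_cases a : S.vert h = s ∧ S.col h ∉ Z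
  · simp only [a, and_self, not_false_eq_true, if_true, bar]
  · simp only [a, if_false, bar]

theorem match_spl {X : Type} {S : HS Hf V P} {σ : P → P} {cmp : V → X} {τ : Hf → Hf}
    (hτ : IsMatch S σ cmp τ) (s : V) (Z : Finset P) :
    IsMatch (spl S s Z) σ (fun u => cmp (bar s u)) τ :=
  ⟨hτ.invol, hτ.ne, hτ.col, fun h => by rw [bar_vert, bar_vert, hτ.cmp]⟩

theorem isoP_spl {S : HS Hf V P} {σ : P → P} {τ : Hf → Hf} {C : ℕ} (hI : IsoP S σ τ C) (s : V)
    (Z : Finset P) : IsoP (spl S s Z) σ τ C := by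
  intro D _ R
  exact hI D ⟨R.φ, R.α, R.In, R.ε, R.αα, R.α_ne, fun d h1 h2 => by
    rw [← bar_vert S s Z, ← bar_vert S s Z, R.path d h1 h2], R.nb, R.lab, R.red, R.pl⟩

open Classical in
theorem cols_some [Fintype P] (S : HS Hf V P) (s : V) (Z : Finset P) {v : V} (hv : v ≠ s) :
    cols (spl S s Z) (some v) = cols S v := by
  ext c
  simp only [cols, mem_filter, mem_univ, true_and]
  refine exists_congr fun h => and_congr_left fun _ => ?_
  unfold spl
  by_cases a : S.vert h = s ∧ S.col h ∉ Z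
  · simp only [a, and_self, not_false_eq_true, if_true, reduceCtorEq, false_iff]
    exact fun e => hv e.symm
  · simp only [a, if_false, Option.some.injEq]

open Classical in
theorem cols_s [Fintype P] (S : HS Hf V P) (s : V) (Z : Finset P) :
    cols (spl S s Z) (some s) = cols S s ∩ Z := by
  ext c
  simp only [cols, mem_filter, mem_univ, true_and, mem_inter]
  constructor
  · rintro ⟨h, h1, h2⟩
    change S.col h = c at h2
    unfold spl at h1
    by_cases a : S.vert h = s ∧ S.col h ∉ Z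
    · simp only [a, and_self, not_false_eq_true, if_true, reduceCtorEq] at h1
    · simp only [a, if_false, Option.some.injEq] at h1
      refine ⟨⟨h, h1, h2⟩, ?_⟩
      by_contra hc
      exact a ⟨h1, h2 ▸ hc⟩
  · rintro ⟨⟨h, h1, h2⟩, hc⟩
    refine ⟨h, ?_, h2⟩
    have a : ¬ (S.vert h = s ∧ S.col h ∉ Z) := fun a => a.2 (h2 ▸ hc)
    unfold spl
    simp only [a, if_false]
    rw [h1]

open Classical in
theorem cols_none [Fintype P] (S : HS Hf V P) (s : V) (Z : Finset P) :
    cols (spl S s Z) none = cols S s \ Z := by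
  ext c
  simp only [cols, mem_filter, mem_univ, true_and, mem_sdiff]
  constructor
  · rintro ⟨h, h1, h2⟩
    change S.col h = c at h2
    unfold spl at h1
    by_cases a : S.vert h = s ∧ S.col h ∉ Z
    · exact ⟨⟨h, a.1, h2⟩, h2 ▸ a.2⟩
    · simp only [a, if_false, reduceCtorEq] at h1
  · rintro ⟨⟨h, h1, h2⟩, hc⟩
    refine ⟨h, ?_, h2⟩
    have a : S.vert h = s ∧ S.col h ∉ Z := ⟨h1, h2 ▸ hc⟩
    unfold spl
    simp only [a, and_self, not_false_eq_true, if_true]

/-- the vertex generators -/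
noncomputable abbrev yy (S : HS Hf V P) (σ : P → P) (τ : Hf → Hf) (u : V) : Grp S σ τ :=
  gx S σ τ (Sum.inr (u, true))

/-- the pair element -/
noncomputable def ff (S : HS Hf V P) (σ : P → P) (τ : Hf → Hf) (u v : V) :
    MonoidAlgebra (ZMod 2) (Grp S σ τ) :=
  MonoidAlgebra.single (yy S σ τ u * (yy S σ τ v)⁻¹) 1

theorem add_self_two {G : Type} (x : MonoidAlgebra (ZMod 2) G) : x + x = 0 := by
  rw [← two_smul (ZMod 2) x, show (2 : ZMod 2) = 0 by decide, zero_smul]

open Classical in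
/-- sum of the `y_u` -/
noncomputable def al {X : Type} [Fintype V] (S : HS Hf V P) (σ : P → P) (τ : Hf → Hf)
    (cmp : V → X) (A : X) : MonoidAlgebra (ZMod 2) (Grp S σ τ) :=
  ∑ u ∈ univ.filter (fun u => cmp u = A), MonoidAlgebra.single (yy S σ τ u) 1

open Classical in
/-- sum of the `y_v⁻¹` -/
noncomputable def be {X : Type} [Fintype V] (S : HS Hf V P) (σ : P → P) (τ : Hf → Hf)
    (cmp : V → X) (B : X) : MonoidAlgebra (ZMod 2) (Grp S σ τ) :=
  ∑ v ∈ univ.filter (fun v => cmp v = B), MonoidAlgebra.single (yy S σ τ v)⁻¹ 1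

open Classical in
theorem al_mul_be {X : Type} [Fintype Hf] [Fintype V] [Fintype P] (S : HS Hf V P) {σ : P → P}
    {cmp : V → X} {τ : Hf → Hf} (hτ : IsMatch S σ cmp τ) (A B : X) :
    al S σ τ cmp A * be S σ τ cmp B = ∑ u ∈ univ.filter (fun u => cmp u = A),
      ∑ v ∈ univ.filter (fun v => cmp v = B),
        if Odd (cols S u ∩ cols S v).card then 0 else ff S σ τ u v := by
  have h0 := sum_com S hτ A B (ff S σ τ) (by
    intro h k _ _ hc
    rw [eq_neg_iff_add_eq_zero]
    have : ff S σ τ (S.vert (τ h)) (S.vert (τ k)) = ff S σ τ (S.vert h) (S.vert k) := by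
      unfold ff yy
      rw [← gx_rel, ← gx_rel, hc]
      congr 1
      group
    rw [this, add_self_two])
  refine Eq.trans ?_ ((congrArg (_ + ·) h0).trans (add_zero _))
  rw [← sum_add_distrib]
  unfold al be
  rw [sum_mul_sum]
  refine sum_congr rfl fun u _ => ?_
  rw [← sum_add_distrib]
  refine sum_congr rfl fun v _ => ?_
  rw [MonoidAlgebra.single_mul_single, mul_one]
  change ff S σ τ u v = _
  split_ifs with ho
  · obtain ⟨m, hm⟩ := ho
    rw [hm, zero_add, add_smul, one_smul, two_mul, add_smul, add_self_two, zero_add]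
  · obtain ⟨m, hm⟩ := Nat.not_odd_iff_even.1 ho
    rw [hm, add_smul, add_self_two, add_zero]

open Classical in
theorem memf {X : Type} [Fintype V] (cmp : V → X) (A : X) (u : V) :
    u ∈ univ.filter (fun u => cmp u = A) ↔ cmp u = A := by simp

/-- the twisted translation -/
def tw {G : Type} [Group G] (x : G) (ψ : G → ℤ) : Equiv.Perm (G × ℤ) where
  toFun z := (z.1 * x, z.2 + ψ z.1)
  invFun z := (z.1 * x⁻¹, z.2 - ψ (z.1 * x⁻¹))
  left_inv z := by simp
  right_inv z := by simp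

theorem tw_apply {G : Type} [Group G] (x : G) (ψ : G → ℤ) (z : G × ℤ) :
    tw x ψ z = (z.1 * x, z.2 + ψ z.1) := rfl

theorem y_ne {S : HS Hf V P} {σ : P → P} {τ : Hf → Hf} (hi : ∀ h, τ (τ h) = h) (hC : CS S σ τ)
    (s : V) (Z : Finset P) : yy (spl S s Z) σ τ (some s) ≠ yy (spl S s Z) σ τ none := by
  let F : Option V → ℤ := fun u => match u with
    | none => 1
    | some _ => 0
  obtain ⟨ψ, h1, h2⟩ := hC ℤ (fun z => F ((spl S s Z).vert (τ z.2)) - F ((spl S s Z).vert z.2))
    (fun g h => by simp only [hi]; ring)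
  obtain ⟨Φ, -, hy⟩ := grp_lift (spl S s Z) σ τ (H := (Equiv.Perm (Grp S σ τ × ℤ))ᵐᵒᵖ)
    (fun c => MulOpposite.op (tw (gx S σ τ (Sum.inl c)) (fun g => ψ (g, Sum.inl c))))
    (fun u => MulOpposite.op (tw (gx S σ τ (Sum.inr (bar s u, true)))
      (fun g => ψ (g, Sum.inr (bar s u, true)) + F u)))
    (by
      intro c
      rw [← MulOpposite.op_mul, MulOpposite.op_eq_one_iff]
      ext1 z
      rw [Equiv.Perm.mul_apply, tw_apply, tw_apply]
      have e := h1 z.1 (Sum.inl c)
      simp only [linv] at e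
      simp only [mul_assoc, gx_x, mul_one, e, Equiv.Perm.one_apply]
      ext <;> simp)
    (by
      intro h
      rw [← MulOpposite.op_mul, MulOpposite.op_inj]
      ext1 z
      rw [Equiv.Perm.mul_apply, tw_apply, tw_apply, tw_apply, bar_vert, bar_vert]
      have e := h2 z.1 h
      have e2 := gx_rel S σ τ h
      refine Prod.ext ?_ ?_
      · change z.1 * _ * gx S σ τ (Sum.inl (S.col h)) = _
        rw [mul_assoc, e2]
      · change z.2 + _ + ψ (_, Sum.inl (S.col h)) = _
        simp only at e ⊢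
        linarith)
  intro e
  have e1 := hy (some s)
  have e2 := hy none
  unfold yy at e
  rw [e, e2, MulOpposite.op_inj] at e1
  have := congrArg (fun T : Equiv.Perm (Grp S σ τ × ℤ) => (T (1, 0)).2) e1
  simp [tw_apply, bar, F] at this

end T2

open T2 Finset Classical in
theorem two_core : ∃ (Hf V P : Type) (_ : Fintype Hf) (_ : Fintype V) (_ : Fintype P)
    (_ : Nonempty Hf) (S : HS Hf V P) (σ : P → P) (τ : Hf → Hf) (C : ℕ),
    (∀ c, σ (σ c) = c) ∧ (∀ c, σ c ≠ c) ∧ IsMatch S σ (fun _ => ()) τ ∧ IsoP S σ τ C ∧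
    ∃ a b : MonoidAlgebra (ZMod 2) (Grp S σ τ), a * b = 1 ∧ b * a ≠ 1 := by
  obtain ⟨P, iP, nP, σ, K, hσ, hd⟩ := design_two
  obtain ⟨g₀, hg⟩ := main K
  obtain ⟨Hf, V, iH, iV, nH, S, cmp, n₀, sp, Z, hS, h1, h2, hsp, o02, o1, o12, o13⟩ := hd g₀
  obtain ⟨τ, C, hτ, hI⟩ := hg g₀ le_rfl S cmp n₀ hS h1 h2
  have hCS := cs_of_isoP S K.σσ cmp τ hτ C hI
  have hτ' := match_spl hτ (sp 1) Z
  have hI' := isoP_spl hI (sp 1) Z
  have hne := y_ne hτ.invol hCS (sp 1) Z
  have hsome : ∀ (u : Option V) (i : Fin 4), i ≠ 1 → cmp (bar (sp 1) u) = i →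
      ∃ v, u = some v ∧ v ≠ sp 1 ∧ cmp v = i := by
    intro u i hi hu
    cases u with
    | none => exact absurd (hu.symm.trans (hsp 1)) hi
    | some v =>
      refine ⟨v, rfl, ?_, hu⟩
      rintro rfl
      exact hi (hu.symm.trans (hsp 1))
  have e02 := al_mul_be _ hτ' 0 2
  have e12 := al_mul_be _ hτ' 1 2
  have e13 := al_mul_be _ hτ' 1 3
  rw [sum_eq_single_of_mem (some (sp 0)) ((memf _ _ _).2 (hsp 0)),
    sum_eq_single_of_mem (some (sp 2)) ((memf _ _ _).2 (hsp 2)), if_neg] at e02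
  rotate_left
  · have a0 : sp 0 ≠ sp 1 := fun e => by simpa [hsp] using congrArg cmp e
    have a2 : sp 2 ≠ sp 1 := fun e => by simpa [hsp] using congrArg cmp e
    rw [cols_some _ _ _ a0, cols_some _ _ _ a2, o02 _ _ (hsp 0) (hsp 2)]
    simp
  · intro v hv hv2
    obtain ⟨v', rfl, b1, b2⟩ := hsome v 2 (by decide) ((memf (fun u => cmp (bar (sp 1) u)) _ _).1 hv)
    have a0 : sp 0 ≠ sp 1 := fun e => by simpa [hsp] using congrArg cmp e
    rw [if_pos]
    rw [cols_some _ _ _ a0, cols_some _ _ _ b1, o02 _ _ (hsp 0) b2]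
    exact fun e => hv2 (by rw [e.2])
  · intro u hu hu0
    obtain ⟨u', rfl, a1, a2⟩ := hsome u 0 (by decide) ((memf (fun u => cmp (bar (sp 1) u)) _ _).1 hu)
    refine sum_eq_zero fun v hv => ?_
    obtain ⟨v', rfl, b1, b2⟩ := hsome v 2 (by decide) ((memf (fun u => cmp (bar (sp 1) u)) _ _).1 hv)
    rw [if_pos]
    rw [cols_some _ _ _ a1, cols_some _ _ _ b1, o02 _ _ a2 b2]
    exact fun e => hu0 (by rw [e.1])
  have z12 : al (spl S (sp 1) Z) σ τ (fun u => cmp (bar (sp 1) u)) 1 *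
      be (spl S (sp 1) Z) σ τ (fun u => cmp (bar (sp 1) u)) 2 = 0 := by
    rw [e12]
    refine sum_eq_zero fun u hu => sum_eq_zero fun v hv => ?_
    obtain ⟨v', rfl, b1, b2⟩ := hsome v 2 (by decide) ((memf (fun u => cmp (bar (sp 1) u)) _ _).1 hv)
    rw [if_pos]
    rw [cols_some _ _ _ b1]
    cases u with
    | none => rw [cols_none]; exact (o12 v' b2).2
    | some u' =>
      by_cases a1 : u' = sp 1
      · rw [a1, cols_s]; exact (o12 v' b2).1
      · rw [cols_some _ _ _ a1]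
        exact o1 u' v' ((memf (fun u => cmp (bar (sp 1) u)) _ _).1 hu) a1 (Or.inl b2)
  have a3 : sp 3 ≠ sp 1 := fun e => by simpa [hsp] using congrArg cmp e
  have z13 : al (spl S (sp 1) Z) σ τ (fun u => cmp (bar (sp 1) u)) 1 *
      be (spl S (sp 1) Z) σ τ (fun u => cmp (bar (sp 1) u)) 3 =
      ff (spl S (sp 1) Z) σ τ (some (sp 1)) (some (sp 3)) +
        ff (spl S (sp 1) Z) σ τ none (some (sp 3)) := by
    rw [e13, sum_eq_add_of_mem (some (sp 1)) none ((memf _ _ _).2 (hsp 1)) ((memf _ _ _).2 (hsp 1))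
      (by simp)]
    · congr 1
      · rw [sum_eq_single_of_mem (some (sp 3)) ((memf _ _ _).2 (hsp 3)), if_neg]
        · rw [cols_some _ _ _ a3, cols_s, (o13 _ (hsp 3)).1]
          simp
        · intro v hv hv3
          obtain ⟨v', rfl, b1, b2⟩ := hsome v 3 (by decide) ((memf (fun u => cmp (bar (sp 1) u)) _ _).1 hv)
          rw [if_pos]
          rw [cols_some _ _ _ b1, cols_s, (o13 _ b2).1]
          exact fun e => hv3 (by rw [e])
      · rw [sum_eq_single_of_mem (some (sp 3)) ((memf _ _ _).2 (hsp 3)), if_neg]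
        · rw [cols_some _ _ _ a3, cols_none, (o13 _ (hsp 3)).2]
          simp
        · intro v hv hv3
          obtain ⟨v', rfl, b1, b2⟩ := hsome v 3 (by decide) ((memf (fun u => cmp (bar (sp 1) u)) _ _).1 hv)
          rw [if_pos]
          rw [cols_some _ _ _ b1, cols_none, (o13 _ b2).2]
          exact fun e => hv3 (by rw [e])
    · intro u hu hu'
      cases u with
      | none => exact absurd rfl hu'.2
      | some u' =>
        have a1 : u' ≠ sp 1 := fun e => hu'.1 (by rw [e])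
        refine sum_eq_zero fun v hv => ?_
        obtain ⟨v', rfl, b1, b2⟩ := hsome v 3 (by decide) ((memf (fun u => cmp (bar (sp 1) u)) _ _).1 hv)
        rw [if_pos]
        rw [cols_some _ _ _ a1, cols_some _ _ _ b1]
        exact o1 u' v' ((memf (fun u => cmp (bar (sp 1) u)) _ _).1 hu) a1 (Or.inr b2)
  refine ⟨Hf, Option V, P, iH, inferInstance, iP, nH, spl S (sp 1) Z, σ, τ, C, K.σσ, hσ,
    ⟨hτ'.invol, hτ'.ne, hτ'.col, fun _ => rfl⟩, hI',
    MonoidAlgebra.single (yy (spl S (sp 1) Z) σ τ (some (sp 0)))⁻¹ 1 *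
      al (spl S (sp 1) Z) σ τ (fun u => cmp (bar (sp 1) u)) 0,
    be (spl S (sp 1) Z) σ τ (fun u => cmp (bar (sp 1) u)) 2 *
      MonoidAlgebra.single (yy (spl S (sp 1) Z) σ τ (some (sp 2))) 1, ?_, fun hba => hne ?_⟩
  · rw [mul_assoc, ← mul_assoc (al _ _ _ _ _), e02]
    unfold ff
    rw [MonoidAlgebra.single_mul_single, MonoidAlgebra.single_mul_single, MonoidAlgebra.one_def]
    congr 1
    · group
  · have z1 : al (spl S (sp 1) Z) σ τ (fun u => cmp (bar (sp 1) u)) 1 = 0 := by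
      rw [← mul_one (al _ _ _ _ _), ← hba, ← mul_assoc, ← mul_assoc, ← mul_assoc, z12, zero_mul,
        zero_mul, zero_mul]
    rw [z1, zero_mul] at z13
    have e : ff (spl S (sp 1) Z) σ τ (some (sp 1)) (some (sp 3)) =
        ff (spl S (sp 1) Z) σ τ none (some (sp 3)) := by
      rw [← add_zero (ff _ _ _ (some (sp 1)) _), ← add_self_two (ff (spl S (sp 1) Z) σ τ none
        (some (sp 3))), ← add_assoc, ← z13, zero_add]
    unfold ff at e
    have := MonoidAlgebra.single_left_injective (one_ne_zero (α := ZMod 2)) e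
    exact mul_right_cancel this

end Crest.Agent.R177
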