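import Crest.Agent.R177.Defs

/-!
Task R177-V, part a: abstract van Kampen diagrams over a labelled graph, surgeries, minimal states.
-/

set_option autoImplicit false

namespace Crest.Agent.R177.VK

open Finset

/-- a labelled graph with positions in a group -/
structure BG (H W L G : Type) [Group G] where
  vert : H → W
  col : H → L
  τ : H → H
  inv : L → L
  gx : L → G
  pos : W → G
  ττ : ∀ h, τ (τ h) = h
  τ_ne : ∀ h, τ h ≠ h
  col_τ : ∀ h, col (τ h) = inv (col h)
  inv_inv : ∀ a, inv (inv a) = a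
  gx_inv : ∀ a, gx (inv a) = (gx a)⁻¹
  pos_τ : ∀ h, pos (vert (τ h)) = pos (vert h) * gx (col h)

/-- static data of a diagram -/
structure Dt (H W L G D : Type) where
  lab : D → L
  π : D → G
  ε : D → H
  tv : D → W
  Out : Finset D

variable {H W L G : Type} [Group G] (B : BG H W L G)

/-- planarity with dead darts -/
def PLd {D : Type} (A : Finset D) (φ : Equiv.Perm D) (α : D → D) : Prop :=
  ∀ χ : D → ZMod 2, (∀ d, d ∉ A → χ (φ d) = χ d) →
    (∀ d ∈ A, χ (φ (α d)) + χ (α d) = χ (φ d) + χ d) →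
    ∃ κ : D → ZMod 2, (∀ d, κ (φ d) = κ d) ∧ ∀ d ∈ A, χ (α d) + κ (α d) = χ (φ d) + κ d

/-- the axioms of a state, except for the closing condition of the faces -/
structure Ok {D : Type} (t : Dt H W L G D) (A : Finset D) (φ : Equiv.Perm D) (α : D → D) :
    Prop where
  out : ∀ d, φ d ∈ t.Out ↔ d ∈ t.Out
  αA : ∀ d ∈ A, α d ∈ A
  αα : ∀ d ∈ A, α (α d) = d
  α_ne : ∀ d ∈ A, α d ≠ d
  lab : ∀ d ∈ A, t.lab (α d) = B.inv (t.lab d)
  πφ : ∀ d ∈ A, t.π (φ d) = t.π d * B.gx (t.lab d)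
  πα : ∀ d ∈ A, t.π (α d) = t.π d * B.gx (t.lab d)
  πd : ∀ d, d ∉ A → t.π (φ d) = t.π d
  col : ∀ d ∈ A, d ∉ t.Out → B.col (t.ε d) = t.lab d
  vert : ∀ d ∈ A, d ∉ t.Out → B.vert (t.ε d) = t.tv d
  pl : PLd A φ α

/-- the closing condition at one dart -/
def TV {D : Type} (t : Dt H W L G D) (A : Finset D) (φ : Equiv.Perm D) (d : D) : Prop :=
  d ∉ t.Out → (d ∈ A → t.tv (φ d) = B.vert (B.τ (t.ε d))) ∧ (d ∉ A → t.tv (φ d) = t.tv d)

/-- the group position of the face -/
def gp {D : Type} (t : Dt H W L G D) (d : D) : G := t.π d * (B.pos (t.tv d))⁻¹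

section surgery

variable {B} {D : Type} [DecidableEq D] {t : Dt H W L G D} {A : Finset D} {φ : Equiv.Perm D}
  {α : D → D}

omit [DecidableEq D] in
theorem gp_φ (h : Ok B t A φ α) {d : D} (hd : TV B t A φ d) (ho : d ∉ t.Out) :
    gp B t (φ d) = gp B t d := by
  unfold gp
  by_cases hA : d ∈ A
  · rw [h.πφ d hA, (hd ho).1 hA, B.pos_τ, h.col d hA ho, h.vert d hA ho]; group
  · rw [h.πd d hA, (hd ho).2 hA]

theorem del_ok (h : Ok B t A φ α) (hT : ∀ d, TV B t A φ d) {z : D} (hz : z ∉ A) (hne : φ z ≠ z) :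
    Ok B t A (φ * Equiv.swap (φ.symm z) z) α ∧
      ∀ d, TV B t A (φ * Equiv.swap (φ.symm z) z) d := by
  set p := φ.symm z with hp
  have hφp : φ p = z := φ.apply_symm_apply z
  have e1 : (φ * Equiv.swap p z) p = φ z := by simp
  have e2 : (φ * Equiv.swap p z) z = z := by simp [hφp]
  have e3 : ∀ x, x ≠ p → x ≠ z → (φ * Equiv.swap p z) x = φ x := fun x h1 h2 => by
    simp [Equiv.swap_apply_of_ne_of_ne h1 h2]
  have key : ∀ {β : Type} (f : D → β), f (φ z) = f z → ∀ x, x ≠ z →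
      f ((φ * Equiv.swap p z) x) = f (φ x) := by
    intro β f hf x hx
    by_cases h1 : x = p
    · rw [h1, e1, hφp, hf]
    · rw [e3 x h1 hx]
  have hAz : ∀ x ∈ A, x ≠ z := fun x hx e => hz (e ▸ hx)
  refine ⟨⟨fun d => ?_, h.αA, h.αα, h.α_ne, h.lab, fun d hd => ?_, h.πα, fun d hd => ?_, h.col,
    h.vert, fun χ h1 h2 => ?_⟩, fun d ho => ⟨fun hd => ?_, fun hd => ?_⟩⟩
  · by_cases hd : d = z
    · rw [hd, e2]
    · rw [← h.out d]
      exact (key (fun x => x ∈ t.Out) (propext (h.out z)) d hd).to_iff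
  · rw [key t.π (h.πd z hz) d (hAz d hd), h.πφ d hd]
  · by_cases hdz : d = z
    · rw [hdz, e2]
    · rw [key t.π (h.πd z hz) d hdz, h.πd d hd]
  · have k1 : ∀ x, x ≠ z → Function.update χ z (χ (φ z)) (φ x) = χ ((φ * Equiv.swap p z) x) := by
      intro x hx
      by_cases hxp : x = p
      · rw [hxp, hφp, e1, Function.update_self]
      · rw [e3 x hxp hx, Function.update_of_ne]
        intro e
        exact hxp (φ.injective (e.trans hφp.symm))
    have k2 : ∀ x, x ≠ z → Function.update χ z (χ (φ z)) x = χ x := fun x hx =>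
      Function.update_of_ne hx _ _
    obtain ⟨κ, hκ1, hκ2⟩ := h.pl (Function.update χ z (χ (φ z))) (fun d hd => by
      by_cases hdz : d = z
      · rw [hdz, k2 _ hne, Function.update_self]
      · rw [k1 d hdz, k2 d hdz, h1 d hd]) (fun d hd => by
      rw [k1 _ (hAz _ (h.αA d hd)), k1 _ (hAz _ hd), k2 _ (hAz _ (h.αA d hd)), k2 _ (hAz _ hd)]
      exact h2 d hd)
    refine ⟨κ, fun d => ?_, fun d hd => ?_⟩
    · by_cases hdz : d = z
      · rw [hdz, e2]
      · rw [key κ (hκ1 z) d hdz, hκ1]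
    · have := hκ2 d hd
      rwa [k1 _ (hAz _ hd), k2 _ (hAz _ (h.αA d hd))] at this
  · by_cases hdp : d = p
    · have hzo : z ∉ t.Out := by rw [← hφp, h.out, ← hdp]; exact ho
      rw [hdp, e1, ((hT z hzo).2 hz), ← hφp, ← hdp]
      exact (hT d ho).1 hd
    · rw [e3 d hdp (hAz d hd)]; exact (hT d ho).1 hd
  · by_cases hdz : d = z
    · rw [hdz, e2]
    · by_cases hdp : d = p
      · have hzo : z ∉ t.Out := by rw [← hφp, h.out, ← hdp]; exact ho
        rw [hdp, e1, ((hT z hzo).2 hz), ← hφp, ← hdp]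
        exact (hT d ho).2 hd
      · rw [e3 d hdp hdz]; exact (hT d ho).2 hd

/-- common part of MERGE and FOLD -/
theorem cut_common (h : Ok B t A φ α) (hT : ∀ d, TV B t A φ d) {d d' : D} (hd : d ∈ A)
    (hd' : d' ∈ A) (ho : d ∉ t.Out) (ho' : d' ∉ t.Out) (hε : t.ε d' = B.τ (t.ε d))
    (hπ : t.π d' = t.π d * B.gx (t.lab d)) :
    (∀ x, (φ * Equiv.swap d d') x ∈ t.Out ↔ x ∈ t.Out) ∧
    (∀ x, x ∉ (A.erase d).erase d' → t.π ((φ * Equiv.swap d d') x) = t.π x) ∧
    (∀ x, TV B t ((A.erase d).erase d') (φ * Equiv.swap d d') x) ∧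
    gp B t d' = gp B t d ∧ t.lab d' = B.inv (t.lab d) := by
  have e1 : (φ * Equiv.swap d d') d = φ d' := by simp
  have e2 : (φ * Equiv.swap d d') d' = φ d := by simp
  have e3 : ∀ x, x ≠ d → x ≠ d' → (φ * Equiv.swap d d') x = φ x := fun x h1 h2 => by
    simp [Equiv.swap_apply_of_ne_of_ne h1 h2]
  have hl : t.lab d' = B.inv (t.lab d) := by
    rw [← h.col d' hd' ho', hε, B.col_τ, h.col d hd ho]
  have htv : t.tv d' = t.tv (φ d) := by
    rw [← h.vert d' hd' ho', hε, (hT d ho).1 hd]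
  have htv' : t.tv d = t.tv (φ d') := by
    rw [(hT d' ho').1 hd', hε, B.ττ, h.vert d hd ho]
  refine ⟨fun x => ?_, fun x hx => ?_, fun x hxo => ⟨fun hx => ?_, fun hx => ?_⟩, ?_, hl⟩
  · by_cases h1 : x = d
    · rw [h1, e1, h.out]; exact iff_of_false ho' ho
    · by_cases h2 : x = d'
      · rw [h2, e2, h.out]; exact iff_of_false ho ho'
      · rw [e3 x h1 h2, h.out]
  · by_cases h1 : x = d
    · rw [h1, e1, h.πφ d' hd', hπ, hl, B.gx_inv]; group
    · by_cases h2 : x = d'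
      · rw [h2, e2, h.πφ d hd, hπ]
      · rw [e3 x h1 h2]
        exact h.πd x fun hx' => hx (by simp [h1, h2, hx'])
  · simp only [mem_erase] at hx
    rw [e3 x hx.2.1 hx.1]
    exact (hT x hxo).1 hx.2.2
  · by_cases h1 : x = d
    · rw [h1, e1, htv']
    · by_cases h2 : x = d'
      · rw [h2, e2, htv]
      · rw [e3 x h1 h2]
        exact (hT x hxo).2 fun hx' => hx (by simp [h1, h2, hx'])
  · rw [← gp_φ h (hT d) ho]
    unfold gp
    rw [htv, hπ, h.πφ d hd]

theorem merge_ok (h : Ok B t A φ α) (hT : ∀ d, TV B t A φ d) {d : D} (hd : d ∈ A)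
    (ho : d ∉ t.Out) (ho' : α d ∉ t.Out) (hε : t.ε (α d) = B.τ (t.ε d)) :
    Ok B t ((A.erase d).erase (α d)) (φ * Equiv.swap d (α d)) α := by
  obtain ⟨c1, c2, -, -, -⟩ := cut_common h hT hd (h.αA d hd) ho ho' hε (h.πα d hd)
  set d' := α d with hd'
  have e1 : (φ * Equiv.swap d d') d = φ d' := by simp
  have e2 : (φ * Equiv.swap d d') d' = φ d := by simp
  have e3 : ∀ x ∈ (A.erase d).erase d', (φ * Equiv.swap d d') x = φ x := fun x hx => by
    simp only [mem_erase] at hx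
    simp [Equiv.swap_apply_of_ne_of_ne hx.2.1 hx.1]
  have e4 : ∀ x, x ∉ A → (φ * Equiv.swap d d') x = φ x := fun x hx => by
    have h1 : x ≠ d := fun e => hx (e ▸ hd)
    have h2 : x ≠ d' := fun e => hx (e ▸ h.αA d hd)
    simp [Equiv.swap_apply_of_ne_of_ne h1 h2]
  have hs : ∀ x ∈ (A.erase d).erase d', x ∈ A := fun x hx => mem_of_mem_erase (mem_of_mem_erase hx)
  have hα : ∀ x ∈ (A.erase d).erase d', α x ∈ (A.erase d).erase d' := fun x hx => by
    simp only [mem_erase] at hx ⊢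
    refine ⟨fun e => hx.2.1 ?_, fun e => hx.1 ?_, h.αA x hx.2.2⟩
    · rw [← h.αα x hx.2.2, e, hd', h.αα d hd]
    · rw [← h.αα x hx.2.2, e]
  refine ⟨c1, hα, fun x hx => h.αα x (hs x hx), fun x hx => h.α_ne x (hs x hx),
    fun x hx => h.lab x (hs x hx), fun x hx => ?_, fun x hx => h.πα x (hs x hx), c2,
    fun x hx => h.col x (hs x hx), fun x hx => h.vert x (hs x hx), fun χ h1 h2 => ?_⟩
  · rw [e3 x hx]; exact h.πφ x (hs x hx)
  · have k1 : χ (φ d') = χ d := by rw [← e1]; exact h1 d (by simp)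
    have k2 : χ (φ d) = χ d' := by rw [← e2]; exact h1 d' (by simp)
    obtain ⟨κ, hκ1, hκ2⟩ := h.pl χ (fun x hx => by
      rw [← e4 x hx]; exact h1 x fun hx' => hx (hs x hx')) (fun x hx => by
      by_cases a1 : x = d
      · rw [a1, ← hd', k1, k2, add_comm]
      · by_cases a2 : x = d'
        · rw [a2, hd', h.αα d hd, ← hd', k1, k2, add_comm]
        · have hx' : x ∈ (A.erase d).erase d' := by simp [a1, a2, hx]
          rw [← e3 x hx', ← e3 _ (hα x hx')]
          exact h2 x hx')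
    have hk : κ d' = κ d := by
      have := hκ2 d hd
      rw [← hd', k2] at this
      exact add_left_cancel this
    refine ⟨κ, fun x => ?_, fun x hx => ?_⟩
    · by_cases a1 : x = d
      · rw [a1, e1, hκ1, hk]
      · by_cases a2 : x = d'
        · rw [a2, e2, hκ1, hk]
        · simp [Equiv.swap_apply_of_ne_of_ne a1 a2, hκ1]
    · rw [e3 x hx]; exact hκ2 x (hs x hx)

theorem fold_ok (h : Ok B t A φ α) (hT : ∀ d, TV B t A φ d) {d : D} (hd : d ∈ A)
    (hd2 : φ d ∈ A) (ho : d ∉ t.Out) (hε : t.ε (φ d) = B.τ (t.ε d)) (hne : α d ≠ φ d) :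
    Ok B t ((A.erase d).erase (φ d)) (φ * Equiv.swap d (φ d))
      (fun x => if x = α d then α (φ d) else if x = α (φ d) then α d else α x) := by
  have ho' : φ d ∉ t.Out := by rw [h.out]; exact ho
  obtain ⟨c1, c2, -, -, c5⟩ := cut_common h hT hd hd2 ho ho' hε (h.πφ d hd)
  set d' := φ d with hd'
  set e := α d with he
  set e' := α d' with he'
  have hdd : d' ≠ d := fun a => B.τ_ne (t.ε d) (by rw [← hε, a])
  have αe : α e = d := h.αα d hd
  have αe' : α e' = d' := h.αα d' hd2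
  have hee : e' ≠ e := fun a => hdd (by rw [← αe', a, αe])
  have heA : e ∈ (A.erase d).erase d' := by
    simp only [mem_erase]; exact ⟨hne, h.α_ne d hd, h.αA d hd⟩
  have heA' : e' ∈ (A.erase d).erase d' := by
    simp only [mem_erase]
    exact ⟨h.α_ne d' hd2, fun a => hne (by rw [he, ← a, αe']), h.αA d' hd2⟩
  have e1 : (φ * Equiv.swap d d') d = φ d' := by simp
  have e2 : (φ * Equiv.swap d d') d' = d' := by simp [hd']
  have e3' : ∀ x, x ≠ d → x ≠ d' → (φ * Equiv.swap d d') x = φ x := fun x h1 h2 => by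
    simp [Equiv.swap_apply_of_ne_of_ne h1 h2]
  have e3 : ∀ x ∈ (A.erase d).erase d', (φ * Equiv.swap d d') x = φ x := fun x hx => by
    simp only [mem_erase] at hx
    exact e3' x hx.2.1 hx.1
  have hs : ∀ x ∈ (A.erase d).erase d', x ∈ A := fun x hx => mem_of_mem_erase (mem_of_mem_erase hx)
  have hα : ∀ x ∈ (A.erase d).erase d', x ≠ e → x ≠ e' →
      α x ∈ (A.erase d).erase d' ∧ α x ≠ e ∧ α x ≠ e' := fun x hx a1 a2 => by
    simp only [mem_erase] at hx ⊢
    have hxx := h.αα x hx.2.2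
    refine ⟨⟨fun a => a2 ?_, fun a => a1 ?_, h.αA x hx.2.2⟩, fun a => hx.2.1 ?_, fun a => hx.1 ?_⟩
    · rw [← hxx, a]
    · rw [← hxx, a]
    · rw [← hxx, a, αe]
    · rw [← hxx, a, αe']
  have tri : ∀ (Q : D → D → Prop), Q e e' → Q e' e →
      (∀ x ∈ (A.erase d).erase d', x ≠ e → x ≠ e' → Q x (α x)) →
      ∀ x ∈ (A.erase d).erase d', Q x (if x = e then e' else if x = e' then e else α x) := by
    intro Q q1 q2 q3 x hx
    by_cases a1 : x = e
    · rw [if_pos a1, a1]; exact q1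
    · by_cases a2 : x = e'
      · rw [if_neg a1, if_pos a2, a2]; exact q2
      · rw [if_neg a1, if_neg a2]; exact q3 x hx a1 a2
  have le : t.lab e = B.inv (t.lab d) := h.lab d hd
  have le' : t.lab e' = t.lab d := by rw [he', h.lab d' hd2, c5, B.inv_inv]
  have πe : t.π e = t.π d * B.gx (t.lab d) := h.πα d hd
  have πe' : t.π e' = t.π d := by
    rw [he', h.πα d' hd2, hd', h.πφ d hd, ← hd', c5, B.gx_inv]; group
  refine ⟨c1, tri (fun _ y => y ∈ (A.erase d).erase d') heA' heA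
      (fun x hx a1 a2 => (hα x hx a1 a2).1), ?_, tri (fun x y => y ≠ x) hee hee.symm
      (fun x hx _ _ => h.α_ne x (hs x hx)),
    tri (fun x y => t.lab y = B.inv (t.lab x)) (by rw [le, le', B.inv_inv]) (by rw [le, le'])
      (fun x hx _ _ => h.lab x (hs x hx)), fun x hx => ?_,
    tri (fun x y => t.π y = t.π x * B.gx (t.lab x)) (by rw [πe, πe', le, B.gx_inv]; group)
      (by rw [πe, πe', le']) (fun x hx _ _ => h.πα x (hs x hx)), c2,
    fun x hx => h.col x (hs x hx), fun x hx => h.vert x (hs x hx), fun χ h1 h2 => ?_⟩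
  · refine tri (fun x y => (if y = e then e' else if y = e' then e else α y) = x) ?_ ?_ ?_
    · simp [hee]
    · simp
    · intro x hx a1 a2
      obtain ⟨-, b1, b2⟩ := hα x hx a1 a2
      rw [if_neg b1, if_neg b2]; exact h.αα x (hs x hx)
  · rw [e3 x hx]; exact h.πφ x (hs x hx)
  · have k1 : χ (φ d') = χ d := by rw [← e1]; exact h1 d (by simp)
    have k2 : χ (φ e') + χ e' = χ (φ e) + χ e := by
      have := h2 e heA
      simp only [if_true] at this
      rwa [e3 e heA, e3 e' heA'] at this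
    set χ₀ := Function.update χ d' (χ d + χ (φ e) + χ e) with hχ₀
    have u0 : χ₀ d' = χ d + χ (φ e) + χ e := Function.update_self ..
    have u1 : ∀ x, x ≠ d' → χ₀ x = χ x := fun x hx => Function.update_of_ne hx _ _
    have u2 : ∀ x, x ≠ d → χ₀ (φ x) = χ (φ x) := fun x hx =>
      u1 _ fun a => hx (φ.injective a)
    have ed : e ≠ d := h.α_ne d hd
    have ed' : e ≠ d' := hne
    have e'd : e' ≠ d := (mem_erase.1 (mem_of_mem_erase heA')).1
    have e'd' : e' ≠ d' := h.α_ne d' hd2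
    have q1 : χ₀ (φ e) + χ₀ e = χ₀ (φ d) + χ₀ d := by
      rw [u2 e ed, u1 e ed', ← hd', u0, u1 d hdd.symm]
      generalize χ d = a; generalize χ (φ e) = b; generalize χ e = c
      revert a b c; decide
    have q2 : χ₀ (φ e') + χ₀ e' = χ₀ (φ d') + χ₀ d' := by
      rw [u2 e' e'd, u1 e' e'd', u2 d' hdd, u0, k1, k2]
      generalize χ d = a; generalize χ (φ e) = b; generalize χ e = c
      revert a b c; decide
    obtain ⟨κ, hκ1, hκ2⟩ := h.pl χ₀ (fun x hx => by
      have a1 : x ≠ d := fun a => hx (a ▸ hd)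
      have a2 : x ≠ d' := fun a => hx (a ▸ hd2)
      rw [u2 x a1, u1 x a2, ← e3' x a1 a2]
      exact h1 x fun hx' => hx (hs x hx')) (fun x hx => by
      by_cases a1 : x = d
      · rw [a1]; exact q1
      · by_cases a2 : x = d'
        · rw [a2]; exact q2
        · by_cases a3 : x = e
          · rw [a3, αe]; exact q1.symm
          · by_cases a4 : x = e'
            · rw [a4, αe']; exact q2.symm
            · have hx' : x ∈ (A.erase d).erase d' := by simp [a1, a2, hx]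
              have hy := (hα x hx' a3 a4).1
              have := h2 x hx'
              simp only [if_neg a3, if_neg a4] at this
              rw [e3 x hx', e3 _ hy] at this
              simp only [mem_erase] at hy
              rwa [u2 x a1, u1 x a2, u2 _ hy.2.1, u1 _ hy.1])
    have hk : κ d' = κ d := hκ1 d
    refine ⟨κ, fun x => ?_, ?_⟩
    · by_cases a1 : x = d
      · rw [a1, e1, hκ1, hk]
      · by_cases a2 : x = d'
        · rw [a2, e2]
        · rw [e3' x a1 a2, hκ1]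
    · refine tri (fun x y => χ y + κ y = χ ((φ * Equiv.swap d d') x) + κ x) ?_ ?_ ?_
      · have b1 := hκ2 d' hd2
        have b2 := hκ2 e (hs e heA)
        rw [← he', u1 e' e'd', u2 d' hdd, k1, hk] at b1
        rw [αe, u1 d hdd.symm, u2 e ed] at b2
        rw [e3 e heA, b1, b2]
      · have b1 := hκ2 d hd
        have b2 := hκ2 e' (hs e' heA')
        rw [← he, u1 e ed', ← hd'] at b1
        rw [αe', u2 e' e'd, hk] at b2
        rw [e3 e' heA', b1, b2]
      · intro x hx a1 a2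
        have hy := (hα x hx a1 a2).1
        have := hκ2 x (hs x hx)
        rw [e3 x hx]
        simp only [mem_erase] at hy hx
        rwa [u1 _ hy.1, u2 x hx.2.1] at this

theorem cut_sums {M : Type} [AddCommGroup M] (κ : G × H → M)
    (hκ : ∀ g h, κ (g, B.τ h) = - κ (g, h)) {d d' : D} (hd : d ∈ A)
    (hd' : d' ∈ A) (ho : d ∉ t.Out) (ho' : d' ∉ t.Out) (hε : t.ε d' = B.τ (t.ε d))
    (hg : gp B t d' = gp B t d) :
    ((A.erase d).erase d') ∩ t.Out = A ∩ t.Out ∧
    ∑ x ∈ ((A.erase d).erase d') \ t.Out, κ (gp B t x, t.ε x) =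
      ∑ x ∈ A \ t.Out, κ (gp B t x, t.ε x) ∧ ((A.erase d).erase d').card < A.card := by
  have hdd : d' ≠ d := fun a => B.τ_ne (t.ε d) (by rw [← hε, a])
  refine ⟨?_, ?_, ?_⟩
  · ext x
    simp only [mem_inter, mem_erase]
    exact ⟨fun hx => ⟨hx.1.2.2, hx.2⟩,
      fun hx => ⟨⟨fun a => ho' (a ▸ hx.2), fun a => ho (a ▸ hx.2), hx.1⟩, hx.2⟩⟩
  · have e : ((A.erase d).erase d') \ t.Out = ((A \ t.Out).erase d).erase d' := by
      ext x; simp only [mem_sdiff, mem_erase]; tauto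
    rw [e, ← add_sum_erase (A \ t.Out) _ (a := d) (by simp [hd, ho]),
      ← add_sum_erase ((A \ t.Out).erase d) _ (a := d') (by simp [hd', ho', hdd]), hg, hε, hκ]
    abel
  · exact (card_le_card (erase_subset _ _)).trans_lt (card_erase_lt_of_mem hd)

/-- existence of a minimal state -/
theorem exists_min [Fintype D] {M : Type} [AddCommGroup M] (κ : G × H → M)
    (hκ : ∀ g h, κ (g, B.τ h) = - κ (g, h)) (h : Ok B t A φ α) (hT : ∀ d, TV B t A φ d) :
    ∃ (A' : Finset D) (φ' : Equiv.Perm D) (α' : D → D), Ok B t A' φ' α' ∧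
      (∀ d, TV B t A' φ' d) ∧ A' ∩ t.Out = A ∩ t.Out ∧
      ∑ x ∈ A' \ t.Out, κ (gp B t x, t.ε x) = ∑ x ∈ A \ t.Out, κ (gp B t x, t.ε x) ∧
      (∀ d, d ∉ A' → φ' d = d) ∧
      (∀ d ∈ A', d ∉ t.Out → φ' d ∈ A' → t.ε (φ' d) ≠ B.τ (t.ε d)) ∧
      (∀ d ∈ A', d ∉ t.Out → α' d ∉ t.Out → t.ε (α' d) ≠ B.τ (t.ε d)) := by
  induction hn : A.card * (Fintype.card D + 1) + φ.support.card using Nat.strong_induction_on
    generalizing A φ α with
  | _ n ih =>
  have dec : ∀ (A' : Finset D) (φ' : Equiv.Perm D), A'.card < A.card →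
      A'.card * (Fintype.card D + 1) + φ'.support.card < n := by
    intro A' φ' hlt
    have h1 : φ'.support.card ≤ Fintype.card D := card_le_univ _
    have h2 : (A'.card + 1) * (Fintype.card D + 1) ≤ A.card * (Fintype.card D + 1) :=
      Nat.mul_le_mul_right _ hlt
    rw [add_mul, one_mul] at h2
    omega
  by_cases c1 : ∃ z, z ∉ A ∧ φ z ≠ z
  · obtain ⟨z, hz, hne⟩ := c1
    obtain ⟨o1, o2⟩ := del_ok h hT hz hne
    refine ih _ ?_ o1 o2 rfl
    rw [← hn]
    refine Nat.add_lt_add_left (card_lt_card ⟨fun x hx => ?_, fun hs => ?_⟩) _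
    · rw [Equiv.Perm.mem_support] at hx ⊢
      by_cases a1 : x = φ.symm z
      · rw [a1, φ.apply_symm_apply]
        intro e
        apply hne
        conv_lhs => rw [e]
        exact φ.apply_symm_apply z
      · by_cases a2 : x = z
        · rw [a2]; exact hne
        · simpa [Equiv.swap_apply_of_ne_of_ne a1 a2] using hx
    · have := hs (Equiv.Perm.mem_support.2 hne)
      simp at this
  by_cases c2 : ∃ d ∈ A, d ∉ t.Out ∧ α d ∉ t.Out ∧ t.ε (α d) = B.τ (t.ε d)
  · obtain ⟨d, hd, ho, ho', hε⟩ := c2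
    obtain ⟨-, -, b3, b4, -⟩ := cut_common h hT hd (h.αA d hd) ho ho' hε (h.πα d hd)
    obtain ⟨s1, s2, s3⟩ := cut_sums κ hκ hd (h.αA d hd) ho ho' hε b4
    obtain ⟨A', φ', α', r1, r2, r3, r4, r5⟩ :=
      ih _ (dec _ _ s3) (merge_ok h hT hd ho ho' hε) b3 rfl
    exact ⟨A', φ', α', r1, r2, r3.trans s1, r4.trans s2, r5⟩
  by_cases c3 : ∃ d ∈ A, d ∉ t.Out ∧ φ d ∈ A ∧ t.ε (φ d) = B.τ (t.ε d)
  · obtain ⟨d, hd, ho, hd2, hε⟩ := c3
    have ho' : φ d ∉ t.Out := by rw [h.out]; exact ho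
    have hne : α d ≠ φ d := fun a => c2 ⟨d, hd, ho, a ▸ ho', a ▸ hε⟩
    obtain ⟨-, -, b3, b4, -⟩ := cut_common h hT hd hd2 ho ho' hε (h.πφ d hd)
    obtain ⟨s1, s2, s3⟩ := cut_sums κ hκ hd hd2 ho ho' hε b4
    obtain ⟨A', φ', α', r1, r2, r3, r4, r5⟩ :=
      ih _ (dec _ _ s3) (fold_ok h hT hd hd2 ho hε hne) b3 rfl
    exact ⟨A', φ', α', r1, r2, r3.trans s1, r4.trans s2, r5⟩
  refine ⟨A, φ, α, h, hT, rfl, rfl, fun d hd => ?_, fun d hd ho h2 e => c3 ⟨d, hd, ho, h2, e⟩,
    fun d hd ho h2 e => c2 ⟨d, hd, ho, h2, e⟩⟩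
  by_contra hne
  exact c1 ⟨d, hd, hne⟩

end surgery

section graft

variable {B} {D₁ D₂ : Type} [DecidableEq D₁] [DecidableEq D₂]

/-- disjoint union of static data -/
def Dt.sum (t₁ : Dt H W L G D₁) (t₂ : Dt H W L G D₂) : Dt H W L G (D₁ ⊕ D₂) where
  lab := Sum.elim t₁.lab t₂.lab
  π := Sum.elim t₁.π t₂.π
  ε := Sum.elim t₁.ε t₂.ε
  tv := Sum.elim t₁.tv t₂.tv
  Out := t₁.Out.disjSum t₂.Out

/-- grafting the face through `o` after the dart `x` -/
def graft (φ₁ : Equiv.Perm D₁) (φ₂ : Equiv.Perm D₂) (x : D₁) (o : D₂) : Equiv.Perm (D₁ ⊕ D₂) :=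
  (Equiv.sumCongr φ₁ φ₂ : Equiv.Perm (D₁ ⊕ D₂)) * Equiv.swap (Sum.inl x) (Sum.inr o)

variable {φ₁ : Equiv.Perm D₁} {φ₂ : Equiv.Perm D₂} {x : D₁} {o : D₂}

theorem graft_x : graft φ₁ φ₂ x o (Sum.inl x) = Sum.inr (φ₂ o) := by simp [graft]

theorem graft_o : graft φ₁ φ₂ x o (Sum.inr o) = Sum.inl (φ₁ x) := by simp [graft]

theorem graft_l {y : D₁} (h : y ≠ x) : graft φ₁ φ₂ x o (Sum.inl y) = Sum.inl (φ₁ y) := by
  simp [graft, Equiv.swap_apply_of_ne_of_ne, h]

theorem graft_r {y : D₂} (h : y ≠ o) : graft φ₁ φ₂ x o (Sum.inr y) = Sum.inr (φ₂ y) := by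
  simp [graft, Equiv.swap_apply_of_ne_of_ne, h]

theorem graft_fun {β : Type} (f : D₁ ⊕ D₂ → β) (h : f (Sum.inr (φ₂ o)) = f (Sum.inl (φ₁ x))) :
    (∀ y, f (graft φ₁ φ₂ x o (Sum.inl y)) = f (Sum.inl (φ₁ y))) ∧
    (∀ y, f (graft φ₁ φ₂ x o (Sum.inr y)) = f (Sum.inr (φ₂ y))) := by
  refine ⟨fun y => ?_, fun y => ?_⟩
  · by_cases a : y = x
    · rw [a, graft_x, h]
    · rw [graft_l a]
  · by_cases a : y = o
    · rw [a, graft_o, h]
    · rw [graft_r a]

theorem parity {D : Type} [Fintype D] [DecidableEq D] {t : Dt H W L G D} {A : Finset D}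
    {φ : Equiv.Perm D} {α : D → D} (h : Ok B t A φ α) {o : D} (ho : o ∉ A) (χ : D → ZMod 2)
    (h1 : ∀ d, d ∉ A → d ≠ o → χ (φ d) = χ d)
    (h2 : ∀ d ∈ A, χ (φ (α d)) + χ (α d) = χ (φ d) + χ d) : χ (φ o) = χ o := by
  have two : ∀ a : ZMod 2, a + a = 0 := by decide
  have s1 : ∑ d, (χ (φ d) + χ d) = 0 := by
    rw [sum_add_distrib, Equiv.sum_comp φ χ, two]
  have s2 : ∑ d ∈ A, (χ (φ d) + χ d) = 0 := by
    refine sum_involution (fun d _ => α d) (fun d hd => ?_) (fun d hd _ => h.α_ne d hd)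
      (fun d hd => h.αA d hd) (fun d hd => h.αα d hd)
    rw [h2 d hd, two]
  rw [← sum_add_sum_compl A, s2, zero_add, sum_eq_single o] at s1
  · revert s1; generalize χ (φ o) = a; generalize χ o = b; revert a b; decide
  · intro d hd hdo
    rw [h1 d (mem_compl.1 hd) hdo, two]
  · intro a; exact absurd (mem_compl.2 ho) a

theorem graft_ok [Fintype D₂] {t₁ : Dt H W L G D₁} {t₂ : Dt H W L G D₂} {A₁ : Finset D₁}
    {A₂ : Finset D₂} {α₁ : D₁ → D₁} {α₂ : D₂ → D₂} (h₁ : Ok B t₁ A₁ φ₁ α₁) (h₂ : Ok B t₂ A₂ φ₂ α₂)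
    (hx : x ∉ t₁.Out) (ho : o ∉ t₂.Out) (hoA : o ∉ A₂) (hπ : t₂.π o = t₁.π (φ₁ x)) :
    Ok B (t₁.sum t₂) (A₁.disjSum A₂) (graft φ₁ φ₂ x o) (Sum.map α₁ α₂) := by
  obtain ⟨p1, p2⟩ := graft_fun (φ₁ := φ₁) (φ₂ := φ₂) (x := x) (o := o) (t₁.sum t₂).π
    (by simp only [Dt.sum, Sum.elim_inl, Sum.elim_inr]; rw [h₂.πd o hoA, hπ])
  obtain ⟨q1, q2⟩ := graft_fun (φ₁ := φ₁) (φ₂ := φ₂) (x := x) (o := o)
    (fun y => y ∈ (t₁.sum t₂).Out)
    (by simp only [Dt.sum, inl_mem_disjSum, inr_mem_disjSum, h₁.out, h₂.out, hx, ho])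
  refine ⟨?_, ?_, ?_, ?_, ?_, ?_, ?_, ?_, ?_, ?_, fun χ c1 c2 => ?_⟩
  · rintro (y | y)
    · rw [q1]; simp [Dt.sum, h₁.out]
    · rw [q2]; simp [Dt.sum, h₂.out]
  · rintro (y | y) hy
    · simpa using h₁.αA y (by simpa using hy)
    · simpa using h₂.αA y (by simpa using hy)
  · rintro (y | y) hy
    · simpa using h₁.αα y (by simpa using hy)
    · simpa using h₂.αα y (by simpa using hy)
  · rintro (y | y) hy
    · simpa using h₁.α_ne y (by simpa using hy)
    · simpa using h₂.α_ne y (by simpa using hy)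
  · rintro (y | y) hy
    · exact h₁.lab y (by simpa using hy)
    · exact h₂.lab y (by simpa using hy)
  · rintro (y | y) hy
    · rw [p1]; exact h₁.πφ y (by simpa using hy)
    · rw [p2]; exact h₂.πφ y (by simpa using hy)
  · rintro (y | y) hy
    · exact h₁.πα y (by simpa using hy)
    · exact h₂.πα y (by simpa using hy)
  · rintro (y | y) hy
    · rw [p1]; exact h₁.πd y (by simpa using hy)
    · rw [p2]; exact h₂.πd y (by simpa using hy)
  · rintro (y | y) hy hy'
    · exact h₁.col y (by simpa using hy) (by simpa [Dt.sum] using hy')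
    · exact h₂.col y (by simpa using hy) (by simpa [Dt.sum] using hy')
  · rintro (y | y) hy hy'
    · exact h₁.vert y (by simpa using hy) (by simpa [Dt.sum] using hy')
    · exact h₂.vert y (by simpa using hy) (by simpa [Dt.sum] using hy')
  · have a1 : χ (Sum.inr (φ₂ o)) = χ (Sum.inr o) := by
      refine parity h₂ hoA (fun y => χ (Sum.inr y)) (fun y hy hyo => ?_) (fun y hy => ?_)
      · have := c1 (Sum.inr y) (by simpa using hy)
        rwa [graft_r hyo] at this
      · have := c2 (Sum.inr y) (by simpa using hy)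
        have e1 : y ≠ o := fun e => hoA (e ▸ hy)
        have e2 : α₂ y ≠ o := fun e => hoA (e ▸ h₂.αA y hy)
        rwa [Sum.map_inr, graft_r e1, graft_r e2] at this
    have a2 : χ (Sum.inl (φ₁ x)) = χ (Sum.inr o) := by
      have := c1 (Sum.inr o) (by simpa using hoA)
      rwa [graft_o] at this
    obtain ⟨r1, r2⟩ := graft_fun (φ₁ := φ₁) (φ₂ := φ₂) (x := x) (o := o) χ (a1.trans a2.symm)
    obtain ⟨κ₁, k1, k2⟩ := h₁.pl (fun y => χ (Sum.inl y)) (fun y hy => by
      have := c1 (Sum.inl y) (by simpa using hy)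
      rwa [r1] at this) (fun y hy => by
      have := c2 (Sum.inl y) (by simpa using hy)
      rwa [Sum.map_inl, r1, r1] at this)
    obtain ⟨κ₂, k3, k4⟩ := h₂.pl (fun y => χ (Sum.inr y)) (fun y hy => by
      have := c1 (Sum.inr y) (by simpa using hy)
      rwa [r2] at this) (fun y hy => by
      have := c2 (Sum.inr y) (by simpa using hy)
      rwa [Sum.map_inr, r2, r2] at this)
    obtain ⟨s1, s2⟩ := graft_fun (φ₁ := φ₁) (φ₂ := φ₂) (x := x) (o := o)
      (Sum.elim κ₁ (fun y => κ₂ y + (κ₁ x - κ₂ o)))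
      (by simp only [Sum.elim_inl, Sum.elim_inr, k1, k3]; abel)
    refine ⟨Sum.elim κ₁ (fun y => κ₂ y + (κ₁ x - κ₂ o)), ?_, ?_⟩
    · rintro (y | y)
      · rw [s1]; exact k1 y
      · rw [s2]; simp only [Sum.elim_inr, k3]
    · rintro (y | y) hy
      · rw [r1]; exact k2 y (by simpa using hy)
      · rw [r2]
        simp only [Sum.map_inr, Sum.elim_inr]
        rw [← add_assoc, ← add_assoc, k4 y (by simpa using hy)]

theorem graft_tv_l {t₁ : Dt H W L G D₁} {t₂ : Dt H W L G D₂} {A₁ : Finset D₁}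
    {A₂ : Finset D₂} {y : D₁} (hy : y ≠ x) (h : TV B t₁ A₁ φ₁ y) :
    TV B (t₁.sum t₂) (A₁.disjSum A₂) (graft φ₁ φ₂ x o) (Sum.inl y) := by
  intro a
  rw [graft_l hy]
  simpa [Dt.sum] using h (by simpa [Dt.sum] using a)

theorem graft_tv_r {t₁ : Dt H W L G D₁} {t₂ : Dt H W L G D₂} {A₁ : Finset D₁}
    {A₂ : Finset D₂} {y : D₂} (hy : y ≠ o) (h : TV B t₂ A₂ φ₂ y) :
    TV B (t₁.sum t₂) (A₁.disjSum A₂) (graft φ₁ φ₂ x o) (Sum.inr y) := by
  intro a
  rw [graft_r hy]
  simpa [Dt.sum] using h (by simpa [Dt.sum] using a)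

theorem sum_sdiff_disjSum {M : Type} [AddCommMonoid M] (A₁ O₁ : Finset D₁) (A₂ O₂ : Finset D₂)
    (f : D₁ ⊕ D₂ → M) : ∑ y ∈ A₁.disjSum A₂ \ O₁.disjSum O₂, f y =
      ∑ y ∈ A₁ \ O₁, f (Sum.inl y) + ∑ y ∈ A₂ \ O₂, f (Sum.inr y) := by
  rw [← sum_disjSum]
  congr 1
  ext (y | y) <;> simp

theorem sum_inter_disjSum {M : Type} [AddCommMonoid M] (A₁ O₁ : Finset D₁) (A₂ O₂ : Finset D₂)
    (f : D₁ ⊕ D₂ → M) : ∑ y ∈ A₁.disjSum A₂ ∩ O₁.disjSum O₂, f y =
      ∑ y ∈ A₁ ∩ O₁, f (Sum.inl y) + ∑ y ∈ A₂ ∩ O₂, f (Sum.inr y) := by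
  rw [← sum_disjSum]
  congr 1
  ext (y | y) <;> simp

end graft

/-- A pre-diagram from `s` to `t` at position `g`, with value `m` and outer sums `out`. -/
def Pre {M N : Type} [AddCommGroup M] [AddCommMonoid N] (κ : G × H → M) (ξ : G × L → N)
    (s t : W) (g : G) (m : M) (out : N) : Prop :=
  ∃ (D : Type) (_ : Fintype D) (_ : DecidableEq D) (T : Dt H W L G D) (A : Finset D)
    (φ : Equiv.Perm D) (α : D → D) (o : D), Ok B T A φ α ∧ (∀ d, d ≠ o → TV B T A φ d) ∧
      o ∉ A ∧ o ∉ T.Out ∧ T.tv (φ o) = s ∧ T.tv o = t ∧ T.π o = g ∧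
      ∑ x ∈ A \ T.Out, κ (gp B T x, T.ε x) = m ∧ ∑ x ∈ A ∩ T.Out, ξ (T.π x, T.lab x) = out

variable {B} {M N : Type} [AddCommGroup M] [AddCommMonoid N] {κ : G × H → M} {ξ : G × L → N}

theorem Pre.refl (h₀ : H) (s : W) (g : G) : Pre B κ ξ s s g 0 0 := by
  refine ⟨Unit, inferInstance, inferInstance,
    ⟨fun _ => B.col h₀, fun _ => g, fun _ => h₀, fun _ => s, ∅⟩, ∅, 1, id, (), ?_, ?_, by simp,
    by simp, rfl, rfl, rfl, by simp, by simp⟩
  · refine ⟨by simp, by simp, by simp, by simp, by simp, by simp, by simp, by simp, by simp,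
      by simp, fun χ _ _ => ⟨0, by simp, by simp⟩⟩
  · intro d hd; exact absurd rfl hd

theorem Pre.trans {s t u : W} {g : G} {m m' : M} {n n' : N} (h : Pre B κ ξ s t g m n)
    (h' : Pre B κ ξ t u g m' n') : Pre B κ ξ s u g (m + m') (n + n') := by
  obtain ⟨D₂, _, _, t₂, A₂, φ₂, α₂, o₂, a1, a2, a3, a4, a5, a6, a7, a8, a9⟩ := h
  obtain ⟨D₁, _, _, t₁, A₁, φ₁, α₁, o₁, b1, b2, b3, b4, b5, b6, b7, b8, b9⟩ := h'
  refine ⟨D₁ ⊕ D₂, inferInstance, inferInstance, t₁.sum t₂, A₁.disjSum A₂, graft φ₁ φ₂ o₁ o₂,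
    Sum.map α₁ α₂, Sum.inl o₁, graft_ok b1 a1 b4 a4 a3 (by rw [b1.πd o₁ b3, a7, b7]), ?_,
    by simpa using b3, by simpa [Dt.sum] using b4, by rw [graft_x]; exact a5, b6, b7, ?_, ?_⟩
  · rintro (y | y) hy
    · have hy' : y ≠ o₁ := fun e => hy (by rw [e])
      exact graft_tv_l hy' (b2 y hy')
    · by_cases e : y = o₂
      · intro _
        rw [e, graft_o]
        refine ⟨fun a => absurd (by simpa using a) a3, fun _ => ?_⟩
        exact b5.trans a6.symm
      · exact graft_tv_r e (a2 y e)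
  · rw [add_comm m, ← a8, ← b8]; exact sum_sdiff_disjSum _ _ _ _ _
  · rw [add_comm n, ← a9, ← b9]; exact sum_inter_disjSum _ _ _ _ _

/-- the three-cycle `none → some false → some true → none` -/
def cyc3 : Equiv.Perm (Option Bool) where
  toFun
    | none => some false
    | some false => some true
    | some true => none
  invFun
    | none => some true
    | some false => none
    | some true => some false
  left_inv := by decide
  right_inv := by decide

/-- conjugation by the edge `h` at the start and the edge `k` at the end -/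
theorem Pre.conj {g : G} {m : M} {n : N} (h k : H) (hk : B.col k = B.col h)
    (hκ : ∀ g, κ (g, h) = 0) (hκ' : ∀ g, κ (g, B.τ k) = 0)
    (hp : Pre B κ ξ (B.vert (B.τ h)) (B.vert (B.τ k)) (g * B.gx (B.col h)) m n) :
    Pre B κ ξ (B.vert h) (B.vert k) g m n := by
  obtain ⟨D₂, _, _, t₂, A₂, φ₂, α₂, o₂, a1, a2, a3, a4, a5, a6, a7, a8, a9⟩ := hp
  let t₁ : Dt H W L G (Option Bool) :=
    { lab := fun y => match y with
        | some true => B.inv (B.col h)
        | _ => B.col h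
      π := fun y => match y with
        | some true => g * B.gx (B.col h)
        | _ => g
      ε := fun y => match y with
        | some true => B.τ k
        | _ => h
      tv := fun y => match y with
        | none => B.vert k
        | some false => B.vert h
        | some true => B.vert (B.τ k)
      Out := ∅ }
  have b1 : Ok B t₁ {some false, some true} cyc3 (Option.map not) := by
    refine ⟨by simp [t₁], by decide, by decide, by decide, ?_, ?_, ?_, ?_, ?_, ?_,
      fun χ c1 _ => ⟨0, by simp, ?_⟩⟩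
    · rintro (_ | _ | _) <;> simp [t₁, B.inv_inv]
    · rintro (_ | _ | _) <;> simp [t₁, cyc3, B.gx_inv]
    · rintro (_ | _ | _) <;> simp [t₁, B.gx_inv]
    · rintro (_ | _ | _) <;> simp [t₁, cyc3]
    · rintro (_ | _ | _) <;> simp [t₁, B.col_τ, hk]
    · rintro (_ | _ | _) <;> simp [t₁]
    · have := c1 none (by decide)
      rintro (_ | _ | _) <;> simp_all [cyc3]
  refine ⟨Option Bool ⊕ D₂, inferInstance, inferInstance, t₁.sum t₂,
    ({some false, some true} : Finset (Option Bool)).disjSum A₂, graft cyc3 φ₂ (some false) o₂,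
    Sum.map (Option.map not) α₂, Sum.inl none, graft_ok b1 a1 (by simp [t₁]) a4 a3 a7, ?_,
    by simp, by simp [Dt.sum, t₁], by rw [graft_l (by decide)]; rfl, rfl, rfl, ?_, ?_⟩
  · rintro ((_ | _ | _) | y) hy
    · exact absurd rfl hy
    · intro _
      rw [graft_x]
      exact ⟨fun _ => a5, fun a => absurd (by simp) a⟩
    · refine graft_tv_l (by decide) fun _ => ⟨fun _ => ?_, fun a => absurd (by simp) a⟩
      simp [t₁, cyc3, B.ττ]
    · by_cases e : y = o₂
      · intro _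
        rw [e, graft_o]
        exact ⟨fun a => absurd (by simpa using a) a3, fun _ => a6.symm⟩
      · exact graft_tv_r e (a2 y e)
  · refine (sum_sdiff_disjSum _ _ _ _ _).trans ?_
    rw [← a8]
    simp [Dt.sum, t₁, hκ, hκ', gp]
  · refine (sum_inter_disjSum _ _ _ _ _).trans ?_
    rw [← a9]
    simp [Dt.sum, t₁]

/-- the two faces of a polygon -/
def polyφ (n : ℕ) : Equiv.Perm (Fin (n + 1) × Bool) where
  toFun y := (if y.2 then y.1 - 1 else y.1 + 1, y.2)
  invFun y := (if y.2 then y.1 + 1 else y.1 - 1, y.2)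
  left_inv := by rintro ⟨i, _ | _⟩ <;> simp
  right_inv := by rintro ⟨i, _ | _⟩ <;> simp

theorem polyφ_f (n : ℕ) (i : Fin (n + 1)) : polyφ n (i, false) = (i + 1, false) := rfl
theorem polyφ_t (n : ℕ) (i : Fin (n + 1)) : polyφ n (i, true) = (i - 1, true) := rfl

theorem val_succ {n : ℕ} {i : Fin (n + 1)} (h : i ≠ Fin.last n) :
    (i + 1).val = i.val + 1 ∧ i.val < n := by
  have := Fin.val_lt_last h
  exact ⟨Fin.val_add_one_of_lt (Fin.lt_last_iff_ne_last.2 h), this⟩

/-- a double polygon -/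
theorem Pre.polygon (n : ℕ) (e e' : ℕ → H) (v v' : ℕ → W) (p : ℕ → G) (out : Prop)
    [Decidable out] (h1 : ∀ i < n, B.vert (e i) = v i) (h2 : ∀ i < n, B.vert (B.τ (e i)) = v (i + 1))
    (h3 : ∀ i < n, p (i + 1) = p i * B.gx (B.col (e i))) (h4 : p n = p 0)
    (h5 : ∀ g, ∀ i < n, κ (g, e i) = 0)
    (h6 : ¬ out → (∀ i < n, B.col (e' i) = B.inv (B.col (e i)) ∧ B.vert (e' i) = v' (i + 1) ∧
      B.vert (B.τ (e' i)) = v' i) ∧ v' n = v' 0) :
    Pre B κ ξ (v 0) (v n) (p 0)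
      (if out then 0 else ∑ i ∈ range n, κ (p (i + 1) * (B.pos (v' (i + 1)))⁻¹, e' i))
      (if out then ∑ i ∈ range n, ξ (p (i + 1), B.inv (B.col (e i))) else 0) := by
  let T : Dt H W L G (Fin (n + 1) × Bool) :=
    { lab := fun y => if y.2 then B.inv (B.col (e y.1.val)) else B.col (e y.1.val)
      π := fun y => if y.2 then p (y.1 + 1).val else p y.1.val
      ε := fun y => if y.2 then e' y.1.val else e y.1.val
      tv := fun y => if y.2 then v' (y.1 + 1).val else v y.1.val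
      Out := univ.filter (fun y => y.2 = true ∧ out) }
  have hO : ∀ y, y ∈ T.Out ↔ y.2 = true ∧ out := fun y => by simp [T]
  let A : Finset (Fin (n + 1) × Bool) := univ.filter (fun y => y.1 ≠ Fin.last n)
  have hA : ∀ y, y ∈ A ↔ y.1 ≠ Fin.last n := fun y => by simp [A]
  have hl : (Fin.last n + 1 : Fin (n + 1)).val = 0 := by simp
  refine ⟨Fin (n + 1) × Bool, inferInstance, inferInstance, T, A, polyφ n, fun y => (y.1, !y.2),
    (Fin.last n, false), ⟨?_, ?_, ?_, ?_, ?_, ?_, ?_, ?_, ?_, ?_, fun χ _ c2 => ?_⟩, ?_,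
    by simp [hA], by simp [hO], ?_, ?_, ?_, ?_, ?_⟩
  · rintro ⟨i, _ | _⟩ <;> simp [hO, polyφ_f, polyφ_t]
  · intro y hy; rw [hA] at hy ⊢; exact hy
  · intro y _; simp
  · rintro ⟨i, _ | _⟩ _ <;> simp
  · rintro ⟨i, _ | _⟩ _ <;> simp [T, B.inv_inv]
  · rintro ⟨i, _ | _⟩ hy
    · obtain ⟨a1, a2⟩ := val_succ ((hA _).1 hy)
      simp only [T, polyφ_f, Bool.false_eq_true, if_false]
      rw [a1]; exact h3 _ a2
    · obtain ⟨a1, a2⟩ := val_succ ((hA _).1 hy)
      simp only [T, polyφ_t, if_true, sub_add_cancel]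
      rw [a1, h3 _ a2, B.gx_inv]; group
  · rintro ⟨i, _ | _⟩ hy
    · obtain ⟨a1, a2⟩ := val_succ ((hA _).1 hy)
      simp only [T, Bool.not_false, Bool.false_eq_true, if_false, if_true]
      rw [a1]; exact h3 _ a2
    · obtain ⟨a1, a2⟩ := val_succ ((hA _).1 hy)
      simp only [T, Bool.not_true, Bool.false_eq_true, if_false, if_true]
      rw [a1, h3 _ a2, B.gx_inv]; group
  · rintro ⟨i, _ | _⟩ hy
    · obtain rfl : i = Fin.last n := by simpa [hA] using hy
      simp only [T, polyφ_f, Bool.false_eq_true, if_false, hl, Fin.val_last, h4]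
    · obtain rfl : i = Fin.last n := by simpa [hA] using hy
      simp only [T, polyφ_t, if_true, sub_add_cancel, hl, Fin.val_last, h4]
  · rintro ⟨i, _ | _⟩ hy ho
    · simp [T]
    · obtain ⟨a1, a2⟩ := val_succ ((hA _).1 hy)
      simpa [T] using ((h6 (by simpa [hO] using ho)).1 _ a2).1
  · rintro ⟨i, _ | _⟩ hy ho
    · obtain ⟨a1, a2⟩ := val_succ ((hA _).1 hy)
      simpa [T] using h1 _ a2
    · obtain ⟨a1, a2⟩ := val_succ ((hA _).1 hy)
      simp only [T, if_true]
      rw [a1]; exact ((h6 (by simpa [hO] using ho)).1 _ a2).2.1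
  · have step : ∀ i : Fin (n + 1), i ≠ Fin.last n →
        χ (i, true) + χ (i + 1, false) = χ (i - 1, true) + χ (i, false) := by
      intro i hi
      have := c2 (i, false) ((hA _).2 hi)
      simp only [Bool.not_false, polyφ_f, polyφ_t] at this
      revert this
      generalize χ (i, true) = a; generalize χ (i + 1, false) = b
      generalize χ (i - 1, true) = c; generalize χ (i, false) = d
      revert a b c d; decide
    have all : ∀ i : Fin (n + 1), χ (i, true) + χ (i + 1, false) =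
        χ (Fin.last n, true) + χ (Fin.last n + 1, false) := by
      intro i
      induction i using Fin.induction with
      | zero =>
        by_cases a : (0 : Fin (n + 1)) = Fin.last n
        · rw [← a]
        · rw [step 0 a]
          have : (0 : Fin (n + 1)) - 1 = Fin.last n := by
            rw [sub_eq_iff_eq_add, Fin.last_add_one]
          rw [this, Fin.last_add_one]
      | succ i ih =>
        by_cases a : i.succ = Fin.last n
        · rw [a]
        · rw [step _ a, ← ih, Fin.coeSucc_eq_succ]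
          congr 3
          rw [sub_eq_iff_eq_add, Fin.coeSucc_eq_succ]
    refine ⟨fun y => if y.2 then χ (Fin.last n, true) + χ (Fin.last n + 1, false) else 0, ?_, ?_⟩
    · rintro ⟨i, _ | _⟩ <;> simp [polyφ_f, polyφ_t]
    · rintro ⟨i, _ | _⟩ _
      · simp only [Bool.not_false, polyφ_f, if_true, Bool.false_eq_true, if_false]
        rw [← all i]
        generalize χ (i, true) = a; generalize χ (i + 1, false) = b
        revert a b; decide
      · simp only [Bool.not_true, polyφ_t, if_true, Bool.false_eq_true, if_false]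
        rw [← all (i - 1), sub_add_cancel]
        generalize χ (i - 1, true) = a; generalize χ (i, false) = b
        revert a b; decide
  · rintro ⟨i, _ | _⟩ hy ho
    · refine ⟨fun hi => ?_, fun hi => ?_⟩
      · obtain ⟨a1, a2⟩ := val_succ ((hA _).1 hi)
        simp only [T, polyφ_f, Bool.false_eq_true, if_false]
        rw [a1]; exact (h2 _ a2).symm
      · obtain rfl : i = Fin.last n := by simpa [hA] using hi
        exact absurd rfl hy
    · have h7 := h6 (by simpa [hO] using ho)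
      refine ⟨fun hi => ?_, fun hi => ?_⟩
      · obtain ⟨a1, a2⟩ := val_succ ((hA _).1 hi)
        simp only [T, polyφ_t, if_true, sub_add_cancel]
        exact (h7.1 _ a2).2.2.symm
      · obtain rfl : i = Fin.last n := by simpa [hA] using hi
        simp only [T, polyφ_t, if_true, sub_add_cancel, hl, Fin.val_last, h7.2]
  · simp only [T, polyφ_f, Bool.false_eq_true, if_false, hl]
  · simp [T]
  · simp [T, h4]
  · have e1 : A \ T.Out = univ.filter (fun y => y.1 ≠ Fin.last n ∧ ¬ (y.2 = true ∧ out)) := by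
      ext y; simp only [mem_sdiff, hA, hO, mem_filter, mem_univ, true_and]
    rw [e1, sum_filter, Fintype.sum_prod_type, Fin.sum_univ_castSucc]
    simp only [Fintype.sum_bool, ne_eq, not_true_eq_false, false_and, if_false, add_zero,
      Fin.castSucc_ne_last, not_false_eq_true, true_and, Bool.false_eq_true, if_true, T, gp,
      Fin.coeSucc_eq_succ, Fin.val_succ, Fin.val_castSucc]
    rw [sum_congr rfl (fun i _ => by rw [h5 _ i.val i.2, add_zero])]
    by_cases a : out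
    · simp [a]
    · simp only [a, not_false_eq_true, if_true, if_false]
      exact Fin.sum_univ_eq_sum_range
        (fun i => κ (p (i + 1) * (B.pos (v' (i + 1)))⁻¹, e' i)) n
  · have e1 : A ∩ T.Out = univ.filter (fun y => y.1 ≠ Fin.last n ∧ (y.2 = true ∧ out)) := by
      ext y; simp only [mem_inter, hA, hO, mem_filter, mem_univ, true_and]
    rw [e1, sum_filter, Fintype.sum_prod_type, Fin.sum_univ_castSucc]
    simp only [Fintype.sum_bool, ne_eq, not_true_eq_false, false_and, if_false, add_zero,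
      Fin.castSucc_ne_last, not_false_eq_true, true_and, Bool.false_eq_true, if_true, T,
      Fin.coeSucc_eq_succ, Fin.val_succ, Fin.val_castSucc]
    by_cases a : out
    · simp only [a, if_true]
      exact Fin.sum_univ_eq_sum_range (fun i => ξ (p (i + 1), B.inv (B.col (e i)))) n
    · simp [a]

/-- a closed pre-diagram has a minimal state -/
theorem Pre.min {s : W} {g : G} {m : M} {n : N} (hκ : ∀ g h, κ (g, B.τ h) = - κ (g, h))
    (hp : Pre B κ ξ s s g m n) :
    ∃ (D : Type) (_ : Fintype D) (_ : DecidableEq D) (T : Dt H W L G D) (A : Finset D)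
      (φ : Equiv.Perm D) (α : D → D), Ok B T A φ α ∧ (∀ d, TV B T A φ d) ∧
      ∑ x ∈ A \ T.Out, κ (gp B T x, T.ε x) = m ∧ ∑ x ∈ A ∩ T.Out, ξ (T.π x, T.lab x) = n ∧
      (∀ d, d ∉ A → φ d = d) ∧
      (∀ d ∈ A, d ∉ T.Out → φ d ∈ A → T.ε (φ d) ≠ B.τ (T.ε d)) ∧
      (∀ d ∈ A, d ∉ T.Out → α d ∉ T.Out → T.ε (α d) ≠ B.τ (T.ε d)) := by
  obtain ⟨D, _, _, T, A, φ, α, o, a1, a2, a3, a4, a5, a6, a7, a8, a9⟩ := hp
  obtain ⟨A', φ', α', b1, b2, b3, b4, b5⟩ := exists_min κ hκ a1 (fun d => by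
    by_cases e : d = o
    · rw [e]; exact fun _ => ⟨fun a => absurd a a3, fun _ => a5.trans a6.symm⟩
    · exact a2 d e)
  exact ⟨D, inferInstance, inferInstance, T, A', φ', α', b1, b2, b4.trans a8, by rw [b3, a9], b5⟩

end Crest.Agent.R177.VK
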