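import Crest.Agent.R177.VKa

/-!
Task R177-V, part b: the big graph and the structure of minimal states.
-/

set_option autoImplicit false

namespace Crest.Agent.R177.VK

open Finset

variable {Hf V P : Type}

/-- relators of the free product -/
def frels (V : Type) (σ : P → P) : Set (FreeGroup (P ⊕ V)) :=
  {r | ∃ c, r = FreeGroup.of (Sum.inl c) * FreeGroup.of (Sum.inl (σ c))}

/-- the free product -/
abbrev F (V : Type) (σ : P → P) : Type := PresentedGroup (frels V σ)

/-- the value of a letter in the free product -/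
def X (σ : P → P) : Ltr V P → F V σ
  | Sum.inl c => PresentedGroup.of (Sum.inl c)
  | Sum.inr (u, true) => PresentedGroup.of (Sum.inr u)
  | Sum.inr (u, false) => (PresentedGroup.of (Sum.inr u))⁻¹

theorem X_linv (σ : P → P) (a : Ltr V P) : X σ (linv σ a) = (X σ a)⁻¹ := by
  rcases a with c | ⟨u, _ | _⟩
  · have h : PresentedGroup.mk (frels V σ)
        (FreeGroup.of (Sum.inl c) * FreeGroup.of (Sum.inl (σ c))) = 1 :=
      PresentedGroup.one_of_mem ⟨c, rfl⟩
    rw [map_mul] at h
    exact eq_inv_of_mul_eq_one_right h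
  · simp [linv, X]
  · simp [linv, X]

theorem F_lift (σ : P → P) {K : Type} [Group K] (f : Ltr V P → K)
    (hf : ∀ a, f (linv σ a) = (f a)⁻¹) : ∃ ρ : F V σ →* K, ∀ a, ρ (X σ a) = f a := by
  refine ⟨PresentedGroup.toGroup
    (f := Sum.elim (fun c => f (Sum.inl c)) (fun u => f (Sum.inr (u, true)))) ?_, ?_⟩
  · rintro r ⟨c, rfl⟩
    have := hf (Sum.inl c)
    simp only [linv] at this
    simp [this]
  · rintro (c | ⟨u, _ | _⟩)
    · simp [X]
    · have := hf (Sum.inr (u, true))
      simp only [linv, Bool.not_true] at this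
      simp [X, this]
    · simp [X]

theorem X_closure (σ : P → P) : Subgroup.closure (Set.range (X (V := V) σ)) = ⊤ := by
  rw [eq_top_iff, ← PresentedGroup.closure_range_of (frels V σ)]
  refine Subgroup.closure_mono ?_
  rintro _ ⟨c | u, rfl⟩
  · exact ⟨Sum.inl c, rfl⟩
  · exact ⟨Sum.inr (u, true), rfl⟩

theorem F_induction (σ : P → P) {Q : F V σ → Prop} (h1 : Q 1)
    (hm : ∀ a f, Q f → Q (X σ a * f)) (f : F V σ) : Q f := by
  have hf : f ∈ Subgroup.closure (Set.range (X (V := V) σ)) := by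
    rw [X_closure]; trivial
  induction hf using Subgroup.closure_induction_left with
  | one => exact h1
  | mul_left x hx y _ ih => obtain ⟨a, rfl⟩ := hx; exact hm a y ih
  | inv_mul_cancel x hx y _ ih =>
    obtain ⟨a, rfl⟩ := hx
    rw [← X_linv]; exact hm _ y ih

section tree

variable {L : Type} (inv : L → L)

/-- reduced words -/
def RW : Type := {w : List L // w.IsChain (fun a b => b ≠ inv a)}

open Classical in
/-- action of a letter on reduced words -/
noncomputable def act (a : L) : RW inv → RW inv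
  | ⟨[], _⟩ => ⟨[a], List.isChain_singleton a⟩
  | ⟨b :: w, h⟩ => if e : b = inv a then ⟨w, h.tail⟩ else ⟨a :: b :: w, List.isChain_cons_cons.2 ⟨e, h⟩⟩

theorem act_cases (a : L) (w : RW inv) :
    (act inv a w).1 = a :: w.1 ∨ w.1 = inv a :: (act inv a w).1 := by
  obtain ⟨_ | ⟨b, w⟩, h⟩ := w
  · exact Or.inl rfl
  · by_cases e : b = inv a
    · right; simp [act, e]
    · left; simp [act, e]

theorem act_cons (a : L) (w w' : RW inv) (h : w.1 = inv a :: w'.1) : act inv a w = w' := by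
  obtain ⟨w, hw⟩ := w
  obtain rfl : w = inv a :: w'.1 := h
  simp [act]

theorem act_act (hi : ∀ a, inv (inv a) = a) (a : L) (w : RW inv) :
    act inv (inv a) (act inv a w) = w := by
  rcases act_cases inv a w with h | h
  · exact act_cons inv _ _ _ (by rw [hi]; exact h)
  · rcases act_cases inv (inv a) (act inv a w) with h2 | h2
    · exact Subtype.ext (h2.trans h.symm)
    · exfalso
      have := w.2
      rw [h, h2] at this
      exact (List.isChain_cons_cons.1 this).1 rfl

/-- the action as a permutation -/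
noncomputable def actP (hi : ∀ a, inv (inv a) = a) (a : L) : Equiv.Perm (RW inv) where
  toFun := act inv a
  invFun := act inv (inv a)
  left_inv := act_act inv hi a
  right_inv w := by
    have := act_act inv hi (inv a) w
    rwa [hi] at this

end tree

theorem exists_len {σ : P → P} (hσ : ∀ c, σ (σ c) = c) : ∃ len : F V σ → ℕ,
    (∀ f a, len (f * X σ a) ≠ len f) ∧
    ∀ f a b, len f ≤ len (f * X σ a) → len (f * X σ a * X σ b) ≤ len (f * X σ a) →
      b = linv σ a := by
  obtain ⟨ρ, hρ⟩ := F_lift (V := V) σ (actP (linv σ) (linv_linv hσ)) (fun a => by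
    ext w; rw [eq_comm, Equiv.Perm.inv_def]; rfl)
  have key : ∀ f a, (ρ (f * X σ a)⁻¹) ⟨[], List.isChain_nil⟩ =
      act (linv σ) (linv σ a) (ρ f⁻¹ ⟨[], List.isChain_nil⟩) := by
    intro f a
    rw [mul_inv_rev, ← X_linv, map_mul, hρ]; rfl
  refine ⟨fun f => (ρ f⁻¹ ⟨[], List.isChain_nil⟩).1.length, fun f a => ?_, fun f a b h1 h2 => ?_⟩
  · simp only [key]
    rcases act_cases (linv σ) (linv σ a) (ρ f⁻¹ ⟨[], List.isChain_nil⟩) with h | h
    · rw [h]; simp
    · have := congrArg List.length h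
      simp only [List.length_cons] at this
      omega
  · simp only [key (f * X σ a) b] at h2
    beta_reduce at h1
    have k := key f a
    set w := ρ (f * X σ a)⁻¹ ⟨[], List.isChain_nil⟩
    rcases act_cases (linv σ) (linv σ b) w with h | h
    · rw [h] at h2; simp at h2
    · rcases act_cases (linv σ) (linv σ a) (ρ f⁻¹ ⟨[], List.isChain_nil⟩) with h' | h'
      · rw [← k, h, linv_linv hσ] at h'
        exact (List.cons.inj h').1
      · rw [← k] at h'
        rw [h'] at h1; simp at h1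

variable (S : HS Hf V P) (σ : P → P) (τ : Hf → Hf)

/-- the projection to the group -/
noncomputable def π₀ : F V σ →* Grp S σ τ :=
  (F_lift σ (gx S σ τ) (gx_linv S σ τ)).choose

theorem π₀_X (a : Ltr V P) : π₀ S σ τ (X σ a) = gx S σ τ a :=
  (F_lift σ (gx S σ τ) (gx_linv S σ τ)).choose_spec a

/-- half-edges of the big graph -/
abbrev HB (Hf V : Type) (σ : P → P) : Type := Hf ⊕ (V × Bool) ⊕ (F V σ × Ltr V P)

/-- vertices of the big graph -/
abbrev WB (V : Type) (σ : P → P) : Type := Option V ⊕ F V σ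

/-- the big graph -/
noncomputable def big {X' : Type} {cmp : V → X'} (hσ : ∀ c, σ (σ c) = c)
    (hτ : IsMatch S σ cmp τ) : BG (HB Hf V σ) (WB V σ) (Ltr V P) (Grp S σ τ) where
  vert
    | Sum.inl h => Sum.inl (some (S.vert h))
    | Sum.inr (Sum.inl (u, b)) => Sum.inl (if b then none else some u)
    | Sum.inr (Sum.inr (f, _)) => Sum.inr f
  col
    | Sum.inl h => Sum.inl (S.col h)
    | Sum.inr (Sum.inl y) => Sum.inr y
    | Sum.inr (Sum.inr (_, a)) => a
  τ
    | Sum.inl h => Sum.inl (τ h)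
    | Sum.inr (Sum.inl (u, b)) => Sum.inr (Sum.inl (u, !b))
    | Sum.inr (Sum.inr (f, a)) => Sum.inr (Sum.inr (f * X σ a, linv σ a))
  inv := linv σ
  gx := gx S σ τ
  pos
    | Sum.inl none => 1
    | Sum.inl (some u) => gx S σ τ (Sum.inr (u, true))
    | Sum.inr f => π₀ S σ τ f
  ττ := by
    rintro (h | ⟨u, b⟩ | ⟨f, a⟩)
    · simp [hτ.invol]
    · simp
    · simp [X_linv, linv_linv hσ]
  τ_ne := by
    rintro (h | ⟨u, b⟩ | ⟨f, a⟩)
    · simpa using hτ.ne h
    · simp
    · obtain ⟨len, h1, -⟩ := exists_len (V := V) hσ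
      intro e
      simp only [Sum.inr.injEq, Prod.mk.injEq] at e
      exact h1 f a (by rw [e.1])
  col_τ := by
    rintro (h | ⟨u, b⟩ | ⟨f, a⟩)
    · simp [hτ.col, linv]
    · simp [linv]
    · rfl
  inv_inv := linv_linv hσ
  gx_inv := gx_linv S σ τ
  pos_τ := by
    rintro (h | ⟨u, _ | _⟩ | ⟨f, a⟩)
    · exact (gx_rel S σ τ h).symm
    · simp [gx]
    · simp
    · simp [π₀_X]

section minimal

variable {S σ τ} {X' : Type} {cmp : V → X'} {hσ : ∀ c, σ (σ c) = c} {hτ : IsMatch S σ cmp τ}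
  {D : Type} [DecidableEq D]
  {T : Dt (HB Hf V σ) (WB V σ) (Ltr V P) (Grp S σ τ) D} {A : Finset D} {φ : Equiv.Perm D}
  {α : D → D}

omit [DecidableEq D] in
theorem mem_φ (hd : ∀ d, d ∉ A → φ d = d) (d : D) : φ d ∈ A ↔ d ∈ A := by
  refine ⟨fun h => ?_, fun h => ?_⟩
  · by_contra a; rw [hd d a] at h; exact a h
  · by_contra a
    have := φ.injective (hd _ a)
    rw [this] at a; exact a h

theorem no_tree (h : Ok (big S σ τ hσ hτ) T A φ α) (hT : ∀ d, TV (big S σ τ hσ hτ) T A φ d)
    (hd : ∀ d, d ∉ A → φ d = d)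
    (nb : ∀ d ∈ A, d ∉ T.Out → φ d ∈ A → T.ε (φ d) ≠ (big S σ τ hσ hτ).τ (T.ε d))
    (d : D) (h1 : d ∈ A) (h2 : d ∉ T.Out) (y : F V σ × Ltr V P) :
    T.ε d ≠ Sum.inr (Sum.inr y) := by
  classical
  intro hy
  obtain ⟨len, -, hl⟩ := exists_len (V := V) hσ
  have tr : ∀ (k : HB Hf V σ) f, (big S σ τ hσ hτ).vert k = Sum.inr f →
      ∃ a, k = Sum.inr (Sum.inr (f, a)) := by
    rintro (k | ⟨u, b⟩ | ⟨f', a⟩) f e
    · simp [big] at e
    · simp [big] at e
    · obtain rfl : f' = f := by simpa [big] using e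
      exact ⟨a, rfl⟩
  obtain ⟨x, hx, hmax⟩ := exists_max_image ((A \ T.Out).filter fun x => ∃ f, T.tv x = Sum.inr f)
    (fun x => Sum.elim (fun _ => 0) len (T.tv x))
    ⟨d, by
      simp only [mem_filter, mem_sdiff]
      exact ⟨⟨h1, h2⟩, y.1, by rw [← h.vert d h1 h2, hy]; rfl⟩⟩
  simp only [mem_filter, mem_sdiff] at hx hmax
  obtain ⟨⟨x1, x2⟩, f, hf⟩ := hx
  obtain ⟨p, rfl⟩ := φ.surjective x
  have p1 : p ∈ A := (mem_φ hd p).1 x1
  have p2 : p ∉ T.Out := fun a => x2 ((h.out p).2 a)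
  obtain ⟨a', ha⟩ := tr _ f (((hT p p2).1 p1).symm.trans hf)
  have ha2 : T.ε p = Sum.inr (Sum.inr (f * X σ a', linv σ a')) := by
    rw [← (big S σ τ hσ hτ).ττ (T.ε p), ha]; rfl
  obtain ⟨b, hb⟩ := tr _ f ((h.vert _ x1 x2).trans hf)
  have t1 : T.tv p = Sum.inr (f * X σ a') := by rw [← h.vert p p1 p2, ha2]; rfl
  have t2 : T.tv (φ (φ p)) = Sum.inr (f * X σ b) := by rw [(hT _ x2).1 x1, hb]; rfl
  have m1 := hmax p ⟨⟨p1, p2⟩, _, t1⟩
  have m2 := hmax (φ (φ p)) ⟨⟨(mem_φ hd _).2 x1, fun a => x2 ((h.out _).1 a)⟩, _, t2⟩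
  rw [t1, hf] at m1
  rw [t2, hf] at m2
  have e : f * X σ a' * X σ (linv σ a') = f := by rw [X_linv]; group
  have := hl (f * X σ a') (linv σ a') b (by rw [e]; exact m1) (by rw [e]; exact m2)
  rw [linv_linv hσ] at this
  exact nb p p1 p2 x1 (by rw [hb, ha, this])

theorem card_in [Nonempty Hf] {C : ℕ} (hI : IsoP S σ τ C) (h : Ok (big S σ τ hσ hτ) T A φ α)
    (hT : ∀ d, TV (big S σ τ hσ hτ) T A φ d) (hd : ∀ d, d ∉ A → φ d = d)
    (nb : ∀ d ∈ A, d ∉ T.Out → φ d ∈ A → T.ε (φ d) ≠ (big S σ τ hσ hτ).τ (T.ε d))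
    (red : ∀ d ∈ A, d ∉ T.Out → α d ∉ T.Out → T.ε (α d) ≠ (big S σ τ hσ hτ).τ (T.ε d)) :
    ((A \ T.Out).filter fun d => (T.ε d).isLeft).card ≤ 2 * C * (A ∩ T.Out).card := by
  classical
  set I := (A \ T.Out).filter fun d => (T.ε d).isLeft with hI'
  have hIm : ∀ d, d ∈ I ↔ (d ∈ A ∧ d ∉ T.Out) ∧ ∃ k, T.ε d = Sum.inl k := fun d => by
    simp only [hI', mem_filter, mem_sdiff, Sum.isLeft_iff]
  let e : D → Hf := fun d => Sum.elim id (fun _ => Classical.arbitrary Hf) (T.ε d)
  have he : ∀ d ∈ I, T.ε d = Sum.inl (e d) := fun d hd => by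
    obtain ⟨-, k, hk⟩ := (hIm d).1 hd
    simp only [e, hk, Sum.elim_inl, id]
  let R : RPS S σ τ {d // d ∈ A} :=
    { φ := φ.subtypePerm (fun d => mem_φ hd d)
      α := fun d => ⟨α d.1, h.αA d.1 d.2⟩
      In := I.subtype (· ∈ A)
      ε := fun d => e d.1
      αα := fun d => Subtype.ext (h.αα d.1 d.2)
      α_ne := fun d a => h.α_ne d.1 d.2 (congrArg Subtype.val a)
      path := fun d a b => by
        have a' : d.1 ∈ I := mem_subtype.1 a
        have b' : φ d.1 ∈ I := mem_subtype.1 b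
        have k1 := (hT d.1 ((hIm _).1 a').1.2).1 d.2
        rw [← h.vert _ ((hIm _).1 b').1.1 ((hIm _).1 b').1.2, he _ a', he _ b'] at k1
        simpa [big] using k1.symm
      nb := fun d a b c => by
        have a' : d.1 ∈ I := mem_subtype.1 a
        have b' : φ d.1 ∈ I := mem_subtype.1 b
        refine nb d.1 d.2 ((hIm _).1 a').1.2 ((hIm _).1 b').1.1 ?_
        rw [he _ a', he _ b']
        exact congrArg Sum.inl c
      lab := fun d a b => by
        have a' : d.1 ∈ I := mem_subtype.1 a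
        have b' : α d.1 ∈ I := mem_subtype.1 b
        have k1 := h.lab d.1 d.2
        rw [← h.col _ ((hIm _).1 b').1.1 ((hIm _).1 b').1.2, ← h.col _ d.2 ((hIm _).1 a').1.2,
          he _ a', he _ b'] at k1
        simpa [big, linv] using k1
      red := fun d a b c => by
        have a' : d.1 ∈ I := mem_subtype.1 a
        have b' : α d.1 ∈ I := mem_subtype.1 b
        refine red d.1 d.2 ((hIm _).1 a').1.2 ((hIm _).1 b').1.2 ?_
        rw [he _ a', he _ b']
        exact congrArg Sum.inl c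
      pl := fun χ hχ => by
        obtain ⟨κ, k1, k2⟩ := h.pl (fun d => if a : d ∈ A then χ ⟨d, a⟩ else 0)
          (fun d a => by rw [hd d a]) (fun d a => by
            rw [dif_pos a, dif_pos (h.αA d a), dif_pos ((mem_φ hd d).2 a),
              dif_pos ((mem_φ hd _).2 (h.αA d a))]
            exact hχ ⟨d, a⟩)
        refine ⟨fun d => κ d.1, fun d => k1 d.1, fun d => ?_⟩
        have := k2 d.1 d.2
        rw [dif_pos (h.αA d.1 d.2), dif_pos ((mem_φ hd d.1).2 d.2)] at this
        exact this }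
  have h1 := hI _ R
  have hIA : I ⊆ A := fun d a => ((hIm d).1 a).1.1
  have h2 : R.In.card = I.card := by
    show (I.subtype (· ∈ A)).card = I.card
    rw [card_subtype, filter_true_of_mem hIA]
  rw [h2, Fintype.card_coe] at h1
  have h3 : A \ I ⊆ (A ∩ T.Out) ∪ (A ∩ T.Out).image α := by
    intro d a
    rw [mem_sdiff, hIm] at a
    rw [mem_union]
    by_cases o : d ∈ T.Out
    · exact Or.inl (mem_inter.2 ⟨a.1, o⟩)
    · refine Or.inr (mem_image.2 ⟨α d, mem_inter.2 ⟨h.αA d a.1, ?_⟩, h.αα d a.1⟩)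
      by_contra o'
      apply red d a.1 o o'
      have k1 := h.lab d a.1
      rw [← h.col _ (h.αA d a.1) o', ← h.col _ a.1 o] at k1
      have n1 := no_tree h hT hd nb d a.1 o
      have n2 := no_tree h hT hd nb _ (h.αA d a.1) o'
      rcases hε : T.ε d with k | ⟨u, b⟩ | y
      · exact absurd ⟨⟨a.1, o⟩, k, hε⟩ a.2
      · rcases hε' : T.ε (α d) with k' | y' | y'
        · rw [hε, hε'] at k1; simp [big, linv] at k1
        · rw [hε, hε'] at k1
          simpa [big, linv] using k1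
        · exact absurd hε' (n2 y')
      · exact absurd hε (n1 y)
  have h4 : A.card - I.card ≤ 2 * (A ∩ T.Out).card := by
    rw [← card_sdiff_of_subset hIA]
    refine (card_le_card h3).trans ((card_union_le _ _).trans ?_)
    have := card_image_le (s := A ∩ T.Out) (f := α)
    omega
  calc I.card ≤ C * (A.card - I.card) := h1
    _ ≤ C * (2 * (A ∩ T.Out).card) := Nat.mul_le_mul_left _ h4
    _ = _ := by ring

end minimal

end Crest.Agent.R177.VK
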